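import Crest.Agent.R298.Strengthen

/-! Adequacy of an interpretation: one stage of the normalisation proof. -/

set_option autoImplicit false

namespace Crest.Agent.R298

open Tm

universe u v
variable {S : Type u} {P : Sys S}

namespace Adequacy

variable {rk : S → ℕ} {K : ℕ}

theorem glt_conv {Γ : List (Tm S)} {T T' : Tm S} (h : GLt P rk K Γ T) (c : Conv T T') :
    GLt P rk K Γ T' :=
  let ⟨s, a, b⟩ := h; ⟨s, a.conv c, b⟩

theorem glt_weak {Γ : List (Tm S)} {T : Tm S} (h : GLt P rk K Γ T) (B : Tm S) :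
    GLt P rk K (B :: Γ) (lift T) :=
  let ⟨s, a, b⟩ := h; ⟨s, a.weak B, b⟩

/-- Applying a stage-normal function whose type has low rank. -/
theorem lower_app_nk {T n : Tm S} (hT : GLt P rk K [] T) (hn : WK P rk K n) :
    ∀ m : Tm S, NK P rk K [] m → Ty P Set.univ [] m T → WK P rk K (app m n) := by
  have base : ∀ m : Tm S, NK P rk K [] m → Ty P Set.univ [] m T → (∀ M Q, m ≠ mem M Q) →
      WK P rk K (app m n) := by
    intro m hm ht hne
    obtain ⟨n', a, b⟩ := hn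
    exact ⟨_, MRed.app .refl a, .app hm b hne fun _ _ _ => ⟨T, ht, hT⟩⟩
  intro m
  induction m with
  | mem M Q ihM _ =>
    intro hm ht
    cases hm with
    | mem hM hQ =>
      exact WK.of_red (.single (MStep.perm M Q n))
        (WK.mem (ihM hM ht.gen_mem.1) ⟨Q, .refl, hQ⟩)
  | _ => intro hm ht; exact base _ hm ht (by intro _ _ e; cases e)

theorem lower_app {T m n : Tm S} (hT : GLt P rk K [] T) (ht : Ty P Set.univ [] m T)
    (hm : WK P rk K m) (hn : WK P rk K n) : WK P rk K (app m n) := by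
  obtain ⟨m', a, b⟩ := hm
  exact WK.of_red (MRed.app a .refl) (lower_app_nk hT hn m' b (ht.mred .nil a))

/-- The codomain of a closed product of low rank has low rank. -/
theorem glt_inst (hle : ∀ s1 s2 s3, P.rule s1 s2 s3 → rk s1 ≤ rk s3 ∧ rk s2 ≤ rk s3)
    {A B n : Tm S} (h : GLt P rk K [] (pi A B)) (hn : Ty P Set.univ [] n A) :
    GLt P rk K [] (inst n B) := by
  obtain ⟨s3, a, b⟩ := h
  obtain ⟨s1, s2, r, -, d⟩ := a.pi_inst .nil .rfl
  exact ⟨s2, d n hn, lt_of_le_of_lt (hle _ _ _ r).2 b⟩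

/-- `T` is convertible with a sort or with a well-formed type. -/
def PT (P : Sys S) (Γ : List (Tm S)) (T : Tm S) : Prop :=
  (∃ s, Conv T (sort s)) ∨ ∃ s, Prof P Set.univ Γ T s

theorem pt_of_ty {Γ : List (Tm S)} {M T : Tm S} (h : Ty P Set.univ Γ M T)
    (hΓ : Ok P Set.univ Γ) : PT P Γ T := by
  rcases h.type_ok hΓ with ⟨s, rfl⟩ | ⟨s, hs⟩
  · exact .inl ⟨s, .rfl⟩
  · exact .inr ⟨s, hs.prof⟩

theorem PT.pi_inv {Γ : List (Tm S)} {T A B : Tm S} (h : PT P Γ T) (hΓ : Ok P Set.univ Γ)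
    (c : Conv T (pi A B)) : ∃ A' B' s1 s2 s3, Red A A' ∧ Red B B' ∧ P.rule s1 s2 s3 ∧
      Ty P Set.univ Γ A' (sort s1) ∧ Ty P Set.univ (A' :: Γ) B' (sort s2) := by
  rcases h with ⟨s, d⟩ | ⟨s, d⟩
  · exact absurd (d.symm.trans c) Conv.not_sort_pi
  · obtain ⟨A', B', s1, s2, a1, a2, a3, a4, a5⟩ := d.pi_inv hΓ c
    exact ⟨A', B', s1, s2, s, a1, a2, a3, a4, a5⟩

/-- Application of a member of the interpretation of a product. -/
theorem app_mem (hle : ∀ s1 s2 s3, P.rule s1 s2 s3 → rk s1 ≤ rk s3 ∧ rk s2 ≤ rk s3)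
    (I : Interp.{u, v} P rk K) {Γ : List (Tm S)} {η : I.Env} (hΓ : Ok P Set.univ Γ)
    (hρ : TSub P Set.univ [] (I.env η) Γ) (hη : I.ok Γ η) {A B m n : Tm S} {s : S}
    (hpi : Ty P Set.univ Γ (pi A B) (sort s))
    (hm : Ty P Set.univ [] m (sub (I.env η) (pi A B))) (hmV : m ∈ (I.V Γ η (pi A B)).carrier)
    (hn : Ty P Set.univ [] n (sub (I.env η) A)) (hnV : n ∈ (I.V Γ η A).carrier) {η' : I.Env}
    (hη' : η' ∈ I.ext η A n) : app m n ∈ (I.V (A :: Γ) η' B).carrier := by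
  by_cases hg : GLt P rk K [] (sub (I.env η) (pi A B))
  · have h1 : GLt P rk K [] (sub (I.env η') B) := by
      rw [I.ext_env hη', ← inst_sub_ups]
      exact glt_inst hle hg hn
    rw [I.lt _ _ _ h1]
    exact lower_app hg hm ((I.V Γ η _).wk hmV) ((I.V Γ η _).wk hnV)
  · rw [I.pi hΓ hρ hη hpi hg] at hmV
    exact hmV.2 n hn hnV η' hη'

/-- Membership does not depend on the choice of the type. -/
theorem two_types (hle : ∀ s1 s2 s3, P.rule s1 s2 s3 → rk s1 ≤ rk s3 ∧ rk s2 ≤ rk s3)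
    (I : Interp.{u, v} P rk K) {T T' : Tm S} (h : TRel T T') :
    ∀ (Γ : List (Tm S)) (η : I.Env), Ok P Set.univ Γ → TSub P Set.univ [] (I.env η) Γ →
      I.ok Γ η → PT P Γ T → PT P Γ T' → ∀ m Y : Tm S, Ty P Set.univ [] m Y →
      Conv Y (sub (I.env η) T') → m ∈ (I.V Γ η T').carrier → m ∈ (I.V Γ η T).carrier := by
  induction h with
  | conv c =>
    intro Γ η _ _ _ _ _ m Y _ _ hm
    rwa [I.conv Γ η c]
  | sorts c _ =>
    intro Γ η _ _ _ _ _ m Y _ _ hm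
    rw [I.conv Γ η c, I.sort]
    exact (I.V Γ η _).wk hm
  | @pi T T' A B B' c c' _ ih =>
    intro Γ η hΓ hρ hη hT hT' m Y hY cY hm
    obtain ⟨A1, B1, s1, s2, s3, a1, a2, r, a4, a5⟩ := hT.pi_inv hΓ c
    obtain ⟨A2, B2, t1, t2, t3, b1, b2, r', b4, b5⟩ := hT'.pi_inv hΓ c'
    obtain ⟨A3, e1, e2⟩ := Red.confluent a1 b1
    have f1 : Ty P Set.univ Γ A3 (sort s1) := a4.red hΓ e1
    have f2 : Ty P Set.univ Γ A3 (sort t1) := b4.red hΓ e2
    have g1 : Ty P Set.univ (A3 :: Γ) B1 (sort s2) := a5.ctx_conv a4 e1.conv.symm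
    have g2 : Ty P Set.univ (A3 :: Γ) B2 (sort t2) := b5.ctx_conv b4 e2.conv.symm
    have p1 : Ty P Set.univ Γ (pi A3 B1) (sort s3) := .pi f1 g1 r
    have p2 : Ty P Set.univ Γ (pi A3 B2) (sort t3) := .pi f2 g2 r'
    have c1 : Conv T (pi A3 B1) := c.trans (Conv.pi (Red.conv (a1.trans e1)) a2.conv)
    have c2 : Conv T' (pi A3 B2) := c'.trans (Conv.pi (Red.conv (b1.trans e2)) b2.conv)
    have wm : WK P rk K m := (I.V Γ η _).wk hm
    rw [I.conv Γ η c1]
    rw [I.conv Γ η c2] at hm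
    by_cases hg : GLt P rk K [] (sub (I.env η) (pi A3 B1))
    · rw [I.lt _ _ _ hg]
      exact wm
    rw [I.pi hΓ hρ hη p1 hg]
    refine ⟨wm, fun n hn hnV η' hη' => ?_⟩
    have hm2 : Ty P Set.univ [] m (sub (I.env η) (pi A3 B2)) :=
      .conv hY (p2.sub hρ) (cY.trans (c2.sub _))
    have happ := app_mem hle I hΓ hρ hη p2 hm2 hm hn hnV hη'
    have hρ' : TSub P Set.univ [] (I.env η') (A3 :: Γ) := by
      rw [I.ext_env hη']; exact hρ.cons hn
    change app m n ∈ (I.V (A3 :: Γ) η' B1).carrier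
    rw [← I.conv (A3 :: Γ) η' a2.conv]
    refine ih (A3 :: Γ) η' (.cons hΓ f1) hρ' (I.ext_ok hη hη') (.inr ⟨s2, B1, a2.conv, g1⟩)
      (.inr ⟨t2, B2, b2.conv, g2⟩) (app m n) _ (.app hm2 hn) ?_ ?_
    · rw [inst_sub_ups, I.ext_env hη']
      exact (b2.conv.sub _).symm
    · rwa [I.conv (A3 :: Γ) η' b2.conv]

/-- Good environments. -/
structure EC (I : Interp.{u, v} P rk K) (Γ : List (Tm S)) (η : I.Env) : Prop where
  ctx : Ok P Set.univ Γ
  tsub : TSub P Set.univ [] (I.env η) Γ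
  ok : I.ok Γ η
  mem : ∀ i A, Lk Γ i A → I.env η i ∈ (I.V Γ η A).carrier
  cst : ∀ i A, Lk Γ i A → ¬ GLt P rk (K + 1) Γ A → ∃ n B, I.env η i = Tm.cst n B

theorem EC.cons {I : Interp.{u, v} P rk K} {Γ : List (Tm S)} {η η' : I.Env} (h : EC I Γ η)
    {A n : Tm S} {s : S} (hA : Ty P Set.univ Γ A (sort s))
    (hn : Ty P Set.univ [] n (sub (I.env η) A)) (hnV : n ∈ (I.V Γ η A).carrier)
    (hc : ¬ GLt P rk (K + 1) Γ A → ∃ n' B, n = Tm.cst n' B) (hη' : η' ∈ I.ext η A n) :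
    EC I (A :: Γ) η' where
  ctx := .cons h.ctx hA
  tsub := by rw [I.ext_env hη']; exact h.tsub.cons hn
  ok := I.ext_ok h.ok hη'
  mem := by
    intro i B hB
    rw [I.ext_env hη']
    cases hB with
    | zero => rw [I.weak h.ctx hA hA hη']; exact hnV
    | succ _ hB =>
      obtain ⟨s', hs'⟩ := h.ctx.lk hB
      rw [I.weak h.ctx hA hs' hη']
      exact h.mem _ _ hB
  cst := by
    intro i B hB hg
    rw [I.ext_env hη']
    cases hB with
    | zero => exact hc fun h' => hg (glt_weak h' _)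
    | succ _ hB => exact h.cst _ _ hB fun h' => hg (glt_weak h' _)

/-- Variables, constants and applications. -/
def Spiny : Tm S → Prop
  | var _ => True
  | cst _ _ => True
  | app _ _ => True
  | _ => False

/-- The statement proved by induction on terms. -/
def Good (I : Interp.{u, v} P rk K) (M : Tm S) : Prop :=
  ∀ (Γ : List (Tm S)) (η : I.Env) (T : Tm S), EC I Γ η → Ty P Set.univ Γ M T →
    NK P rk (K + 1) Γ M →
    WK P rk K (sub (I.env η) M) ∧
    (GLt P rk (K + 1) Γ T → sub (I.env η) M ∈ (I.V Γ η T).carrier) ∧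
    (¬ GLtT P rk (K + 1) Γ M → Spiny M → Neu P rk K (sub (I.env η) M))

theorem binder (hW : AllWN P) {I : Interp.{u, v} P rk K} {A M : Tm S} (gA : Good I A)
    (gM : Good I M) {Γ : List (Tm S)} {η : I.Env} (e : EC I Γ η) {s : S} {B : Tm S}
    (hA : Ty P Set.univ Γ A (sort s)) (hM : Ty P Set.univ (A :: Γ) M B)
    (nA : NK P rk (K + 1) Γ A) (nM : NK P rk (K + 1) (A :: Γ) M) :
    WK P rk K (sub (I.env η) (lam A M)) ∧ WK P rk K (sub (I.env η) (pi A M)) := by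
  have hA' : Ty P Set.univ [] (sub (I.env η) A) (sort s) := hA.sub e.tsub
  have hM' := hM.sub (e.tsub.up A)
  obtain ⟨η', hη'⟩ := I.ext_ne η A (cst (sub (ups (I.env η)) M) (sub (I.env η) A))
  have e' : EC I (A :: Γ) η' := e.cons hA (.cst (Set.mem_univ _) hA')
    ((I.V Γ η A).neu (.cst _ _)) (fun _ => ⟨_, _, rfl⟩) hη'
  have w := (gM _ η' B e' hM nM).1
  rw [I.ext_env hη', ← inst_sub_ups] at w
  exact WK.binder hW hA' hM' (not_occ_fresh _ _) (gA _ η _ e hA nA).1 w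

theorem trel_pi {T A B : Tm S} (h : TRel T (pi A B)) : ∃ B₀, Conv T (pi A B₀) := by
  cases h with
  | conv d => exact ⟨B, d⟩
  | sorts _ d => exact absurd d.symm Conv.not_sort_pi
  | pi d e _ => exact ⟨_, d.trans (Conv.pi e.pi_inj.1.symm .rfl)⟩

theorem good_app (hle : ∀ s1 s2 s3, P.rule s1 s2 s3 → rk s1 ≤ rk s3 ∧ rk s2 ≤ rk s3)
    {I : Interp.{u, v} P rk K} {F N : Tm S} (gF : Good I F) (gN : Good I N) :
    Good I (app F N) := by
  intro Γ η T e ht hn
  obtain ⟨A, B, hF, hN, c⟩ := ht.gen_app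
  cases hn with
  | app nF nN hmem hlam =>
  by_cases hg : GLtT P rk (K + 1) Γ F
  · obtain ⟨T', hT', s3, hp, hs3⟩ := hg
    obtain ⟨B₀, c₀⟩ := trel_pi (hT'.trel hF)
    obtain ⟨A', B', s1, s2, a1, a2, r, a4, a5⟩ := hp.pi_inv e.ctx c₀
    have hpi : Ty P Set.univ Γ (pi A' B') (sort s3) := .pi a4 a5 r
    have hF' : Ty P Set.univ Γ F (pi A' B') :=
      .conv hT' hpi (c₀.trans (Conv.pi a1.conv a2.conv))
    have hN' : Ty P Set.univ Γ N A' := hN.red_type e.ctx a1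
    have happ : Ty P Set.univ Γ (app F N) (inst N B') := .app hF' hN'
    have hB' : Ty P Set.univ Γ (inst N B') (sort s2) := a5.inst hN'
    obtain ⟨l1, l2⟩ := hle _ _ _ r
    have mF := (gF _ η _ e hF' nF).2.1 ⟨s3, hpi.prof, hs3⟩
    have mN := (gN _ η _ e hN' nN).2.1 ⟨s1, a4.prof, by omega⟩
    have key : ∀ η' ∈ I.ext η A' (sub (I.env η) N),
        app (sub (I.env η) F) (sub (I.env η) N) ∈ (I.V (A' :: Γ) η' B').carrier :=
      fun η' hη' => app_mem hle I e.ctx e.tsub e.ok hpi (hF'.sub e.tsub) mF (hN'.sub e.tsub) mN hη'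
    have main : sub (I.env η) (app F N) ∈ (I.V Γ η (inst N B')).carrier := by
      by_cases h2 : rk s2 < K
      · rw [I.lt Γ η _ ⟨s2, (hB'.sub e.tsub).prof, h2⟩]
        obtain ⟨η', hη'⟩ := I.ext_ne η A' (sub (I.env η) N)
        exact (I.V _ η' _).wk (key η' hη')
      · obtain ⟨η', hη', hsub⟩ := I.subst e.ctx e.tsub e.ok a4 a5 r (by omega) (by omega) hN'
        exact hsub (key η' hη')
    refine ⟨(I.V _ _ _).wk main, fun _ => ?_, fun h _ => ?_⟩
    · exact two_types hle I (ht.trel happ) Γ η e.ctx e.tsub e.ok (pt_of_ty ht e.ctx)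
        (pt_of_ty happ e.ctx) _ _ (happ.sub e.tsub) .rfl main
    · exact absurd ⟨_, happ, s2, hB'.prof, by omega⟩ h
  · have sp : Spiny F := by
      cases F with
      | var => trivial
      | cst => trivial
      | app => trivial
      | sort s => obtain ⟨t, -, d⟩ := hF.gen_sort; exact absurd d.symm Conv.not_sort_pi
      | pi => obtain ⟨_, _, _, -, -, -, d⟩ := hF.gen_pi; exact absurd d.symm Conv.not_sort_pi
      | lam A M => exact absurd (hlam A M rfl) hg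
      | mem M Q => exact absurd rfl (hmem M Q)
    have neu : Neu P rk K (sub (I.env η) (app F N)) :=
      .app ((gF _ η _ e hF nF).2.2 hg sp) (gN _ η _ e hN nN).1
    exact ⟨neu.wk, fun _ => (I.V _ _ _).neu neu, fun _ _ => neu⟩

theorem good_lam (hW : AllWN P)
    (hle : ∀ s1 s2 s3, P.rule s1 s2 s3 → rk s1 ≤ rk s3 ∧ rk s2 ≤ rk s3)
    {I : Interp.{u, v} P rk K} {A M : Tm S} (gA : Good I A) (gM : Good I M) :
    Good I (lam A M) := by
  intro Γ η T e ht hn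
  obtain ⟨B, s1, s2, s3, r, hA, hB, hM, c⟩ := ht.gen_lam
  cases hn with
  | lam nA nM =>
  have w := (binder hW gA gM e hA hM nA nM).1
  refine ⟨w, fun hg => ?_, fun _ h => h.elim⟩
  rw [I.conv Γ η c]
  by_cases hl : GLt P rk K [] (sub (I.env η) (pi A B))
  · rw [I.lt _ _ _ hl]
    exact w
  rw [I.pi e.ctx e.tsub e.ok (.pi hA hB r) hl]
  refine ⟨w, fun n hn hnV η' hη' => ?_⟩
  obtain ⟨t3, hp, ht3⟩ := hg
  obtain ⟨A', B', t1, t2, a1, a2, r', a4, a5⟩ := hp.pi_inv e.ctx c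
  obtain ⟨l1, l2⟩ := hle _ _ _ r'
  have gA' : GLt P rk (K + 1) Γ A := ⟨t1, ⟨A', a1.conv, a4⟩, by omega⟩
  have gB' : GLt P rk (K + 1) (A :: Γ) B :=
    ⟨t2, ⟨B', a2.conv, a5.ctx_conv a4 a1.conv⟩, by omega⟩
  have e' : EC I (A :: Γ) η' := e.cons hA hn hnV (fun h => absurd gA' h) hη'
  have m := (gM _ η' B e' hM nM).2.1 gB'
  rw [I.ext_env hη', ← inst_sub_ups] at m
  exact (I.V (A :: Γ) η' B).beta (E := []) m ((I.V _ _ _).wk hnV) (gA _ η _ e hA nA).1

theorem good (hW : AllWN P)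
    (hle : ∀ s1 s2 s3, P.rule s1 s2 s3 → rk s1 ≤ rk s3 ∧ rk s2 ≤ rk s3)
    (I : Interp.{u, v} P rk K) (M : Tm S) : Good I M := by
  induction M with
  | var i =>
    intro Γ η T e ht _
    obtain ⟨A, hA, c⟩ := ht.gen_var
    refine ⟨(I.V _ _ _).wk (e.mem i A hA), fun _ => ?_, fun h _ => ?_⟩
    · rw [I.conv Γ η c]
      exact e.mem i A hA
    · obtain ⟨n, B, h'⟩ := e.cst i A hA fun h' => h ⟨A, .var hA, h'⟩
      rw [sub_var, h']
      exact .cst n B
  | sort s =>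
    intro Γ η T e ht _
    obtain ⟨t, -, c⟩ := ht.gen_sort
    have w : WK P rk K (sub (I.env η) (sort s)) := ⟨_, .refl, .sort _ _⟩
    refine ⟨w, fun _ => ?_, fun _ h => h.elim⟩
    rw [I.conv Γ η c, I.sort]
    exact w
  | cst n A _ _ =>
    intro Γ η T e ht _
    have neu : Neu P rk K (sub (I.env η) (cst n A)) := .cst n A
    exact ⟨neu.wk, fun _ => (I.V _ _ _).neu neu, fun _ _ => neu⟩
  | app F N ihF ihN => exact good_app hle ihF ihN
  | lam A M ihA ihM => exact good_lam hW hle ihA ihM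
  | pi A B ihA ihB =>
    intro Γ η T e ht hn
    obtain ⟨s1, s2, s3, -, hA, hB, c⟩ := ht.gen_pi
    cases hn with
    | pi nA nB =>
    have w := (binder hW ihA ihB e hA hB nA nB).2
    refine ⟨w, fun _ => ?_, fun _ h => h.elim⟩
    rw [I.conv Γ η c, I.sort]
    exact w
  | mem M Q ihM ihQ =>
    intro Γ η T e ht hn
    obtain ⟨hM, B, hQ⟩ := ht.gen_mem
    cases hn with
    | mem nM nQ =>
    have wQ := (ihQ _ η _ e hQ nQ).1
    exact ⟨WK.mem (ihM _ η _ e hM nM).1 wQ,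
      fun hg => (I.V Γ η T).mem (E := []) ((ihM _ η _ e hM nM).2.1 hg) wQ, fun _ h => h.elim⟩

end Adequacy

/-- One stage: redexes of rank `K` can be eliminated. -/
theorem adequacy (hW : AllWN P) {rk : S → ℕ}
    (hle : ∀ s1 s2 s3, P.rule s1 s2 s3 → rk s1 ≤ rk s3 ∧ rk s2 ≤ rk s3) {K : ℕ}
    (I : Interp.{u, v} P rk K) {m T : Tm S} (h : Ty P Set.univ [] m T)
    (hn : NK P rk (K + 1) [] m) : WK P rk K m := by
  have e : Adequacy.EC I [] I.nil :=
    ⟨.nil, TSub.nil _ _, I.ok_nil, fun _ _ h => absurd h Lk.not_nil,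
      fun _ _ h => absurd h Lk.not_nil⟩
  have w := (Adequacy.good hW hle I m [] I.nil T e h hn).1
  rwa [I.env_nil, sub_id] at w

end Crest.Agent.R298
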