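import Crest.Agent.R298.Defs

/-! Substitution for constants: commutation, reduction, typing, occurrences. -/

set_option autoImplicit false

namespace Crest.Agent.R298

open Tm

universe u
variable {S : Type u}

/-- Every constant of the set is well typed over the set. -/
def WfC (P : Sys S) (C : Set (Tm S)) : Prop :=
  ∀ n A, cst n A ∈ C → (∃ s, Ty P C [] A (sort s)) ∨ ∃ s, A = sort s ∧ P.atom s

/-! ### Occurrences -/

theorem Tm.Occ.size_le {c M : Tm S} (h : Occ c M) : size c ≤ size M := by
  induction M with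
  | var => exact h.elim
  | sort => exact h.elim
  | cst n A _ ih =>
    rcases h with rfl | h
    · exact le_rfl
    · have := ih h; simp only [size]; omega
  | app M N ih1 ih2 | lam M N ih1 ih2 | pi M N ih1 ih2 | mem M N ih1 ih2 =>
    rcases h with h | h
    · have := ih1 h; simp only [size]; omega
    · have := ih2 h; simp only [size]; omega

theorem Tm.Occ.trans {c d M : Tm S} (h : Occ c d) (h' : Occ d M) : Occ c M := by
  induction M with
  | var => exact h'.elim
  | sort => exact h'.elim
  | cst n A _ ih =>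
    rcases h' with rfl | h'
    · exact h
    · exact .inr (ih h')
  | app M N ih1 ih2 | lam M N ih1 ih2 | pi M N ih1 ih2 | mem M N ih1 ih2 =>
    exact h'.imp ih1 ih2

theorem not_occ_annot (n A : Tm S) : ¬ Occ (cst n A) A := by
  intro h
  have := h.size_le
  simp only [size] at this
  omega

/-- The constant named by the term itself is fresh. -/
theorem not_occ_fresh (A M : Tm S) : ¬ Occ (cst M A) M := by
  intro h
  have := h.size_le
  simp only [size] at this
  omega

theorem occ_ren {c M : Tm S} {ξ : ℕ → ℕ} : Occ c (ren ξ M) ↔ Occ c M := by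
  induction M generalizing ξ with
  | var => exact Iff.rfl
  | sort => exact Iff.rfl
  | cst => exact Iff.rfl
  | app M N ih1 ih2 | lam M N ih1 ih2 | pi M N ih1 ih2 | mem M N ih1 ih2 =>
    exact or_congr ih1 ih2

theorem Tm.Occ.of_sub {c M : Tm S} {σ : ℕ → Tm S} (h : Occ c (sub σ M)) :
    Occ c M ∨ ∃ i, Occ c (σ i) := by
  have hu : ∀ {σ : ℕ → Tm S}, (∃ i, Occ c (ups σ i)) → ∃ i, Occ c (σ i) := by
    rintro σ ⟨i, hi⟩
    cases i with
    | zero => exact hi.elim
    | succ i => exact ⟨i, occ_ren.1 hi⟩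
  induction M generalizing σ with
  | var i => exact .inr ⟨i, h⟩
  | sort => exact h.elim
  | cst => exact .inl h
  | app M N ih1 ih2 | mem M N ih1 ih2 =>
    rcases h with h | h
    · exact (ih1 h).imp_left .inl
    · exact (ih2 h).imp_left .inr
  | lam M N ih1 ih2 | pi M N ih1 ih2 =>
    rcases h with h | h
    · exact (ih1 h).imp_left .inl
    · exact (ih2 h).imp .inr hu

theorem Tm.Occ.of_inst {c M N : Tm S} (h : Occ c (inst N M)) : Occ c M ∨ Occ c N := by
  rcases Occ.of_sub h with h | ⟨i, h⟩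
  · exact .inl h
  · cases i with
    | zero => exact .inr h
    | succ i => exact h.elim

theorem Tm.Occ.of_step {c M N : Tm S} (h : Occ c N) (hs : Step M N) : Occ c M := by
  induction hs with
  | beta A M N =>
    rcases Occ.of_inst h with h | h
    · exact .inl (.inr h)
    · exact .inr h
  | eps => exact .inl h
  | appL _ _ ih | lamL _ _ ih | piL _ _ ih | memL _ _ ih => exact h.imp_left ih
  | appR _ _ ih | lamR _ _ ih | piR _ _ ih | memR _ _ ih => exact h.imp_right ih

theorem Tm.Occ.of_red {c M N : Tm S} (h : Occ c N) (hs : Red M N) : Occ c M := by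
  induction hs with
  | refl => exact h
  | tail _ hs ih => exact ih (h.of_step hs)

theorem Tm.Occ.of_mstep {c M N : Tm S} (h : Occ c N) (hs : MStep M N) : Occ c M := by
  induction hs with
  | beta A M N =>
    rcases h with (h | h) | h
    · rcases Occ.of_inst h with h | h
      · exact .inl (.inr h)
      · exact .inr h
    · exact .inr h
    · exact .inl (.inl h)
  | perm M Q N =>
    rcases h with (h | h) | h
    · exact .inl (.inl h)
    · exact .inr h
    · exact .inl (.inr h)
  | appL _ _ ih | lamL _ _ ih | piL _ _ ih | memL _ _ ih => exact h.imp_left ih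
  | appR _ _ ih | lamR _ _ ih | piR _ _ ih | memR _ _ ih => exact h.imp_right ih

theorem Tm.Occ.of_mred {c M N : Tm S} (h : Occ c N) (hs : MRed M N) : Occ c M := by
  induction hs with
  | refl => exact h
  | tail _ hs ih => exact ih (h.of_mstep hs)

theorem Ty.occ {P : Sys S} {C : Set (Tm S)} {Γ : List (Tm S)} {M T c : Tm S}
    (h : Ty P C Γ M T) (ho : Occ c M) : c ∈ C := by
  induction h with
  | ax => exact ho.elim
  | var => exact ho.elim
  | cst h _ ih =>
    rcases ho with rfl | ho
    · exact h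
    · exact ih ho
  | atom h _ =>
    rcases ho with rfl | ho
    · exact h
    · exact ho.elim
  | pi _ _ _ ih1 ih2 => exact ho.elim ih1 ih2
  | lam _ _ _ _ ih1 _ ih3 => exact ho.elim ih1 ih3
  | app _ _ ih1 ih2 => exact ho.elim ih1 ih2
  | mem _ _ ih1 ih2 => exact ho.elim ih1 ih2
  | conv _ _ _ ih1 _ => exact ih1 ho

/-! ### Commutation -/

theorem csub_cst_none {f : Tm S → Option (Tm S)} {n A : Tm S} (h : f (cst n A) = none) (k : ℕ) :
    csub f k (cst n A) = cst n (csub f 0 A) := by
  simp only [csub, h]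

theorem csub_cst_some {f : Tm S → Option (Tm S)} {n A N : Tm S} (h : f (cst n A) = some N)
    (k : ℕ) : csub f k (cst n A) = ren (· + k) N := by
  simp only [csub, h]

theorem csub_ren (f : Tm S → Option (Tm S)) {ξ : ℕ → ℕ} {k k' : ℕ}
    (h : ∀ i, ξ (i + k) = i + k') (M : Tm S) : csub f k' (ren ξ M) = ren ξ (csub f k M) := by
  have hu : ∀ {ξ : ℕ → ℕ} {k k' : ℕ}, (∀ i, ξ (i + k) = i + k') →
      ∀ i, upr ξ (i + (k + 1)) = i + (k' + 1) := by
    intro ξ k k' h i
    rw [← Nat.add_assoc, upr_succ, h, Nat.add_assoc]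
  induction M generalizing ξ k k' with
  | var => rfl
  | sort => rfl
  | cst n A =>
    rcases e : f (cst n A) with _ | N
    · rw [ren_cst, csub_cst_none e, csub_cst_none e, ren_cst]
    · rw [ren_cst, csub_cst_some e, csub_cst_some e, ren_ren]
      simp only [h]
  | app M N ih1 ih2 | mem M N ih1 ih2 => simp only [ren, csub, ih1 h, ih2 h]
  | lam M N ih1 ih2 | pi M N ih1 ih2 => simp only [ren, csub, ih1 h, ih2 (hu h)]

theorem csub_of_not_occ {f : Tm S → Option (Tm S)} {M : Tm S}
    (h : ∀ c, Occ c M → f c = none) (k : ℕ) : csub f k M = M := by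
  induction M generalizing k with
  | var => rfl
  | sort => rfl
  | cst n A _ ih =>
    rw [csub_cst_none (h _ (.inl rfl)), ih (fun c hc => h c (.inr hc))]
  | app M N ih1 ih2 | lam M N ih1 ih2 | pi M N ih1 ih2 | mem M N ih1 ih2 =>
    simp only [csub, ih1 (fun c hc => h c (.inl hc)), ih2 (fun c hc => h c (.inr hc))]

theorem absC_of_not_occ {c M : Tm S} (h : ¬ Occ c M) (k : ℕ) : absC c k M = M := by
  refine csub_of_not_occ (fun d hd => ?_) k
  exact if_neg (by rintro rfl; exact h hd)

theorem csub_lift (f : Tm S → Option (Tm S)) (k : ℕ) (M : Tm S) :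
    csub f (k + 1) (lift M) = lift (csub f k M) := by
  exact csub_ren f (fun _ => rfl) M

theorem csub_sub (f : Tm S → Option (Tm S)) {σ τ : ℕ → Tm S} {k k' : ℕ}
    (h1 : ∀ i, τ i = csub f k' (σ i)) (h2 : ∀ i, τ (i + k) = var (i + k')) (M : Tm S) :
    csub f k' (sub σ M) = sub τ (csub f k M) := by
  have hu1 : ∀ {σ τ : ℕ → Tm S} {k' : ℕ}, (∀ i, τ i = csub f k' (σ i)) →
      ∀ i, ups τ i = csub f (k' + 1) (ups σ i) := by
    intro σ τ k' h i
    cases i with
    | zero => rfl
    | succ i => rw [ups_succ, ups_succ, csub_lift, h]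
  have hu2 : ∀ {τ : ℕ → Tm S} {k k' : ℕ}, (∀ i, τ (i + k) = var (i + k')) →
      ∀ i, ups τ (i + (k + 1)) = var (i + (k' + 1)) := by
    intro τ k k' h i
    rw [← Nat.add_assoc, ups_succ, h]
    rfl
  induction M generalizing σ τ k k' with
  | var i => exact (h1 i).symm
  | sort => rfl
  | cst n A =>
    rcases e : f (cst n A) with _ | N
    · rw [sub_cst, csub_cst_none e, csub_cst_none e, sub_cst]
    · rw [sub_cst, csub_cst_some e, csub_cst_some e, sub_ren, ren_eq_sub]
      simp only [h2]
  | app M N ih1 ih2 | mem M N ih1 ih2 => simp only [sub, csub, ih1 h1 h2, ih2 h1 h2]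
  | lam M N ih1 ih2 | pi M N ih1 ih2 =>
    simp only [sub, csub, ih1 h1 h2, ih2 (hu1 h1) (hu2 h2)]

theorem csub_inst (f : Tm S → Option (Tm S)) (k : ℕ) (N M : Tm S) :
    csub f k (inst N M) = inst (csub f k N) (csub f (k + 1) M) := by
  refine csub_sub f (τ := scons (csub f k N) var) (k := k + 1) (fun i => ?_) (fun _ => rfl) M
  cases i <;> rfl

theorem csub_closed (f : Tm S → Option (Tm S)) (k : ℕ) {M : Tm S} (h : Bnd 0 M) :
    csub f k M = ren (· + k) (csub f 0 M) := by
  rw [← csub_ren f (ξ := (· + k)) (k := 0) (k' := k) (fun _ => rfl) M, h.ren_closed]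

/-- Abstracting a constant undoes its instantiation. -/
theorem absC_inst {n A M : Tm S} (h : ¬ Occ (cst n A) M) (hb : Bnd 1 M) :
    absC (cst n A) 0 (inst (cst n A) M) = M := by
  have h1 : absC (cst n A) 1 M = M := absC_of_not_occ h 1
  have h2 : absC (cst n A) 0 (cst n A) = var 0 :=
    csub_cst_some (N := var 0) (if_pos rfl) 0
  unfold absC at h1 h2 ⊢
  rw [csub_inst, h2, Nat.zero_add, h1]
  unfold inst
  rw [hb.sub_congr (τ := var) (fun i hi => by obtain rfl : i = 0 := by omega
                                              rfl), sub_id]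

theorem Step.csub {M N : Tm S} (h : Step M N) (f : Tm S → Option (Tm S)) (k : ℕ) :
    Step (csub f k M) (csub f k N) := by
  induction h generalizing k with
  | beta A M N => rw [csub_inst]; exact Step.beta _ _ _
  | eps M Q => exact Step.eps _ _
  | appL N _ ih => exact Step.appL _ (ih _)
  | appR M _ ih => exact Step.appR _ (ih _)
  | lamL M _ ih => exact Step.lamL _ (ih _)
  | lamR A _ ih => exact Step.lamR _ (ih _)
  | piL M _ ih => exact Step.piL _ (ih _)
  | piR A _ ih => exact Step.piR _ (ih _)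
  | memL Q _ ih => exact Step.memL _ (ih _)
  | memR M _ ih => exact Step.memR _ (ih _)

theorem Red.csub {M N : Tm S} (h : Red M N) (f : Tm S → Option (Tm S)) (k : ℕ) :
    Red (csub f k M) (csub f k N) := by
  exact Red.map (f := Tm.csub f k) (fun h => h.csub f k) h

theorem Conv.csub {M N : Tm S} (h : Conv M N) (f : Tm S → Option (Tm S)) (k : ℕ) :
    Conv (csub f k M) (csub f k N) := by
  obtain ⟨L, a, b⟩ := h
  exact ⟨_, Red.csub a f k, Red.csub b f k⟩

theorem MStep.csub {M N : Tm S} (h : MStep M N) (f : Tm S → Option (Tm S)) (k : ℕ) :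
    MStep (csub f k M) (csub f k N) := by
  induction h generalizing k with
  | beta A M N =>
    have := MStep.beta (Tm.csub f k A) (Tm.csub f (k + 1) M) (Tm.csub f k N)
    rw [← csub_inst] at this
    exact this
  | perm M Q N => exact MStep.perm _ _ _
  | appL N _ ih => exact MStep.appL _ (ih _)
  | appR M _ ih => exact MStep.appR _ (ih _)
  | lamL M _ ih => exact MStep.lamL _ (ih _)
  | lamR A _ ih => exact MStep.lamR _ (ih _)
  | piL M _ ih => exact MStep.piL _ (ih _)
  | piR A _ ih => exact MStep.piR _ (ih _)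
  | memL Q _ ih => exact MStep.memL _ (ih _)
  | memR M _ ih => exact MStep.memR _ (ih _)

theorem MRed.csub {M N : Tm S} (h : MRed M N) (f : Tm S → Option (Tm S)) (k : ℕ) :
    MRed (csub f k M) (csub f k N) := by
  exact MRed.map (f := Tm.csub f k) (fun h => h.csub f k) h

theorem Step.csub_inv {f : Tm S → Option (Tm S)}
    (hf : ∀ c N, f c = some N → Normal N ∧ ∀ A M, N ≠ Tm.lam A M) {k : ℕ} {M N : Tm S}
    (h : Step (Tm.csub f k M) N) : ∃ M', Step M M' ∧ N = Tm.csub f k M' := by
  induction M generalizing k N with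
  | var => cases h
  | sort => cases h
  | cst n A =>
    rcases e : f (cst n A) with _ | N'
    · rw [csub_cst_none e] at h; cases h
    · rw [csub_cst_some e] at h
      exact absurd h ((hf _ _ e).1.ren _ _)
  | app F M ihF ihM =>
    simp only [Tm.csub] at h
    generalize e : Tm.csub f k F = F' at h
    cases h with
    | beta A B =>
      cases F with
      | lam A' B' =>
        simp only [Tm.csub, Tm.lam.injEq] at e
        obtain ⟨rfl, rfl⟩ := e
        exact ⟨_, .beta _ _ _, (csub_inst _ _ _ _).symm⟩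
      | cst n A' =>
        rcases e' : f (cst n A') with _ | N'
        · rw [csub_cst_none e'] at e; cases e
        · rw [csub_cst_some e'] at e
          have := (hf _ _ e').2
          cases N' <;> simp at e
          exact absurd rfl (this _ _)
      | _ => simp [Tm.csub] at e
    | appL _ hs =>
      subst e
      obtain ⟨F', a, rfl⟩ := ihF hs
      exact ⟨_, .appL _ a, rfl⟩
    | appR _ hs =>
      subst e
      obtain ⟨F', a, rfl⟩ := ihM hs
      exact ⟨_, .appR _ a, rfl⟩
  | lam A M ihA ihM =>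
    cases h with
    | lamL _ hs => obtain ⟨F', a, rfl⟩ := ihA hs; exact ⟨_, .lamL _ a, rfl⟩
    | lamR _ hs => obtain ⟨F', a, rfl⟩ := ihM hs; exact ⟨_, .lamR _ a, rfl⟩
  | pi A M ihA ihM =>
    cases h with
    | piL _ hs => obtain ⟨F', a, rfl⟩ := ihA hs; exact ⟨_, .piL _ a, rfl⟩
    | piR _ hs => obtain ⟨F', a, rfl⟩ := ihM hs; exact ⟨_, .piR _ a, rfl⟩
  | mem A M ihA ihM =>
    cases h with
    | eps => exact ⟨_, .eps _ _, rfl⟩
    | memL _ hs => obtain ⟨F', a, rfl⟩ := ihA hs; exact ⟨_, .memL _ a, rfl⟩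
    | memR _ hs => obtain ⟨F', a, rfl⟩ := ihM hs; exact ⟨_, .memR _ a, rfl⟩

/-- Weak normalisation is reflected when the images of constants are inert. -/
theorem WN.of_csub {f : Tm S → Option (Tm S)}
    (hf : ∀ c N, f c = some N → Normal N ∧ ∀ A M, N ≠ Tm.lam A M) {k : ℕ} {M : Tm S}
    (h : WN (csub f k M)) : WN M := by
  obtain ⟨L, a, b⟩ := h
  have : ∃ M', Red M M' ∧ L = csub f k M' := by
    clear b
    induction a with
    | refl => exact ⟨M, .refl, rfl⟩
    | tail _ hs ih =>
      obtain ⟨M', c, rfl⟩ := ih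
      obtain ⟨M'', d, rfl⟩ := Step.csub_inv hf hs
      exact ⟨M'', c.tail d, rfl⟩
  obtain ⟨M', c, rfl⟩ := this
  exact ⟨M', c, fun _ hs => b _ (hs.csub f k)⟩

/-! ### Typing -/

@[simp] theorem length_csubCtx (f : Tm S → Option (Tm S)) (Γ : List (Tm S)) :
    (csubCtx f Γ).length = Γ.length := by
  induction Γ with
  | nil => rfl
  | cons A Γ ih => simp [csubCtx, ih]

theorem Lk.append_left {Δ : List (Tm S)} {i : ℕ} {B : Tm S} (h : Lk Δ i B) (Θ : List (Tm S)) :
    Lk (Θ ++ Δ) (i + Θ.length) (ren (· + Θ.length) B) := by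
  induction Θ with
  | nil => simpa using h
  | cons A Θ ih =>
    have := Lk.succ A ih
    rw [lift, ren_ren] at this
    exact this

theorem Lk.csub {Γ : List (Tm S)} {i : ℕ} {A : Tm S} (h : Lk Γ i A) (f : Tm S → Option (Tm S))
    (Δ : List (Tm S)) : Lk (csubCtx f Γ ++ Δ) i (Tm.csub f Γ.length A) := by
  induction h with
  | zero A Γ => rw [List.length_cons, csub_lift]; exact .zero _ _
  | succ B _ ih => rw [List.length_cons, csub_lift]; exact .succ _ ih

/-- The general typing lemma for `csub`. -/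
theorem Ty.csub {P P' : Sys S} {C C' : Set (Tm S)} {f : Tm S → Option (Tm S)}
    {Δ : List (Tm S)} (hax : ∀ s t, P.ax s t → P'.ax s t)
    (hr : ∀ a b c, P.rule a b c → P'.rule a b c)
    (H1 : ∀ n A N, Tm.cst n A ∈ C → f (Tm.cst n A) = some N →
      ((∃ s, Ty P C [] A (sort s) ∧ Ty P' C' Δ (csub f 0 A) (sort s)) ∨
        ∃ s, A = sort s ∧ P.atom s) → Ty P' C' Δ N (csub f 0 A))
    (H2 : ∀ n A, Tm.cst n A ∈ C → f (Tm.cst n A) = none →
      ((∃ s, Ty P C [] A (sort s) ∧ Ty P' C' Δ (csub f 0 A) (sort s)) ∨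
        ∃ s, A = sort s ∧ P.atom s) → Ty P' C' [] (Tm.cst n (csub f 0 A)) (csub f 0 A))
    {Γ : List (Tm S)} {M T : Tm S} (h : Ty P C Γ M T) :
    Ty P' C' (csubCtx f Γ ++ Δ) (csub f Γ.length M) (csub f Γ.length T) := by
  have hc : ∀ (Γ : List (Tm S)) n A, Tm.cst n A ∈ C → Bnd 0 A →
      ((∃ s, Ty P C [] A (sort s) ∧ Ty P' C' Δ (Tm.csub f 0 A) (sort s)) ∨
        ∃ s, A = sort s ∧ P.atom s) →
      Ty P' C' (csubCtx f Γ ++ Δ) (Tm.csub f Γ.length (Tm.cst n A)) (Tm.csub f Γ.length A) := by
    intro Γ n A h hb hA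
    rw [csub_closed f _ hb]
    rcases e : f (Tm.cst n A) with _ | N
    · rw [csub_cst_none e]
      exact (H2 n A h e hA).ren (ξ := (· + Γ.length)) (fun _ _ h => absurd h Lk.not_nil)
    · rw [csub_cst_some e]
      refine (H1 n A N h e hA).ren (fun i B hB => ?_)
      have := hB.append_left (csubCtx f Γ)
      rwa [length_csubCtx] at this
  induction h with
  | ax h => exact .ax (hax _ _ h)
  | var h => exact .var (h.csub f Δ)
  | cst h h' ih => exact hc _ _ _ h h'.closed (.inl ⟨_, h', ih⟩)
  | atom h h' => exact hc _ _ _ h trivial (.inr ⟨_, rfl, h'⟩)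
  | pi _ _ r ih1 ih2 => exact .pi ih1 ih2 (hr _ _ _ r)
  | lam _ _ r _ ih1 ih2 ih3 => exact .lam ih1 ih2 (hr _ _ _ r) ih3
  | app _ _ ih1 ih2 => rw [csub_inst]; exact .app ih1 ih2
  | mem _ _ ih1 ih2 => exact .mem ih1 ih2
  | conv _ _ c ih1 ih2 => exact .conv ih1 ih2 (c.csub f _)

/-- Abstraction of a constant which does not belong to a well-formed set. -/
theorem Ty.absC {P : Sys S} {C : Set (Tm S)} (hC : WfC P C) {n A : Tm S}
    (hc : Tm.cst n A ∉ C) {Γ : List (Tm S)} {M T : Tm S}
    (h : Ty P (insert (Tm.cst n A) C) Γ M T) :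
    Ty P C (csubCtx (absMap (Tm.cst n A)) Γ ++ [A]) (absC (Tm.cst n A) Γ.length M)
      (absC (Tm.cst n A) Γ.length T) := by
  refine Ty.csub (fun _ _ h => h) (fun _ _ _ h => h) ?_ ?_ h
  · intro n' A' N _ e hA
    have e' : Tm.cst n' A' = Tm.cst n A := by
      by_contra hne
      rw [absMap, if_neg hne] at e
      cases e
    cases e'
    rw [absMap, if_pos rfl] at e
    cases e
    have h1 : Tm.csub (absMap (Tm.cst n A)) 0 A = A := absC_of_not_occ (not_occ_annot n A) 0
    have h2 : lift A = A := by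
      rcases hA with ⟨s, hs, -⟩ | ⟨s, rfl, -⟩
      · exact hs.closed.lift_closed
      · rfl
    rw [h1]
    have := Ty.var (P := P) (C := C) (Lk.zero A [])
    rwa [h2] at this
  · intro n' A' hm e _
    have hm' : Tm.cst n' A' ∈ C := by
      rcases hm with hm | hm
      · rw [absMap, if_pos hm] at e
        cases e
      · exact hm
    rcases hC n' A' hm' with ⟨s, hs⟩ | ⟨s, rfl, hs⟩
    · have h1 : Tm.csub (absMap (Tm.cst n A)) 0 A' = A' :=
        absC_of_not_occ (fun ho => hc (hs.occ ho)) 0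
      rw [h1]
      exact .cst hm' hs
    · exact .atom hm' hs

/-- Closed form of `Ty.absC`, for a closed type without the constant. -/
theorem Ty.absC_nil {P : Sys S} {C : Set (Tm S)} (hC : WfC P C) {n A : Tm S}
    (hc : Tm.cst n A ∉ C) {M T : Tm S} (h : Ty P (insert (Tm.cst n A) C) [] M T)
    (hT : ¬ Occ (Tm.cst n A) T) : ∃ M', Ty P C [A] M' T := by
  have := Ty.absC hC hc h
  rw [absC_of_not_occ hT] at this
  exact ⟨_, this⟩

/-- A derivation uses finitely many constants. -/
theorem Ty.finite_support {P : Sys S} {C : Set (Tm S)} {Γ : List (Tm S)} {M T : Tm S}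
    (h : Ty P C Γ M T) : ∃ D : Set (Tm S), D.Finite ∧ D ⊆ C ∧ Ty P D Γ M T := by
  induction h with
  | ax h => exact ⟨∅, Set.finite_empty, Set.empty_subset _, .ax h⟩
  | var h => exact ⟨∅, Set.finite_empty, Set.empty_subset _, .var h⟩
  | cst h _ ih =>
    obtain ⟨D, a, b, c⟩ := ih
    exact ⟨_, a.insert _, Set.insert_subset h b,
      .cst (Set.mem_insert _ _) (c.monoC (Set.subset_insert _ _))⟩
  | atom h h' =>
    exact ⟨_, Set.finite_singleton _, Set.singleton_subset_iff.2 h, .atom rfl h'⟩
  | pi _ _ r ih1 ih2 =>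
    obtain ⟨D, a, b, c⟩ := ih1
    obtain ⟨D', a', b', c'⟩ := ih2
    exact ⟨_, a.union a', Set.union_subset b b',
      .pi (c.monoC Set.subset_union_left) (c'.monoC Set.subset_union_right) r⟩
  | lam _ _ r _ ih1 ih2 ih3 =>
    obtain ⟨D, a, b, c⟩ := ih1
    obtain ⟨D', a', b', c'⟩ := ih2
    obtain ⟨D'', a'', b'', c''⟩ := ih3
    exact ⟨_, (a.union a').union a'', Set.union_subset (Set.union_subset b b') b'',
      .lam (c.monoC (Set.subset_union_left.trans Set.subset_union_left))
        (c'.monoC (Set.subset_union_right.trans Set.subset_union_left)) r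
        (c''.monoC Set.subset_union_right)⟩
  | app _ _ ih1 ih2 =>
    obtain ⟨D, a, b, c⟩ := ih1
    obtain ⟨D', a', b', c'⟩ := ih2
    exact ⟨_, a.union a', Set.union_subset b b',
      .app (c.monoC Set.subset_union_left) (c'.monoC Set.subset_union_right)⟩
  | mem _ _ ih1 ih2 =>
    obtain ⟨D, a, b, c⟩ := ih1
    obtain ⟨D', a', b', c'⟩ := ih2
    exact ⟨_, a.union a', Set.union_subset b b',
      .mem (c.monoC Set.subset_union_left) (c'.monoC Set.subset_union_right)⟩
  | conv _ _ cv ih1 ih2 =>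
    obtain ⟨D, a, b, c⟩ := ih1
    obtain ⟨D', a', b', c'⟩ := ih2
    exact ⟨_, a.union a', Set.union_subset b b',
      .conv (c.monoC Set.subset_union_left) (c'.monoC Set.subset_union_right) cv⟩

end Crest.Agent.R298
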