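import Crest.Agent.R298.Typing

/-! Definitions shared by the parts of the proof: the rule graph, ranks, non-erasing
reduction, stage-normal forms, candidates and interpretations. -/

set_option autoImplicit false

namespace Crest.Agent.R298

open Tm

universe u v
variable {S : Type u}

/-! ### The rule graph -/

/-- Codomain edge `s3 → s2`. -/
def CE (P : Sys S) (s3 s2 : S) : Prop := ∃ s1, P.rule s1 s2 s3

/-- Edge of the rule graph: from `s3` to `s1` and to `s2`. -/
def DE (P : Sys S) (v w : S) : Prop := (∃ s2, P.rule w s2 v) ∨ ∃ s1, P.rule s1 w v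

/-- The sort occurs in a rule. -/
def InR (P : Sys S) (s : S) : Prop := ∃ a b c, P.rule a b c ∧ (s = a ∨ s = b ∨ s = c)

def FinRules (P : Sys S) : Prop := {r : S × S × S | P.rule r.1 r.2.1 r.2.2}.Finite

/-- Every sort occurring in a rule has atoms. -/
def Atoms (P : Sys S) : Prop := ∀ s, InR P s → P.atom s

/-- A bounded rank which is monotone along a relation `E` and whose level sets through a
vertex incident with an edge are strongly connected. -/
structure Rank (E : S → S → Prop) where
  rk : S → ℕ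
  bound : ℕ
  lt_bound : ∀ s, rk s < bound
  le : ∀ {v w}, E v w → rk w ≤ rk v
  conn : ∀ {s t}, (∃ x, E s x ∨ E x s) → rk s = rk t →
    Relation.ReflTransGen E s t ∧ Relation.ReflTransGen E t s

section Graph
variable (P : Sys S) (rk : S → ℕ) (K : ℕ)

/-- The component of rank `K` is two-colourable (domain edges flip the colour). -/
def Col : Prop := ∃ col : S → Bool, ∀ s1 s2 s3, P.rule s1 s2 s3 → rk s3 = K →
  (rk s2 = K → col s2 = col s3) ∧ (rk s1 = K → col s1 = !col s3)

/-- No rule lies inside the component of rank `K`. -/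
def NoTriple : Prop := ∀ s1 s2 s3, P.rule s1 s2 s3 → rk s3 = K → rk s1 = K → rk s2 ≠ K

/-- Directly relevant sorts: a codomain path leads to a type of a sort of the component. -/
def Dir (v : S) : Prop := ∃ k a, rk k = K ∧ P.ax k a ∧ Relation.ReflTransGen (CE P) v a

/-- Domains of quantifiers of the component. -/
def QS (q : S) : Prop := ∃ k2 k3, P.rule q k2 k3 ∧ rk k2 = K ∧ rk k3 = K

/-- Direct edges. -/
def DG (v w : S) : Prop :=
  (∃ s1, P.rule s1 w v ∧ Dir P rk K w) ∨ ∃ s2, P.rule w s2 v ∧ Dir P rk K s2 ∧ Dir P rk K w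

/-- Reachability from a quantifier domain along direct edges, with the parity of the number of
domain edges. -/
inductive Par : Bool → S → Prop
  | base {q : S} : QS P rk K q → Dir P rk K q → Par false q
  | cod {b : Bool} {s1 s2 s3 : S} : Par b s3 → P.rule s1 s2 s3 → Dir P rk K s2 → Par b s2
  | dom {b : Bool} {s1 s2 s3 : S} : Par b s3 → P.rule s1 s2 s3 → Dir P rk K s2 →
      Dir P rk K s1 → Par (!b) s1

/-- An impredicative cycle through a domain edge among sorts reachable with both parities. -/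
def Pattern : Prop := ∃ u x1 x2 x3 a s1 s2 s3 : S,
  Par P rk K false u ∧ Par P rk K true u ∧
  P.rule x1 x2 x3 ∧ Relation.ReflTransGen (DG P rk K) u x3 ∧
  Relation.ReflTransGen (DG P rk K) x2 u ∧
  Relation.ReflTransGen (CE P) x1 a ∧ P.ax u a ∧
  P.rule s1 s2 s3 ∧ Dir P rk K s2 ∧ Dir P rk K s1 ∧
  Relation.ReflTransGen (DG P rk K) u s3 ∧ Relation.ReflTransGen (DG P rk K) s1 u

end Graph

/-! ### Non-erasing reduction -/

inductive MStep : Tm S → Tm S → Prop
  | beta (A M N : Tm S) : MStep (app (lam A M) N) (mem (mem (inst N M) N) A)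
  | perm (M Q N : Tm S) : MStep (app (mem M Q) N) (mem (app M N) Q)
  | appL {M M' : Tm S} (N : Tm S) : MStep M M' → MStep (app M N) (app M' N)
  | appR (M : Tm S) {N N' : Tm S} : MStep N N' → MStep (app M N) (app M N')
  | lamL {A A' : Tm S} (M : Tm S) : MStep A A' → MStep (lam A M) (lam A' M)
  | lamR (A : Tm S) {M M' : Tm S} : MStep M M' → MStep (lam A M) (lam A M')
  | piL {A A' : Tm S} (M : Tm S) : MStep A A' → MStep (pi A M) (pi A' M)
  | piR (A : Tm S) {M M' : Tm S} : MStep M M' → MStep (pi A M) (pi A M')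
  | memL {M M' : Tm S} (Q : Tm S) : MStep M M' → MStep (mem M Q) (mem M' Q)
  | memR (M : Tm S) {Q Q' : Tm S} : MStep Q Q' → MStep (mem M Q) (mem M Q')

abbrev MRed (M N : Tm S) : Prop := Relation.ReflTransGen MStep M N

def MNormal (M : Tm S) : Prop := ∀ N, ¬ MStep M N

/-- The term contains no memory former (outside constants). -/
def NoMem : Tm S → Prop
  | var _ => True
  | sort _ => True
  | cst _ _ => True
  | app M N => NoMem M ∧ NoMem N
  | lam M N => NoMem M ∧ NoMem N
  | pi M N => NoMem M ∧ NoMem N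
  | mem _ _ => False

/-! ### Stages -/

section Stage
variable (P : Sys S) (rk : S → ℕ) (K : ℕ)

/-- The class of `T` has a sort of rank below `K`. -/
def GLt (Γ : List (Tm S)) (T : Tm S) : Prop := ∃ s, Prof P Set.univ Γ T s ∧ rk s < K

/-- The term has a type with a sort of rank below `K`. -/
def GLtT (Γ : List (Tm S)) (F : Tm S) : Prop := ∃ T, Ty P Set.univ Γ F T ∧ GLt P rk K Γ T

/-- All redexes have rank below `K`, and no memory former is applied. -/
inductive NK : List (Tm S) → Tm S → Prop
  | var (Γ : List (Tm S)) (i : ℕ) : NK Γ (var i)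
  | sort (Γ : List (Tm S)) (s : S) : NK Γ (sort s)
  | cst (Γ : List (Tm S)) (n A : Tm S) : NK Γ (cst n A)
  | app {Γ : List (Tm S)} {F N : Tm S} : NK Γ F → NK Γ N → (∀ M Q, F ≠ mem M Q) →
      (∀ A M, F = lam A M → GLtT P rk K Γ F) → NK Γ (app F N)
  | lam {Γ : List (Tm S)} {A M : Tm S} : NK Γ A → NK (A :: Γ) M → NK Γ (lam A M)
  | pi {Γ : List (Tm S)} {A M : Tm S} : NK Γ A → NK (A :: Γ) M → NK Γ (pi A M)
  | mem {Γ : List (Tm S)} {M Q : Tm S} : NK Γ M → NK Γ Q → NK Γ (mem M Q)

/-- Closed terms reducing (without erasure) to a stage-normal form. -/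
def WK (m : Tm S) : Prop := ∃ m', MRed m m' ∧ NK P rk K [] m'

/-- A constant applied to stage-normalising arguments. -/
inductive Neu : Tm S → Prop
  | cst (n A : Tm S) : Neu (cst n A)
  | app {F N : Tm S} : Neu F → WK P rk K N → Neu (app F N)

/-- Candidates for stage `K`. -/
@[ext] structure Cand where
  carrier : Set (Tm S)
  wk : ∀ {m}, m ∈ carrier → WK P rk K m
  neu : ∀ {m}, Neu P rk K m → m ∈ carrier
  mem : ∀ {M Q : Tm S} {E : List (Tm S)}, spine M E ∈ carrier → WK P rk K Q →
    spine (Tm.mem M Q) E ∈ carrier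
  beta : ∀ {A M N : Tm S} {E : List (Tm S)}, spine (inst N M) E ∈ carrier → WK P rk K N →
    WK P rk K A → spine (app (lam A M) N) E ∈ carrier

end Stage

section CandOps
variable {P : Sys S} {rk : S → ℕ} {K : ℕ}

theorem MRed.map {f : Tm S → Tm S} (hf : ∀ {M N}, MStep M N → MStep (f M) (f N)) {M N : Tm S}
    (h : MRed M N) : MRed (f M) (f N) := by
  induction h with
  | refl => exact .refl
  | tail _ hs ih => exact ih.tail (hf hs)

theorem MRed.app {M M' N N' : Tm S} (h : MRed M M') (h' : MRed N N') :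
    MRed (app M N) (app M' N') :=
  (MRed.map (f := fun X => Tm.app X N) (MStep.appL N) h).trans
    (MRed.map (f := fun X => Tm.app M' X) (MStep.appR M') h')

theorem MRed.lam {M M' N N' : Tm S} (h : MRed M M') (h' : MRed N N') :
    MRed (lam M N) (lam M' N') :=
  (MRed.map (f := fun X => Tm.lam X N) (MStep.lamL N) h).trans
    (MRed.map (f := fun X => Tm.lam M' X) (MStep.lamR M') h')

theorem MRed.pi {M M' N N' : Tm S} (h : MRed M M') (h' : MRed N N') :
    MRed (pi M N) (pi M' N') :=
  (MRed.map (f := fun X => Tm.pi X N) (MStep.piL N) h).trans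
    (MRed.map (f := fun X => Tm.pi M' X) (MStep.piR M') h')

theorem MRed.mem {M M' N N' : Tm S} (h : MRed M M') (h' : MRed N N') :
    MRed (mem M N) (mem M' N') :=
  (MRed.map (f := fun X => Tm.mem X N) (MStep.memL N) h).trans
    (MRed.map (f := fun X => Tm.mem M' X) (MStep.memR M') h')

theorem MRed.spine {M M' : Tm S} (h : MRed M M') (E : List (Tm S)) :
    MRed (spine M E) (spine M' E) := by
  induction E generalizing M M' with
  | nil => exact h
  | cons N E ih => exact ih (MRed.app h .refl)

theorem MRed.spine_mem (M Q : Tm S) (E : List (Tm S)) :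
    MRed (Tm.spine (Tm.mem M Q) E) (Tm.mem (Tm.spine M E) Q) := by
  induction E generalizing M with
  | nil => exact .refl
  | cons N E ih => exact (MRed.spine (.single (MStep.perm M Q N)) E).trans (ih _)

theorem WK.of_red {m m' : Tm S} (h : MRed m m') (h' : WK P rk K m') : WK P rk K m :=
  let ⟨x, a, b⟩ := h'; ⟨x, h.trans a, b⟩

theorem WK.mem {M Q : Tm S} (h : WK P rk K M) (h' : WK P rk K Q) : WK P rk K (mem M Q) :=
  let ⟨_, a, b⟩ := h; let ⟨_, c, d⟩ := h'; ⟨_, MRed.mem a c, .mem b d⟩

theorem Neu.wk {m : Tm S} (h : Neu P rk K m) : WK P rk K m := by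
  suffices ∃ m', MRed m m' ∧ NK P rk K [] m' ∧ Neutral m' from
    let ⟨x, a, b, _⟩ := this; ⟨x, a, b⟩
  induction h with
  | cst n A => exact ⟨_, .refl, .cst _ _ _, .cst _ _⟩
  | app _ hN ih =>
    obtain ⟨F', a, b, c⟩ := ih
    obtain ⟨N', d, e⟩ := hN
    exact ⟨_, MRed.app a d, .app b e (by rintro _ _ rfl; cases c) (by rintro _ _ rfl; cases c),
      .app _ c⟩

/-- The largest candidate. -/
def Cand.top : Cand P rk K where
  carrier := {m | WK P rk K m}
  wk h := h
  neu h := h.wk
  mem h h' := WK.of_red (MRed.spine_mem _ _ _) (WK.mem h h')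
  beta {A M N E} h hN hA := by
    refine WK.of_red (MRed.spine (.single (MStep.beta A M N)) E) ?_
    refine WK.of_red (MRed.spine_mem _ _ _) (WK.mem ?_ hA)
    exact WK.of_red (MRed.spine_mem _ _ _) (WK.mem h hN)

/-- The smallest candidate. -/
def Cand.bot : Cand P rk K where
  carrier := {m | ∀ X : Cand P rk K, m ∈ X.carrier}
  wk h := h Cand.top
  neu h X := X.neu h
  mem h h' X := X.mem (h X) h'
  beta h hN hA X := X.beta (h X) hN hA

theorem Cand.le_top (X : Cand P rk K) : X.carrier ⊆ (Cand.top : Cand P rk K).carrier :=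
  fun _ h => X.wk h

theorem Cand.bot_le (X : Cand P rk K) : (Cand.bot : Cand P rk K).carrier ⊆ X.carrier :=
  fun _ h => h X

/-- Function-space candidate: arguments `n` of type `A` in `X`, together with an index `a` in
`J n`, are sent into `Y n a`. -/
def Cand.arrow {ι : Type v} (A : Tm S) (X : Cand P rk K) (J : Tm S → Set ι)
    (Y : Tm S → ι → Cand P rk K) : Cand P rk K where
  carrier := {m | WK P rk K m ∧ ∀ n, Ty P Set.univ [] n A → n ∈ X.carrier →
    ∀ a ∈ J n, app m n ∈ (Y n a).carrier}
  wk h := h.1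
  neu h := ⟨h.wk, fun n _ hn a _ => (Y n a).neu (.app h (X.wk hn))⟩
  mem {M Q E} h h' := ⟨Cand.top.mem h.1 h', fun n ht hn a ha => by
    have := h.2 n ht hn a ha
    rw [← spine_snoc] at this ⊢
    exact (Y n a).mem this h'⟩
  beta {A M N E} h hN hA := ⟨Cand.top.beta h.1 hN hA, fun n ht hn a ha => by
    have := h.2 n ht hn a ha
    rw [← spine_snoc] at this ⊢
    exact (Y n a).beta this hN hA⟩

end CandOps

/-- An interpretation of types by candidates, adequate for stage `K`. -/
structure Interp (P : Sys S) (rk : S → ℕ) (K : ℕ) : Type (max u (v + 1)) where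
  Env : Type v
  env : Env → ℕ → Tm S
  ok : List (Tm S) → Env → Prop
  V : List (Tm S) → Env → Tm S → Cand P rk K
  ext : Env → Tm S → Tm S → Set Env
  nil : Env
  ok_nil : ok [] nil
  env_nil : env nil = Tm.var
  ext_env : ∀ {η A n η'}, η' ∈ ext η A n → env η' = scons n (env η)
  ext_ok : ∀ {Γ η A n η'}, ok Γ η → η' ∈ ext η A n → ok (A :: Γ) η'
  ext_ne : ∀ η A n, (ext η A n).Nonempty
  conv : ∀ Γ η {A A'}, Conv A A' → V Γ η A = V Γ η A'
  lt : ∀ Γ η A, GLt P rk K [] (sub (env η) A) → V Γ η A = Cand.top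
  sort : ∀ Γ η s, V Γ η (Tm.sort s) = Cand.top
  pi : ∀ {Γ η A B s}, Ok P Set.univ Γ → TSub P Set.univ [] (env η) Γ → ok Γ η →
    Ty P Set.univ Γ (Tm.pi A B) (Tm.sort s) → ¬ GLt P rk K [] (sub (env η) (Tm.pi A B)) →
    V Γ η (Tm.pi A B) = Cand.arrow (sub (env η) A) (V Γ η A) (ext η A) (fun _ η' => V (A :: Γ) η' B)
  weak : ∀ {Γ η A n η' C s s'}, Ok P Set.univ Γ → Ty P Set.univ Γ A (Tm.sort s) →
    Ty P Set.univ Γ C (Tm.sort s') → η' ∈ ext η A n → V (A :: Γ) η' (lift C) = V Γ η C
  subst : ∀ {Γ η A B N s1 s2 s3}, Ok P Set.univ Γ → TSub P Set.univ [] (env η) Γ → ok Γ η →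
    Ty P Set.univ Γ A (Tm.sort s1) → Ty P Set.univ (A :: Γ) B (Tm.sort s2) → P.rule s1 s2 s3 →
    rk s2 = K → rk s3 = K → Ty P Set.univ Γ N A →
    ∃ η' ∈ ext η A (sub (env η) N), (V (A :: Γ) η' B).carrier ⊆ (V Γ η (inst N B)).carrier

/-! ### Substitution for constants -/

namespace Tm

/-- `Occ c M`: the constant `c` occurs in `M`, possibly inside the annotation of a constant. -/
def Occ (c : Tm S) : Tm S → Prop
  | var _ => False
  | sort _ => False
  | cst n A => c = cst n A ∨ Occ c A
  | app M N => Occ c M ∨ Occ c N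
  | lam M N => Occ c M ∨ Occ c N
  | pi M N => Occ c M ∨ Occ c N
  | mem M N => Occ c M ∨ Occ c N

/-- Replace the constants on which `f` is defined (under `k` binders); annotations of the other
constants are rewritten. -/
def csub (f : Tm S → Option (Tm S)) : ℕ → Tm S → Tm S
  | _, var i => var i
  | _, sort s => sort s
  | k, cst n A => match f (cst n A) with
    | some N => ren (· + k) N
    | none => cst n (csub f 0 A)
  | k, app M N => app (csub f k M) (csub f k N)
  | k, lam A M => lam (csub f k A) (csub f (k + 1) M)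
  | k, pi A M => pi (csub f k A) (csub f (k + 1) M)
  | k, mem M N => mem (csub f k M) (csub f k N)

open Classical in
/-- The map sending the constant `c` to the variable `0`. -/
noncomputable def absMap (c : Tm S) : Tm S → Option (Tm S) :=
  fun d => if d = c then some (var 0) else none

/-- Abstraction of the constant `c` as the variable of index `k`. -/
noncomputable def absC (c : Tm S) (k : ℕ) (M : Tm S) : Tm S := csub (absMap c) k M

end Tm

/-- Apply `csub f` to a context. -/
def csubCtx (f : Tm S → Option (Tm S)) : List (Tm S) → List (Tm S)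
  | [] => []
  | A :: Γ => csub f Γ.length A :: csubCtx f Γ

end Crest.Agent.R298
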