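import Crest.Agent.R298.Defs

/-! Ranks on finite graphs and walks of both parities inside a component. -/

set_option autoImplicit false

namespace Crest.Agent.R298

open Tm

universe u
variable {S : Type u}

/-- A relation with finitely many edges has a rank linearising its strongly connected
components. -/
theorem exists_rank (E : S → S → Prop) (hE : {p : S × S | E p.1 p.2}.Finite) :
    Nonempty (Rank E) := by
  classical
  let V : Set S := {s | ∃ x, E s x ∨ E x s}
  have hV : V.Finite := by
    refine ((hE.image Prod.fst).union (hE.image Prod.snd)).subset ?_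
    rintro s ⟨x, h | h⟩
    · exact .inl ⟨(s, x), h, rfl⟩
    · exact .inr ⟨(x, s), h, rfl⟩
  let R : S → Set S := fun s => {t | Relation.ReflTransGen E s t}
  have hRV : ∀ s ∈ V, R s ⊆ V := by
    intro s hs t ht
    have ht' : Relation.ReflTransGen E s t := ht
    cases ht' with
    | refl => exact hs
    | tail _ h => exact ⟨_, .inr h⟩
  have hF : (R '' V).Finite := hV.image R
  have : Finite (R '' V) := hF
  let n := Nat.card (R '' V)
  let e : (R '' V) ≃ Fin n := Finite.equivFin _
  let idx : ∀ s ∈ V, ℕ := fun s hs => (e ⟨R s, s, hs, rfl⟩ : ℕ)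
  have hidx : ∀ s hs, idx s hs < n := fun s hs => Fin.is_lt _
  have hinj : ∀ s hs t ht, idx s hs = idx t ht → R s = R t := fun s hs t ht h =>
    congrArg Subtype.val (e.injective (Fin.ext h))
  have hcongr : ∀ s hs t ht, R s = R t → idx s hs = idx t ht := fun s hs t ht h => by
    simp only [idx, h]
  refine ⟨{ rk := fun s => if hs : s ∈ V then 1 + (idx s hs + n * (R s).ncard) else 0
            bound := 1 + (n + n * V.ncard)
            lt_bound := fun s => ?_
            le := fun {v w} h => ?_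
            conn := fun {s t} hs hst => ?_ }⟩
  · split_ifs with hs
    · have h1 := hidx s hs
      have h2 := Nat.mul_le_mul_left n (Set.ncard_le_ncard (hRV s hs) hV)
      omega
    · omega
  · have hv : v ∈ V := ⟨w, .inl h⟩
    have hw : w ∈ V := ⟨v, .inr h⟩
    have hsub : R w ⊆ R v := fun t ht => Relation.ReflTransGen.head h ht
    simp only [dif_pos hv, dif_pos hw]
    rcases hsub.eq_or_ssubset with heq | hlt
    · rw [hcongr w hw v hv heq, heq]
    · have h1 := Set.ncard_lt_ncard hlt (hV.subset (hRV v hv))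
      have h2 := Nat.mul_le_mul_left n (Nat.succ_le_of_lt h1)
      have h3 := hidx w hw
      rw [Nat.mul_succ] at h2
      omega
  · have hs' : s ∈ V := hs
    simp only [dif_pos hs'] at hst
    split_ifs at hst with ht
    · have h1 : idx s hs' + n * (R s).ncard = idx t ht + n * (R t).ncard := by omega
      have h2 := congrArg (· % n) h1
      simp only [Nat.add_mul_mod_self_left, Nat.mod_eq_of_lt (hidx s hs'),
        Nat.mod_eq_of_lt (hidx t ht)] at h2
      have h3 := hinj s hs' t ht h2
      have h4 : t ∈ R s := h3 ▸ Relation.ReflTransGen.refl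
      have h5 : s ∈ R t := h3 ▸ Relation.ReflTransGen.refl
      exact ⟨h4, h5⟩
    · omega

theorem FinRules.de_finite {P : Sys S} (h : FinRules P) : {p : S × S | DE P p.1 p.2}.Finite := by
  refine ((Set.Finite.image (fun r : S × S × S => (r.2.2, r.1)) h).union
    (Set.Finite.image (fun r : S × S × S => (r.2.2, r.2.1)) h)).subset ?_
  rintro ⟨v, w⟩ (⟨s2, h2⟩ | ⟨s1, h1⟩)
  · exact .inl ⟨(w, s2, v), h2, rfl⟩
  · exact .inr ⟨(s1, w, v), h1, rfl⟩

theorem FinRules.dg_finite {P : Sys S} (h : FinRules P) (rk : S → ℕ) (K : ℕ) :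
    {p : S × S | DG P rk K p.1 p.2}.Finite := by
  refine h.de_finite.subset ?_
  rintro ⟨v, w⟩ (⟨s1, h1, -⟩ | ⟨s2, h2, -⟩)
  · exact .inr ⟨s1, h1⟩
  · exact .inl ⟨s2, h2⟩

theorem Rank.rule_le {P : Sys S} (R : Rank (DE P)) {s1 s2 s3 : S} (h : P.rule s1 s2 s3) :
    R.rk s1 ≤ R.rk s3 ∧ R.rk s2 ≤ R.rk s3 :=
  ⟨R.le (.inl ⟨s2, h⟩), R.le (.inr ⟨s1, h⟩)⟩

/-- Walks of the rule graph inside the component of rank `K`, with the parity of the number of
domain edges. -/
inductive KW (P : Sys S) (rk : S → ℕ) (K : ℕ) : Bool → S → S → Prop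
  | nil {s : S} : KW P rk K false s s
  | cod {b : Bool} {s1 s2 s3 t : S} : P.rule s1 s2 s3 → rk s3 = K → rk s2 = K →
      KW P rk K b s2 t → KW P rk K b s3 t
  | dom {b : Bool} {s1 s2 s3 t : S} : P.rule s1 s2 s3 → rk s3 = K → rk s1 = K →
      KW P rk K b s1 t → KW P rk K (!b) s3 t

/-- Walks along codomain edges inside the component of rank `K`. -/
inductive KC (P : Sys S) (rk : S → ℕ) (K : ℕ) : S → S → Prop
  | nil {s : S} : KC P rk K s s
  | cod {s1 s2 s3 t : S} : P.rule s1 s2 s3 → rk s3 = K → rk s2 = K →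
      KC P rk K s2 t → KC P rk K s3 t

theorem KW.append {P : Sys S} {rk : S → ℕ} {K : ℕ} {a b : Bool} {s t r : S}
    (h1 : KW P rk K a s t) (h2 : KW P rk K b t r) : KW P rk K (xor a b) s r := by
  induction h1 with
  | nil => simpa using h2
  | cod hr h3 h4 _ ih => exact .cod hr h3 h4 (ih h2)
  | dom hr h3 h4 _ ih =>
    have := KW.dom hr h3 h4 (ih h2)
    rwa [← Bool.not_xor] at this

theorem Rank.le_of_rtg {E : S → S → Prop} (R : Rank E) {s t : S}
    (h : Relation.ReflTransGen E s t) : R.rk t ≤ R.rk s := by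
  induction h with
  | refl => exact le_rfl
  | tail _ h ih => exact (R.le h).trans ih

theorem kw_of_rtg {P : Sys S} (R : Rank (DE P)) {K : ℕ} {s t : S}
    (h : Relation.ReflTransGen (DE P) s t) (hs : R.rk s = K) (ht : R.rk t = K) :
    ∃ b, KW P R.rk K b s t := by
  induction h using Relation.ReflTransGen.head_induction_on with
  | refl => exact ⟨false, .nil⟩
  | @head a c hac hct ih =>
    have h1 := R.le hac
    have h2 := R.le_of_rtg hct
    have hc : R.rk c = K := by omega
    obtain ⟨b, hb⟩ := ih hc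
    rcases hac with ⟨s2, hr⟩ | ⟨s1, hr⟩
    · exact ⟨!b, .dom hr hs hc hb⟩
    · exact ⟨b, .cod hr hs hc hb⟩

/-- If the component is not two-colourable, any two of its sorts are joined by walks of both
parities. -/
theorem kw_of_not_col {P : Sys S} (R : Rank (DE P)) {K : ℕ} (h : ¬ Col P R.rk K)
    (b : Bool) {s t : S} (hs : R.rk s = K) (ht : R.rk t = K) : KW P R.rk K b s t := by
  classical
  have hx : ∃ x, R.rk x = K ∧ ∃ y, DE P x y ∨ DE P y x := by
    by_contra hcon
    exact h ⟨fun _ => true, fun s1 s2 s3 hr h3 =>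
      absurd ⟨s3, h3, s1, .inl (.inl ⟨s2, hr⟩)⟩ hcon⟩
  obtain ⟨x, hxK, hxi⟩ := hx
  have hto : ∀ y, R.rk y = K → ∃ c, KW P R.rk K c x y := fun y hy =>
    kw_of_rtg R (R.conn hxi (hxK.trans hy.symm)).1 hxK hy
  have hfrom : ∀ y, R.rk y = K → ∃ c, KW P R.rk K c y x := fun y hy =>
    kw_of_rtg R (R.conn hxi (hxK.trans hy.symm)).2 hy hxK
  have hodd : KW P R.rk K true x x := by
    by_contra hno
    have huniq : ∀ y, R.rk y = K → ∀ c c', KW P R.rk K c x y → KW P R.rk K c' x y → c = c' := by
      intro y hy c c' h1 h2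
      obtain ⟨d, hd⟩ := hfrom y hy
      have h3 := h1.append hd
      have h4 := h2.append hd
      cases c <;> cases c' <;> cases d <;> first | rfl | exact absurd h3 hno | exact absurd h4 hno
    have hcol : ∀ y, R.rk y = K → ∀ c, KW P R.rk K c x y → decide (KW P R.rk K true x y) = c := by
      intro y hy c hc
      cases c with
      | true => exact decide_eq_true hc
      | false => exact decide_eq_false fun h1 => by simpa using huniq y hy _ _ h1 hc
    refine h ⟨fun y => decide (KW P R.rk K true x y), fun s1 s2 s3 hr h3 => ?_⟩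
    obtain ⟨c, hc⟩ := hto s3 h3
    refine ⟨fun h2 => ?_, fun h1 => ?_⟩
    · have h4 := hc.append (KW.cod hr h3 h2 .nil)
      rw [Bool.xor_false] at h4
      simp only [hcol s2 h2 c h4, hcol s3 h3 c hc]
    · have h4 := hc.append (KW.dom hr h3 h1 .nil)
      rw [Bool.not_false, Bool.xor_true] at h4
      simp only [hcol s1 h1 _ h4, hcol s3 h3 c hc]
  obtain ⟨c, hc⟩ := hfrom s hs
  obtain ⟨d, hd⟩ := hto t ht
  have h1 := hc.append hd
  have h2 := (hc.append hodd).append hd
  cases b <;> cases c <;> cases d <;> first | exact h1 | exact h2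

/-- An odd walk starts with codomain edges followed by a domain edge. -/
theorem KW.first_dom {P : Sys S} {rk : S → ℕ} {K : ℕ} {s t : S} (h : KW P rk K true s t) :
    ∃ s1 s2 s3, KC P rk K s s3 ∧ P.rule s1 s2 s3 ∧ rk s3 = K ∧ rk s1 = K := by
  generalize hb : true = b at h
  induction h with
  | nil => exact absurd hb (by decide)
  | cod hr h3 h2 _ ih =>
    obtain ⟨a1, a2, a3, hk, ha⟩ := ih hb
    exact ⟨a1, a2, a3, .cod hr h3 h2 hk, ha⟩
  | dom hr h3 h1 _ _ => exact ⟨_, _, _, .nil, hr, h3, h1⟩

end Crest.Agent.R298
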