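import Crest.Agent.R298.Defs

/-! Interpretation for a component which is two-colourable or contains no rule. -/

set_option autoImplicit false

namespace Crest.Agent.R298

open Tm

universe u
variable {S : Type u} {P : Sys S}

namespace K12

variable {rk : S → ℕ} {K : ℕ}

/-- Intersection of a family of candidates. -/
def cInf (p : S → Prop) (f : S → Cand P rk K) : Cand P rk K where
  carrier := {m | WK P rk K m ∧ ∀ s, p s → m ∈ (f s).carrier}
  wk h := h.1
  neu h := ⟨h.wk, fun s _ => (f s).neu h⟩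
  mem h h' := ⟨Cand.top.mem h.1 h', fun s hs => (f s).mem (h.2 s hs) h'⟩
  beta h hN hA := ⟨Cand.top.beta h.1 hN hA, fun s hs => (f s).beta (h.2 s hs) hN hA⟩

theorem cInf_eq {p : S → Prop} (f : S → Cand P rk K) {w : S} (h : ∀ s, p s ↔ s = w) :
    cInf p f = f w := by
  apply Cand.ext
  ext m
  constructor
  · exact fun hm => hm.2 w ((h w).2 rfl)
  · exact fun hm => ⟨(f w).wk hm, fun s hs => (h s).1 hs ▸ hm⟩

/-- The sort of a type, up to conversion of the context. -/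
def HasSort (P : Sys S) (Γ : List (Tm S)) (t : Tm S) (s : S) : Prop :=
  ∃ Δ, CtxConv Γ Δ ∧ Ty P Set.univ Δ t (sort s)

theorem hasSort_iff {Γ : List (Tm S)} {t : Tm S} {w : S} (hn : Neutral t)
    (h : Ty P Set.univ Γ t (sort w)) (s : S) : HasSort P Γ t s ↔ s = w :=
  ⟨fun ⟨_, a, b⟩ => (hn.type_unique a h b).sort_inj.symm,
    fun e => ⟨Γ, CtxConv.refl Γ, e ▸ h⟩⟩

theorem hasSort_congr {Γ Γ' : List (Tm S)} (h : CtxConv Γ Γ') (t : Tm S) :
    HasSort P Γ t = HasSort P Γ' t := by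
  funext s
  exact propext ⟨fun ⟨Δ, a, b⟩ => ⟨Δ, h.symm.trans a, b⟩, fun ⟨Δ, a, b⟩ => ⟨Δ, h.trans a, b⟩⟩

/-- The value at a leaf with the given head. -/
def leafv (fl : ℕ → S → Cand P rk K) (p : S → Prop) : Tm S → Cand P rk K
  | var i => cInf p (fl i)
  | _ => Cand.top

open Classical in
/-- The denotation of a normal type. -/
noncomputable def den : Tm S → List (Tm S) → (ℕ → Tm S) → (ℕ → S → Cand P rk K) → Cand P rk K
  | pi C D, Γ, σ, fl => if GLt P rk K [] (sub σ (pi C D)) then Cand.top else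
      Cand.arrow (ι := S → Cand P rk K) (nf (sub σ C)) (den C Γ σ fl) (fun _ => Set.univ)
        (fun n φ => den D (C :: Γ) (scons n σ) (scons φ fl))
  | t, Γ, σ, fl => if GLt P rk K [] (sub σ t) then Cand.top else
      leafv fl (HasSort P Γ t) (head t)

theorem den_lt {t : Tm S} {Γ : List (Tm S)} {σ : ℕ → Tm S} {fl : ℕ → S → Cand P rk K}
    (h : GLt P rk K [] (sub σ t)) : den t Γ σ fl = Cand.top := by
  cases t <;> simp only [den, h, if_true]

theorem den_pi {C D : Tm S} {Γ : List (Tm S)} {σ : ℕ → Tm S} {fl : ℕ → S → Cand P rk K}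
    (h : ¬ GLt P rk K [] (sub σ (pi C D))) : den (pi C D) Γ σ fl =
      Cand.arrow (ι := S → Cand P rk K) (nf (sub σ C)) (den C Γ σ fl) (fun _ => Set.univ)
        (fun n φ => den D (C :: Γ) (scons n σ) (scons φ fl)) := by
  simp only [den, h, if_false]

theorem den_neu {t : Tm S} {Γ : List (Tm S)} {σ : ℕ → Tm S} {fl : ℕ → S → Cand P rk K}
    (hn : Neutral t) (h : ¬ GLt P rk K [] (sub σ t)) :
    den t Γ σ fl = leafv fl (HasSort P Γ t) (head t) := by
  cases hn <;> simp only [den, h, if_false]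

theorem den_sort {s : S} {Γ : List (Tm S)} {σ : ℕ → Tm S} {fl : ℕ → S → Cand P rk K} :
    den (sort s) Γ σ fl = Cand.top := by
  simp only [den, head, leafv, ite_self]

theorem den_ctx (t : Tm S) {Γ Γ' : List (Tm S)} (h : CtxConv Γ Γ') (σ : ℕ → Tm S)
    (fl : ℕ → S → Cand P rk K) : den t Γ σ fl = den t Γ' σ fl := by
  induction t generalizing Γ Γ' σ fl with
  | pi C D ihC ihD =>
    have e : ∀ n φ, den D (C :: Γ) (scons n σ) (scons φ fl) =
        den D (C :: Γ') (scons n σ) (scons φ fl) :=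
      fun n φ => ihD (.cons .rfl h) _ _
    simp only [den, ihC h, e]
  | _ => simp only [den, hasSort_congr h]

theorem GLt.conv {Γ : List (Tm S)} {T T' : Tm S} (h : GLt P rk K Γ T) (c : Conv T T') :
    GLt P rk K Γ T' :=
  let ⟨s, a, b⟩ := h; ⟨s, a.conv c, b⟩

theorem neutral_head {t : Tm S} (hn : Neutral t) :
    (∃ i, head t = var i) ∨ ∃ n A, head t = cst n A := by
  induction hn with
  | var i => exact .inl ⟨i, rfl⟩
  | cst n A => exact .inr ⟨n, A, rfl⟩
  | app _ _ ih => exact ih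

theorem neutral_sub {t : Tm S} (hn : Neutral t) {τ : ℕ → Tm S}
    (h : ∀ i, head t = var i → ∃ k, τ i = var k) :
    Neutral (sub τ t) ∧ head (sub τ t) = sub τ (head t) := by
  induction hn with
  | var i =>
    obtain ⟨k, hk⟩ := h i rfl
    simp only [sub_var, head, hk]
    exact ⟨.var k, trivial⟩
  | cst n A => exact ⟨.cst n A, rfl⟩
  | app N _ ih => exact ⟨.app _ (ih h).1, (ih h).2⟩

/-- Normal types with their sort derivation. -/
inductive NT (P : Sys S) : List (Tm S) → Tm S → S → Prop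
  | sort {Γ : List (Tm S)} {s w : S} : Ty P Set.univ Γ (Tm.sort s) (Tm.sort w) → NT P Γ (Tm.sort s) w
  | neu {Γ : List (Tm S)} {t : Tm S} {w : S} : Neutral t → Ty P Set.univ Γ t (Tm.sort w) →
      NT P Γ t w
  | pi {Γ : List (Tm S)} {C D : Tm S} {s1 s2 s3 : S} : NT P Γ C s1 → NT P (C :: Γ) D s2 →
      P.rule s1 s2 s3 → NT P Γ (Tm.pi C D) s3

theorem NT.ty {Γ : List (Tm S)} {t : Tm S} {w : S} (h : NT P Γ t w) :
    Ty P Set.univ Γ t (Tm.sort w) := by
  induction h with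
  | sort h => exact h
  | neu _ h => exact h
  | pi _ _ r ih1 ih2 => exact .pi ih1 ih2 r

theorem NT.of_normal {Γ : List (Tm S)} {t : Tm S} {w : S} (h : Ty P Set.univ Γ t (Tm.sort w))
    (hn : Normal t) : NT P Γ t w := by
  induction t generalizing Γ w with
  | pi C D ihC ihD =>
    obtain ⟨s1, s2, r, a, b⟩ := h.gen_pi_sort
    exact .pi (ihC a (Normal.pi_iff.1 hn).1) (ihD b (Normal.pi_iff.1 hn).2) r
  | sort s => exact .sort h
  | _ =>
    rcases h.normal_type_cases hn with h1 | ⟨_, e⟩ | ⟨_, _, e⟩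
    · exact .neu h1 h
    · cases e
    · cases e

theorem lk_up {Γ Δ : List (Tm S)} {ξ : ℕ → ℕ} (B : Tm S)
    (e : ∀ i A, Lk Γ i A → Lk Δ (ξ i) (Tm.ren ξ A)) :
    ∀ i A, Lk (B :: Γ) i A → Lk (Tm.ren ξ B :: Δ) (upr ξ i) (Tm.ren (upr ξ) A) := by
  intro i A h
  cases h with
  | zero => rw [ren_lift]; exact .zero _ _
  | succ _ h => rw [ren_lift]; exact .succ _ (e _ _ h)

theorem den_ren {Γ : List (Tm S)} {t : Tm S} {w : S} (h : NT P Γ t w) {Δ : List (Tm S)}
    {ξ : ℕ → ℕ} (e : ∀ i A, Lk Γ i A → Lk Δ (ξ i) (ren ξ A)) (σ : ℕ → Tm S)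
    (fl : ℕ → S → Cand P rk K) :
    den (ren ξ t) Δ σ fl = den t Γ (fun i => σ (ξ i)) (fun i => fl (ξ i)) := by
  induction h generalizing Δ ξ σ fl with
  | sort _ => rw [ren_sort, den_sort, den_sort]
  | @neu Γ t w hn ht =>
    by_cases hc : GLt P rk K [] (sub (fun i => σ (ξ i)) t)
    · rw [den_lt hc, den_lt (by rwa [sub_ren])]
    · rw [den_neu hn hc, den_neu (hn.ren ξ) (by rwa [sub_ren])]
      have hh : head (ren ξ t) = ren ξ (head t) := by
        rw [ren_eq_sub, ren_eq_sub]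
        exact (neutral_sub hn (fun i _ => ⟨_, rfl⟩)).2
      rw [hh]
      rcases neutral_head hn with ⟨i, hi⟩ | ⟨n, A, hi⟩
      · rw [hi]
        simp only [ren_var, leafv]
        rw [cInf_eq _ (hasSort_iff hn ht), cInf_eq _ (hasSort_iff (hn.ren ξ) (ht.ren e))]
      · rw [hi]; rfl
  | @pi Γ C D s1 s2 s3 _ _ _ ih1 ih2 =>
    by_cases hc : GLt P rk K [] (sub (fun i => σ (ξ i)) (Tm.pi C D))
    · rw [den_lt hc, den_lt (by rwa [sub_ren])]
    · rw [den_pi hc, ren_pi, den_pi (by rwa [← ren_pi, sub_ren]), sub_ren, ih1 e]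
      congr 1
      funext n φ
      rw [ih2 (lk_up C e)]
      congr 1 <;> (funext i; cases i <;> rfl)

/-- Good flags for a normal type at polarity `p`. -/
inductive GF (φ : S → Cand P rk K) : Bool → List (Tm S) → Tm S → S → Prop
  | low {p : Bool} {Γ : List (Tm S)} {t : Tm S} {w : S} : Ty P Set.univ Γ t (Tm.sort w) →
      rk w < K → GF φ p Γ t w
  | sort {p : Bool} {Γ : List (Tm S)} {s w : S} : GF φ p Γ (Tm.sort s) w
  | neu {p : Bool} {Γ : List (Tm S)} {t : Tm S} {w : S} : Neutral t →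
      Ty P Set.univ Γ t (Tm.sort w) → φ w = (bif p then Cand.bot else Cand.top) → GF φ p Γ t w
  | pi {p : Bool} {Γ : List (Tm S)} {C D : Tm S} {s1 s2 s3 : S} :
      Ty P Set.univ Γ C (Tm.sort s1) → Ty P Set.univ (C :: Γ) D (Tm.sort s2) → P.rule s1 s2 s3 →
      GF φ (!p) Γ C s1 → GF φ p (C :: Γ) D s2 → GF φ p Γ (Tm.pi C D) s3

open Classical in
theorem gf_col (hle : ∀ s1 s2 s3, P.rule s1 s2 s3 → rk s1 ≤ rk s3 ∧ rk s2 ≤ rk s3)
    {col : S → Bool} (hcol : ∀ s1 s2 s3, P.rule s1 s2 s3 → rk s3 = K →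
      (rk s2 = K → col s2 = col s3) ∧ (rk s1 = K → col s1 = !col s3)) (c : Bool)
    {Γ : List (Tm S)} {t : Tm S} {w : S} (h : NT P Γ t w) (hw : rk w ≤ K) {p : Bool}
    (hp : rk w = K → xor (col w) c = p) :
    GF (P := P) (rk := rk) (K := K) (fun s => bif xor (col s) c then Cand.bot else Cand.top)
      p Γ t w := by
  induction h generalizing p with
  | sort _ => exact .sort
  | neu hn ht =>
    rcases hw.lt_or_eq with h1 | h1
    · exact .low ht h1
    · exact .neu hn ht (by rw [hp h1])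
  | pi h1 h2 r ih1 ih2 =>
    rcases hw.lt_or_eq with h3 | h3
    · exact .low (.pi h1.ty h2.ty r) h3
    · obtain ⟨a, b⟩ := hle _ _ _ r
      obtain ⟨d, e⟩ := hcol _ _ _ r h3
      refine .pi h1.ty h2.ty r (ih1 (by omega) (fun h => ?_)) (ih2 (by omega) (fun h => ?_))
      · rw [e h, ← hp h3]; simp
      · rw [d h, hp h3]

theorem gf_noTriple (hle : ∀ s1 s2 s3, P.rule s1 s2 s3 → rk s1 ≤ rk s3 ∧ rk s2 ≤ rk s3)
    (hnt : NoTriple P rk K) {Γ : List (Tm S)} {t : Tm S} {w : S} (h : NT P Γ t w)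
    (hw : rk w ≤ K) (p : Bool) :
    ∃ c : Bool, GF (P := P) (rk := rk) (K := K) (fun _ => bif c then Cand.bot else Cand.top)
      p Γ t w := by
  induction h generalizing p with
  | sort _ => exact ⟨true, .sort⟩
  | neu hn ht => exact ⟨p, .neu hn ht rfl⟩
  | @pi Γ C D s1 s2 s3 h1 h2 r ih1 ih2 =>
    obtain ⟨a, b⟩ := hle _ _ _ r
    by_cases h3 : rk s1 < K
    · obtain ⟨c, hc⟩ := ih2 (by omega) p
      exact ⟨c, .pi h1.ty h2.ty r (.low h1.ty h3) hc⟩
    · obtain ⟨c, hc⟩ := ih1 (by omega) (!p)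
      have := hnt _ _ _ r (by omega) (by omega)
      exact ⟨c, .pi h1.ty h2.ty r hc (.low h2.ty (by omega))⟩

/-- Inclusion in the direction given by a polarity. -/
def Sub (p : Bool) (X Y : Cand P rk K) : Prop :=
  bif p then X.carrier ⊆ Y.carrier else Y.carrier ⊆ X.carrier

theorem Sub.of_eq {p : Bool} {X Y : Cand P rk K} (h : X = Y) : Sub p X Y := by
  subst h; cases p <;> exact subset_rfl

theorem Sub.arrow {p : Bool} {ι : Type u} {A : Tm S} {X X' : Cand P rk K}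
    {Y Y' : Tm S → ι → Cand P rk K} (h1 : Sub (!p) X X')
    (h2 : ∀ n, Ty P Set.univ [] n A → ∀ a, Sub p (Y n a) (Y' n a)) :
    Sub p (Cand.arrow A X (fun _ => Set.univ) Y) (Cand.arrow A X' (fun _ => Set.univ) Y') := by
  cases p
  · exact fun m hm => ⟨hm.1, fun n hn hx a ha => h2 n hn a (hm.2 n hn (h1 hx) a ha)⟩
  · exact fun m hm => ⟨hm.1, fun n hn hx a ha => h2 n hn a (hm.2 n hn (h1 hx) a ha)⟩

theorem den_subst (hW : AllWN P) {φ : S → Cand P rk K} {p : Bool} {Γ : List (Tm S)} {t : Tm S}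
    {w : S} (h : GF φ p Γ t w) {x : ℕ} {ξ : ℕ → ℕ} {τ σo σn : ℕ → Tm S} {Δ : List (Tm S)}
    {flo fln : ℕ → S → Cand P rk K} (hΔ : Ok P Set.univ Δ) (hτ : TSub P Set.univ Δ τ Γ)
    (hσ : TSub P Set.univ [] σo Γ) (e : ∀ i, σo i = sub σn (τ i))
    (hξ : ∀ i, i ≠ x → τ i = var (ξ i) ∧ flo i = fln (ξ i)) (hx : flo x = φ) :
    Sub p (den t Γ σo flo) (den (nf (sub τ t)) Δ σn fln) := by
  have key : ∀ (t : Tm S) {τ σo σn : ℕ → Tm S}, (∀ i, σo i = sub σn (τ i)) →
      sub σn (sub τ t) = sub σo t := by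
    intro t τ σo σn e
    rw [sub_sub]; congr 1; funext i; exact (e i).symm
  have keyc : ∀ (t : Tm S) {τ σo σn : ℕ → Tm S}, (∀ i, σo i = sub σn (τ i)) →
      Conv (sub σo t) (sub σn (nf (sub τ t))) := by
    intro t τ σo σn e
    rw [← key t e]; exact (conv_nf _).sub _
  induction h generalizing x ξ τ σo σn Δ flo fln with
  | @low p Γ t w ht hw =>
    have hc : GLt P rk K [] (sub σo t) := ⟨w, ht.prof.sub hσ, hw⟩
    rw [den_lt hc, den_lt (GLt.conv hc (keyc t e))]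
    exact .of_eq rfl
  | sort => rw [sub_sort, nf_sort, den_sort, den_sort]; exact .of_eq rfl
  | @neu p Γ t w hn ht hφ =>
    by_cases hc : GLt P rk K [] (sub σo t)
    · rw [den_lt hc, den_lt (GLt.conv hc (keyc t e))]
      exact .of_eq rfl
    have hc' : ¬ GLt P rk K [] (sub σn (nf (sub τ t))) := fun h => hc (GLt.conv h (keyc t e).symm)
    rw [den_neu hn hc]
    by_cases hh : head t = var x
    · rw [hh]
      simp only [leafv]
      rw [cInf_eq _ (hasSort_iff hn ht), hx, hφ]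
      cases p
      · exact Cand.le_top _
      · exact Cand.bot_le _
    · have ht' : Ty P Set.univ Δ (sub τ t) (Tm.sort w) := ht.sub hτ
      have hr := (hW _ _ _ hΔ ht').red_nf
      obtain ⟨n1, n2⟩ := neutral_sub hn (τ := τ)
        (fun i hi => ⟨_, (hξ i (by rintro rfl; exact hh hi)).1⟩)
      obtain ⟨n3, n4⟩ := n1.red hr
      rw [den_neu n3 hc', n4, n2]
      apply Sub.of_eq
      rcases neutral_head hn with ⟨i, hi⟩ | ⟨n, A, hi⟩
      · obtain ⟨a, b⟩ := hξ i (by rintro rfl; exact hh hi)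
        rw [hi, sub_var, a]
        simp only [leafv]
        rw [cInf_eq _ (hasSort_iff hn ht), cInf_eq _ (hasSort_iff n3 (ht'.red hΔ hr)), b]
      · rw [hi]; rfl
  | @pi p Γ C D s1 s2 s3 h1 h2 r _ _ ih1 ih2 =>
    by_cases hc : GLt P rk K [] (sub σo (Tm.pi C D))
    · rw [den_lt hc, den_lt (GLt.conv hc (keyc _ e))]
      exact .of_eq rfl
    have hc' : ¬ GLt P rk K [] (sub σn (nf (sub τ (Tm.pi C D)))) :=
      fun h => hc (GLt.conv h (keyc _ e).symm)
    have hwn : WN (Tm.pi (sub τ C) (sub (ups τ) D)) := hW _ _ _ hΔ ((Ty.pi h1 h2 r).sub hτ)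
    rw [sub_pi, hwn.nf_pi] at hc' ⊢
    rw [den_pi hc, den_pi hc', nf_sub_nf, key C e]
    refine Sub.arrow (ih1 hΔ hτ hσ e hξ hx) (fun n hn ψ => ?_)
    rw [den_ctx _ (Γ' := sub τ C :: Δ) (.cons (conv_nf _).symm (CtxConv.refl _))]
    refine ih2 (x := x + 1) (ξ := upr ξ) (.cons hΔ (h1.sub hτ)) (hτ.up C)
      (hσ.cons (.conv hn (h1.sub hσ) (conv_nf _).symm)) (fun i => ?_) (fun i hi => ?_) hx
    · cases i with
      | zero => rfl
      | succ i => simp [e i]
    · cases i with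
      | zero => exact ⟨rfl, rfl⟩
      | succ i =>
        obtain ⟨a, b⟩ := hξ i (by omega)
        exact ⟨by simp [a], b⟩

/-- The interpretation. -/
noncomputable def interp (hW : AllWN P)
    (hG : ∀ {Γ t w}, NT P Γ t w → rk w = K → ∃ φ : S → Cand P rk K, GF φ true Γ t w) :
    Interp.{u, u} P rk K where
  Env := (ℕ → Tm S) × (ℕ → S → Cand P rk K)
  env η := η.1
  ok _ _ := True
  V Γ η A := den (nf A) Γ η.1 η.2
  ext η _ n := {η' | ∃ φ, η' = (scons n η.1, scons φ η.2)}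
  nil := (Tm.var, fun _ _ => Cand.top)
  ok_nil := trivial
  env_nil := rfl
  ext_env := by rintro η A n η' ⟨φ, rfl⟩; rfl
  ext_ok _ _ := trivial
  ext_ne η A n := ⟨_, fun _ => Cand.top, rfl⟩
  conv Γ η A A' c := by rw [c.nf_eq]
  lt Γ η A h := den_lt (GLt.conv h ((conv_nf A).sub _))
  sort Γ η s := by rw [nf_sort, den_sort]
  pi {Γ η A B s} hΓ hσ _ ht hc := by
    have hwn := hW _ _ _ hΓ ht
    obtain ⟨s1, s2, r, a, b⟩ := ht.gen_pi_sort
    have hc' : ¬ GLt P rk K [] (sub η.1 (nf (Tm.pi A B))) :=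
      fun h => hc (GLt.conv h ((conv_nf _).sub _).symm)
    rw [hwn.nf_pi] at hc' ⊢
    rw [den_pi hc', nf_sub_nf]
    have ha : Ty P Set.univ [] (sub η.1 A) (Tm.sort s1) := a.sub hσ
    have hr := (hW _ _ _ .nil ha).red_nf
    have hctx : CtxConv (nf A :: Γ) (A :: Γ) := .cons (conv_nf _).symm (CtxConv.refl _)
    apply Cand.ext
    ext m
    constructor
    · rintro ⟨h1, h2⟩
      refine ⟨h1, ?_⟩
      rintro n hn hx η' ⟨φ, rfl⟩
      have := h2 n (hn.red_type .nil hr) hx φ trivial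
      beta_reduce at this ⊢
      rwa [den_ctx _ hctx] at this
    · rintro ⟨h1, h2⟩
      refine ⟨h1, fun n hn hx φ _ => ?_⟩
      have := h2 n (.conv hn ha (conv_nf _).symm) hx _ ⟨φ, rfl⟩
      beta_reduce at this ⊢
      rwa [den_ctx _ hctx]
  weak {Γ η A n η' C s s'} hΓ _ hC hη := by
    obtain ⟨φ, rfl⟩ := hη
    have hwn := hW _ _ _ hΓ hC
    have hN : NT P Γ (nf C) s' := .of_normal (hC.red hΓ hwn.red_nf) hwn.nf_normal
    show den (nf (ren Nat.succ C)) _ _ _ = _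
    rw [hwn.nf_ren, den_ren hN (fun _ _ h => .succ _ h)]
    rfl
  subst {Γ η A B N s1 s2 s3} hΓ hσ _ hA hB _ h2 _ hN := by
    have hΓ' : Ok P Set.univ (A :: Γ) := .cons hΓ hA
    have hwn := hW _ _ _ hΓ' hB
    obtain ⟨φ, hφ⟩ := hG (NT.of_normal (hB.red hΓ' hwn.red_nf) hwn.nf_normal) h2
    refine ⟨_, ⟨φ, rfl⟩, ?_⟩
    have := den_subst hW hφ (x := 0) (ξ := Nat.pred) (τ := scons N var)
      (σo := scons (sub η.1 N) η.1) (σn := η.1) (flo := scons φ η.2) (fln := η.2) hΓ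
      ((TSub.id Γ).cons (by simpa using hN)) (hσ.cons (hN.sub hσ))
      (fun i => by cases i <;> rfl)
      (fun i hi => by
        cases i with
        | zero => exact absurd rfl hi
        | succ i => exact ⟨rfl, rfl⟩) rfl
    rw [nf_sub_nf] at this
    exact this

end K12

theorem interp_k12 (hW : AllWN P) {rk : S → ℕ}
    (hle : ∀ s1 s2 s3, P.rule s1 s2 s3 → rk s1 ≤ rk s3 ∧ rk s2 ≤ rk s3) {K : ℕ}
    (h : Col P rk K ∨ NoTriple P rk K) : Nonempty (Interp.{u, u} P rk K) := by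
  refine ⟨K12.interp hW (fun {Γ t w} ht hw => ?_)⟩
  rcases h with ⟨col, hcol⟩ | h
  · exact ⟨_, K12.gf_col hle hcol (!col w) ht hw.le (fun _ => by simp)⟩
  · obtain ⟨c, hc⟩ := K12.gf_noTriple hle h ht hw.le true
    exact ⟨_, hc⟩

end Crest.Agent.R298
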