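import Crest.Agent.R298.K3Path
import Crest.Agent.R298.Graph

/-! Without an impredicative pattern the child relation is well founded below types of both
parities. -/

set_option autoImplicit false

namespace Crest.Agent.R298

open Tm

universe u
variable {S : Type u} {P : Sys S} {rk : S → ℕ} {K : ℕ}

namespace K3Wf

open Relation

theorem acc_conv {T T' : Tm S} (h : Acc (Child P rk K) T) (c : Conv T T') :
    Acc (Child P rk K) T' :=
  Acc.intro T' fun _ hC => h.inv (hC.conv_right c.symm)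

variable (P rk K) in
/-- Sorts reachable with both parities. -/
def Both (u : S) : Prop := Par P rk K false u ∧ Par P rk K true u

theorem Both.dg {v w : S} (h : Both P rk K v) (e : DG P rk K v w) : Both P rk K w := by
  rcases e with ⟨s1, r, d⟩ | ⟨s2, r, d2, d1⟩
  · exact ⟨.cod h.1 r d, .cod h.2 r d⟩
  · exact ⟨.dom h.2 r d2 d1, .dom h.1 r d2 d1⟩

theorem Both.path {v w : S} (h : Both P rk K v) (e : ReflTransGen (DG P rk K) v w) :
    Both P rk K w := by
  induction e with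
  | refl => exact h
  | tail _ e ih => exact ih.dg e

theorem rank_le {E : S → S → Prop} (R : Rank E) {v w : S} (e : ReflTransGen E v w) :
    R.rk w ≤ R.rk v := by
  induction e with
  | refl => exact le_rfl
  | tail _ e ih => exact (R.le e).trans ih

theorem dg_path {T T' : Tm S} (p : PathTo P T T') {s : S} (h : Prof P Set.univ [] T s)
    (hp : HasPath P rk K T') :
    ∃ s', ReflTransGen (DG P rk K) s s' ∧ Prof P Set.univ [] T' s' := by
  induction p generalizing s with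
  | refl c => exact ⟨s, .refl, h.conv c⟩
  | step c hn p ih =>
    obtain ⟨s1, s2, r, -, h2⟩ := h.pi_inst .nil c
    obtain ⟨s', a, b⟩ := ih (h2 _ hn) hp
    exact ⟨s', .head (.inl ⟨s1, r, dir_of_path (h2 _ hn) (hp.of_path p)⟩) a, b⟩

theorem acc_of_not_pi {T : Tm S} (h : ∀ A B, ¬ Conv T (pi A B)) : Acc (Child P rk K) T := by
  refine Acc.intro T ?_
  rintro C ⟨-, D, n, p, -, -⟩
  cases p with
  | refl c => exact absurd c (h _ _)
  | step c _ _ => exact absurd c (h _ _)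

theorem neutral_head {t : Tm S} (h : Neutral t) :
    (∃ i, head t = var i) ∨ ∃ n A, head t = cst n A := by
  induction h with
  | var i => exact .inl ⟨i, rfl⟩
  | cst n A => exact .inr ⟨n, A, rfl⟩
  | app _ _ ih => exact ih

theorem neutral_sub {t n A : Tm S} (h : Neutral t) (e : head t = cst n A) (σ : ℕ → Tm S) :
    Neutral (sub σ t) := by
  induction h with
  | var i => cases e
  | cst n A => exact .cst _ _
  | app _ _ ih => exact .app _ (ih e)

theorem neutral_lk {Δ : List (Tm S)} {t T : Tm S} {i : ℕ} (h : Neutral t) (e : head t = var i)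
    (ht : Ty P Set.univ Δ t T) : ∃ Y, Lk Δ i Y := by
  induction h generalizing T with
  | var j =>
    cases e
    obtain ⟨A, a, -⟩ := ht.gen_var
    exact ⟨A, a⟩
  | cst n A => cases e
  | app _ _ ih =>
    obtain ⟨A, B, a, -, -⟩ := ht.gen_app
    exact ih e a

theorem neutral_prof {Δ : List (Tm S)} (hΔ : Ok P Set.univ Δ) {t T Y : Tm S} {i : ℕ} {x : S}
    (h : Neutral t) (e : head t = var i) (hl : Lk Δ i Y) (hY : Prof P Set.univ Δ Y x)
    (ht : Ty P Set.univ Δ t T) :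
    ∃ a, ReflTransGen (CE P) x a ∧ Prof P Set.univ Δ T a := by
  induction h generalizing T with
  | var j =>
    cases e
    obtain ⟨A, a, c⟩ := ht.gen_var
    cases hl.unique a
    exact ⟨x, .refl, hY.conv c.symm⟩
  | cst n A => cases e
  | app N _ ih =>
    obtain ⟨A, B, a, b, c⟩ := ht.gen_app
    obtain ⟨y, p, hy⟩ := ih e a
    obtain ⟨s1, s2, r, -, h2⟩ := hy.pi_inst hΔ .rfl
    exact ⟨s2, p.tail ⟨s1, r⟩, (h2 N b).conv c.symm⟩

/-- The children of a product. -/
theorem child_pi {Δ : List (Tm S)} {σ : ℕ → Tm S} {C D E : Tm S} {t : S}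
    (hC : Ty P Set.univ Δ C (sort t)) (hσ : TSub P Set.univ [] σ Δ)
    (h : Child P rk K E (sub σ (pi C D))) :
    ∃ n, Ty P Set.univ [] n (sub σ C) ∧ HasPath P rk K (sub (scons n σ) D) ∧
      ((Conv (sub σ C) E ∧ HasPath P rk K (sub σ C)) ∨ Child P rk K E (sub (scons n σ) D)) := by
  obtain ⟨hE, F, n, p, hn, hF⟩ := h
  have hC' : Ty P Set.univ [] (sub σ C) (sort t) := hC.sub hσ
  rw [sub_pi] at p
  cases p with
  | refl c =>
    obtain ⟨c1, c2⟩ := c.pi_inj
    refine ⟨n, .conv hn hC' c1.symm, ?_, .inl ⟨c1, hE.conv c1.symm⟩⟩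
    rw [← inst_sub_ups]
    exact hF.conv (Conv.inst .rfl c2.symm)
  | @step _ C1 D1 m _ c hm q =>
    obtain ⟨c1, c2⟩ := c.pi_inj
    have hch : Child P rk K E (sub (scons m σ) D) := by
      rw [← inst_sub_ups]
      exact Child.conv_right ⟨hE, F, n, q, hn, hF⟩ (Conv.inst .rfl c2.symm)
    exact ⟨m, .conv hm hC' c1.symm, hch.hasPath, .inr hch⟩

theorem nf_ty (hW : AllWN P) {T : Tm S} {s : S} (h : Prof P Set.univ [] T s) :
    Normal (nf T) ∧ Ty P Set.univ [] (nf T) (sort s) := by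
  have hw : WN T := by
    obtain ⟨T', c, hT⟩ := h
    exact (hW _ _ _ .nil hT).conv c.symm
  exact ⟨hw.nf_normal, (h.conv (conv_nf T)).normal .nil hw.nf_normal⟩

/-- The case of a component with an internal domain edge. -/
theorem caseB (h : ¬ Pattern P rk K) (R : Rank (DG P rk K)) {u s1 s2 s3 : S}
    (hu : Both P rk K u) (r : P.rule s1 s2 s3) (d2 : Dir P rk K s2) (d1 : Dir P rk K s1)
    (p3 : ReflTransGen (DG P rk K) u s3) (p1 : ReflTransGen (DG P rk K) s1 u)
    (IH : ∀ w T, R.rk w < R.rk u → Both P rk K w → Prof P Set.univ [] T w → Acc (Child P rk K) T)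
    (D : Tm S) : ∀ (Δ : List (Tm S)) (w : S) (σ : ℕ → Tm S), Normal D → Ok P Set.univ Δ →
      Ty P Set.univ Δ D (sort w) → ReflTransGen (DG P rk K) u w → TSub P Set.univ [] σ Δ →
      (∀ i Y, Lk Δ i Y → ∃ x1 x2 x3, P.rule x1 x2 x3 ∧ ReflTransGen (DG P rk K) u x3 ∧
        ReflTransGen (DG P rk K) x2 w ∧ Prof P Set.univ Δ Y x1) →
      Acc (Child P rk K) (sub σ D) := by
  have hinc : ∃ x, DG P rk K u x ∨ DG P rk K x u := by
    rcases p3.cases_head with rfl | ⟨x, e, -⟩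
    · exact ⟨s1, .inl (.inr ⟨s2, r, d2, d1⟩)⟩
    · exact ⟨x, .inl e⟩
  have hneu : ∀ (D : Tm S) (Δ : List (Tm S)) (w : S) (σ : ℕ → Tm S), Neutral D →
      Ok P Set.univ Δ →
      Ty P Set.univ Δ D (sort w) → ReflTransGen (DG P rk K) u w → TSub P Set.univ [] σ Δ →
      (∀ i Y, Lk Δ i Y → ∃ x1 x2 x3, P.rule x1 x2 x3 ∧ ReflTransGen (DG P rk K) u x3 ∧
        ReflTransGen (DG P rk K) x2 w ∧ Prof P Set.univ Δ Y x1) →
      Acc (Child P rk K) (sub σ D) := by
    intro D Δ w σ hD hΔ ht puw hσ inv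
    rcases (rank_le R puw).lt_or_eq with hlt | heq
    · exact IH w _ hlt (hu.path puw) (ht.prof.sub hσ)
    have pwu : ReflTransGen (DG P rk K) w u := (R.conn hinc heq.symm).2
    rcases neutral_head hD with ⟨i, e⟩ | ⟨n, A, e⟩
    · obtain ⟨Y, hY⟩ := neutral_lk hD e ht
      obtain ⟨x1, x2, x3, rx, q3, q2, hp⟩ := inv i Y hY
      obtain ⟨a, pa, ha⟩ := neutral_prof hΔ hD e hY hp ht
      exact absurd ⟨w, x1, x2, x3, a, s1, s2, s3, (hu.path puw).1, (hu.path puw).2, rx,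
        pwu.trans q3, q2, pa, ha.sort_inv hΔ .rfl, r, d2, d1, pwu.trans p3, p1.trans puw⟩ h
    · exact acc_of_not_pi fun _ _ => (neutral_sub hD e σ).not_conv_pi
  induction D with
  | pi C D ihC ihD =>
    intro Δ w σ hn hΔ ht puw hσ inv
    obtain ⟨t1, t2, rt, hC, hD⟩ := ht.gen_pi_sort
    obtain ⟨nC, nD⟩ := Normal.pi_iff.1 hn
    refine Acc.intro _ fun E hE => ?_
    obtain ⟨n, hn', hp, hcase⟩ := child_pi hC hσ hE
    have hσ' : TSub P Set.univ [] (scons n σ) (C :: Δ) := hσ.cons hn'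
    have e2 : Dir P rk K t2 := dir_of_path (hD.prof.sub hσ') hp
    rcases hcase with ⟨c, hpC⟩ | hch
    · have e1 : Dir P rk K t1 := dir_of_path (hC.prof.sub hσ) hpC
      have g : DG P rk K w t1 := .inr ⟨t2, rt, e2, e1⟩
      refine acc_conv (ihC Δ t1 σ nC hΔ hC (puw.tail g) hσ fun i Y hY => ?_) c
      obtain ⟨x1, x2, x3, rx, q3, q2, hq⟩ := inv i Y hY
      exact ⟨x1, x2, x3, rx, q3, q2.tail g, hq⟩
    · have g : DG P rk K w t2 := .inl ⟨t1, rt, e2⟩
      refine (ihD (C :: Δ) t2 _ nD (.cons hΔ hC) hD (puw.tail g) hσ' fun i Y hY => ?_).inv hch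
      cases hY with
      | zero => exact ⟨t1, t2, w, rt, puw, .refl, hC.prof.weak C⟩
      | succ _ hY =>
        obtain ⟨x1, x2, x3, rx, q3, q2, hq⟩ := inv _ _ hY
        exact ⟨x1, x2, x3, rx, q3, q2.tail g, hq.weak C⟩
  | sort k => exact fun _ _ _ _ _ _ _ _ _ => acc_of_not_pi fun _ _ => Conv.not_sort_pi
  | _ =>
    intro Δ w σ hn hΔ ht puw hσ inv
    rcases ht.normal_type_cases hn with hD | ⟨k, e⟩ | ⟨A, B, e⟩
    · exact hneu _ Δ w σ hD hΔ ht puw hσ inv
    · cases e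
    · cases e

theorem both_acc (hF : FinRules P) (hW : AllWN P) (h : ¬ Pattern P rk K) {u : S} {T : Tm S}
    (hu : Both P rk K u) (hT : Prof P Set.univ [] T u) : Acc (Child P rk K) T := by
  obtain ⟨R⟩ := exists_rank (DG P rk K) (hF.dg_finite rk K)
  generalize hr : R.rk u = r
  induction r using Nat.strong_induction_on generalizing u T with
  | _ r ih =>
  subst hr
  have IH : ∀ w T, R.rk w < R.rk u → Both P rk K w → Prof P Set.univ [] T w →
      Acc (Child P rk K) T := fun w T hlt hw hT => ih _ hlt hw hT rfl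
  by_cases hc : ∃ s1 s2 s3, P.rule s1 s2 s3 ∧ Dir P rk K s2 ∧ Dir P rk K s1 ∧
      ReflTransGen (DG P rk K) u s3 ∧ ReflTransGen (DG P rk K) s1 u
  · obtain ⟨s1, s2, s3, r, d2, d1, p3, p1⟩ := hc
    obtain ⟨hn, ht⟩ := nf_ty hW hT
    have := caseB h R hu r d2 d1 p3 p1 IH (nf T) [] u var hn .nil ht .refl (TSub.nil _ _)
      fun i Y hY => absurd hY Lk.not_nil
    rw [sub_id] at this
    exact acc_conv this (conv_nf T).symm
  · refine Acc.intro _ ?_
    rintro C ⟨hC, D, n, p, hn, hD⟩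
    obtain ⟨s3, p3, h3⟩ := dg_path p hT (HasPath.step .rfl hn hD)
    obtain ⟨s1, s2, r, h1, h2⟩ := h3.pi_inst .nil .rfl
    have d2 : Dir P rk K s2 := dir_of_path (h2 n hn) hD
    have d1 : Dir P rk K s1 := dir_of_path h1 hC
    have g : DG P rk K s3 s1 := .inr ⟨s2, r, d2, d1⟩
    rcases (rank_le R (p3.tail g)).lt_or_eq with hlt | heq
    · exact IH s1 C hlt (hu.path (p3.tail g)) h1
    · exact absurd ⟨s1, s2, s3, r, d2, d1, p3, (R.conn ⟨s3, .inr g⟩ heq).1⟩ hc

theorem bicoloured (hF : FinRules P) (hW : AllWN P) (h : ¬ Pattern P rk K) (D : Tm S) :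
    ∀ (Δ : List (Tm S)) (b : Bool) (s s' : S) (σ : ℕ → Tm S), Normal D →
      Ty P Set.univ Δ D (sort s) → Ty P Set.univ Δ D (sort s') → Par P rk K b s →
      Par P rk K (!b) s' → TSub P Set.univ [] σ Δ → Acc (Child P rk K) (sub σ D) := by
  induction D with
  | pi C D ihC ihD =>
    intro Δ b s s' σ hn ht ht' hb hb' hσ
    obtain ⟨t1, t2, rt, hC, hD⟩ := ht.gen_pi_sort
    obtain ⟨t1', t2', rt', hC', hD'⟩ := ht'.gen_pi_sort
    obtain ⟨nC, nD⟩ := Normal.pi_iff.1 hn
    refine Acc.intro _ fun E hE => ?_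
    obtain ⟨n, hn', hp, hcase⟩ := child_pi hC hσ hE
    have hσ' : TSub P Set.univ [] (scons n σ) (C :: Δ) := hσ.cons hn'
    have e2 : Dir P rk K t2 := dir_of_path (hD.prof.sub hσ') hp
    have e2' : Dir P rk K t2' := dir_of_path (hD'.prof.sub hσ') hp
    rcases hcase with ⟨c, hpC⟩ | hch
    · have e1 : Dir P rk K t1 := dir_of_path (hC.prof.sub hσ) hpC
      have e1' : Dir P rk K t1' := dir_of_path (hC'.prof.sub hσ) hpC
      exact acc_conv (ihC Δ (!b) t1 t1' σ nC hC hC' (.dom hb rt e2 e1) (.dom hb' rt' e2' e1')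
        hσ) c
    · exact (ihD (C :: Δ) b t2 t2' _ nD hD hD' (.cod hb rt e2) (.cod hb' rt' e2') hσ').inv hch
  | sort k => exact fun _ _ _ _ _ _ _ _ _ _ _ => acc_of_not_pi fun _ _ => Conv.not_sort_pi
  | _ =>
    intro Δ b s s' σ hn ht ht' hb hb' hσ
    rcases ht.normal_type_cases hn with hD | ⟨k, e⟩ | ⟨A, B, e⟩
    · cases (hD.type_unique (CtxConv.refl Δ) ht ht').sort_inj
      refine both_acc hF hW h (u := s) ?_ (ht.prof.sub hσ)
      cases b
      · exact ⟨hb, hb'⟩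
      · exact ⟨hb', hb⟩
    · cases e
    · cases e

end K3Wf

theorem wfBoth (hF : FinRules P) (hW : AllWN P) (h : ¬ Pattern P rk K) : WfBoth P rk K := by
  rintro T ⟨s, hs, hb⟩ ⟨s', hs', hb'⟩
  obtain ⟨hn, ht⟩ := K3Wf.nf_ty hW hs
  obtain ⟨-, ht'⟩ := K3Wf.nf_ty hW hs'
  have := K3Wf.bicoloured hF hW h (nf T) [] false s s' var hn ht ht' hb hb' (TSub.nil _ _)
  rw [sub_id] at this
  exact K3Wf.acc_conv this (conv_nf T).symm

end Crest.Agent.R298
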