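import Crest.Agent.R298.K3RT
import Crest.Agent.R298.K3Wf

/-! Interpretation for a component without an impredicative pattern. -/

set_option autoImplicit false

namespace Crest.Agent.R298

open Tm

universe u
variable {S : Type u} {P : Sys S}

/-- Variables are either inert or have a type which is not of the ungenerated class. -/
def EnvOK {rk : S → ℕ} {K : ℕ} (Γ : List (Tm S)) (τ : ℕ → Option (Tm S)) (σ : ℕ → Tm S)
    (δ : ℕ → AV P rk K) : Prop :=
  ∀ i A, Lk Γ i A → (τ i = none ∧ δ i = junk) ∨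
    (¬ NG P rk K (sub σ A) ∧ ∀ C, τ i = some C → Conv C (sub σ A))

/-- The head of a neutral term is a variable or a constant. -/
theorem K3.neutral_head {t : Tm S} (h : Neutral t) :
    (∃ i, head t = var i) ∨ ∃ n A, head t = cst n A := by
  induction h with
  | var i => exact .inl ⟨i, rfl⟩
  | cst n A => exact .inr ⟨n, A, rfl⟩
  | app _ _ ih => exact ih

/-- The head variable of a typed neutral term is declared. -/
theorem K3.neutral_lk {Γ : List (Tm S)} {t T : Tm S} {i : ℕ} (hn : Neutral t)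
    (hh : head t = var i) (h : Ty P Set.univ Γ t T) : ∃ A, Lk Γ i A := by
  induction hn generalizing T with
  | var j =>
    cases hh
    obtain ⟨A, a, -⟩ := h.gen_var
    exact ⟨A, a⟩
  | cst n A => cases hh
  | app N _ ih =>
    obtain ⟨C, D, a, -, -⟩ := h.gen_app
    exact ih hh a

/-- The type of a neutral term whose head variable has a generated type is generated. -/
theorem K3.neutral_isP {rk : S → ℕ} {K : ℕ} {Γ : List (Tm S)} {σ : ℕ → Tm S}
    (hσ : TSub P Set.univ [] σ Γ) {t T A : Tm S} {i : ℕ} (hn : Neutral t)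
    (hh : head t = var i) (hl : Lk Γ i A) (hA : ¬ NG P rk K (sub σ A))
    (h : Ty P Set.univ Γ t T) (hp : HasPath P rk K (sub σ T)) :
    ∃ b, IsP P rk K b (sub σ T) := by
  induction hn generalizing T with
  | var j =>
    cases hh
    obtain ⟨A', a, c⟩ := h.gen_var
    cases hl.unique a
    exact isP_of_not_ng (fun h => hA ((ng_congr (c.sub σ)).1 h)) hp
  | cst n A => cases hh
  | app N _ ih =>
    obtain ⟨C, D, a, b, c⟩ := h.gen_app
    have c' : Conv (sub σ T) (Tm.inst (sub σ N) (sub (ups σ) D)) := by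
      rw [← sub_inst']; exact c.sub σ
    have hN : Ty P Set.univ [] (sub σ N) (sub σ C) := b.sub hσ
    obtain ⟨x, hx⟩ := ih hh a (HasPath.step .rfl hN (hp.conv c'))
    exact ⟨x, (hx.cod .rfl hN (hp.conv c')).conv c'.symm⟩

theorem EnvOK.cons {rk : S → ℕ} {K : ℕ} {Γ : List (Tm S)} {τ : ℕ → Option (Tm S)}
    {σ : ℕ → Tm S} {δ : ℕ → AV P rk K} (he : EnvOK Γ τ σ δ) {A n : Tm S} {o : Option (Tm S)}
    {a : AV P rk K} (h : (o = none ∧ a = junk) ∨
      (¬ NG P rk K (sub σ A) ∧ ∀ C, o = some C → Conv C (sub σ A))) :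
    EnvOK (A :: Γ) (scons o τ) (scons n σ) (scons a δ) := by
  intro i B hB
  cases hB with
  | zero => simpa using h
  | succ _ hB => simpa using he _ _ hB

theorem RT.of_normal (hW : AllWN P) {rk : S → ℕ} {K : ℕ} (hwf : WfBoth P rk K)
    (hle : ∀ s1 s2 s3, P.rule s1 s2 s3 → rk s1 ≤ rk s3 ∧ rk s2 ≤ rk s3)
    {Γ : List (Tm S)} {τ : ℕ → Option (Tm S)} {σ : ℕ → Tm S} {δ : ℕ → AV P rk K} {t T : Tm S}
    {π : Stack P rk K} (hΓ : Ok P Set.univ Γ) (hσ : TSub P Set.univ [] σ Γ)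
    (he : EnvOK Γ τ σ δ) (h : Ty P Set.univ Γ t T) (hn : Normal t) (hπ : Stk (sub σ T) π)
    (hg : π = [] ∨ ¬ NG P rk K (sub σ T)) : RT τ σ δ t π := by
  induction t generalizing Γ τ σ δ T π with
  | var i =>
    obtain ⟨A, a, c⟩ := h.gen_var
    rcases he i A a with ⟨h1, h2⟩ | ⟨-, h2⟩
    · exact .opqv (.var i) rfl h1 h2
    · exact .var fun C hC => hπ.conv ((c.sub σ).trans (h2 C hC).symm)
  | sort s => exact .sort
  | cst n A _ _ => exact .opqc (.cst n A) rfl
  | app F N ihF ihN =>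
    have hneu : Neutral (Tm.app F N) := by
      rcases h.normal_cases hn with h1 | ⟨_, h1⟩ | ⟨_, _, h1⟩ | ⟨_, _, h1⟩
      · exact h1
      · cases h1
      · cases h1
      · cases h1
    have hF : Neutral F := by cases hneu with | app _ h => exact h
    rcases K3.neutral_head hneu with ⟨i, hi⟩ | ⟨n, A, hi⟩
    · obtain ⟨A, hA⟩ := K3.neutral_lk hneu hi h
      rcases he i A hA with ⟨h1, h2⟩ | ⟨h1, -⟩
      · exact .opqv hneu hi h1 h2
      · obtain ⟨C, D, a, b, c⟩ := h.gen_app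
        obtain ⟨n1, n2, -⟩ := Normal.app_iff.1 hn
        have c' : Conv (sub σ T) (Tm.inst (sub σ N) (sub (ups σ) D)) := by
          rw [← sub_inst']; exact c.sub σ
        have hN : Ty P Set.univ [] (sub σ N) (sub σ C) := b.sub hσ
        have hp := hπ.hasPath.conv c'
        obtain ⟨x, hx⟩ := K3.neutral_isP hσ hF hi hA h1 a (HasPath.step .rfl hN hp)
        have hC : ¬ NG P rk K (sub σ C) := fun hC => not_ng_of_isP (hx.dom .rfl hN hp hC.1) hC
        refine .app (a.sub hσ) hC ?_ fun π' hπ' => ihN hΓ hσ he b n2 hπ' (.inr hC)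
        exact ihF hΓ hσ he a n1 (.cons .rfl hN (pack_mem hwf _ _) (hπ.conv c'))
          (.inr (not_ng_of_isP hx))
    · exact .opqc hneu hi
  | lam A M _ ihM =>
    obtain ⟨B, s1, s2, s3, r, hA, hB, hM, c⟩ := h.gen_lam
    have c' : Conv (sub σ T) (Tm.pi (sub σ A) (sub (ups σ) B)) := c.sub σ
    have hp := hπ.hasPath
    cases hπ with
    | nil d _ => exact absurd (d.symm.trans c') Conv.not_sort_pi
    | @cons _ C D n a π d hnC ha hπ =>
      have hg' : ¬ NG P rk K (sub σ T) := by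
        rcases hg with hg | hg
        · cases hg
        · exact hg
      obtain ⟨x, hx⟩ := isP_of_not_ng hg' hp
      obtain ⟨e1, e2⟩ := (d.symm.trans c').pi_inj
      have hnA : Ty P Set.univ [] n (sub σ A) := .conv hnC (hA.sub hσ) e1
      have e3 : Conv (Tm.inst n D) (sub (scons n σ) B) := by
        rw [← inst_sub_ups]; exact Conv.inst .rfl e2
      have hA' : ¬ NG P rk K (sub σ A) := fun hC =>
        not_ng_of_isP ((hx.dom d hnC hπ.hasPath (hC.1.conv e1.symm)).conv e1) hC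
      refine .lam (ihM (.cons hΓ hA) (hσ.cons hnA) (he.cons (.inr ⟨hA', ?_⟩)) hM
        (Normal.lam_iff.1 hn).2 (hπ.conv e3)
        (.inr (not_ng_of_isP ((hx.cod d hnC hπ.hasPath).conv e3))))
      intro C' hC'
      cases hC'
      exact .rfl
  | pi A B ihA ihB =>
    obtain ⟨s1, s2, s3, r, hA, hB, c⟩ := h.gen_pi
    have c' : Conv (sub σ T) (Tm.sort s3) := c.sub σ
    have hK : rk s3 = K := by
      cases hπ with
      | nil d hk => rw [(c'.symm.trans d).sort_inj]; exact hk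
      | cons d _ _ _ => exact absurd (c'.symm.trans d) Conv.not_sort_pi
    obtain ⟨l1, l2⟩ := hle _ _ _ r
    obtain ⟨n1, n2⟩ := Normal.pi_iff.1 hn
    refine .pi (fun hlt => ?_) (fun n a hnA ha hlt => ?_)
    · have h1 : rk s1 = K := by
        by_contra h1
        exact hlt ⟨s1, (hA.sub hσ).prof, by omega⟩
      exact ihA hΓ hσ he hA n1 (.nil .rfl h1) (.inl rfl)
    · have hnA' : Ty P Set.univ [] n (sub σ A) := .conv hnA (hA.sub hσ) (conv_nf _).symm
      have h2 : rk s2 = K := by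
        by_contra h2
        exact hlt ⟨s2, (hB.sub (hσ.cons hnA')).prof, by omega⟩
      refine ihB (.cons hΓ hA) (hσ.cons hnA') (he.cons ?_) hB n2 (.nil .rfl h2) (.inl rfl)
      by_cases hA' : NG P rk K (sub σ A)
      · exact .inl ⟨rfl, eq_junk_of_ng hwf hA' ha⟩
      · exact .inr ⟨hA', fun C hC => by cases hC⟩
  | mem M Q _ _ => exact absurd hn Normal.not_mem

theorem interp_of_wf (hW : AllWN P) {rk : S → ℕ} {K : ℕ} (hwf : WfBoth P rk K)
    (hle : ∀ s1 s2 s3, P.rule s1 s2 s3 → rk s1 ≤ rk s3 ∧ rk s2 ≤ rk s3) :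
    Nonempty (Interp.{u, u + 1} P rk K) := by
  classical
  refine ⟨{
    Env := (ℕ → Tm S) × (ℕ → AV P rk K)
    env := fun η => η.1
    ok := fun Γ η => ∀ i A, Lk Γ i A → η.2 i = junk ∨ ¬ NG P rk K (sub η.1 A)
    V := fun _ η A => cut (sub η.1 A) (den (nf A) η.1 η.2 [])
    ext := fun η A n => {η' | ∃ a ∈ SemQ P rk K (sub η.1 A), η' = (scons n η.1, scons a η.2)}
    nil := (Tm.var, fun _ => junk)
    ok_nil := fun i A h => absurd h Lk.not_nil
    env_nil := rfl
    ext_env := ?_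
    ext_ok := ?_
    ext_ne := ?_
    conv := ?_
    lt := ?_
    sort := ?_
    pi := ?_
    weak := ?_
    subst := ?_ }⟩
  · rintro η A n η' ⟨a, -, rfl⟩
    rfl
  · rintro Γ η A n η' h ⟨a, ha, rfl⟩ i B hB
    cases hB with
    | zero =>
      by_cases hA : NG P rk K (sub η.1 A)
      · exact .inl (eq_junk_of_ng hwf hA ha)
      · exact .inr (by simpa using hA)
    | succ _ hB => simpa using h _ _ hB
  · intro η A n
    obtain ⟨a, ha⟩ := semQ_nonempty hwf (sub η.1 A)
    exact ⟨_, a, ha, rfl⟩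
  · intro Γ η A A' c
    rw [c.nf_eq, cut_conv (c.sub η.1)]
  · intro Γ η A h
    simp only [cut, if_pos h]
  · intro Γ η s
    simp only [nf_sort, cut, den, ite_self]
  · rintro Γ ⟨σ, δ⟩ A B s hΓ hσ - h hlt
    obtain ⟨s1, s2, r, hA, hB⟩ := h.gen_pi_sort
    have hAσ : Ty P Set.univ [] (sub σ A) (sort s1) := hA.sub hσ
    have e1 : ∀ n, Ty P Set.univ [] n (nf (sub σ (nf A))) ↔ Ty P Set.univ [] n (sub σ A) := by
      intro n
      rw [nf_sub_nf]
      exact ⟨fun hn => .conv hn hAσ (conv_nf _).symm,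
        fun hn => hn.red_type .nil (hW _ _ _ .nil hAσ).red_nf⟩
    have e2 : Conv (sub σ (nf A)) (sub σ A) := (conv_nf A).symm.sub σ
    have e3 : ∀ n, Conv (sub (scons n σ) (nf B)) (sub (scons n σ) B) :=
      fun n => (conv_nf B).symm.sub _
    simp only at hlt ⊢
    rw [cut, if_neg hlt, (hW _ _ _ hΓ h).nf_pi]
    simp only [den]
    rw [cut_conv e2, semQ_conv hwf e2]
    simp only [cut_conv (e3 _)]
    refine Cand.ext (Set.ext fun m => ?_)
    simp only [Cand.arrow, Set.mem_ofPred_eq, e1]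
    refine and_congr_right fun _ => forall_congr' fun n => forall_congr' fun _ =>
      forall_congr' fun _ => ⟨?_, ?_⟩
    · rintro H η' ⟨a, ha, rfl⟩
      exact H a ha
    · intro H a ha
      exact H _ ⟨a, ha, rfl⟩
  · rintro Γ ⟨σ, δ⟩ A n η' C s s' hΓ - hC ⟨a, -, rfl⟩
    simp only [sub_scons_lift]
    rw [lift, (hW _ _ _ hΓ hC).nf_ren, den_ren]
    rfl
  · rintro Γ ⟨σ, δ⟩ A B N s1 s2 s3 hΓ hσ hok hA hB r h2 h3 hN
    simp only at hσ hok ⊢
    have hAσ : Ty P Set.univ [] (sub σ A) (sort s1) := hA.sub hσ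
    have hP : HasPath P rk K (sub σ A) → IsP P rk K false (sub σ A) := fun hp =>
      ⟨s1, hAσ.prof, .base ⟨s2, s3, r, h2, h3⟩ (dir_of_path hAσ.prof hp)⟩
    have hOo : ¬ Oo P rk K (sub σ A) := fun h => h.2.1 (hP h.1)
    have hNG : ¬ NG P rk K (sub σ A) := fun h => h.2.1 (hP h.1)
    refine ⟨_, ⟨pack (sub σ A) (den (nf N) σ δ), pack_mem_semQ hwf hOo _, rfl⟩, ?_⟩
    have he : EnvOK Γ (fun _ => none) σ δ := fun i X hX =>
      (hok i X hX).imp (fun h => ⟨rfl, h⟩) (fun h => ⟨h, fun C hC => by cases hC⟩)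
    have wN := hW _ _ _ hΓ hN
    have wB := hW _ _ _ (.cons hΓ hA) hB
    have hN' : Ty P Set.univ Γ (nf N) A := hN.red hΓ wN.red_nf
    have hB' : Ty P Set.univ (A :: Γ) (nf B) (sort s2) := hB.red (.cons hΓ hA) wB.red_nf
    have r1 : RT (scons (some (sub σ A)) fun _ => none) (scons (sub σ (nf N)) σ)
        (scons (pack (sub σ A) (den (nf N) σ δ)) δ) (nf B) [] :=
      RT.of_normal hW hwf hle (.cons hΓ hA) (hσ.cons (hN'.sub hσ))
        (he.cons (.inr ⟨hNG, fun C hC => by cases hC; exact .rfl⟩)) hB' wB.nf_normal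
        (.nil .rfl h2) (.inl rfl)
    obtain ⟨r2, d2⟩ := r1.inst hW hwf hNG fun π' hπ' =>
      RT.of_normal hW hwf hle hΓ hσ he hN' wN.nf_normal hπ' (.inr hNG)
    have wI : WN (Tm.inst N B) := hW _ _ _ hΓ (hB.inst hN)
    have red : Red (Tm.inst (nf N) (nf B)) (nf (Tm.inst N B)) :=
      ((Conv.inst (conv_nf N).symm (conv_nf B).symm).trans (conv_nf _)).red_normal wI.nf_normal
    obtain ⟨-, d3⟩ := r2.red hW hwf red
    have d1 : den (nf B) (scons (sub σ N) σ) (scons (pack (sub σ A) (den (nf N) σ δ)) δ) [] =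
        den (nf B) (scons (sub σ (nf N)) σ) (scons (pack (sub σ A) (den (nf N) σ δ)) δ) [] := by
      refine den_conv hwf _ _ (fun i => ?_) (StackConv.refl _)
      cases i with
      | zero => exact (conv_nf N).sub σ
      | succ i => exact .rfl
    simp only [sub_inst]
    rw [d1, d2, d3]

theorem interp_k3 (hF : FinRules P) (hW : AllWN P) {rk : S → ℕ}
    (hle : ∀ s1 s2 s3, P.rule s1 s2 s3 → rk s1 ≤ rk s3 ∧ rk s2 ≤ rk s3) {K : ℕ}
    (h : ¬ Pattern P rk K) : Nonempty (Interp.{u, u + 1} P rk K) :=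
  interp_of_wf hW (wfBoth hF hW h) hle

end Crest.Agent.R298
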