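import Crest.Agent.R298.Defs

/-! Definitions for the semantic model: instantiation paths of closed types, semantic values,
stacks, packing, the denotation of terms and the run-time predicate. -/

set_option autoImplicit false

namespace Crest.Agent.R298

open Tm

universe u
variable {S : Type u}

/-! ### Paths -/

/-- Instantiating codomains by closed typed arguments leads from the first type to the second. -/
inductive PathTo (P : Sys S) : Tm S → Tm S → Prop
  | refl {T T' : Tm S} : Conv T T' → PathTo P T T'
  | step {T C D n T' : Tm S} : Conv T (pi C D) → Ty P Set.univ [] n C → PathTo P (inst n D) T' →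
      PathTo P T T'

section Paths
variable (P : Sys S) (rk : S → ℕ) (K : ℕ)

/-- Some path ends in a sort of rank `K`. -/
def HasPath (T : Tm S) : Prop := ∃ k, rk k = K ∧ PathTo P T (sort k)

/-- The closed type has a sort of parity `b`. -/
def IsP (b : Bool) (T : Tm S) : Prop := ∃ s, Prof P Set.univ [] T s ∧ Par P rk K b s

/-- `C` is a domain met along a complete path of `T`, and has itself a complete path. -/
def Child (C T : Tm S) : Prop :=
  HasPath P rk K C ∧ ∃ D n, PathTo P T (pi C D) ∧ Ty P Set.univ [] n C ∧
    HasPath P rk K (inst n D)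

def Sm (T : Tm S) : Prop := ¬ HasPath P rk K T ∨ (IsP P rk K false T ∧ IsP P rk K true T)
def Eo (T : Tm S) : Prop := HasPath P rk K T ∧ IsP P rk K false T ∧ ¬ IsP P rk K true T
def Oo (T : Tm S) : Prop := HasPath P rk K T ∧ ¬ IsP P rk K false T ∧ IsP P rk K true T
def NG (T : Tm S) : Prop := HasPath P rk K T ∧ ¬ IsP P rk K false T ∧ ¬ IsP P rk K true T

/-- Well-foundedness of the child relation below types of both parities. -/
def WfBoth : Prop := ∀ T, IsP P rk K false T → IsP P rk K true T → Acc (Child P rk K) T

/-! ### Values -/

/-- Codes of stacks (`nil`, `cons`) and functionals with small support (`node`). -/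
inductive Val : Type (u + 1)
  | nil : Val
  | cons (n : Tm S) (a : Val) (r : Val) : Val
  | node (J : Type u) (skel : J → Val) (I : Type u) (pos : I → ℕ) (pt : I → Val)
      (comb : J → (I → Cand P rk K) → Cand P rk K) : Val

/-- Argument values. -/
abbrev AV : Type (u + 1) := Val P rk K ⊕ (Val P rk K → Cand P rk K)

abbrev Stack : Type (u + 1) := List (Tm S × AV P rk K)

end Paths

section Values
variable {P : Sys S} {rk : S → ℕ} {K : ℕ}

instance : Nonempty (Val P rk K) := ⟨.nil⟩

def junk : AV P rk K := .inl .nil

/-- Code (skeleton) of a stack: terms are normalised, functional values are forgotten. -/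
noncomputable def enc : Stack P rk K → Val P rk K
  | [] => .nil
  | (n, .inl v) :: π => .cons (nf n) v (enc π)
  | (n, .inr _) :: π => .cons (nf n) .nil (enc π)

def dec : Val P rk K → Stack P rk K
  | .cons n a r => (n, .inl a) :: dec r
  | _ => []

/-- Value at the point `v` of the functional argument in position `p`. -/
def evalAt (π : Stack P rk K) (p : ℕ) (v : Val P rk K) : Cand P rk K :=
  match π[p]? with
  | some (_, .inr e) => e v
  | _ => Cand.top

open Classical in
noncomputable def unnode : Val P rk K → Stack P rk K → Cand P rk K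
  | .node _ skel _ pos pt comb, π =>
    if h : ∃ j, skel j = enc π then comb h.choose (fun i => evalAt π (pos i) (pt i))
    else Cand.top
  | _, _ => Cand.top

noncomputable def unpack : AV P rk K → Stack P rk K → Cand P rk K
  | .inl v, π => unnode v π
  | .inr e, π => e (enc π)

/-- Valid stacks for a closed type, relative to an assignment of value sets to types. -/
inductive StkW (Sem : Tm S → Set (AV P rk K)) : Tm S → Stack P rk K → Prop
  | nil {T : Tm S} {k : S} : Conv T (sort k) → rk k = K → StkW Sem T []
  | cons {T C D n : Tm S} {a : AV P rk K} {π : Stack P rk K} : Conv T (pi C D) →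
      Ty P Set.univ [] n C → a ∈ Sem C → StkW Sem (inst n D) π → StkW Sem T ((n, a) :: π)

open Classical in
noncomputable def packW (Sem : Tm S → Set (AV P rk K)) (C : Tm S)
    (f : Stack P rk K → Cand P rk K) : AV P rk K :=
  if Eo P rk K C then .inr (fun v => if StkW Sem C (dec v) then f (dec v) else Cand.top)
  else if NG P rk K C then junk
  else .inl (Classical.epsilon fun v => ∀ π, StkW Sem C π → unnode v π = f π)

open Classical in
noncomputable def SemF (Sem : Tm S → Set (AV P rk K)) (C : Tm S) : Set (AV P rk K) :=
  if Eo P rk K C then Set.range Sum.inr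
  else if Oo P rk K C then Set.range Sum.inl
  else if NG P rk K C then {junk}
  else Set.range (packW Sem C)

variable (P rk K) in
/-- Value sets: a fixed point of `SemF`. -/
noncomputable def SemV : Tm S → Set (AV P rk K) :=
  Classical.epsilon fun Sem => ∀ C, Sem C = SemF Sem C

abbrev Stk (T : Tm S) (π : Stack P rk K) : Prop := StkW (SemV P rk K) T π

noncomputable abbrev pack (C : Tm S) (f : Stack P rk K → Cand P rk K) : AV P rk K :=
  packW (SemV P rk K) C f

variable (P rk K) in
open Classical in
/-- Values over which products quantify. -/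
noncomputable def SemQ (C : Tm S) : Set (AV P rk K) :=
  if Oo P rk K C then {junk} else SemV P rk K C

variable (P rk K) in
/-- Values of small types. -/
def X0 : Set (Val P rk K) := {v | v = .nil ∨ ∃ C, Sm P rk K C ∧ Sum.inl v ∈ SemV P rk K C}

/-- All first-order values of the stack lie in `X`. -/
def XStack (X : Set (Val P rk K)) (π : Stack P rk K) : Prop :=
  ∀ x ∈ π, ∀ v, x.2 = Sum.inl v → v ∈ X

/-- Stacks with the same values and convertible terms. -/
def StackConv (π π' : Stack P rk K) : Prop :=
  List.Forall₂ (fun x y => Conv x.1 y.1 ∧ x.2 = y.2) π π'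

/-- Stacks with the same values whose terms reduce. -/
def StackRed (π π' : Stack P rk K) : Prop :=
  List.Forall₂ (fun x y => Red x.1 y.1 ∧ x.2 = y.2) π π'

variable (P) in
/-- The domain of the type of a closed function. -/
noncomputable def Dom (F : Tm S) : Tm S :=
  @Classical.epsilon _ ⟨var 0⟩ fun C => ∃ D, Ty P Set.univ [] (nf F) (pi C D)

open Classical in
noncomputable def cut (T : Tm S) (X : Cand P rk K) : Cand P rk K :=
  if GLt P rk K [] T then Cand.top else X

/-- Denotation of a term under a closing substitution, values for the variables and a stack. -/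
noncomputable def den : Tm S → (ℕ → Tm S) → (ℕ → AV P rk K) → Stack P rk K → Cand P rk K
  | var i => fun _ δ π => unpack (δ i) π
  | sort _ => fun _ _ _ => Cand.top
  | cst _ _ => fun _ _ _ => Cand.top
  | app F N => fun σ δ π => den F σ δ ((sub σ N, pack (Dom P (sub σ F)) (den N σ δ)) :: π)
  | lam _ M => fun σ δ π =>
    match π with
    | [] => Cand.top
    | x :: π => den M (scons x.1 σ) (scons x.2 δ) π
  | pi A B => fun σ δ _ =>
    Cand.arrow (nf (sub σ A)) (cut (sub σ A) (den A σ δ [])) (fun _ => SemQ P rk K (sub σ A))
      (fun n a => cut (sub (scons n σ) B) (den B (scons n σ) (scons a δ) []))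
  | mem M _ => fun σ δ π => den M σ δ π

/-- Run-time predicate: the evaluation of the term only meets well-behaved redexes.
`τ i = some C` marks a variable which may be substituted and is used at valid stacks of `C`. -/
inductive RT : (ℕ → Option (Tm S)) → (ℕ → Tm S) → (ℕ → AV P rk K) → Tm S → Stack P rk K → Prop
  | opqc {τ σ δ t π} {n A : Tm S} : Neutral t → head t = cst n A → RT τ σ δ t π
  | opqv {τ σ δ t π} {i : ℕ} : Neutral t → head t = var i → τ i = none → δ i = junk →
      RT τ σ δ t π
  | var {τ σ δ π} {i : ℕ} : (∀ C, τ i = some C → Stk C π) → RT τ σ δ (var i) π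
  | sort {τ σ δ π} {s : S} : RT τ σ δ (sort s) π
  | lam {τ σ δ π} {A M n : Tm S} {a : AV P rk K} :
      RT (scons (some (sub σ A)) τ) (scons n σ) (scons a δ) M π → RT τ σ δ (lam A M) ((n, a) :: π)
  | pi {τ σ δ π} {A B : Tm S} : (¬ GLt P rk K [] (sub σ A) → RT τ σ δ A []) →
      (∀ n a, Ty P Set.univ [] n (nf (sub σ A)) → a ∈ SemQ P rk K (sub σ A) →
        ¬ GLt P rk K [] (sub (scons n σ) B) → RT (scons none τ) (scons n σ) (scons a δ) B []) →
      RT τ σ δ (pi A B) π
  | app {τ σ δ π} {F N C D : Tm S} : Ty P Set.univ [] (sub σ F) (pi C D) → ¬ NG P rk K C →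
      RT τ σ δ F ((sub σ N, pack C (den N σ δ)) :: π) → (∀ π', Stk C π' → RT τ σ δ N π') →
      RT τ σ δ (app F N) π

end Values

end Crest.Agent.R298
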