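import Crest.Agent.R298.K3Defs

/-! Basic facts on paths and parities of closed types. -/

set_option autoImplicit false

namespace Crest.Agent.R298

open Tm

universe u
variable {S : Type u} {P : Sys S} {rk : S → ℕ} {K : ℕ}

theorem PathTo.conv_left {T T1 T' : Tm S} (h : PathTo P T T') (c : Conv T1 T) :
    PathTo P T1 T' := by
  cases h with
  | refl d => exact .refl (c.trans d)
  | step d h1 h2 => exact .step (c.trans d) h1 h2

theorem PathTo.trans {T T' T'' : Tm S} (h : PathTo P T T') (h' : PathTo P T' T'') :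
    PathTo P T T'' := by
  induction h with
  | refl d => exact h'.conv_left d
  | step d h1 _ ih => exact .step d h1 (ih h')

theorem PathTo.conv_right {T T' T1 : Tm S} (h : PathTo P T T') (c : Conv T' T1) :
    PathTo P T T1 := h.trans (.refl c)

theorem HasPath.conv {T T' : Tm S} (h : HasPath P rk K T) (c : Conv T T') :
    HasPath P rk K T' :=
  let ⟨k, a, b⟩ := h; ⟨k, a, b.conv_left c.symm⟩

theorem HasPath.of_path {T T' : Tm S} (h : HasPath P rk K T') (p : PathTo P T T') :
    HasPath P rk K T :=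
  let ⟨k, a, b⟩ := h; ⟨k, a, p.trans b⟩

theorem HasPath.step {T C D n : Tm S} (c : Conv T (pi C D)) (hn : Ty P Set.univ [] n C)
    (h : HasPath P rk K (inst n D)) : HasPath P rk K T :=
  h.of_path (.step c hn (.refl .rfl))

theorem IsP.conv {b : Bool} {T T' : Tm S} (h : IsP P rk K b T) (c : Conv T T') :
    IsP P rk K b T' :=
  let ⟨s, a, d⟩ := h; ⟨s, a.conv c, d⟩

theorem hasPath_congr {T T' : Tm S} (c : Conv T T') : HasPath P rk K T ↔ HasPath P rk K T' :=
  ⟨fun h => h.conv c, fun h => h.conv c.symm⟩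

theorem isP_congr {b : Bool} {T T' : Tm S} (c : Conv T T') :
    IsP P rk K b T ↔ IsP P rk K b T' :=
  ⟨fun h => h.conv c, fun h => h.conv c.symm⟩

theorem sm_congr {T T' : Tm S} (c : Conv T T') : Sm P rk K T ↔ Sm P rk K T' := by
  simp only [Sm, hasPath_congr c, isP_congr c]

theorem eo_congr {T T' : Tm S} (c : Conv T T') : Eo P rk K T ↔ Eo P rk K T' := by
  simp only [Eo, hasPath_congr c, isP_congr c]

theorem oo_congr {T T' : Tm S} (c : Conv T T') : Oo P rk K T ↔ Oo P rk K T' := by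
  simp only [Oo, hasPath_congr c, isP_congr c]

theorem ng_congr {T T' : Tm S} (c : Conv T T') : NG P rk K T ↔ NG P rk K T' := by
  simp only [NG, hasPath_congr c, isP_congr c]

theorem sm_iff {T : Tm S} :
    Sm P rk K T ↔ ¬ Eo P rk K T ∧ ¬ Oo P rk K T ∧ ¬ NG P rk K T := by
  simp only [Sm, Eo, Oo, NG]; tauto

theorem Child.conv_right {C T T' : Tm S} (h : Child P rk K C T) (c : Conv T T') :
    Child P rk K C T' :=
  let ⟨a, D, n, p, b, d⟩ := h; ⟨a, D, n, p.conv_left c.symm, b, d⟩

theorem Child.of_path {C T T' : Tm S} (h : Child P rk K C T') (p : PathTo P T T') :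
    Child P rk K C T :=
  let ⟨a, D, n, q, b, d⟩ := h; ⟨a, D, n, p.trans q, b, d⟩

theorem Child.hasPath {C T : Tm S} (h : Child P rk K C T) : HasPath P rk K T :=
  let ⟨_, _, _, p, b, d⟩ := h; (HasPath.step .rfl b d).of_path p

theorem cod_path_of_path {T T' : Tm S} (p : PathTo P T T') {s : S} (h : Prof P Set.univ [] T s) :
    ∃ s', Relation.ReflTransGen (CE P) s s' ∧ Prof P Set.univ [] T' s' := by
  induction p generalizing s with
  | refl c => exact ⟨s, .refl, h.conv c⟩
  | step c hn _ ih =>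
    obtain ⟨s1, s2, r, -, h2⟩ := h.pi_inst .nil c
    obtain ⟨s', a, b⟩ := ih (h2 _ hn)
    exact ⟨s', .head ⟨s1, r⟩ a, b⟩

theorem dir_of_path {T : Tm S} {s : S} (h : Prof P Set.univ [] T s) (hp : HasPath P rk K T) :
    Dir P rk K s := by
  obtain ⟨k, hk, p⟩ := hp
  obtain ⟨a, h1, h2⟩ := cod_path_of_path p h
  exact ⟨k, a, hk, h2.sort_inv .nil .rfl, h1⟩

theorem IsP.cod {b : Bool} {T C D n : Tm S} (h : IsP P rk K b T) (c : Conv T (pi C D))
    (hn : Ty P Set.univ [] n C) (hp : HasPath P rk K (inst n D)) : IsP P rk K b (inst n D) := by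
  obtain ⟨s, h1, h2⟩ := h
  obtain ⟨s1, s2, r, -, h3⟩ := h1.pi_inst .nil c
  exact ⟨s2, h3 n hn, .cod h2 r (dir_of_path (h3 n hn) hp)⟩

theorem IsP.dom {b : Bool} {T C D n : Tm S} (h : IsP P rk K b T) (c : Conv T (pi C D))
    (hn : Ty P Set.univ [] n C) (hp : HasPath P rk K (inst n D)) (hC : HasPath P rk K C) :
    IsP P rk K (!b) C := by
  obtain ⟨s, h1, h2⟩ := h
  obtain ⟨s1, s2, r, h4, h3⟩ := h1.pi_inst .nil c
  exact ⟨s1, h4, .dom h2 r (dir_of_path (h3 n hn) hp) (dir_of_path h4 hC)⟩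

theorem IsP.path {b : Bool} {T T' : Tm S} (h : IsP P rk K b T) (p : PathTo P T T')
    (hp : HasPath P rk K T') : IsP P rk K b T' := by
  induction p with
  | refl c => exact h.conv c
  | step c hn p ih => exact ih (h.cod c hn (hp.of_path p)) hp

theorem IsP.child {b : Bool} {C T : Tm S} (h : IsP P rk K b T) (hc : Child P rk K C T) :
    IsP P rk K (!b) C := by
  obtain ⟨a, D, n, p, hn, d⟩ := hc
  exact (h.path p (HasPath.step .rfl hn d)).dom .rfl hn d a

theorem not_ng_of_isP {b : Bool} {T : Tm S} (h : IsP P rk K b T) : ¬ NG P rk K T := by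
  rintro ⟨-, h1, h2⟩
  cases b
  · exact h1 h
  · exact h2 h

theorem isP_of_not_ng {T : Tm S} (h : ¬ NG P rk K T) (hp : HasPath P rk K T) :
    ∃ b, IsP P rk K b T := by
  by_contra hc
  exact h ⟨hp, fun h => hc ⟨_, h⟩, fun h => hc ⟨_, h⟩⟩

theorem StkW.hasPath {Sem : Tm S → Set (AV P rk K)} {T : Tm S} {π : Stack P rk K}
    (h : StkW Sem T π) : HasPath P rk K T := by
  induction h with
  | nil c hk => exact ⟨_, hk, .refl c⟩
  | cons c hn _ _ ih => exact HasPath.step c hn ih

theorem StkW.conv {Sem : Tm S → Set (AV P rk K)} {T T' : Tm S} {π : Stack P rk K}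
    (h : StkW Sem T π) (c : Conv T T') : StkW Sem T' π := by
  cases h with
  | nil d hk => exact .nil (c.symm.trans d) hk
  | cons d hn ha h => exact .cons (c.symm.trans d) hn ha h

theorem stkW_congr {Sem : Tm S → Set (AV P rk K)} {T T' : Tm S} (c : Conv T T') :
    StkW Sem T = StkW Sem T' :=
  funext fun _ => propext ⟨fun h => h.conv c, fun h => h.conv c.symm⟩

theorem StkW.red {Sem : Tm S → Set (AV P rk K)} {T : Tm S} {π π' : Stack P rk K}
    (h : StkW Sem T π) (r : StackRed π π') : StkW Sem T π' := by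
  induction h generalizing π' with
  | nil c hk => cases r; exact .nil c hk
  | cons c hn ha _ ih =>
    cases r with
    | @cons _ y _ _ r1 r2 =>
      obtain ⟨n', a'⟩ := y
      obtain ⟨r1, rfl⟩ := r1
      exact .cons c (hn.red .nil r1) ha ((ih r2).conv (Conv.inst r1.conv .rfl))

end Crest.Agent.R298
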