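import Crest.Agent.R298.K3Supp

/-! The run-time predicate: monotonicity, substitution and invariance under reduction. -/

set_option autoImplicit false

namespace Crest.Agent.R298

open Tm

universe u
variable {S : Type u} {P : Sys S} {rk : S → ℕ} {K : ℕ}

/-! ### Auxiliary facts -/

theorem rt_glt_conv {Γ : List (Tm S)} {T T' : Tm S} (h : GLt P rk K Γ T) (c : Conv T T') :
    GLt P rk K Γ T' :=
  let ⟨s, a, b⟩ := h; ⟨s, a.conv c, b⟩

theorem rt_cut_congr {T : Tm S} {X X' : Cand P rk K} (h : ¬ GLt P rk K [] T → X = X') :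
    cut T X = cut T X' := by
  unfold cut
  split
  · rfl
  · exact h ‹_›

theorem rt_arrow_congr {ι : Type*} {A : Tm S} {X : Cand P rk K} {J : Tm S → Set ι}
    {Y Y' : Tm S → ι → Cand P rk K}
    (h : ∀ n, Ty P Set.univ [] n A → ∀ a ∈ J n, Y n a = Y' n a) :
    Cand.arrow A X J Y = Cand.arrow A X J Y' := by
  apply Cand.ext
  ext m
  constructor
  · rintro ⟨a, b⟩
    exact ⟨a, fun n hn hX x hx => h n hn x hx ▸ b n hn hX x hx⟩
  · rintro ⟨a, b⟩
    exact ⟨a, fun n hn hX x hx => (h n hn x hx).symm ▸ b n hn hX x hx⟩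

theorem rt_head_ren (ξ : ℕ → ℕ) (t : Tm S) : head (ren ξ t) = ren ξ (head t) := by
  induction t with
  | app F N ihF _ => exact ihF
  | _ => rfl

theorem rt_neutral_sub_cst {t n A : Tm S} (hn : Neutral t) (h : head t = cst n A)
    (θ : ℕ → Tm S) : Neutral (sub θ t) ∧ head (sub θ t) = cst n A := by
  induction hn with
  | var i => cases h
  | cst n' A' => exact ⟨.cst _ _, h⟩
  | app N _ ih => exact ⟨.app _ (ih h).1, (ih h).2⟩

theorem rt_neutral_sub_var {t : Tm S} {i j : ℕ} (hn : Neutral t) (h : head t = var i)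
    {θ : ℕ → Tm S} (e : θ i = var j) : Neutral (sub θ t) ∧ head (sub θ t) = var j := by
  induction hn with
  | var i' =>
    cases h
    rw [sub_var, e]
    exact ⟨.var _, rfl⟩
  | cst n' A' => cases h
  | app N _ ih => exact ⟨.app _ (ih h).1, (ih h).2⟩

theorem rt_den_app (hW : AllWN P) {σ : ℕ → Tm S} {δ : ℕ → AV P rk K} {F N C D : Tm S}
    (h : Ty P Set.univ [] (sub σ F) (pi C D)) (π : Stack P rk K) :
    den (app F N) σ δ π = den F σ δ ((sub σ N, pack C (den N σ δ)) :: π) := by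
  rw [← pack_conv (dom_spec hW h)]
  rfl

theorem rt_den_lam (A M n : Tm S) (a : AV P rk K) (σ : ℕ → Tm S) (δ : ℕ → AV P rk K)
    (π : Stack P rk K) :
    den (lam A M) σ δ ((n, a) :: π) = den M (scons n σ) (scons a δ) π := rfl

theorem rt_den_pi (A B : Tm S) (σ : ℕ → Tm S) (δ : ℕ → AV P rk K) (π : Stack P rk K) :
    den (pi A B) σ δ π =
      Cand.arrow (nf (sub σ A)) (cut (sub σ A) (den A σ δ [])) (fun _ => SemQ P rk K (sub σ A))
        (fun n a => cut (sub (scons n σ) B) (den B (scons n σ) (scons a δ) [])) := rfl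

/-- Markings with convertible types. -/
def TauRel (τ τ' : ℕ → Option (Tm S)) : Prop :=
  ∀ i, (τ i = none ∧ τ' i = none) ∨ ∃ C C', τ i = some C ∧ τ' i = some C' ∧ Conv C C'

theorem TauRel.refl (τ : ℕ → Option (Tm S)) : TauRel τ τ := by
  intro i
  cases h : τ i with
  | none => exact .inl ⟨rfl, rfl⟩
  | some C => exact .inr ⟨C, C, rfl, rfl, .rfl⟩

theorem TauRel.cons_none {τ τ' : ℕ → Option (Tm S)} (h : TauRel τ τ') :
    TauRel (scons none τ) (scons none τ') := by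
  intro i
  cases i with
  | zero => exact .inl ⟨rfl, rfl⟩
  | succ i => exact h i

theorem TauRel.cons_some {τ τ' : ℕ → Option (Tm S)} (h : TauRel τ τ') {C C' : Tm S}
    (c : Conv C C') : TauRel (scons (some C) τ) (scons (some C') τ') := by
  intro i
  cases i with
  | zero => exact .inr ⟨C, C', rfl, rfl, c⟩
  | succ i => exact h i

theorem rt_red_scons {σ σ' : ℕ → Tm S} (h : ∀ i, Red (σ i) (σ' i)) {n n' : Tm S}
    (hn : Red n n') : ∀ i, Red (scons n σ i) (scons n' σ' i) := by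
  intro i
  cases i with
  | zero => exact hn
  | succ i => exact h i

/-! ### Monotonicity and renaming -/

theorem RT.mono (hwf : WfBoth P rk K) {τ : ℕ → Option (Tm S)} {σ : ℕ → Tm S}
    {δ : ℕ → AV P rk K} {t : Tm S} {π : Stack P rk K} (h : RT τ σ δ t π)
    {τ' : ℕ → Option (Tm S)} {σ' : ℕ → Tm S} {π' : Stack P rk K} (hτ : TauRel τ τ')
    (hσ : ∀ i, Red (σ i) (σ' i)) (hπ : StackRed π π') : RT τ' σ' δ t π' := by
  induction h generalizing τ' σ' π' with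
  | opqc h1 h2 => exact .opqc h1 h2
  | @opqv τ σ δ t π i h1 h2 h3 h4 =>
    rcases hτ i with ⟨-, e⟩ | ⟨C, C', e, -, -⟩
    · exact .opqv h1 h2 e h4
    · rw [h3] at e; cases e
  | @var τ σ δ π i h =>
    refine .var fun C' hC' => ?_
    rcases hτ i with ⟨-, e⟩ | ⟨C, C'', e, e', c⟩
    · rw [hC'] at e; cases e
    · rw [hC'] at e'; cases e'
      exact ((h C e).conv c).red hπ
  | sort => exact .sort
  | @lam τ σ δ π A M n a _ ih =>
    cases hπ with
    | @cons _ y _ π0 r1 r2 =>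
      obtain ⟨n', a'⟩ := y
      obtain ⟨r1, rfl⟩ := r1
      exact .lam (ih (hτ.cons_some (Red.sub_env hσ A).conv) (rt_red_scons hσ r1) r2)
  | @pi τ σ δ π A B _ _ ih1 ih2 =>
    have cA : Conv (sub σ A) (sub σ' A) := (Red.sub_env hσ A).conv
    refine .pi (fun hg => ih1 (fun h => hg (rt_glt_conv h cA)) hτ hσ (StackRed.refl _))
      fun n a hn ha hg => ?_
    have hσ' := rt_red_scons hσ (n := n) .refl
    refine ih2 n a (cA.nf_eq ▸ hn) (semQ_conv hwf cA ▸ ha)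
      (fun h => hg (rt_glt_conv h (Red.sub_env hσ' B).conv)) hτ.cons_none hσ' (StackRed.refl _)
  | @app τ σ δ π F N C D h1 h2 _ _ ih1 ih2 =>
    have e : den N σ δ = den N σ' δ :=
      funext fun π => den_conv hwf N δ (fun i => (hσ i).conv) (StackConv.refl π)
    refine .app (h1.red .nil (Red.sub_env hσ F)) h2 (ih1 hτ hσ ?_)
      fun π'' h => ih2 π'' h hτ hσ (StackRed.refl _)
    exact .cons ⟨Red.sub_env hσ N, by rw [e]⟩ hπ

theorem rt_scons_upr {α : Type*} (a : α) (f : ℕ → α) (ξ : ℕ → ℕ) :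
    (fun i => scons a f (upr ξ i)) = scons a (fun i => f (ξ i)) := by
  funext i; cases i <;> rfl

theorem RT.ren_aux {τ1 : ℕ → Option (Tm S)} {σ1 : ℕ → Tm S} {δ1 : ℕ → AV P rk K} {t : Tm S}
    {π : Stack P rk K} (h : RT τ1 σ1 δ1 t π) {ξ : ℕ → ℕ} {τ : ℕ → Option (Tm S)}
    {σ : ℕ → Tm S} {δ : ℕ → AV P rk K} (e1 : τ1 = fun i => τ (ξ i)) (e2 : σ1 = fun i => σ (ξ i))
    (e3 : δ1 = fun i => δ (ξ i)) : RT τ σ δ (ren ξ t) π := by
  induction h generalizing ξ τ σ δ with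
  | opqc h1 h2 => exact .opqc (h1.ren ξ) (by rw [rt_head_ren, h2]; rfl)
  | opqv h1 h2 h3 h4 =>
    subst e1 e2 e3
    exact .opqv (h1.ren ξ) (by rw [rt_head_ren, h2]; rfl) h3 h4
  | var h => subst e1 e2 e3; exact .var h
  | sort => exact .sort
  | lam _ ih =>
    subst e1 e2 e3
    refine .lam (ih ?_ ?_ ?_)
    · rw [rt_scons_upr, sub_ren]
    · rw [rt_scons_upr]
    · rw [rt_scons_upr]
  | pi _ _ ih1 ih2 =>
    subst e1 e2 e3
    refine .pi (fun hg => ih1 (by rwa [sub_ren] at hg) rfl rfl rfl) fun n a hn ha hg => ?_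
    rw [sub_ren] at hn ha
    rw [sub_ren, rt_scons_upr] at hg
    refine ih2 n a hn ha hg ?_ ?_ ?_ <;> rw [rt_scons_upr]
  | @app _ _ _ π F N C D h1 h2 _ _ ih1 ih2 =>
    subst e1 e2 e3
    have e : den (ren ξ N) σ δ = den N (fun i => σ (ξ i)) (fun i => δ (ξ i)) :=
      funext fun π => den_ren N ξ σ δ π
    refine .app (C := C) (D := D) (by rwa [sub_ren]) h2 ?_ fun π' h => ih2 π' h rfl rfl rfl
    rw [e, sub_ren]
    exact ih1 rfl rfl rfl

theorem RT.ren {τ : ℕ → Option (Tm S)} {σ : ℕ → Tm S} {δ : ℕ → AV P rk K} {t : Tm S}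
    {π : Stack P rk K} {ξ : ℕ → ℕ}
    (h : RT (fun i => τ (ξ i)) (fun i => σ (ξ i)) (fun i => δ (ξ i)) t π) :
    RT τ σ δ (ren ξ t) π := h.ren_aux rfl rfl rfl

/-! ### Substitution -/

/-- The environment `(τ1, σ1, δ1)` is obtained from `(τ2, σ2, δ2)` along the substitution `θ`. -/
def SubRel (θ : ℕ → Tm S) (τ1 : ℕ → Option (Tm S)) (σ1 : ℕ → Tm S) (δ1 : ℕ → AV P rk K)
    (τ2 : ℕ → Option (Tm S)) (σ2 : ℕ → Tm S) (δ2 : ℕ → AV P rk K) : Prop :=
  ∀ i, σ1 i = sub σ2 (θ i) ∧ ((∃ j, θ i = var j ∧ δ1 i = δ2 j ∧ τ1 i = τ2 j) ∨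
    ∃ C, τ1 i = some C ∧ ¬ NG P rk K C ∧ δ1 i = pack C (den (θ i) σ2 δ2) ∧
      ∀ π', Stk C π' → RT τ2 σ2 δ2 (θ i) π')

theorem SubRel.sub_eq {θ : ℕ → Tm S} {τ1 τ2 : ℕ → Option (Tm S)} {σ1 σ2 : ℕ → Tm S}
    {δ1 δ2 : ℕ → AV P rk K} (h : SubRel θ τ1 σ1 δ1 τ2 σ2 δ2) (t : Tm S) :
    sub σ2 (sub θ t) = sub σ1 t := by
  rw [sub_sub]
  congr 1
  funext i
  exact (h i).1.symm

theorem SubRel.up {θ : ℕ → Tm S} {τ1 τ2 : ℕ → Option (Tm S)} {σ1 σ2 : ℕ → Tm S}
    {δ1 δ2 : ℕ → AV P rk K} (h : SubRel θ τ1 σ1 δ1 τ2 σ2 δ2) (o : Option (Tm S)) (n : Tm S)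
    (a : AV P rk K) :
    SubRel (ups θ) (scons o τ1) (scons n σ1) (scons a δ1) (scons o τ2) (scons n σ2)
      (scons a δ2) := by
  intro i
  cases i with
  | zero => exact ⟨rfl, .inl ⟨0, rfl, rfl, rfl⟩⟩
  | succ i =>
    obtain ⟨h1, h2⟩ := h i
    refine ⟨by simpa using h1, ?_⟩
    rcases h2 with ⟨j, e1, e2, e3⟩ | ⟨C, e1, e2, e3, e4⟩
    · exact .inl ⟨j + 1, by rw [ups_succ, e1]; rfl, e2, e3⟩
    · refine .inr ⟨C, e1, e2, ?_, fun π' hπ => RT.ren (ξ := Nat.succ) (e4 π' hπ)⟩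
      have e : den (ups θ (i + 1)) (scons n σ2) (scons a δ2) = den (θ i) σ2 δ2 :=
        funext fun π => den_ren (θ i) Nat.succ _ _ π
      rw [e]
      exact e3

theorem RT.subst (hW : AllWN P) (hwf : WfBoth P rk K) {τ1 : ℕ → Option (Tm S)} {σ1 : ℕ → Tm S}
    {δ1 : ℕ → AV P rk K} {t : Tm S} {π : Stack P rk K} (h : RT τ1 σ1 δ1 t π) {θ : ℕ → Tm S}
    {τ2 : ℕ → Option (Tm S)} {σ2 : ℕ → Tm S} {δ2 : ℕ → AV P rk K}
    (hθ : SubRel θ τ1 σ1 δ1 τ2 σ2 δ2) :
    RT τ2 σ2 δ2 (sub θ t) π ∧ den t σ1 δ1 π = den (sub θ t) σ2 δ2 π := by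
  induction h generalizing θ τ2 σ2 δ2 with
  | opqc h1 h2 =>
    obtain ⟨a, b⟩ := rt_neutral_sub_cst h1 h2 θ
    exact ⟨.opqc a b, by rw [den_opqc h1 h2, den_opqc a b]⟩
  | @opqv τ σ δ t π i h1 h2 h3 h4 =>
    rcases (hθ i).2 with ⟨j, e1, e2, e3⟩ | ⟨C, e1, -⟩
    · obtain ⟨a, b⟩ := rt_neutral_sub_var h1 h2 e1
      have e4 : δ2 j = junk := e2 ▸ h4
      exact ⟨.opqv a b (e3 ▸ h3) e4, by rw [den_opqv h1 h2 _ h4, den_opqv a b _ e4]⟩
    · rw [h3] at e1; cases e1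
  | @var τ σ δ π i h =>
    rcases (hθ i).2 with ⟨j, e1, e2, e3⟩ | ⟨C, e1, e2, e3, e4⟩
    · rw [sub_var, e1]
      refine ⟨.var fun C hC => h C (e3.trans hC), ?_⟩
      change unpack (δ i) π = unpack (δ2 j) π
      rw [e2]
    · refine ⟨e4 π (h C e1), ?_⟩
      change unpack (δ i) π = den (θ i) σ2 δ2 π
      rw [e3]
      exact unpack_pack hW hwf e2 _ _ _ (h C e1)
  | sort => exact ⟨.sort, rfl⟩
  | @lam τ σ δ π A M n a _ ih =>
    obtain ⟨h1, h2⟩ := ih (hθ.up _ n a)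
    refine ⟨.lam ?_, h2⟩
    rw [hθ.sub_eq]
    exact h1
  | @pi τ σ δ π A B _ _ ih1 ih2 =>
    constructor
    · refine .pi (fun hg => (ih1 (by rwa [hθ.sub_eq] at hg) hθ).1) fun n a hn ha hg => ?_
      rw [hθ.sub_eq] at hn ha
      rw [(hθ.up none n a).sub_eq] at hg
      exact (ih2 n a hn ha hg (hθ.up none n a)).1
    · rw [sub_pi, rt_den_pi, rt_den_pi, hθ.sub_eq,
        rt_cut_congr (X := den A σ δ []) (fun hg => (ih1 hg hθ).2)]
      refine rt_arrow_congr fun n hn a ha => ?_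
      rw [(hθ.up none n a).sub_eq]
      exact rt_cut_congr fun hg => (ih2 n a hn ha hg (hθ.up none n a)).2
  | @app τ σ δ π F N C D h1 h2 _ _ ih1 ih2 =>
    have h1' : Ty P Set.univ [] (sub σ2 (sub θ F)) (Tm.pi C D) := by rwa [hθ.sub_eq]
    have e : pack C (den N σ δ) = pack C (den (sub θ N) σ2 δ2) :=
      pack_congr fun π' h => (ih2 π' h hθ).2
    obtain ⟨a, b⟩ := ih1 hθ
    constructor
    · refine .app h1' h2 ?_ fun π' h => (ih2 π' h hθ).1
      rw [hθ.sub_eq, ← e]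
      exact a
    · rw [sub_app, rt_den_app hW h1, rt_den_app hW h1', hθ.sub_eq, ← e]
      exact b

theorem RT.inst (hW : AllWN P) (hwf : WfBoth P rk K) {τ : ℕ → Option (Tm S)} {σ : ℕ → Tm S}
    {δ : ℕ → AV P rk K} {C N M : Tm S} {π : Stack P rk K}
    (h : RT (scons (some C) τ) (scons (sub σ N) σ) (scons (pack C (den N σ δ)) δ) M π)
    (hC : ¬ NG P rk K C) (hN : ∀ π', Stk C π' → RT τ σ δ N π') :
    RT τ σ δ (Tm.inst N M) π ∧
      den M (scons (sub σ N) σ) (scons (pack C (den N σ δ)) δ) π = den (Tm.inst N M) σ δ π := by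
  refine h.subst hW hwf (θ := scons N Tm.var) fun i => ?_
  cases i with
  | zero => exact ⟨rfl, .inr ⟨C, rfl, hC, rfl, hN⟩⟩
  | succ i => exact ⟨rfl, .inl ⟨i, rfl, rfl, rfl⟩⟩

/-! ### Reduction -/

theorem RT.lam_inv {τ : ℕ → Option (Tm S)} {σ : ℕ → Tm S} {δ : ℕ → AV P rk K} {A M n : Tm S}
    {a : AV P rk K} {π : Stack P rk K} (h : RT τ σ δ (Tm.lam A M) ((n, a) :: π)) :
    RT (scons (some (sub σ A)) τ) (scons n σ) (scons a δ) M π := by
  cases h with
  | opqc h1 => cases h1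
  | opqv h1 => cases h1
  | lam h => exact h

theorem RT.step (hW : AllWN P) (hwf : WfBoth P rk K) {τ : ℕ → Option (Tm S)} {σ : ℕ → Tm S}
    {δ : ℕ → AV P rk K} {t t' : Tm S} {π : Stack P rk K} (h : RT τ σ δ t π) (hs : Step t t') :
    RT τ σ δ t' π ∧ den t σ δ π = den t' σ δ π := by
  induction h generalizing t' with
  | opqc h1 h2 =>
    obtain ⟨a, b⟩ := h1.step hs
    exact ⟨.opqc a (b.trans h2), by rw [den_opqc h1 h2, den_opqc a (b.trans h2)]⟩
  | opqv h1 h2 h3 h4 =>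
    obtain ⟨a, b⟩ := h1.step hs
    exact ⟨.opqv a (b.trans h2) h3 h4, by rw [den_opqv h1 h2 _ h4, den_opqv a (b.trans h2) _ h4]⟩
  | var => cases hs
  | sort => cases hs
  | @lam τ σ δ π A M n a h ih =>
    cases hs with
    | lamL _ hs =>
      exact ⟨.lam (h.mono hwf ((TauRel.refl τ).cons_some (hs.sub σ).conv) (fun _ => .refl)
        (StackRed.refl _)), rfl⟩
    | lamR _ hs => exact ⟨.lam (ih hs).1, (ih hs).2⟩
  | @pi τ σ δ π A B h1 h2 ih1 ih2 =>
    cases hs with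
    | @piL _ A' _ hs =>
      have c : Conv (sub σ A) (sub σ A') := (hs.sub σ).conv
      constructor
      · refine .pi (fun hg => (ih1 (fun h => hg (rt_glt_conv h c)) hs).1) fun n a hn ha hg => ?_
        exact h2 n a (c.nf_eq ▸ hn) (semQ_conv hwf c ▸ ha) hg
      · rw [rt_den_pi, rt_den_pi, rt_cut_congr (X := den A σ δ []) (fun hg => (ih1 hg hs).2),
          c.nf_eq, semQ_conv hwf c, cut_conv c]
    | @piR _ _ B' hs =>
      have c : ∀ n, Conv (sub (scons n σ) B) (sub (scons n σ) B') := fun n => (hs.sub _).conv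
      constructor
      · refine .pi h1 fun n a hn ha hg => ?_
        exact (ih2 n a hn ha (fun h => hg (rt_glt_conv h (c n))) hs).1
      · rw [rt_den_pi, rt_den_pi]
        refine rt_arrow_congr fun n hn a ha => ?_
        rw [← cut_conv (c n)]
        exact rt_cut_congr fun hg => (ih2 n a hn ha hg hs).2
  | @app τ σ δ π F N C D h1 h2 h3 h4 ih1 ih2 =>
    cases hs with
    | beta A M =>
      obtain ⟨B, s1, s2, s3, -, -, -, -, c⟩ := Ty.gen_lam h1
      have h5 := h3.lam_inv.mono hwf ((TauRel.refl τ).cons_some c.pi_inj.1.symm)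
        (fun _ => .refl) (StackRed.refl _)
      obtain ⟨a, b⟩ := h5.inst hW hwf h2 h4
      refine ⟨a, ?_⟩
      rw [rt_den_app hW h1, rt_den_lam]
      exact b
    | @appL _ F' _ hs =>
      have h1' : Ty P Set.univ [] (sub σ F') (Tm.pi C D) := h1.step .nil (hs.sub σ)
      refine ⟨.app h1' h2 (ih1 hs).1 h4, ?_⟩
      rw [rt_den_app hW h1, rt_den_app hW h1']
      exact (ih1 hs).2
    | @appR _ _ N' hs =>
      have e : pack C (den N σ δ) = pack C (den N' σ δ) := pack_congr fun π' h => (ih2 π' h hs).2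
      have r : StackRed ((sub σ N, pack C (den N σ δ)) :: π)
          ((sub σ N', pack C (den N' σ δ)) :: π) :=
        .cons ⟨(hs.sub σ).red, e⟩ (StackRed.refl π)
      refine ⟨.app h1 h2 (h3.mono hwf (TauRel.refl τ) (fun _ => .refl) r)
        fun π' h => (ih2 π' h hs).1, ?_⟩
      rw [rt_den_app hW h1, rt_den_app hW h1]
      exact den_conv hwf F δ (fun _ => .rfl) r.conv

theorem RT.red (hW : AllWN P) (hwf : WfBoth P rk K) {τ : ℕ → Option (Tm S)} {σ : ℕ → Tm S}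
    {δ : ℕ → AV P rk K} {t t' : Tm S} {π : Stack P rk K} (h : RT τ σ δ t π) (hs : Red t t') :
    RT τ σ δ t' π ∧ den t σ δ π = den t' σ δ π := by
  induction hs with
  | refl => exact ⟨h, rfl⟩
  | tail _ hs ih =>
    obtain ⟨a, b⟩ := ih.1.step hW hwf hs
    exact ⟨a, ih.2.trans b⟩

end Crest.Agent.R298
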