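import Crest.Agent.R298.K3Path

/-! The fixed point defining value sets, smallness, packing, and invariance of denotations. -/

set_option autoImplicit false

namespace Crest.Agent.R298

open Tm

universe u
variable {S : Type u} {P : Sys S} {rk : S → ℕ} {K : ℕ}

/-- `C` is a domain met along a complete path of `T`. -/
def DomOf (P : Sys S) (rk : S → ℕ) (K : ℕ) (C T : Tm S) : Prop :=
  ∃ D n, PathTo P T (pi C D) ∧ Ty P Set.univ [] n C ∧ HasPath P rk K (inst n D)

theorem DomOf.hasPath {C T : Tm S} (h : DomOf P rk K C T) : HasPath P rk K T :=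
  let ⟨_, _, p, b, d⟩ := h; (HasPath.step .rfl b d).of_path p

theorem DomOf.step {C T C' D n : Tm S} (h : DomOf P rk K C (inst n D)) (c : Conv T (pi C' D))
    (hn : Ty P Set.univ [] n C') : DomOf P rk K C T :=
  let ⟨D', n', p, b, d⟩ := h; ⟨D', n', .step c hn p, b, d⟩

theorem Sm.domOf {C T : Tm S} (hT : Sm P rk K T) (h : DomOf P rk K C T) : Sm P rk K C := by
  by_cases hC : HasPath P rk K C
  · rcases hT with hT | hT
    · exact absurd h.hasPath hT
    · exact .inr ⟨hT.2.child ⟨hC, h⟩, hT.1.child ⟨hC, h⟩⟩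
  · exact .inl hC

theorem wf_domOf (hwf : WfBoth P rk K) :
    WellFounded (fun C T : Tm S => Sm P rk K T ∧ DomOf P rk K C T) := by
  have h0 : ∀ T : Tm S, ¬ HasPath P rk K T →
      Acc (fun C T : Tm S => Sm P rk K T ∧ DomOf P rk K C T) T := fun T hT =>
    ⟨_, fun C h => absurd h.2.hasPath hT⟩
  have h1 : ∀ T : Tm S, Acc (Child P rk K) T →
      Acc (fun C T : Tm S => Sm P rk K T ∧ DomOf P rk K C T) T := fun T hT => by
    induction hT with
    | intro T _ ih =>
      refine ⟨_, fun C h => ?_⟩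
      by_cases hC : HasPath P rk K C
      · exact ih C ⟨hC, h.2⟩
      · exact h0 C hC
  refine ⟨fun T => ⟨_, fun C h => ?_⟩⟩
  rcases h.1.domOf h.2 with hC | hC
  · exact h0 C hC
  · exact h1 C (hwf C hC.1 hC.2)

theorem StkW.mono {Sem Sem' : Tm S → Set (AV P rk K)} {T : Tm S} {π : Stack P rk K}
    (h : StkW Sem T π) (e : ∀ C, DomOf P rk K C T → Sem C ⊆ Sem' C) : StkW Sem' T π := by
  induction h with
  | nil c hk => exact .nil c hk
  | cons c hn ha h ih =>
    exact .cons c hn (e _ ⟨_, _, .refl c, hn, h.hasPath⟩ ha) (ih fun C hC => e C (hC.step c hn))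

theorem packW_congr {Sem Sem' : Tm S → Set (AV P rk K)} {C C' : Tm S}
    (e : StkW Sem C = StkW Sem' C') (h1 : Eo P rk K C ↔ Eo P rk K C')
    (h2 : NG P rk K C ↔ NG P rk K C') : packW Sem C = packW Sem' C' := by
  funext f
  unfold packW
  rw [e, propext h1, propext h2]

theorem semF_congr {Sem Sem' : Tm S → Set (AV P rk K)} {T : Tm S}
    (e : Sm P rk K T → ∀ C, DomOf P rk K C T → Sem C = Sem' C) : SemF Sem T = SemF Sem' T := by
  unfold SemF
  split_ifs with h1 h2 h3
  · rfl
  · rfl
  · rfl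
  · have hT := e (sm_iff.2 ⟨h1, h2, h3⟩)
    rw [packW_congr (Sem := Sem) (Sem' := Sem') (funext fun π => propext
      ⟨fun h => h.mono fun C hC => (hT C hC).subset, fun h => h.mono fun C hC => (hT C hC).superset⟩)
      Iff.rfl Iff.rfl]

theorem semV_eq (hwf : WfBoth P rk K) (C : Tm S) :
    SemV P rk K C = SemF (SemV P rk K) C := by
  classical
  refine @Classical.epsilon_spec _ (fun Sem : Tm S → Set (AV P rk K) => ∀ C, Sem C = SemF Sem C)
    ?_ C
  refine ⟨(wf_domOf hwf).fix (C := fun _ => Set (AV P rk K)) fun T r =>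
    SemF (fun C => if h : Sm P rk K T ∧ DomOf P rk K C T then r C h else ∅) T, fun T => ?_⟩
  rw [WellFounded.fix_eq]
  exact semF_congr fun hT C hC => dif_pos ⟨hT, hC⟩

theorem pack_congr {C : Tm S} {f g : Stack P rk K → Cand P rk K}
    (h : ∀ π, Stk C π → f π = g π) : pack C f = pack C g := by
  unfold pack packW
  split_ifs
  · congr 1
    funext v
    split_ifs with hv
    · exact h _ hv
    · rfl
  · rfl
  · congr 2
    funext v
    exact propext (forall_congr' fun π => forall_congr' fun hπ => by rw [h π hπ])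

theorem pack_conv {C C' : Tm S} (c : Conv C C') (f : Stack P rk K → Cand P rk K) :
    pack C f = pack C' f := by
  exact congrFun (packW_congr (stkW_congr c) (eo_congr c) (ng_congr c)) f

theorem semV_conv (hwf : WfBoth P rk K) {C C' : Tm S} (c : Conv C C') :
    SemV P rk K C = SemV P rk K C' := by
  rw [semV_eq hwf C, semV_eq hwf C']
  unfold SemF
  rw [packW_congr (stkW_congr c) (eo_congr c) (ng_congr c), propext (eo_congr c),
    propext (oo_congr c), propext (ng_congr c)]

theorem semQ_conv (hwf : WfBoth P rk K) {C C' : Tm S} (c : Conv C C') :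
    SemQ P rk K C = SemQ P rk K C' := by
  unfold SemQ
  rw [semV_conv hwf c, propext (oo_congr c)]

theorem pack_mem (hwf : WfBoth P rk K) (C : Tm S) (f : Stack P rk K → Cand P rk K) :
    pack C f ∈ SemV P rk K C := by
  rw [semV_eq hwf C]
  unfold SemF
  split_ifs with h1 h2 h3
  · unfold pack packW; rw [if_pos h1]; exact ⟨_, rfl⟩
  · unfold pack packW; rw [if_neg h1, if_neg (not_ng_of_isP h2.2.2)]; exact ⟨_, rfl⟩
  · unfold pack packW; rw [if_neg h1, if_pos h3]; rfl
  · exact ⟨_, rfl⟩

theorem pack_mem_semQ (hwf : WfBoth P rk K) {C : Tm S} (h : ¬ Oo P rk K C)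
    (f : Stack P rk K → Cand P rk K) : pack C f ∈ SemQ P rk K C := by
  unfold SemQ
  rw [if_neg h]
  exact pack_mem hwf C f

theorem semQ_nonempty (hwf : WfBoth P rk K) (C : Tm S) : (SemQ P rk K C).Nonempty := by
  by_cases h : Oo P rk K C
  · unfold SemQ; rw [if_pos h]; exact ⟨_, rfl⟩
  · exact ⟨_, pack_mem_semQ hwf h fun _ => Cand.top⟩

theorem eq_junk_of_ng (hwf : WfBoth P rk K) {C : Tm S} (h : NG P rk K C) {a : AV P rk K}
    (ha : a ∈ SemQ P rk K C) : a = junk := by
  unfold SemQ at ha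
  split_ifs at ha with h2
  · exact ha
  · rw [semV_eq hwf C] at ha
    unfold SemF at ha
    rwa [if_neg fun h1 => h.2.1 h1.2.1, if_neg h2, if_pos h] at ha

theorem semV_eo (hwf : WfBoth P rk K) {C : Tm S} (h : Eo P rk K C) {a : AV P rk K}
    (ha : a ∈ SemV P rk K C) : ∃ e, a = Sum.inr e := by
  rw [semV_eq hwf C] at ha
  unfold SemF at ha
  rw [if_pos h] at ha
  exact ha.imp fun _ h => h.symm

theorem semV_not_eo (hwf : WfBoth P rk K) {C : Tm S} (h : ¬ Eo P rk K C) {a : AV P rk K}
    (ha : a ∈ SemV P rk K C) : ∃ v, a = Sum.inl v := by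
  rw [semV_eq hwf C] at ha
  unfold SemF at ha
  rw [if_neg h] at ha
  split_ifs at ha with h2 h3
  · exact ha.imp fun _ h => h.symm
  · exact ⟨_, ha⟩
  · obtain ⟨f, rfl⟩ := ha
    unfold packW
    rw [if_neg h, if_neg h3]
    exact ⟨_, rfl⟩

theorem semQ_cases (hwf : WfBoth P rk K) {C : Tm S} {a : AV P rk K} (ha : a ∈ SemQ P rk K C) :
    (∃ e, a = Sum.inr e) ∨ ∃ v ∈ X0 P rk K, a = Sum.inl v := by
  by_cases h3 : NG P rk K C
  · exact .inr ⟨.nil, .inl rfl, eq_junk_of_ng hwf h3 ha⟩
  unfold SemQ at ha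
  split_ifs at ha with h2
  · exact .inr ⟨.nil, .inl rfl, ha⟩
  · by_cases h1 : Eo P rk K C
    · exact .inl (semV_eo hwf h1 ha)
    · obtain ⟨v, rfl⟩ := semV_not_eo hwf h1 ha
      exact .inr ⟨v, .inr ⟨C, sm_iff.2 ⟨h1, h2, h3⟩, ha⟩, rfl⟩

theorem StkW.item {Sem : Tm S → Set (AV P rk K)} {T : Tm S} {π : Stack P rk K}
    (h : StkW Sem T π) : ∀ x ∈ π, ∃ C, DomOf P rk K C T ∧ x.2 ∈ Sem C := by
  induction h with
  | nil => simp
  | cons c hn ha h ih =>
    intro x hx
    rcases List.mem_cons.1 hx with rfl | hx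
    · exact ⟨_, ⟨_, _, .refl c, hn, h.hasPath⟩, ha⟩
    · obtain ⟨C, h1, h2⟩ := ih x hx
      exact ⟨C, h1.step c hn, h2⟩

theorem small_lists {α β : Type*} [Small.{u} α] (Y : Set β) [Small.{u} Y] :
    Small.{u} {l : List (α × β) | ∀ x ∈ l, x.2 ∈ Y} := by
  refine small_subset (s := Set.range fun l : List (α × Y) => l.map fun x => (x.1, x.2.1)) ?_
  intro l hl
  refine ⟨l.attach.map fun x => (x.1.1, ⟨x.1.2, hl _ x.2⟩), ?_⟩
  simp [Function.comp_def, List.attach_map_subtype_val]

theorem small_semV (hwf : WfBoth P rk K) (T : Tm S) (hT : Sm P rk K T) :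
    Small.{u} (SemV P rk K T) := by
  classical
  induction T using (wf_domOf hwf).induction with
  | _ T ih =>
    have h1 : ∀ C : {C // DomOf P rk K C T}, Small.{u} (SemV P rk K C.1) := fun C =>
      ih C.1 ⟨hT, C.2⟩ (hT.domOf C.2)
    have h2 := small_lists (α := Tm S) (⋃ C : {C // DomOf P rk K C T}, SemV P rk K C.1)
    have h3 : Small.{u} {π : Stack P rk K | Stk T π} := by
      refine small_subset (s := {l : List (Tm S × AV P rk K) | ∀ x ∈ l, x.2 ∈
        ⋃ C : {C // DomOf P rk K C T}, SemV P rk K C.1}) fun π hπ x hx => ?_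
      obtain ⟨C, a, b⟩ := StkW.item hπ x hx
      exact Set.mem_iUnion.2 ⟨⟨C, a⟩, b⟩
    refine small_subset (s := Set.range fun g : {π : Stack P rk K | Stk T π} → Cand P rk K =>
      pack T fun π => if h : Stk T π then g ⟨π, h⟩ else Cand.top) fun a ha => ?_
    rw [semV_eq hwf T] at ha
    unfold SemF at ha
    obtain ⟨a1, a2, a3⟩ := sm_iff.1 hT
    rw [if_neg a1, if_neg a2, if_neg a3] at ha
    obtain ⟨f, rfl⟩ := ha
    exact ⟨fun π => f π.1, pack_congr fun π hπ => dif_pos hπ⟩

theorem small_X0 (hwf : WfBoth P rk K) : Small.{u} (X0 P rk K) := by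
  have h1 : ∀ C : {C // Sm P rk K C}, Small.{u} (SemV P rk K C.1) := fun C =>
    small_semV hwf C.1 C.2
  refine small_subset (s := insert Val.nil ((fun a : AV P rk K => a.elim id fun _ => Val.nil) ''
    ⋃ C : {C // Sm P rk K C}, SemV P rk K C.1)) ?_
  rintro v (rfl | ⟨C, a, b⟩)
  · exact .inl rfl
  · exact .inr ⟨_, Set.mem_iUnion.2 ⟨⟨C, a⟩, b⟩, rfl⟩

/-- Codes of stacks over a small set of values form a small set. -/
theorem small_enc {X : Set (Val P rk K)} (hX : Small.{u} X) :
    Small.{u} {v : Val P rk K | ∃ π, XStack X π ∧ v = enc π} := by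
  have h2 := small_lists (α := Tm S) (insert (Sum.inr fun _ => Cand.top)
    ((Sum.inl : Val P rk K → AV P rk K) '' X))
  refine small_subset (s := enc '' {l : List (Tm S × AV P rk K) | ∀ x ∈ l, x.2 ∈
    insert (Sum.inr fun _ => Cand.top) ((Sum.inl : Val P rk K → AV P rk K) '' X)}) ?_
  rintro _ ⟨π, hπ, rfl⟩
  induction π with
  | nil => exact ⟨[], by simp, rfl⟩
  | cons x π ih =>
    obtain ⟨l, h1, h2⟩ := ih fun y hy => hπ y (List.mem_cons_of_mem _ hy)
    obtain ⟨n, v | e⟩ := x
    · refine ⟨(n, .inl v) :: l, fun y hy => ?_, by simp only [enc, h2]⟩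
      rcases List.mem_cons.1 hy with rfl | hy
      · exact .inr ⟨v, hπ _ List.mem_cons_self v rfl, rfl⟩
      · exact h1 y hy
    · refine ⟨(n, .inr fun _ => Cand.top) :: l, fun y hy => ?_, by simp only [enc, h2]⟩
      rcases List.mem_cons.1 hy with rfl | hy
      · exact .inl rfl
      · exact h1 y hy

/-- Valid stacks of a type of odd parity only contain functionals and small values. -/
theorem Stk.xstack (hwf : WfBoth P rk K) {C : Tm S} {π : Stack P rk K} (h : Stk C π)
    (hC : IsP P rk K true C) : XStack (X0 P rk K) π := by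
  induction h with
  | nil => intro x hx; simp at hx
  | @cons T C D n a π c hn ha h ih =>
    intro x hx v hv
    rcases List.mem_cons.1 hx with rfl | hx
    · obtain rfl : a = Sum.inl v := hv
      refine .inr ⟨C, ?_, ha⟩
      by_cases hp : HasPath P rk K C
      · have h1 : IsP P rk K false C := hC.dom c hn h.hasPath hp
        refine .inr ⟨h1, by_contra fun h2 => ?_⟩
        obtain ⟨e, he⟩ := semV_eo hwf ⟨hp, h1, h2⟩ ha
        cases he
      · exact .inl hp
    · exact ih (hC.cod c hn h.hasPath) x hx v hv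

/-- Valid stacks of a type of even parity are coded faithfully. -/
theorem Stk.dec_enc (hW : AllWN P) (hwf : WfBoth P rk K) {C : Tm S} {π : Stack P rk K}
    (h : Stk C π) (hC : IsP P rk K false C) : StackRed π (dec (enc π)) := by
  induction h with
  | nil => exact .nil
  | @cons T C D n a π c hn ha h ih =>
    obtain ⟨v, rfl⟩ := semV_not_eo hwf (fun he => he.2.2 (hC.dom c hn h.hasPath he.1)) ha
    exact .cons ⟨(hW _ _ _ .nil hn).red_nf, rfl⟩ (ih (hC.cod c hn h.hasPath))

/-- Valid stacks with the same code differ only in their functional values. -/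
theorem Stk.of_enc_eq (hwf : WfBoth P rk K) {C : Tm S} {π π' : Stack P rk K} (h : Stk C π)
    (h' : Stk C π') (e : enc π = enc π') :
    List.Forall₂ (fun x y => Conv x.1 y.1 ∧
      ((∃ v, x.2 = Sum.inl v ∧ y.2 = Sum.inl v) ∨ ∃ e e', x.2 = Sum.inr e ∧ y.2 = Sum.inr e'))
      π π' := by
  induction h generalizing π' with
  | nil c hk =>
    cases h' with
    | nil => exact .nil
    | cons c' => exact absurd (c.symm.trans c') Conv.not_sort_pi
  | @cons T C D n a π c hn ha h ih =>
    cases h' with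
    | nil c' => exact absurd (c'.symm.trans c) Conv.not_sort_pi
    | @cons _ C' D' n' a' π' c' hn' ha' h' =>
      obtain ⟨c1, c2⟩ := (c.symm.trans c').pi_inj
      rw [← semV_conv hwf c1] at ha'
      by_cases he : Eo P rk K C
      · obtain ⟨f, rfl⟩ := semV_eo hwf he ha
        obtain ⟨f', rfl⟩ := semV_eo hwf he ha'
        simp only [enc, Val.cons.injEq] at e
        have c3 := conv_of_nf_eq e.1
        exact .cons ⟨c3, .inr ⟨_, _, rfl, rfl⟩⟩ (ih (h'.conv (Conv.inst c3 c2).symm) e.2.2)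
      · obtain ⟨f, rfl⟩ := semV_not_eo hwf he ha
        obtain ⟨f', rfl⟩ := semV_not_eo hwf he ha'
        simp only [enc, Val.cons.injEq] at e
        have c3 := conv_of_nf_eq e.1
        exact .cons ⟨c3, .inl ⟨f, rfl, by rw [e.2.1]⟩⟩ (ih (h'.conv (Conv.inst c3 c2).symm) e.2.2)

theorem StackRed.conv {π π' : Stack P rk K} (h : StackRed π π') : StackConv π π' :=
  List.Forall₂.imp (fun _ _ h => ⟨h.1.conv, h.2⟩) h

theorem StackConv.refl (π : Stack P rk K) : StackConv π π :=
  List.forall₂_same.2 fun _ _ => ⟨.rfl, rfl⟩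

theorem StackRed.refl (π : Stack P rk K) : StackRed π π :=
  List.forall₂_same.2 fun _ _ => ⟨.refl, rfl⟩

theorem StackConv.enc_eq {π π' : Stack P rk K} (h : StackConv π π') : enc π = enc π' := by
  induction h with
  | nil => rfl
  | @cons x y _ _ h _ ih =>
    obtain ⟨n, a⟩ := x
    obtain ⟨n', a'⟩ := y
    obtain ⟨c, rfl⟩ := h
    cases a <;> simp only [enc, ih, c.nf_eq]

theorem StackConv.evalAt_eq {π π' : Stack P rk K} (h : StackConv π π') :
    evalAt π = evalAt π' := by
  funext p v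
  induction h generalizing p with
  | nil => rfl
  | @cons x y _ _ h _ ih =>
    obtain ⟨n, a⟩ := x
    obtain ⟨n', a'⟩ := y
    obtain ⟨c, rfl⟩ := h
    cases p with
    | zero => cases a <;> rfl
    | succ p => exact ih p

theorem unpack_conv (a : AV P rk K) {π π' : Stack P rk K} (h : StackConv π π') :
    unpack a π = unpack a π' := by
  cases a with
  | inl v =>
    cases v with
    | nil => rfl
    | cons => rfl
    | node =>
      unfold unpack unnode
      simp only
      rw [h.enc_eq, h.evalAt_eq]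
  | inr e => simp only [unpack, h.enc_eq]

@[simp] theorem unpack_junk (π : Stack P rk K) : unpack (junk : AV P rk K) π = Cand.top := rfl

theorem dom_conv {F F' : Tm S} (c : Conv F F') : Dom P F = Dom P F' := by
  unfold Dom
  rw [c.nf_eq]

theorem dom_spec (hW : AllWN P) {F C D : Tm S} (h : Ty P Set.univ [] F (pi C D)) :
    Conv (Dom P F) C := by
  have h1 := h.red .nil (hW _ _ _ .nil h).red_nf
  obtain ⟨D', h2⟩ := @Classical.epsilon_spec _
    (fun C => ∃ D, Ty P Set.univ [] (nf F) (pi C D)) ⟨C, D, h1⟩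
  exact (h2.trel h1).pi_inv.1

theorem cut_conv {T T' : Tm S} (c : Conv T T') (X : Cand P rk K) : cut T X = cut T' X := by
  have : GLt P rk K [] T ↔ GLt P rk K [] T' :=
    ⟨fun ⟨s, a, b⟩ => ⟨s, a.conv c, b⟩, fun ⟨s, a, b⟩ => ⟨s, a.conv c.symm, b⟩⟩
  unfold cut
  rw [propext this]

/-- Denotations only depend on the closing terms up to conversion. -/
theorem den_conv (hwf : WfBoth P rk K) (t : Tm S) {σ σ' : ℕ → Tm S} (δ : ℕ → AV P rk K)
    {π π' : Stack P rk K} (h : ∀ i, Conv (σ i) (σ' i)) (h' : StackConv π π') :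
    den t σ δ π = den t σ' δ π' := by
  have hs : ∀ {n n' : Tm S} {σ σ' : ℕ → Tm S}, Conv n n' → (∀ i, Conv (σ i) (σ' i)) →
      ∀ i, Conv (scons n σ i) (scons n' σ' i) := fun c h i => by
    cases i with
    | zero => exact c
    | succ i => exact h i
  induction t generalizing σ σ' δ π π' with
  | var i => exact unpack_conv _ h'
  | sort s => rfl
  | cst n A => rfl
  | app F N ihF ihN =>
    refine ihF δ h (.cons ⟨Conv.sub_env h N, ?_⟩ h')
    change pack _ _ = pack _ _
    rw [dom_conv (Conv.sub_env h F)]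
    congr 1
    funext ρ
    exact ihN δ h (StackConv.refl ρ)
  | lam A M _ ihM =>
    cases h' with
    | nil => rfl
    | @cons x y _ _ h1 h2 =>
      change den M (scons x.1 σ) (scons x.2 δ) _ = den M (scons y.1 σ') (scons y.2 δ) _
      rw [h1.2]
      exact ihM _ (hs h1.1 h) h2
  | pi A B ihA ihB =>
    change Cand.arrow _ _ _ _ = Cand.arrow _ _ _ _
    rw [(Conv.sub_env h A).nf_eq, cut_conv (Conv.sub_env h A), semQ_conv hwf (Conv.sub_env h A),
      ihA δ h (StackConv.refl [])]
    congr 1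
    funext n a
    rw [cut_conv (Conv.sub_env (hs .rfl h) B), ihB _ (hs .rfl h) (StackConv.refl [])]
  | mem M Q ihM _ => exact ihM δ h h'

theorem den_ren (t : Tm S) (ξ : ℕ → ℕ) (σ : ℕ → Tm S) (δ : ℕ → AV P rk K) (π : Stack P rk K) :
    den (ren ξ t) σ δ π = den t (fun i => σ (ξ i)) (fun i => δ (ξ i)) π := by
  have hs : ∀ {α : Type (u + 1)} (a : α) (f : ℕ → α) (ξ : ℕ → ℕ),
      (fun i => scons a f (upr ξ i)) = scons a fun i => f (ξ i) := fun a f ξ => by
    funext i; cases i <;> rfl
  have hs' : ∀ (a : Tm S) (f : ℕ → Tm S) (ξ : ℕ → ℕ),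
      (fun i => scons a f (upr ξ i)) = scons a fun i => f (ξ i) := fun a f ξ => by
    funext i; cases i <;> rfl
  induction t generalizing ξ σ δ π with
  | var i => rfl
  | sort s => rfl
  | cst n A => rfl
  | app F N ihF ihN =>
    simp only [ren_app, den, ihF, sub_ren, funext (ihN ξ σ δ)]
  | lam A M _ ihM =>
    cases π with
    | nil => rfl
    | cons x π => simp only [ren_lam, den, ihM, hs, hs']
  | pi A B ihA ihB => simp only [ren_pi, den, ihA, ihB, sub_ren, hs, hs']
  | mem M Q ihM _ => exact ihM ξ σ δ π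

theorem den_opqc {t n A : Tm S} (hn : Neutral t) (h : head t = cst n A) (σ : ℕ → Tm S)
    (δ : ℕ → AV P rk K) (π : Stack P rk K) : den t σ δ π = Cand.top := by
  induction hn generalizing π with
  | var i => cases h
  | cst => rfl
  | app N _ ih => exact ih h _

theorem den_opqv {t : Tm S} {i : ℕ} (hn : Neutral t) (h : head t = var i) (σ : ℕ → Tm S)
    {δ : ℕ → AV P rk K} (hδ : δ i = junk) (π : Stack P rk K) : den t σ δ π = Cand.top := by
  induction hn generalizing π with
  | var j =>
    cases h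
    change unpack (δ i) π = _
    rw [hδ]; rfl
  | cst => cases h
  | app N _ ih => exact ih h _

end Crest.Agent.R298
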