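import Crest.Agent.R298.K3Sem

/-! Denotations have small support, hence packing is faithful on valid stacks. -/

set_option autoImplicit false

namespace Crest.Agent.R298

open Tm

universe u
variable {S : Type u} {P : Sys S} {rk : S → ℕ} {K : ℕ}

namespace K3Supp

/-- Agreement of argument values: first-order values are equal and lie in `X`, functionals agree
on `Sp`. -/
def AgV (X Sp : Set (Val P rk K)) (a a' : AV P rk K) : Prop :=
  (∃ v ∈ X, a = Sum.inl v ∧ a' = Sum.inl v) ∨
    ∃ e e', a = Sum.inr e ∧ a' = Sum.inr e' ∧ ∀ v ∈ Sp, e v = e' v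

def Ag (X Sp : Set (Val P rk K)) (π π' : Stack P rk K) : Prop :=
  List.Forall₂ (fun x y => x.1 = y.1 ∧ AgV X Sp x.2 y.2) π π'

variable {X X' Sp Sp' : Set (Val P rk K)}

theorem AgV.mono {a a' : AV P rk K} (h : AgV X Sp a a') (hX : X ⊆ X') (hS : Sp' ⊆ Sp) :
    AgV X' Sp' a a' := by
  rcases h with ⟨v, hv, h1, h2⟩ | ⟨e, e', h1, h2, h3⟩
  · exact .inl ⟨v, hX hv, h1, h2⟩
  · exact .inr ⟨e, e', h1, h2, fun v hv => h3 v (hS hv)⟩

theorem Ag.mono {π π' : Stack P rk K} (h : Ag X Sp π π') (hX : X ⊆ X') (hS : Sp' ⊆ Sp) :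
    Ag X' Sp' π π' :=
  List.Forall₂.imp (fun _ _ h => ⟨h.1, h.2.mono hX hS⟩) h

theorem AgV.left {a a' : AV P rk K} (h : AgV X Sp a a') : AgV X Sp a a := by
  rcases h with ⟨v, hv, h1, -⟩ | ⟨e, e', h1, -, -⟩
  · exact .inl ⟨v, hv, h1, h1⟩
  · exact .inr ⟨e, e, h1, h1, fun _ _ => rfl⟩

theorem agV_self {a : AV P rk K} (h : ∀ v, a = Sum.inl v → v ∈ X) : AgV X Sp a a := by
  rcases a with v | e
  · exact .inl ⟨v, h v rfl, rfl, rfl⟩
  · exact .inr ⟨e, e, rfl, rfl, fun _ _ => rfl⟩

theorem ag_self {π : Stack P rk K} (h : XStack X π) : Ag X Sp π π :=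
  List.forall₂_same.2 fun x hx => ⟨rfl, agV_self (h x hx)⟩

theorem AgV.scons {a a' : AV P rk K} {δ δ' : ℕ → AV P rk K} (h : AgV X Sp a a')
    (hδ : ∀ i, AgV X Sp (δ i) (δ' i)) : ∀ i, AgV X Sp (scons a δ i) (scons a' δ' i)
  | 0 => h
  | i + 1 => hδ i

theorem Ag.enc_eq {π π' : Stack P rk K} (h : Ag X Sp π π') : enc π = enc π' := by
  induction h with
  | nil => rfl
  | @cons x y _ _ h _ ih =>
    obtain ⟨n, a⟩ := x
    obtain ⟨n', a'⟩ := y
    obtain ⟨h1, h2⟩ := h
    simp only at h1 h2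
    subst h1
    rcases h2 with ⟨v, -, rfl, rfl⟩ | ⟨e, e', rfl, rfl, -⟩
    · simp only [enc, ih]
    · simp only [enc, ih]

theorem Ag.xstack {π π' : Stack P rk K} (h : Ag X Sp π π') : XStack X π := by
  induction h with
  | nil => intro x hx; cases hx
  | @cons x y _ _ h _ ih =>
    intro z hz v hv
    rcases List.mem_cons.mp hz with rfl | hz
    · rcases h.2 with ⟨w, hw, h1, -⟩ | ⟨e, e', h1, -, -⟩
      · rw [h1] at hv
        cases hv
        exact hw
      · rw [h1] at hv
        cases hv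
    · exact ih z hz v hv

theorem evalAt_succ (x : Tm S × AV P rk K) (π : Stack P rk K) (p : ℕ) (v : Val P rk K) :
    evalAt (x :: π) (p + 1) v = evalAt π p v := by
  simp only [evalAt, List.getElem?_cons_succ]

theorem Ag.evalAt_eq {π π' : Stack P rk K} (h : Ag X Sp π π') (p : ℕ) {v : Val P rk K}
    (hv : v ∈ Sp) : evalAt π p v = evalAt π' p v := by
  induction h generalizing p with
  | nil => rfl
  | @cons x y _ _ h _ ih =>
    cases p with
    | succ p => rw [evalAt_succ, evalAt_succ, ih]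
    | zero =>
      obtain ⟨n, a⟩ := x
      obtain ⟨n', a'⟩ := y
      rcases h.2 with ⟨w, -, h1, h2⟩ | ⟨e, e', h1, h2, h3⟩
      · simp only at h1 h2
        subst h1 h2
        rfl
      · simp only at h1 h2
        subst h1 h2
        exact h3 v hv

/-- The points at which a value evaluates functional arguments. -/
def pts : Val P rk K → Set (Val P rk K)
  | .node _ _ _ _ pt _ => Set.range pt
  | _ => ∅

instance small_pts (v : Val P rk K) : Small.{u} (pts v) := by
  cases v <;> simp only [pts] <;> infer_instance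

theorem unnode_eq {v : Val P rk K} (hv : pts v ⊆ Sp) {π π' : Stack P rk K} (h : Ag X Sp π π') :
    unnode v π = unnode v π' := by
  cases v with
  | nil => rfl
  | cons => rfl
  | node J skel I pos pt comb =>
    have e : (fun i => evalAt π (pos i) (pt i)) = fun i => evalAt π' (pos i) (pt i) :=
      funext fun i => h.evalAt_eq _ (hv ⟨i, rfl⟩)
    simp only [unnode]
    rw [e, h.enc_eq]

/-- The first-order values of a decoded stack. -/
def items : Val P rk K → Set (Val P rk K)
  | .cons _ a r => insert a (items r)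
  | _ => ∅

instance small_items (v : Val P rk K) : Small.{u} (items v) := by
  induction v <;> simp only [items] <;> infer_instance

theorem xstack_dec (v : Val P rk K) : XStack (items v) (dec v) := by
  induction v with
  | nil => intro x hx; cases hx
  | node => intro x hx; cases hx
  | cons n a r _ ih =>
    intro x hx w hw
    rcases List.mem_cons.mp hx with rfl | hx
    · cases hw
      exact Set.mem_insert _ _
    · exact Set.mem_insert_of_mem _ (ih x hx w hw)

theorem XStack.mono {π : Stack P rk K} (h : XStack X π) (hX : X ⊆ X') : XStack X' π :=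
  fun x hx v hv => hX (h x hx v hv)

def getL : AV P rk K → Val P rk K := Sum.elim id fun _ => .nil

variable (P rk K) in
/-- Codes of stacks over small values. -/
abbrev Codes : Set (Val P rk K) := {v | ∃ π, XStack (X0 P rk K) π ∧ v = enc π}

/-- Functions of the code of a stack and of the values of its functionals on `Sp`. -/
abbrev Fac (Sp : Set (Val P rk K)) : Type (u + 1) :=
  Codes P rk K → (ℕ × Sp → Cand P rk K) → Cand P rk K

open Classical in
noncomputable def fac (g : Fac Sp) (π : Stack P rk K) : Cand P rk K :=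
  if h : XStack (X0 P rk K) π then g ⟨enc π, π, h, rfl⟩ (fun pw => evalAt π pw.1 pw.2)
  else Cand.top

theorem isP_true {C : Tm S} (h1 : ¬ Eo P rk K C) (h2 : ¬ NG P rk K C) {π : Stack P rk K}
    (h : Stk C π) : IsP P rk K true C := by
  by_contra h3
  obtain ⟨b, hb⟩ := isP_of_not_ng h2 h.hasPath
  cases b
  · exact h1 ⟨h.hasPath, hb, h3⟩
  · exact h3 hb

theorem exists_mid {π π' : Stack P rk K}
    (h : List.Forall₂ (fun x y => Conv x.1 y.1 ∧
      ((∃ v, x.2 = Sum.inl v ∧ y.2 = Sum.inl v) ∨ ∃ e e', x.2 = Sum.inr e ∧ y.2 = Sum.inr e'))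
      π π') (hX : XStack X π) (he : ∀ p, ∀ v ∈ Sp, evalAt π p v = evalAt π' p v) :
    ∃ π'', StackConv π π'' ∧ Ag X Sp π'' π' := by
  induction h with
  | nil => exact ⟨[], .nil, .nil⟩
  | @cons x y π π' h _ ih =>
    obtain ⟨π'', h1, h2⟩ := ih (fun z hz => hX z (List.mem_cons_of_mem _ hz))
      (fun p v hv => by rw [← evalAt_succ x, ← evalAt_succ y]; exact he _ v hv)
    obtain ⟨n, a⟩ := x
    obtain ⟨n', a'⟩ := y
    refine ⟨(n', a) :: π'', .cons ⟨h.1, rfl⟩ h1, .cons ⟨rfl, ?_⟩ h2⟩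
    rcases h.2 with ⟨v, h3, h4⟩ | ⟨e, e', h3, h4⟩
    · exact .inl ⟨v, hX _ List.mem_cons_self v h3, h3, h4⟩
    · simp only at h3 h4
      subst h3 h4
      exact .inr ⟨e, e', rfl, rfl, fun v hv => he 0 v hv⟩

/-- A function on stacks with support `Sp` factors on the valid stacks. -/
theorem exists_fac (hwf : WfBoth P rk K) {C : Tm S} (h1 : ¬ Eo P rk K C) (h2 : ¬ NG P rk K C)
    {f : Stack P rk K → Cand P rk K} (hc : ∀ π π', StackConv π π' → f π = f π')
    (ha : ∀ π π', Ag (X0 P rk K) Sp π π' → f π = f π') :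
    ∃ g : Fac Sp, ∀ π, Stk C π → fac g π = f π := by
  classical
  refine ⟨fun j ev => if h : ∃ π, Stk C π ∧ enc π = j.1 ∧
    (fun pw : ℕ × Sp => evalAt π pw.1 pw.2) = ev then f h.choose else Cand.top, fun π hπ => ?_⟩
  have hP := isP_true h1 h2 hπ
  have h : ∃ π', Stk C π' ∧ enc π' = enc π ∧
      (fun pw : ℕ × Sp => evalAt π' pw.1 pw.2) = fun pw : ℕ × Sp => evalAt π pw.1 pw.2 :=
    ⟨π, hπ, rfl, rfl⟩
  rw [fac, dif_pos (hπ.xstack hwf hP), dif_pos h]
  obtain ⟨h3, h4, h5⟩ := h.choose_spec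
  obtain ⟨π'', h6, h7⟩ := exists_mid (Sp := Sp) (h3.of_enc_eq hwf hπ h4) (h3.xstack hwf hP)
    (fun p v hv => congrFun h5 (p, ⟨v, hv⟩))
  rw [hc _ _ h6, ha _ _ h7]

theorem exists_node (hwf : WfBoth P rk K) [Small.{u} Sp] (g : Fac Sp) :
    ∃ v : Val P rk K, ∀ π, XStack (X0 P rk K) π → unnode v π = fac g π := by
  have : Small.{u} (Codes P rk K) := small_enc (small_X0 hwf)
  refine ⟨.node (Shrink.{u} (Codes P rk K)) (fun j => ((equivShrink _).symm j).1)
    (ℕ × Shrink.{u} Sp) Prod.fst (fun i => ((equivShrink _).symm i.2).1)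
    (fun j ev => g ((equivShrink _).symm j) (fun pw => ev (pw.1, equivShrink _ pw.2))),
    fun π hπ => ?_⟩
  have h : ∃ j : Shrink.{u} (Codes P rk K), ((equivShrink _).symm j).1 = enc π :=
    ⟨equivShrink _ ⟨enc π, π, hπ, rfl⟩, by simp⟩
  have e : (equivShrink _).symm h.choose = ⟨enc π, π, hπ, rfl⟩ := Subtype.ext h.choose_spec
  rw [fac, dif_pos hπ]
  simp only [unnode]
  rw [dif_pos h, e]
  simp only [Equiv.symm_apply_apply]

theorem pack_eo {C : Tm S} (h : Eo P rk K C) (f : Stack P rk K → Cand P rk K) :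
    pack C f = Sum.inr (fun v => by
      classical exact if Stk C (dec v) then f (dec v) else Cand.top) := by
  simp only [pack, packW, if_pos h]

theorem pack_ng {C : Tm S} (h1 : ¬ Eo P rk K C) (h : NG P rk K C)
    (f : Stack P rk K → Cand P rk K) : pack C f = junk := by
  simp only [pack, packW, if_neg h1, if_pos h]

theorem pack_inl {C : Tm S} (h1 : ¬ Eo P rk K C) (h : ¬ NG P rk K C)
    (f : Stack P rk K → Cand P rk K) :
    pack C f = Sum.inl (Classical.epsilon fun v => ∀ π, Stk C π → unnode v π = f π) := by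
  simp only [pack, packW, if_neg h1, if_neg h]

theorem arrow_congr {ι : Type (u + 1)} {A : Tm S} {Y0 : Cand P rk K} {J : Tm S → Set ι}
    {Y Y' : Tm S → ι → Cand P rk K} (h : ∀ n, ∀ a ∈ J n, Y n a = Y' n a) :
    Cand.arrow A Y0 J Y = Cand.arrow A Y0 J Y' := by
  ext m
  simp only [Cand.arrow, Set.mem_ofPred_eq]
  refine and_congr_right fun _ => forall_congr' fun n => forall_congr' fun _ =>
    forall_congr' fun _ => forall_congr' fun a => forall_congr' fun ha => ?_
  rw [h n a ha]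

/-- The support lemma. -/
theorem supp (hwf : WfBoth P rk K) (t : Tm S) : ∀ X : Set (Val P rk K), Small.{u} X →
    ∃ Sp : Set (Val P rk K), Small.{u} Sp ∧ ∀ (σ : ℕ → Tm S) (δ δ' : ℕ → AV P rk K)
      (π π' : Stack P rk K), (∀ i, AgV X Sp (δ i) (δ' i)) → Ag X Sp π π' →
      den t σ δ π = den t σ δ' π' := by
  have h0 := small_X0 hwf
  induction t with
  | var i =>
    intro X hX
    have := small_enc hX
    refine ⟨{v | ∃ π, XStack X π ∧ v = enc π} ∪ ⋃ v ∈ X, pts v, inferInstance, ?_⟩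
    intro σ δ δ' π π' hδ hπ
    simp only [den]
    rcases hδ i with ⟨v, hv, h1, h2⟩ | ⟨e, e', h1, h2, h3⟩
    · rw [h1, h2]
      exact unnode_eq (fun w hw => Or.inr (Set.mem_biUnion hv hw)) hπ
    · rw [h1, h2]
      simp only [unpack]
      rw [← hπ.enc_eq]
      exact h3 _ (Or.inl ⟨π, hπ.xstack, rfl⟩)
  | sort s => exact fun X _ => ⟨∅, inferInstance, fun _ _ _ _ _ _ _ => rfl⟩
  | cst n A => exact fun X _ => ⟨∅, inferInstance, fun _ _ _ _ _ _ _ => rfl⟩
  | mem M Q ih _ => exact ih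
  | lam A M _ ih =>
    intro X hX
    obtain ⟨Sp, h1, h2⟩ := ih X hX
    refine ⟨Sp, h1, fun σ δ δ' π π' hδ hπ => ?_⟩
    cases hπ with
    | nil => rfl
    | cons h hπ =>
      simp only [den]
      rw [← h.1]
      exact h2 _ _ _ _ _ (h.2.scons hδ) hπ
  | pi A B ihA ihB =>
    intro X hX
    obtain ⟨SA, hA1, hA2⟩ := ihA X hX
    obtain ⟨SB, hB1, hB2⟩ := ihB (X ∪ X0 P rk K) inferInstance
    refine ⟨SA ∪ SB, inferInstance, fun σ δ δ' π π' hδ _ => ?_⟩
    simp only [den]
    rw [hA2 σ δ δ' [] [] (fun i => (hδ i).mono subset_rfl Set.subset_union_left) .nil]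
    refine arrow_congr fun n a ha => ?_
    rw [hB2 (scons n σ) (scons a δ) (scons a δ') [] [] (AgV.scons ?_
      (fun i => (hδ i).mono Set.subset_union_left Set.subset_union_right)) .nil]
    rcases semQ_cases hwf ha with ⟨e, rfl⟩ | ⟨v, hv, rfl⟩
    · exact agV_self (fun _ h => by cases h)
    · exact agV_self (fun _ h => by cases h; exact Or.inr hv)
  | app F N ihF ihN =>
    intro X hX
    obtain ⟨S1, h11, h12⟩ := ihN (X ∪ X0 P rk K) inferInstance
    have : Small.{u} (Codes P rk K) := small_enc h0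
    let XN : Set (Val P rk K) :=
      Set.range fun Cg : Tm S × Fac S1 => getL (pack Cg.1 (fac Cg.2))
    obtain ⟨SF, hF1, hF2⟩ := ihF (X ∪ X0 P rk K ∪ XN) inferInstance
    obtain ⟨S2, h21, h22⟩ := ihN (X ∪ ⋃ v ∈ SF, items v) inferInstance
    refine ⟨S1 ∪ SF ∪ S2, inferInstance, fun σ δ δ' π π' hδ hπ => ?_⟩
    have hsX : X ⊆ X ∪ X0 P rk K ∪ XN := Set.subset_union_left.trans Set.subset_union_left
    have hsF : SF ⊆ S1 ∪ SF ∪ S2 := Set.subset_union_right.trans Set.subset_union_left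
    have hs1 : S1 ⊆ S1 ∪ SF ∪ S2 := Set.subset_union_left.trans Set.subset_union_left
    simp only [den]
    refine hF2 σ δ δ' _ _ (fun i => (hδ i).mono hsX hsF) (.cons ⟨rfl, ?_⟩ (hπ.mono hsX hsF))
    generalize Dom P (sub σ F) = C
    change AgV _ _ (pack C (den N σ δ)) (pack C (den N σ δ'))
    by_cases hE : Eo P rk K C
    · rw [pack_eo hE, pack_eo hE]
      refine .inr ⟨_, _, rfl, rfl, fun v hv => ?_⟩
      rw [h22 σ δ δ' (dec v) (dec v)
        (fun i => (hδ i).mono Set.subset_union_left Set.subset_union_right)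
        (ag_self (XStack.mono (xstack_dec v) fun w hw => Or.inr (Set.mem_biUnion hv hw)))]
    by_cases hN : NG P rk K C
    · rw [pack_ng hE hN, pack_ng hE hN]
      exact .inl ⟨.nil, Or.inl (Or.inr (Or.inl rfl)), rfl, rfl⟩
    have e : pack C (den N σ δ') = pack C (den N σ δ) := pack_congr fun π0 h =>
      (h12 σ δ δ' π0 π0 (fun i => (hδ i).mono Set.subset_union_left hs1)
        (ag_self (XStack.mono (h.xstack hwf (isP_true hE hN h)) Set.subset_union_right))).symm
    rw [e]
    obtain ⟨g, hg⟩ := exists_fac (Sp := S1) hwf hE hN (f := den N σ δ)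
      (fun π0 π1 h => den_conv hwf N δ (fun _ => .rfl) h)
      (fun π0 π1 h => h12 σ δ δ π0 π1 (fun i => (hδ i).left.mono Set.subset_union_left hs1)
        (h.mono Set.subset_union_right subset_rfl))
    refine agV_self fun v hv => Or.inr ⟨(C, g), ?_⟩
    simp only
    rw [pack_congr hg, hv]
    rfl

end K3Supp

open K3Supp in
theorem unpack_pack (hW : AllWN P) (hwf : WfBoth P rk K) {C : Tm S} (hC : ¬ NG P rk K C)
    (t : Tm S) (σ : ℕ → Tm S) (δ : ℕ → AV P rk K) {π : Stack P rk K} (h : Stk C π) :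
    unpack (pack C (den t σ δ)) π = den t σ δ π := by
  by_cases hE : Eo P rk K C
  · have hr := h.dec_enc hW hwf hE.2.1
    rw [pack_eo hE]
    simp only [unpack]
    rw [if_pos (h.red hr)]
    exact (den_conv hwf t δ (fun _ => .rfl) hr.conv).symm
  have h0 := small_X0 hwf
  obtain ⟨Sp, h1, h2⟩ := supp hwf t (X0 P rk K ∪ Set.range fun i => getL (δ i)) inferInstance
  obtain ⟨g, hg⟩ := exists_fac (Sp := Sp) hwf hE hC (f := den t σ δ)
    (fun π0 π1 h => den_conv hwf t δ (fun _ => .rfl) h)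
    (fun π0 π1 h => h2 σ δ δ π0 π1
      (fun i => agV_self fun v hv => Or.inr ⟨i, by simp only [hv]; rfl⟩)
      (h.mono Set.subset_union_left subset_rfl))
  obtain ⟨v, hv⟩ := exists_node hwf g
  rw [pack_inl hE hC]
  exact Classical.epsilon_spec (p := fun v => ∀ π, Stk C π → unnode v π = den t σ δ π)
    ⟨v, fun π0 h0 => by rw [hv π0 (h0.xstack hwf (isP_true hE hC h0)), hg π0 h0]⟩ π h

end Crest.Agent.R298
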