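import Crest.Agent.R298.PxModelA

/-! The term model of the abstract logic: translation of formulas and comprehension. -/

set_option autoImplicit false

namespace Crest.Agent.R298

open Tm

universe u
variable {S : Type u} {P : Sys S} {rk : S → ℕ} {K : ℕ} {L : Logic P rk K}

theorem hasTag_iff {b : Bool} {Γ : List Tag} {i : ℕ} {t : Tag} :
    hasTag b Γ i t = true ↔ ∃ t', Γ[i]? = some t' ∧ t'.nt b = t.nt b := by
  simp [hasTag]

theorem Tag.nt_true (t : Tag) : t.nt true = t := by cases t <;> rfl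

theorem hasTag_lax {Γ : List Tag} {i : ℕ} {t : Tag} (h : hasTag true Γ i t = true) :
    hasTag false Γ i t = true := by
  obtain ⟨t', h1, h2⟩ := hasTag_iff.1 h
  rw [Tag.nt_true, Tag.nt_true] at h2
  exact hasTag_iff.2 ⟨t', h1, by rw [h2]⟩

theorem Fm.wt_lax {φ : Fm} {Γ : List Tag} (h : φ.wt true Γ = true) : φ.wt false Γ = true := by
  induction φ generalizing Γ with
  | fls => rfl
  | imp φ ψ ih1 ih2 =>
    simp only [Fm.wt, Bool.and_eq_true] at h ⊢
    exact ⟨ih1 h.1, ih2 h.2⟩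
  | all t φ ih =>
    simp only [Fm.wt, Bool.and_eq_true] at h ⊢
    exact ⟨h.1, ih h.2⟩
  | mem n i j =>
    simp only [Fm.wt, Bool.and_eq_true] at h ⊢
    exact ⟨⟨h.1.1, hasTag_lax h.1.2⟩, hasTag_lax h.2⟩
  | mv i j =>
    simp only [Fm.wt, Bool.and_eq_true] at h ⊢
    exact ⟨hasTag_lax h.1, hasTag_lax h.2⟩
  | sat i j =>
    simp only [Fm.wt, Bool.and_eq_true] at h ⊢
    exact ⟨hasTag_lax h.1, hasTag_lax h.2⟩

namespace Shape

variable (Z : Shape L)

/-- Membership of a generic property in a set of such. -/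
def satT (v w : Tm S) : Tm S := Z.mem Z.X0 0 (eta L (Z.ρ ++ Z.α) Z.VV v) w

theorem sub_satT (σ : ℕ → Tm S) (v w : Tm S) :
    sub σ (Z.satT v w) = Z.satT (sub σ v) (sub σ w) := by
  unfold satT
  rw [Z.sub_mem _ _ (by omega), Z.ζ_dw.sub_eta, Z.sub_X0, Z.sub_VV]

theorem eta_ζ_ty {Γ : List (Tm S)} {v : Tm S} (hv : Ty P L.A Γ v Z.VV) :
    Ty P L.A Γ (eta L (Z.ρ ++ Z.α) Z.VV v) (Z.Lv Z.X0 0) :=
  .conv (Z.ζ_dw.eta_ty Z.even (Z.VV_ty.of_nil Γ) hv) (Z.Lv_ty (Z.X0_ty' Γ) (by omega))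
    Z.conv_Lv0

theorem satT_ty {Γ : List (Tm S)} {v w : Tm S} (hv : Ty P L.A Γ v Z.VV)
    (hw : Ty P L.A Γ w (Z.Lv Z.X0 1)) : Ty P L.A Γ (Z.satT v w) (sort L.o) :=
  Z.mem_ty (Z.X0_ty' Γ) (by omega) (Z.eta_ζ_ty hv) hw

/-- Translation of formulas. -/
noncomputable def tr : Fm → Tm S → (ℕ → Tm S) → Tm S
  | .fls, _, _ => L.fls
  | .imp φ ψ, X, e => sub (scons (tr ψ X e) (scons (tr φ X e) var)) L.imp
  | .all t φ, X, e => inst (pi (Z.Qd X t) (inst
      (tr φ (lift X) (scons (Z.ret (lift X) t (var 0)) (fun i => lift (e i)))) (Z.Q t).f))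
      (Z.Q t).E
  | .mem n i j, X, e => Z.mem X (n + 1) (e i) (e j)
  | .mv i j, X, e => Z.mem X 5 (e j) (app (e i) X)
  | .sat i j, _, e => Z.satT (e i) (e j)

theorem sub_tr {b : Bool} {φ : Fm} {Γ : List Tag} (h : φ.wt b Γ = true) (σ : ℕ → Tm S)
    (X : Tm S) (e : ℕ → Tm S) :
    sub σ (Z.tr φ X e) = Z.tr φ (sub σ X) (fun i => sub σ (e i)) := by
  induction φ generalizing Γ σ X e with
  | fls => exact L.fls_ty.closed.sub_closed σ
  | imp φ ψ ih1 ih2 =>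
    simp only [Fm.wt, Bool.and_eq_true] at h
    simp only [tr]
    rw [sub_two L.imp_ty.bnd, ih1 h.1, ih2 h.2]
  | all t φ ih =>
    simp only [Fm.wt, Bool.and_eq_true] at h
    have hq := Z.Q_ok h.1
    simp only [tr]
    rw [sub_inst_one hq.E_ty.bnd, sub_pi, sub_inst_one hq.f_ty.bnd, ih h.2, Z.sub_Qd _ _ h.1]
    congr 4
    · simp
    · funext i
      cases i with
      | zero => simp [Z.sub_ret _ _ h.1]
      | succ i => simp
  | mem n i j =>
    simp only [Fm.wt, Bool.and_eq_true, decide_eq_true_eq] at h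
    exact Z.sub_mem _ _ (by omega) _ _
  | mv i j => exact Z.sub_mem _ _ (by omega) _ _
  | sat i j => exact Z.sub_satT _ _ _

/-- Typed environments. -/
def EnvTy (Δ : List (Tm S)) (X : Tm S) (Γ : List Tag) (e : ℕ → Tm S) : Prop :=
  ∀ i t, Γ[i]? = some t → t.ok = true ∧ Ty P L.A Δ (e i) (Z.Kd X t)

theorem EnvTy.cons {Z : Shape L} {Δ : List (Tm S)} {X : Tm S} {Γ : List Tag} {e : ℕ → Tm S}
    (h : Z.EnvTy Δ X Γ e) {t : Tag} (ht : t.ok = true) {a : Tm S}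
    (ha : Ty P L.A Δ a (Z.Kd X t)) : Z.EnvTy Δ X (t :: Γ) (scons a e) := by
  intro i t' hi
  cases i with
  | zero => simp at hi; subst hi; exact ⟨ht, ha⟩
  | succ i => exact h i t' (by simpa using hi)

theorem EnvTy.weak {Z : Shape L} {Δ : List (Tm S)} {X : Tm S} {Γ : List Tag} {e : ℕ → Tm S}
    (h : Z.EnvTy Δ X Γ e) (B : Tm S) :
    Z.EnvTy (B :: Δ) (lift X) Γ (fun i => lift (e i)) := by
  intro i t hi
  obtain ⟨h1, h2⟩ := h i t hi
  refine ⟨h1, ?_⟩
  rw [← Z.lift_Kd _ h1]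
  exact h2.weak B

theorem EnvTy.has {Z : Shape L} {Δ : List (Tm S)} {X : Tm S} {Γ : List Tag} {e : ℕ → Tm S}
    (h : Z.EnvTy Δ X Γ e) {b : Bool} (hb : b = false → X = Z.X0) {i : ℕ} {t : Tag}
    (hi : hasTag b Γ i t = true) : Ty P L.A Δ (e i) (Z.Kd X t) := by
  obtain ⟨t', h1, h2⟩ := hasTag_iff.1 hi
  have h3 := (h i t' h1).2
  cases b with
  | true => rw [Tag.nt_true, Tag.nt_true] at h2; rwa [← h2]
  | false =>
    have e1 : ∀ t : Tag, Z.Kd X (t.nt false) = Z.Kd X t := by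
      intro t
      cases t with
      | lv n => rfl
      | v => rfl
      | w0 => rw [hb rfl]; rfl
    rwa [← e1 t, ← h2, e1]

theorem tr_body_env {Δ : List (Tm S)} {X : Tm S} {Γ : List Tag} {e : ℕ → Tm S}
    (hX : Ty P L.A Δ X Z.Ax) (he : Z.EnvTy Δ X Γ e) {t : Tag} (ht : t.ok = true) :
    Z.EnvTy (Z.Qd X t :: Δ) (lift X) (t :: Γ)
      (scons (Z.ret (lift X) t (var 0)) (fun i => lift (e i))) := by
  refine (he.weak _).cons ht (Z.ret_ty (Z.weak_X hX _) ht ?_)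
  rw [← Z.lift_Qd _ ht]
  exact .var (.zero _ _)

theorem tr_ty {b : Bool} {φ : Fm} {Γ : List Tag} (h : φ.wt b Γ = true) {Δ : List (Tm S)}
    {X : Tm S} {e : ℕ → Tm S} (hX : Ty P L.A Δ X Z.Ax) (hb : b = false → X = Z.X0)
    (he : Z.EnvTy Δ X Γ e) : Ty P L.A Δ (Z.tr φ X e) (sort L.o) := by
  induction φ generalizing Γ Δ X e with
  | fls => exact L.fls_ty.of_nil Δ
  | imp φ ψ ih1 ih2 =>
    simp only [Fm.wt, Bool.and_eq_true] at h
    exact L.imp_ty.sub_two (ih2 h.2 hX hb he) (ih1 h.1 hX hb he)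
  | all t φ ih =>
    simp only [Fm.wt, Bool.and_eq_true] at h
    have hq := Z.Q_ok h.1
    have h1 := ih h.2 (Z.weak_X hX (Z.Qd X t)) (fun hb' => by rw [hb hb', Z.lift_X0])
      (Z.tr_body_env hX he h.1)
    exact hq.E_ty.inst_one (.pi (Z.Qd_ty hX h.1) (hq.f_ty.inst_one h1) hq.rule)
  | mem n i j =>
    simp only [Fm.wt, Bool.and_eq_true, decide_eq_true_eq] at h
    exact Z.mem_ty hX (by omega) (he.has hb h.1.2) (he.has hb h.2)
  | mv i j =>
    simp only [Fm.wt, Bool.and_eq_true] at h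
    exact Z.mem_ty hX (by omega) (he.has hb h.2) (Z.app_V_ty hX (he.has hb h.1))
  | sat i j =>
    simp only [Fm.wt, Bool.and_eq_true] at h
    exact Z.satT_ty (he.has hb h.1) (he.has hb h.2)

/-- The term model. -/
noncomputable def data : HData (Tm S) where
  G t x := ∃ F, Ty P L.A [] F (Z.Qd Z.X0 t) ∧ x = Z.ret Z.X0 t F
  m n y c := Tr P L.A (Z.mem Z.X0 (n + 1) y c)
  mv v s := Tr P L.A (Z.mem Z.X0 5 s (app v Z.X0))
  sat v w := Tr P L.A (Z.satT v w)

theorem G_ty {t : Tag} (ht : t.ok = true) {x : Tm S} (h : Z.data.G t x) :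
    Ty P L.A [] x (Z.Kd Z.X0 t) := by
  obtain ⟨F, hF, rfl⟩ := h
  exact Z.ret_ty Z.X0_ty ht hF

theorem envTy_of_env {Γ : List Tag} (hΓ : ∀ t ∈ Γ, t.ok = true) {e : ℕ → Tm S}
    (h : Z.data.Env Γ e) : Z.EnvTy [] Z.X0 Γ e := fun i t hi =>
  have ht := hΓ t (List.mem_of_getElem? hi)
  ⟨ht, Z.G_ty ht (h i t hi)⟩

theorem tr_true {φ : Fm} {Γ : List Tag} (h : φ.wt false Γ = true) {e : ℕ → Tm S}
    (he : Z.EnvTy [] Z.X0 Γ e) : Tr P L.A (Z.tr φ Z.X0 e) ↔ Z.data.mean φ e := by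
  induction φ generalizing Γ e with
  | fls => exact iff_of_false L.fls_law id
  | imp φ ψ ih1 ih2 =>
    simp only [Fm.wt, Bool.and_eq_true] at h
    simp only [tr, HData.mean]
    rw [L.imp_law _ _ (Z.tr_ty h.1 Z.X0_ty (fun _ => rfl) he)
      (Z.tr_ty h.2 Z.X0_ty (fun _ => rfl) he), ih1 h.1 he, ih2 h.2 he]
  | all t φ ih =>
    simp only [Fm.wt, Bool.and_eq_true] at h
    have hq := Z.Q_ok h.1
    simp only [tr, HData.mean]
    rw [hq.law _ _ (Z.Qd_ty Z.X0_ty h.1) (Z.tr_ty h.2 (Z.weak_X Z.X0_ty _)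
      (fun _ => Z.lift_X0) (Z.tr_body_env Z.X0_ty he h.1))]
    have key : ∀ n, Ty P L.A [] n (Z.Qd Z.X0 t) →
        (Tr P L.A (inst n (Z.tr φ (lift Z.X0)
          (scons (Z.ret (lift Z.X0) t (var 0)) (fun i => lift (e i))))) ↔
          Z.data.mean φ (scons (Z.ret Z.X0 t n) e)) := by
      intro n hn
      rw [← ih h.2 (he.cons h.1 (Z.ret_ty Z.X0_ty h.1 hn))]
      unfold inst
      rw [Z.sub_tr h.2]
      have e1 : (fun i => sub (scons n var)
          (scons (Z.ret (lift Z.X0) t (var 0)) (fun i => lift (e i)) i)) =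
          scons (Z.ret Z.X0 t n) e := by
        funext i
        cases i with
        | zero => simp [Z.sub_ret _ _ h.1]
        | succ i => simp
      rw [e1]; simp
    constructor
    · rintro H x ⟨n, hn, rfl⟩
      exact (key n hn).1 (H n hn)
    · intro H n hn
      exact (key n hn).2 (H _ ⟨n, hn, rfl⟩)
  | mem n i j => rfl
  | mv i j => rfl
  | sat i j => rfl

/-- A formula with one more variable as a predicate on a closed kind. -/
theorem pred_spec {φ : Fm} {Γ : List Tag} {t : Tag} (ht : t.ok = true)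
    (h : φ.wt false (t :: Γ) = true) {e : ℕ → Tm S} (he : Z.EnvTy [] Z.X0 Γ e) :
    ∃ Θ, Ty P L.A [Z.Kd Z.X0 t] Θ (sort L.o) ∧ ∀ y, Ty P L.A [] y (Z.Kd Z.X0 t) →
      (Tr P L.A (inst y Θ) ↔ Z.data.mean φ (scons y e)) := by
  refine ⟨Z.tr φ (lift Z.X0) (scons (var 0) (fun i => lift (e i))), ?_, fun y hy => ?_⟩
  · refine Z.tr_ty h (Z.weak_X Z.X0_ty _) (fun _ => Z.lift_X0) ((he.weak _).cons ht ?_)
    rw [← Z.lift_Kd _ ht]
    exact .var (.zero _ _)
  · rw [← Z.tr_true h (he.cons ht hy)]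
    unfold inst
    rw [Z.sub_tr h]
    have e1 : (fun i => sub (scons y var) (scons (var 0) (fun i => lift (e i)) i)) =
        scons y e := by
      funext i
      cases i with
      | zero => rfl
      | succ i => simp
    rw [e1]; simp

theorem data_comp : Z.data.Comp where
  g_w0 _ := Iff.rfl
  comp n Γ φ e hn hΓ h he := by
    obtain ⟨Θ, hΘ, law⟩ := Z.pred_spec (ok_lv (by omega)) h (Z.envTy_of_env hΓ he)
    obtain ⟨F, hF, law'⟩ := Z.good_cmp (n := n + 1) (by omega) hΘ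
    refine ⟨_, ⟨F, hF, rfl⟩, fun y hy => ?_⟩
    have hy' := Z.G_ty (ok_lv (by omega)) hy
    exact (law' y hy').trans (law y hy')
  compV Γ φ e hΓ h he := by
    have hΓ' : ∀ t ∈ Γ, t.ok = true := by
      intro t ht
      rcases hΓ t ht with rfl | rfl <;> rfl
    have he' := Z.envTy_of_env hΓ' he
    have hX : Ty P L.A [Z.Lv (var 0) 5, Z.Ax] (var 1) Z.Ax := Z.weak_X (Z.var_X []) _
    have he2 : Z.EnvTy [Z.Lv (var 0) 5, Z.Ax] (var 1) (.lv 4 :: Γ)
        (scons (var 0) (fun i => lift (lift (e i)))) := by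
      refine EnvTy.cons (fun i t hi => ?_) rfl ?_
      · obtain ⟨h1, h2⟩ := ((he'.weak Z.Ax).weak (Z.Lv (var 0) 5)) i t hi
        refine ⟨h1, ?_⟩
        rcases hΓ t (List.mem_of_getElem? hi) with rfl | rfl
        · exact h2
        · exact h2
      · have : Ty P L.A [Z.Lv (var 0) 5, Z.Ax] (var 0) (lift (Z.Lv (var 0) 5)) :=
          .var (.zero _ _)
        rwa [Z.lift_Lv _ (by omega)] at this
    obtain ⟨F, hF, law⟩ := Z.good_cmpV (Z.tr_ty h hX (fun h => by cases h) he2)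
    refine ⟨_, ⟨F, hF, rfl⟩, fun s hs => ?_⟩
    have hs' := Z.G_ty (t := .lv 4) rfl hs
    refine (law s hs').trans ?_
    rw [← Z.tr_true (Fm.wt_lax h) (he'.cons rfl hs'), Z.sub_tr h]
    have e1 : (fun i => sub (scons s (scons Z.X0 var))
        (scons (var 0) (fun i => lift (lift (e i))) i)) = scons s e := by
      funext i
      cases i with
      | zero => rfl
      | succ i => simp
    rw [e1]; simp
  compJ Γ φ e hΓ h he := by
    obtain ⟨Φ, hΦ, law⟩ := Z.pred_spec (t := .v) rfl h (Z.envTy_of_env hΓ he)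
    have h1 := (Z.ζ_dw.ev_ty Z.even Z.VV_ty hΦ).ctx_conv (Z.ζ_dw.wrap_ty Z.VV_ty)
      Z.conv_Lv0.symm
    obtain ⟨F, hF, law'⟩ := Z.good_cmp (n := 0) (by omega) h1
    refine ⟨_, ⟨F, hF, rfl⟩, fun x hx => ?_⟩
    have hx' := Z.G_ty (t := .v) rfl hx
    exact (law' _ (Z.eta_ζ_ty hx')).trans
      ((Z.ζ_dw.ev_eta Z.even Z.VV_ty hx' hΦ).trans (law x hx'))

end Shape

theorem Shape.model {L : Logic P rk K} (Z : Shape L) : ∃ H : HData (Tm S), H.Comp :=
  ⟨Z.data, Z.data_comp⟩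

end Crest.Agent.R298
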