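import Crest.Agent.R298.PxWalk

/-! Extraction of walks from an impredicative pattern. -/

set_option autoImplicit false

namespace Crest.Agent.R298

open Tm

universe u
variable {S : Type u} {P : Sys S} {rk : S → ℕ} {K : ℕ}

/-- A codomain path ending at the type of a sort `k` gives a closed kind retracting onto
`sort k`. -/
theorem cpath_retract (L : Logic P rk K) {s a k : S} (h : Relation.ReflTransGen (CE P) s a)
    (hk : P.ax k a) : ∃ Z up dn, Ty P L.A [] Z (sort s) ∧ Ty P L.A [sort k] up Z ∧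
      Ty P L.A [Z] dn (sort k) ∧ ∀ Y, Conv (inst (inst Y up) dn) Y := by
  induction h using Relation.ReflTransGen.head_induction_on with
  | refl =>
    exact ⟨sort k, var 0, var 0, .ax hk, .var (.zero _ _), .var (.zero _ _), fun _ => .rfl⟩
  | @head s s' hs _ ih =>
    obtain ⟨s1, hr⟩ := hs
    obtain ⟨Z, up, dn, hZ, hup, hdn, law⟩ := ih
    have hi : InR P s1 := ⟨s1, s', s, hr, .inl rfl⟩
    have hT := L.top_ty s1 hi
    have hE := L.e_ty s1 hi
    refine ⟨pi (topT s1) Z, lam (topT s1) (lift up), inst (app (var 0) (eT s1)) dn,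
      .pi hT (hZ.of_nil _) hr, ?_, ?_, fun Y => ?_⟩
    · have h1 := hup.weak (topT s1)
      rw [hZ.closed.lift_closed] at h1
      exact .lam (hT.of_nil _) (hZ.of_nil _) hr h1
    · have h3 : Ty P L.A [pi (topT s1) Z] (var 0) (pi (topT s1) Z) := by
        have := Ty.var (P := P) (C := L.A) (Lk.zero (pi (topT s1) Z) [])
        rwa [(Ty.pi hT (hZ.of_nil _) hr).closed.lift_closed] at this
      have h4 := Ty.app h3 (hE.of_nil _)
      rw [hZ.closed.inst_closed] at h4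
      exact hdn.inst1 h4
    · rw [hdn.bnd1.inst_inst1, inst_app, inst_var_zero, hE.closed.inst_closed, inst_lam,
        sub_ups_lift]
      refine Conv.trans (Conv.inst ?_ .rfl) (law Y)
      have := Conv.beta (inst Y (topT s1)) (lift (sub (scons Y var) up)) (eT s1)
      rwa [inst_lift] at this

theorem Dir.pwOK (L : Logic P rk K) {s : S} (h : Dir P rk K s) :
    ∃ Z up dn, PwOK L Z up dn s := by
  obtain ⟨k, a, hk, hax, hp⟩ := h
  obtain ⟨Z, up, dn, hZ, hup, hdn, law⟩ := cpath_retract L hp hax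
  obtain ⟨f, hf, lf⟩ := L.into k hk
  obtain ⟨g, hg, lg⟩ := L.outof k hk
  have h1 := hup.inst1 hf
  rw [hZ.closed.inst_closed] at h1
  have h2 : Ty P L.A [Z] (inst dn g) (sort L.o) := hg.inst1 hdn
  refine ⟨Z, inst f up, inst dn g, hZ, h1, h2, fun φ hφ => ?_⟩
  have h3 := h1.inst hφ
  rw [hZ.closed.inst_closed] at h3
  have h4 : Ty P L.A [] (inst (inst φ (inst f up)) (inst dn g)) (sort L.o) := h2.inst h3
  have h5 : Ty P L.A [] (inst φ f) (sort k) := hf.inst hφ
  have h6 : Ty P L.A [] (inst (inst φ f) g) (sort L.o) := hg.inst h5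
  rw [← lf φ hφ, ← lg _ h5]
  refine tr_congr ?_ h4 h6
  rw [hg.bnd1.inst_inst1, hup.bnd1.inst_inst1]
  exact Conv.inst (law _) .rfl

theorem dw_cod (L : Logic P rk K) {s1 s2 s3 : S} (hr : P.rule s1 s2 s3) :
    ∃ l, DW L l s3 s2 ∧ oddW l = false := by
  have hi : InR P s1 := ⟨s1, s2, s3, hr, .inl rfl⟩
  exact ⟨[.c (topT s1) (eT s1)], .c hr (L.top_ty s1 hi) (L.e_ty s1 hi) .nil, rfl⟩

theorem dw_dom (L : Logic P rk K) {s1 s2 s3 : S} (hr : P.rule s1 s2 s3) (h2 : Dir P rk K s2) :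
    ∃ l, DW L l s3 s1 ∧ oddW l = true := by
  obtain ⟨Z, up, dn, hZ⟩ := h2.pwOK L
  exact ⟨[.d Z up dn], .d hr hZ .nil, rfl⟩

theorem dw_of_rtg (L : Logic P rk K) {v w : S} (h : Relation.ReflTransGen (DG P rk K) v w) :
    ∃ l, DW L l v w := by
  induction h with
  | refl => exact ⟨[], .nil⟩
  | tail _ hs ih =>
    obtain ⟨l, hl⟩ := ih
    rcases hs with ⟨s1, hr, -⟩ | ⟨s2, hr, h2, -⟩
    · obtain ⟨l', hl', -⟩ := dw_cod L hr
      exact ⟨_, hl.append hl'⟩
    · obtain ⟨l', hl', -⟩ := dw_dom L hr h2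
      exact ⟨_, hl.append hl'⟩

theorem Par.dw (L : Logic P rk K) {b : Bool} {w : S} (h : Par P rk K b w) :
    ∃ q l, QS P rk K q ∧ DW L l q w ∧ oddW l = b := by
  induction h with
  | base hq _ => exact ⟨_, [], hq, .nil, rfl⟩
  | cod _ hr _ ih =>
    obtain ⟨q, l, hq, hl, e⟩ := ih
    obtain ⟨l', hl', e'⟩ := dw_cod L hr
    exact ⟨q, _, hq, hl.append hl', by simp [oddW_append, e, e']⟩
  | dom _ hr h2 _ ih =>
    obtain ⟨q, l, hq, hl, e⟩ := ih
    obtain ⟨l', hl', e'⟩ := dw_dom L hr h2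
    exact ⟨q, _, hq, hl.append hl', by simp [oddW_append, e, e']⟩

theorem Par.dir {b : Bool} {w : S} (h : Par P rk K b w) : Dir P rk K w := by
  cases h <;> assumption

theorem DG.dir_src {v w : S} (h : DG P rk K v w) : Dir P rk K v := by
  rcases h with ⟨s1, hr, k, a, hk, hax, hp⟩ | ⟨s2, hr, ⟨k, a, hk, hax, hp⟩, -⟩
  · exact ⟨k, a, hk, hax, .head ⟨s1, hr⟩ hp⟩
  · exact ⟨k, a, hk, hax, .head ⟨_, hr⟩ hp⟩

theorem par_both {v w : S} (h : Relation.ReflTransGen (DG P rk K) v w)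
    (h0 : Par P rk K false v) (h1 : Par P rk K true v) :
    Par P rk K false w ∧ Par P rk K true w := by
  induction h with
  | refl => exact ⟨h0, h1⟩
  | tail _ hs ih =>
    rcases hs with ⟨s1, hr, hd⟩ | ⟨s2, hr, h2, hd⟩
    · exact ⟨ih.1.cod hr hd, ih.2.cod hr hd⟩
    · exact ⟨ih.2.dom hr h2 hd, ih.1.dom hr h2 hd⟩

theorem exists_shape (L : Logic P rk K) (h : Pattern P rk K) : Nonempty (Shape L) := by
  obtain ⟨u, x1, x2, x3, a, s1, s2, s3, p0, p1, hx, hux3, hx2u, hxa, hax, hs, d2, d1, hus3,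
    hs1u⟩ := h
  have hd2 : Dir P rk K x2 := by
    rcases hx2u.cases_head with rfl | ⟨c, hc, -⟩
    · exact p0.dir
    · exact hc.dir_src
  have e32 : DG P rk K x3 x2 := .inl ⟨x1, hx, hd2⟩
  have e31 : DG P rk K s3 s1 := .inr ⟨s2, hs, d2, d1⟩
  let In : S → Prop := fun w =>
    Relation.ReflTransGen (DG P rk K) u w ∧ Relation.ReflTransGen (DG P rk K) w u
  have step : ∀ v, In v → ∃ v' l, In v' ∧ DW L l v v' ∧ oddW l = true := by
    intro v hv
    obtain ⟨l, hl⟩ := dw_of_rtg L (hv.2.trans hus3)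
    cases e : oddW l with
    | true => exact ⟨s3, l, ⟨hus3, .head e31 hs1u⟩, hl, e⟩
    | false =>
      obtain ⟨l', hl', e'⟩ := dw_dom L hs d2
      exact ⟨s1, _, ⟨hus3.tail e31, hs1u⟩, hl.append hl', by simp [oddW_append, e, e']⟩
  have gam : ∀ w, Relation.ReflTransGen (DG P rk K) u w →
      ∃ q l, QS P rk K q ∧ DW L l q w ∧ oddW l = false :=
    fun w hw => (par_both hw p0 p1).1.dw L
  have i0 : In x2 := ⟨hux3.tail e32, hx2u⟩
  obtain ⟨b1, w0, i1, t0, o0⟩ := step _ i0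
  obtain ⟨b2, w1, i2, t1, o1⟩ := step _ i1
  obtain ⟨b3, w2, i3, t2, o2⟩ := step _ i2
  obtain ⟨b4, w3, i4, t3, o3⟩ := step _ i3
  obtain ⟨b5, w4, i5, t4, o4⟩ := step _ i4
  obtain ⟨b6, w5, i6, t5, o5⟩ := step _ i5
  obtain ⟨α, hα⟩ := dw_of_rtg L hux3
  obtain ⟨ρ0, hρ0⟩ := dw_of_rtg L i6.2
  obtain ⟨ρ, hρ, hev⟩ : ∃ ρ, DW L ρ b6 u ∧ oddW (ρ ++ α) = false := by
    cases e : oddW (ρ0 ++ α) with
    | false => exact ⟨ρ0, hρ0, e⟩
    | true =>
      obtain ⟨c, hc, ec⟩ := dw_cod L hx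
      refine ⟨_, hρ0.append (hα.append (hc.append (t0.append (t1.append (t2.append
        (t3.append (t4.append (t5.append hρ0)))))))), ?_⟩
      simp only [oddW_append, ec, o0, o1, o2, o3, o4, o5] at e ⊢
      revert e
      cases oddW ρ0 <;> cases oddW α <;> simp
  obtain ⟨Ax, upX, dnX, hA, hup, hdn, law⟩ := cpath_retract L hxa hax
  refine ⟨{ u := u, x1 := x1, x3 := x3
            a := fun n => match n with
              | 0 => b6 | 1 => b5 | 2 => b4 | 3 => b3 | 4 => b2 | 5 => b1 | _ => x2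
            Ax := Ax, upX := upX, dnX := dnX, Ax_ty := hA, up_ty := hup, dn_ty := hdn
            dn_up := law, rule := hx
            ω := fun n => match n with
              | 0 => w5 | 1 => w4 | 2 => w3 | 3 => w2 | 4 => w1 | _ => w0
            ω_dw := ?_, ω_odd := ?_, ρ := ρ, ρ_dw := hρ, α := α, α_dw := hα, even := hev
            γ := ?_, γV := gam _ hux3 }⟩
  · intro n hn
    interval_cases n
    exacts [t5, t4, t3, t2, t1, t0]
  · intro n hn
    interval_cases n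
    exacts [o5, o4, o3, o2, o1, o0]
  · intro n hn
    interval_cases n
    exacts [gam _ i5.1, gam _ i4.1, gam _ i3.1, gam _ i2.1, gam _ i1.1]

end Crest.Agent.R298
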