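import Crest.Agent.R298.PxLogic
import Crest.Agent.R298.PxShape
import Crest.Agent.R298.PxModel

/-! The paradox: an impredicative pattern contradicts weak normalisation. -/

set_option autoImplicit false

namespace Crest.Agent.R298

open Tm

universe u
variable {S : Type u} {P : Sys S}

theorem paradox (hA : Atoms P) (hW : AllWN P) (R : Rank (DE P)) {K : ℕ}
    (h1 : ¬ Col P R.rk K) (h2 : ¬ NoTriple P R.rk K) (h3 : Pattern P R.rk K) : False := by
  obtain ⟨L⟩ := exists_logic hA hW R h1 h2
  obtain ⟨Z⟩ := exists_shape L h3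
  obtain ⟨H, hH⟩ := Z.model
  have : Nonempty (Tm S) := ⟨var 0⟩
  exact hH.false

end Crest.Agent.R298
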