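import Crest.Agent.R298.Typing
import Crest.Prelude.Def_PTS

/-! Translation between the original terms and the extended terms: syntax and reduction. -/

set_option autoImplicit false

namespace Crest.Agent.R298

open Tm

universe u
variable {S : Type u}

/-- The original terms. -/
abbrev OT (S : Type u) : Type u := Crest.LogicCS.PTS.Term S

/-- Embedding of the original terms. -/
def emb : OT S → Tm S
  | .var i => .var i
  | .sort s => .sort s
  | .app M N => .app (emb M) (emb N)
  | .lam M N => .lam (emb M) (emb N)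
  | .pi M N => .pi (emb M) (emb N)

/-- Erasure: stored terms are dropped and constants are replaced by the sort `s0`. -/
def er (s0 : S) : Tm S → OT S
  | .var i => .var i
  | .sort s => .sort s
  | .cst _ _ => .sort s0
  | .app M N => .app (er s0 M) (er s0 N)
  | .lam M N => .lam (er s0 M) (er s0 N)
  | .pi M N => .pi (er s0 M) (er s0 N)
  | .mem M _ => er s0 M

@[simp] theorem er_emb (s0 : S) (M : OT S) : er s0 (emb M) = M := by
  induction M <;> simp_all [emb, er]

theorem emb_inj {M N : OT S} (h : emb M = emb N) : M = N := by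
  induction M generalizing N with
  | var i => cases N <;> simp_all [emb]
  | sort s => cases N <;> simp_all [emb]
  | app A B ihA ihB =>
    cases N <;> simp only [emb, reduceCtorEq, Tm.app.injEq] at h
    rw [ihA h.1, ihB h.2]
  | lam A B ihA ihB =>
    cases N <;> simp only [emb, reduceCtorEq, Tm.lam.injEq] at h
    rw [ihA h.1, ihB h.2]
  | pi A B ihA ihB =>
    cases N <;> simp only [emb, reduceCtorEq, Tm.pi.injEq] at h
    rw [ihA h.1, ihB h.2]

/-- The renaming performed by `shift c`. -/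
def shf (c : ℕ) (i : ℕ) : ℕ := if i < c then i else i + 1

theorem upr_shf (c : ℕ) : upr (shf c) = shf (c + 1) := by
  funext i
  cases i with
  | zero => simp [shf]
  | succ i =>
    simp only [upr_succ, shf, Nat.add_lt_add_iff_right]
    split <;> rfl

theorem shf_zero : shf 0 = Nat.succ := by
  funext i; simp [shf]

theorem emb_shift (c : ℕ) (M : OT S) :
    emb (Crest.LogicCS.PTS.Term.shift c M) = ren (shf c) (emb M) := by
  induction M generalizing c with
  | var i =>
    simp only [Crest.LogicCS.PTS.Term.shift, emb, ren_var, shf]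
    split <;> rfl
  | sort s => rfl
  | app A B ihA ihB => simp [Crest.LogicCS.PTS.Term.shift, emb, ihA, ihB]
  | lam A B ihA ihB => simp [Crest.LogicCS.PTS.Term.shift, emb, ihA, ihB, upr_shf]
  | pi A B ihA ihB => simp [Crest.LogicCS.PTS.Term.shift, emb, ihA, ihB, upr_shf]

theorem emb_shift_zero (M : OT S) : emb (Crest.LogicCS.PTS.Term.shift 0 M) = lift (emb M) := by
  rw [emb_shift, shf_zero]; rfl

theorem emb_shiftBy (n : ℕ) (M : OT S) :
    emb (Crest.LogicCS.PTS.Term.shiftBy n M) = ren (· + n) (emb M) := by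
  induction n with
  | zero => simp [Crest.LogicCS.PTS.Term.shiftBy]
  | succ n ih =>
    rw [Crest.LogicCS.PTS.Term.shiftBy, emb_shift_zero, ih, lift, ren_ren]
    rfl

/-- The substitution performed by `substAt k N`. -/
def sbf (k : ℕ) (N : Tm S) (i : ℕ) : Tm S :=
  if i < k then var i else if i = k then ren (· + k) N else var (i - 1)

theorem ups_sbf (k : ℕ) (N : Tm S) : ups (sbf k N) = sbf (k + 1) N := by
  funext i
  cases i with
  | zero => simp [sbf]
  | succ i =>
    simp only [ups_succ, sbf, Nat.add_lt_add_iff_right, Nat.add_right_cancel_iff,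
      Nat.add_sub_cancel]
    split
    · rfl
    · split
      · rw [lift, ren_ren]; rfl
      · rw [lift_var]; congr 1; omega

theorem sbf_zero (N : Tm S) : sbf 0 N = scons N var := by
  funext i
  cases i with
  | zero => simp [sbf]
  | succ i => simp [sbf]

theorem emb_substAt (k : ℕ) (N M : OT S) :
    emb (Crest.LogicCS.PTS.Term.substAt k N M) = sub (sbf k (emb N)) (emb M) := by
  induction M generalizing k with
  | var i =>
    simp only [Crest.LogicCS.PTS.Term.substAt, emb, sub_var, sbf]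
    split
    · rfl
    · split
      · exact emb_shiftBy _ _
      · rfl
  | sort s => rfl
  | app A B ihA ihB => simp [Crest.LogicCS.PTS.Term.substAt, emb, ihA, ihB]
  | lam A B ihA ihB => simp [Crest.LogicCS.PTS.Term.substAt, emb, ihA, ihB, ups_sbf]
  | pi A B ihA ihB => simp [Crest.LogicCS.PTS.Term.substAt, emb, ihA, ihB, ups_sbf]

theorem emb_subst (N M : OT S) :
    emb (Crest.LogicCS.PTS.Term.subst N M) = inst (emb N) (emb M) := by
  rw [Crest.LogicCS.PTS.Term.subst, emb_substAt, sbf_zero]; rfl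

theorem emb_er_ren (s0 : S) (ξ : ℕ → ℕ) (M : Tm S) :
    emb (er s0 (ren ξ M)) = ren ξ (emb (er s0 M)) := by
  induction M generalizing ξ <;> simp_all [emb, er]

theorem emb_er_sub (s0 : S) (σ : ℕ → Tm S) (M : Tm S) :
    emb (er s0 (sub σ M)) = sub (fun i => emb (er s0 (σ i))) (emb (er s0 M)) := by
  have h : ∀ σ : ℕ → Tm S,
      (fun i => emb (er s0 (ups σ i))) = ups (fun i => emb (er s0 (σ i))) := by
    intro σ; funext i
    cases i with
    | zero => rfl
    | succ i => exact emb_er_ren s0 _ _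
  induction M generalizing σ <;> simp_all [emb, er]

theorem er_lift (s0 : S) (M : Tm S) :
    er s0 (lift M) = Crest.LogicCS.PTS.Term.shift 0 (er s0 M) :=
  emb_inj (by rw [emb_shift_zero]; exact emb_er_ren s0 _ _)

theorem er_inst (s0 : S) (N M : Tm S) :
    er s0 (inst N M) = Crest.LogicCS.PTS.Term.subst (er s0 N) (er s0 M) := by
  apply emb_inj
  rw [emb_subst, inst, inst, emb_er_sub]
  congr 1
  funext i
  cases i <;> rfl

/-! ### Reduction -/

theorem step_emb {M N : OT S} (h : Crest.LogicCS.PTS.Beta M N) : Step (emb M) (emb N) := by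
  induction h with
  | redex A M N => rw [emb_subst]; exact Step.beta _ _ _
  | appL N _ ih => exact .appL _ ih
  | appR M _ ih => exact .appR _ ih
  | lamA M _ ih => exact .lamL _ ih
  | lamM A _ ih => exact .lamR _ ih
  | piA B _ ih => exact .piL _ ih
  | piB A _ ih => exact .piR _ ih

theorem red_emb {M N : OT S} (h : Relation.ReflTransGen Crest.LogicCS.PTS.Beta M N) :
    Red (emb M) (emb N) := by
  induction h with
  | refl => exact .refl
  | tail _ hs ih => exact ih.tail (step_emb hs)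

theorem conv_emb {M N : OT S} (h : Crest.LogicCS.PTS.BetaEq M N) : Conv (emb M) (emb N) := by
  induction h with
  | rel _ _ h => exact (step_emb h).conv
  | refl => exact .rfl
  | symm _ _ _ ih => exact ih.symm
  | trans _ _ _ _ _ ih1 ih2 => exact ih1.trans ih2

theorem normal_emb {M : OT S} (h : Crest.LogicCS.PTS.Normal M) : Normal (emb M) := by
  induction M with
  | var i => exact normal_var i
  | sort s => exact normal_sort s
  | app F N ihF ihN =>
    refine Normal.app_iff.2 ⟨ihF fun _ hs => h _ (.appL _ hs), ihN fun _ hs => h _ (.appR _ hs),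
      fun A B e => ?_⟩
    cases F <;> simp only [emb, reduceCtorEq] at e
    exact h _ (.redex _ _ _)
  | lam A B ihA ihB =>
    exact Normal.lam_iff.2 ⟨ihA fun _ hs => h _ (.lamA _ hs), ihB fun _ hs => h _ (.lamM _ hs)⟩
  | pi A B ihA ihB =>
    exact Normal.pi_iff.2 ⟨ihA fun _ hs => h _ (.piA _ hs), ihB fun _ hs => h _ (.piB _ hs)⟩

theorem wn_emb {M : OT S} (h : Crest.LogicCS.PTS.WN M) : WN (emb M) :=
  let ⟨_, a, b⟩ := h; ⟨_, red_emb a, normal_emb b⟩

theorem Step.er (s0 : S) {M N : Tm S} (h : Step M N) :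
    er s0 M = er s0 N ∨ Crest.LogicCS.PTS.Beta (er s0 M) (er s0 N) := by
  induction h with
  | beta A M N => right; rw [er_inst]; exact .redex _ _ _
  | eps M Q => exact .inl rfl
  | appL N _ ih => exact ih.imp (fun e => by simp [R298.er, e]) (.appL _)
  | appR M _ ih => exact ih.imp (fun e => by simp [R298.er, e]) (.appR _)
  | lamL M _ ih => exact ih.imp (fun e => by simp [R298.er, e]) (.lamA _)
  | lamR A _ ih => exact ih.imp (fun e => by simp [R298.er, e]) (.lamM _)
  | piL M _ ih => exact ih.imp (fun e => by simp [R298.er, e]) (.piA _)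
  | piR A _ ih => exact ih.imp (fun e => by simp [R298.er, e]) (.piB _)
  | memL Q _ ih => exact ih
  | memR M _ _ => exact .inl rfl

theorem Red.er (s0 : S) {M N : Tm S} (h : Red M N) :
    Crest.LogicCS.PTS.BetaEq (er s0 M) (er s0 N) := by
  induction h with
  | refl => exact .refl _
  | tail _ hs ih =>
    rcases hs.er s0 with e | e
    · exact e ▸ ih
    · exact .trans _ _ _ ih (.rel _ _ e)

theorem Conv.er (s0 : S) {M N : Tm S} (h : Conv M N) :
    Crest.LogicCS.PTS.BetaEq (er s0 M) (er s0 N) :=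
  let ⟨_, a, b⟩ := h; .trans _ _ _ (a.er s0) (.symm _ _ (b.er s0))

/-! ### Typing -/

/-- The original system, without atoms. -/
def sysF (P : Crest.LogicCS.PTS.Spec S) : Sys S := ⟨P.ax, P.rule, fun _ => False⟩

variable {P : Crest.LogicCS.PTS.Spec S}

theorem typed_nonempty {Γ : List (OT S)} {M T : OT S} (h : Crest.LogicCS.PTS.Typed P Γ M T) :
    Nonempty S := by
  induction h with
  | @ax s _ _ => exact ⟨s⟩
  | start _ ih => exact ih
  | weak _ _ ih _ => exact ih
  | prod _ _ _ ih _ => exact ih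
  | abs _ _ ih _ => exact ih
  | appl _ _ ih _ => exact ih
  | conv _ _ _ ih _ => exact ih

theorem ty_emb {Γ : List (OT S)} {M T : OT S} (h : Crest.LogicCS.PTS.Typed P Γ M T) :
    Ok (sysF P) ∅ (Γ.map emb) ∧ Ty (sysF P) ∅ (Γ.map emb) (emb M) (emb T) := by
  induction h with
  | ax h => exact ⟨.nil, .ax h⟩
  | start _ ih =>
    rw [emb_shift_zero]
    exact ⟨.cons ih.1 ih.2, .var (.zero _ _)⟩
  | weak _ _ ih1 ih2 =>
    rw [emb_shift_zero, emb_shift_zero]
    exact ⟨.cons ih2.1 ih2.2, ih1.2.weak _⟩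
  | prod _ _ r ih1 ih2 => exact ⟨ih1.1, .pi ih1.2 ih2.2 r⟩
  | abs _ _ ih1 ih2 =>
    obtain ⟨s1, s2, r, a, b⟩ := Ty.gen_pi_sort ih2.2
    exact ⟨ih2.1, .lam a b r ih1.2⟩
  | appl _ _ ih1 ih2 =>
    rw [emb_subst]
    exact ⟨ih1.1, .app ih1.2 ih2.2⟩
  | conv _ _ c ih1 ih2 => exact ⟨ih1.1, .conv ih1.2 ih2.2 (conv_emb c)⟩

/-- Valid contexts of the original system. -/
inductive OOk (P : Crest.LogicCS.PTS.Spec S) : List (OT S) → Prop
  | nil : OOk P []
  | cons {Γ : List (OT S)} {A : OT S} {s : S} : OOk P Γ →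
      Crest.LogicCS.PTS.Typed P Γ A (.sort s) → OOk P (A :: Γ)

theorem OOk.ax {Γ : List (OT S)} (h : OOk P Γ) {s t : S} (ha : P.ax s t) :
    Crest.LogicCS.PTS.Typed P Γ (.sort s) (.sort t) := by
  induction h with
  | nil => exact .ax ha
  | cons _ hA ih => exact .weak ih hA

theorem OOk.var (s0 : S) {Γ : List (Tm S)} {i : ℕ} {A : Tm S} (hl : Lk Γ i A)
    (h : OOk P (Γ.map (er s0))) :
    Crest.LogicCS.PTS.Typed P (Γ.map (er s0)) (.var i) (er s0 A) := by
  induction hl with
  | zero A Γ =>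
    rw [er_lift]
    cases h with
    | cons _ hA => exact .start hA
  | @succ Γ i A B _ ih =>
    rw [er_lift]
    cases h with
    | cons h hB => exact .weak (ih h) hB

theorem Ty.er (s0 : S) {Γ : List (Tm S)} {M T : Tm S} (h : Ty (sysF P) ∅ Γ M T)
    (hΓ : OOk P (Γ.map (er s0))) :
    Crest.LogicCS.PTS.Typed P (Γ.map (er s0)) (er s0 M) (er s0 T) := by
  induction h with
  | ax h => exact hΓ.ax h
  | var h => exact hΓ.var s0 h
  | cst h => exact absurd h (Set.notMem_empty _)
  | atom h => exact absurd h (Set.notMem_empty _)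
  | pi _ _ r ih1 ih2 => exact .prod (ih1 hΓ) (ih2 (.cons hΓ (ih1 hΓ))) r
  | lam _ _ r _ ih1 ih2 ih3 =>
    exact .abs (ih3 (.cons hΓ (ih1 hΓ))) (.prod (ih1 hΓ) (ih2 (.cons hΓ (ih1 hΓ))) r)
  | app _ _ ih1 ih2 => rw [er_inst]; exact .appl (ih1 hΓ) (ih2 hΓ)
  | mem _ _ ih1 _ => exact ih1 hΓ
  | conv _ _ c ih1 ih2 => exact .conv (ih1 hΓ) (ih2 hΓ) (c.er s0)

theorem Ok.er (s0 : S) {Γ : List (Tm S)} (h : Ok (sysF P) ∅ Γ) : OOk P (Γ.map (er s0)) := by
  induction h with
  | nil => exact .nil
  | cons _ hA ih => exact .cons ih (hA.er s0 ih)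

theorem Ty.red_emb_er (s0 : S) {Q : Sys S} {Γ : List (Tm S)} {M T : Tm S} (h : Ty Q ∅ Γ M T) :
    Red M (emb (R298.er s0 M)) := by
  induction h with
  | ax => exact .refl
  | var => exact .refl
  | cst h => exact absurd h (Set.notMem_empty _)
  | atom h => exact absurd h (Set.notMem_empty _)
  | pi _ _ _ ih1 ih2 => exact Red.pi ih1 ih2
  | lam _ _ _ _ ih1 _ ih3 => exact Red.lam ih1 ih3
  | app _ _ ih1 ih2 => exact Red.app ih1 ih2
  | mem _ _ ih1 _ => exact .head (.eps _ _) ih1
  | conv _ _ _ ih1 _ => exact ih1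

theorem Ty.nonempty_sort {Q : Sys S} {C : Set (Tm S)} {Γ : List (Tm S)} {M T : Tm S}
    (h : Ty Q C Γ M T) (hΓ : Ok Q C Γ) : Nonempty S := by
  rcases h.type_ok hΓ with ⟨s, -⟩ | ⟨s, -⟩ <;> exact ⟨s⟩

/-- Weak normalisation for terms typed without constants. -/
theorem wn_of_empty (h : ∀ Γ M, Crest.LogicCS.PTS.Legal P Γ M → Crest.LogicCS.PTS.WN M)
    {Γ : List (Tm S)} {M T : Tm S} (hΓ : Ok (sysF P) ∅ Γ) (hM : Ty (sysF P) ∅ Γ M T) : WN M := by
  obtain ⟨s0⟩ := hM.nonempty_sort hΓ
  exact WN.of_red (hM.red_emb_er s0) (wn_emb (h _ _ ⟨_, .inl (hM.er s0 (hΓ.er s0))⟩))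

end Crest.Agent.R298
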