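import Crest.Agent.R298.Csub
import Crest.Agent.R298.TransferA

/-! Transfer from the original calculus to a finite system with constants and atoms. -/

set_option autoImplicit false

namespace Crest.Agent.R298

open Tm

universe u
variable {S : Type u}

/-! ### Removing the constants one at a time -/

/-- Telescopes of constants: each annotation is typed over the later constants. -/
inductive Tele (Q : Sys S) : List (Tm S) → Prop
  | nil : Tele Q []
  | cons {L : List (Tm S)} {n A : Tm S} {s : S} : Tele Q L →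
      Ty Q {c | c ∈ L} [] A (sort s) → Tele Q (cst n A :: L)

theorem Tele.append {Q : Sys S} {L L' : List (Tm S)} (h : Tele Q L) (h' : Tele Q L') :
    Tele Q (L ++ L') := by
  induction h with
  | nil => exact h'
  | cons _ hA ih => exact .cons ih (hA.monoC fun c hc => List.mem_append_left _ hc)

theorem Tele.wfC {Q : Sys S} {L : List (Tm S)} (h : Tele Q L) : WfC Q {c | c ∈ L} := by
  induction h with
  | nil => intro n A hc; simp at hc
  | @cons L n A s _ hA ih =>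
    have hsub : {c | c ∈ L} ⊆ {c | c ∈ cst n A :: L} := fun c hc => List.mem_cons_of_mem _ hc
    intro n' A' hc
    rcases List.mem_cons.1 hc with e | hc
    · cases e
      exact .inl ⟨s, hA.monoC hsub⟩
    · rcases ih n' A' hc with ⟨s', h'⟩ | h'
      · exact .inl ⟨s', h'.monoC hsub⟩
      · exact .inr h'

theorem Ty.tele {Q : Sys S} (hQ : ∀ s, ¬ Q.atom s) {Γ : List (Tm S)} {M T : Tm S}
    (h : Ty Q Set.univ Γ M T) : ∃ L, Tele Q L ∧ Ty Q {c | c ∈ L} Γ M T := by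
  have hl : ∀ L L' : List (Tm S), {c | c ∈ L} ⊆ {c | c ∈ L ++ L'} :=
    fun L L' c hc => List.mem_append_left _ hc
  have hr : ∀ L L' : List (Tm S), {c | c ∈ L'} ⊆ {c | c ∈ L ++ L'} :=
    fun L L' c hc => List.mem_append_right _ hc
  induction h with
  | ax h => exact ⟨[], .nil, .ax h⟩
  | var h => exact ⟨[], .nil, .var h⟩
  | @cst Γ n A s _ _ ih =>
    obtain ⟨L, a, b⟩ := ih
    exact ⟨Tm.cst n A :: L, .cons a b,
      .cst (List.mem_cons_self ..) (b.monoC fun c hc => List.mem_cons_of_mem _ hc)⟩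
  | atom _ h => exact absurd h (hQ _)
  | pi _ _ r ih1 ih2 =>
    obtain ⟨L1, a1, b1⟩ := ih1
    obtain ⟨L2, a2, b2⟩ := ih2
    exact ⟨L1 ++ L2, a1.append a2, .pi (b1.monoC (hl _ _)) (b2.monoC (hr _ _)) r⟩
  | lam _ _ r _ ih1 ih2 ih3 =>
    obtain ⟨L1, a1, b1⟩ := ih1
    obtain ⟨L2, a2, b2⟩ := ih2
    obtain ⟨L3, a3, b3⟩ := ih3
    exact ⟨L1 ++ (L2 ++ L3), a1.append (a2.append a3), .lam (b1.monoC (hl _ _))
      ((b2.monoC (hl _ _)).monoC (hr _ _)) r ((b3.monoC (hr _ _)).monoC (hr _ _))⟩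
  | app _ _ ih1 ih2 =>
    obtain ⟨L1, a1, b1⟩ := ih1
    obtain ⟨L2, a2, b2⟩ := ih2
    exact ⟨L1 ++ L2, a1.append a2, .app (b1.monoC (hl _ _)) (b2.monoC (hr _ _))⟩
  | mem _ _ ih1 ih2 =>
    obtain ⟨L1, a1, b1⟩ := ih1
    obtain ⟨L2, a2, b2⟩ := ih2
    exact ⟨L1 ++ L2, a1.append a2, .mem (b1.monoC (hl _ _)) (b2.monoC (hr _ _))⟩
  | conv _ _ c ih1 ih2 =>
    obtain ⟨L1, a1, b1⟩ := ih1
    obtain ⟨L2, a2, b2⟩ := ih2
    exact ⟨L1 ++ L2, a1.append a2, .conv (b1.monoC (hl _ _)) (b2.monoC (hr _ _)) c⟩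

theorem Ok.tele {Q : Sys S} (hQ : ∀ s, ¬ Q.atom s) {Γ : List (Tm S)}
    (h : Ok Q Set.univ Γ) : ∃ L, Tele Q L ∧ Ok Q {c | c ∈ L} Γ := by
  induction h with
  | nil => exact ⟨[], .nil, .nil⟩
  | cons _ hA ih =>
    obtain ⟨L1, a1, b1⟩ := ih
    obtain ⟨L2, a2, b2⟩ := hA.tele hQ
    exact ⟨L1 ++ L2, a1.append a2, .cons (b1.monoC fun c hc => List.mem_append_left _ hc)
      (b2.monoC fun c hc => List.mem_append_right _ hc)⟩

theorem Ok.absC {Q : Sys S} {C : Set (Tm S)} (hC : WfC Q C) {n A : Tm S} {s : S}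
    (hc : Tm.cst n A ∉ C) (hA : Ty Q C [] A (sort s)) {Γ : List (Tm S)}
    (h : Ok Q (insert (Tm.cst n A) C) Γ) :
    Ok Q C (csubCtx (absMap (Tm.cst n A)) Γ ++ [A]) := by
  induction h with
  | nil => exact .cons .nil hA
  | cons _ hB ih => exact .cons ih (hB.absC hC hc)

theorem wn_of_tele {Q : Sys S} (h0 : ∀ Γ M T, Ok Q ∅ Γ → Ty Q ∅ Γ M T → WN M)
    {L : List (Tm S)} (hL : Tele Q L) :
    ∀ Γ M T, Ok Q {c | c ∈ L} Γ → Ty Q {c | c ∈ L} Γ M T → WN M := by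
  induction hL with
  | nil =>
    have e : {c : Tm S | c ∈ ([] : List (Tm S))} = ∅ := by simp
    rw [e]; exact h0
  | @cons L n A s hL hA ih =>
    have e : {c : Tm S | c ∈ cst n A :: L} = insert (cst n A) {c | c ∈ L} := by
      ext c; simp
    rw [e]
    by_cases hc : cst n A ∈ {c | c ∈ L}
    · rw [Set.insert_eq_of_mem hc]; exact ih
    · intro Γ M T hΓ hM
      have := ih _ _ _ (hΓ.absC hL.wfC hc hA) (hM.absC hL.wfC hc)
      refine WN.of_csub (f := absMap (cst n A)) ?_ this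
      intro c N hN
      unfold absMap at hN
      split at hN
      · cases hN
        exact ⟨normal_var 0, fun _ _ e => by cases e⟩
      · cases hN

theorem allWN_of_empty {Q : Sys S} (hQ : ∀ s, ¬ Q.atom s)
    (h0 : ∀ Γ M T, Ok Q ∅ Γ → Ty Q ∅ Γ M T → WN M) : AllWN Q := by
  intro Γ M T hΓ hM
  obtain ⟨L1, a1, b1⟩ := hΓ.tele hQ
  obtain ⟨L2, a2, b2⟩ := hM.tele hQ
  exact wn_of_tele h0 (a1.append a2) Γ M T (b1.monoC fun c hc => List.mem_append_left _ hc)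
    (b2.monoC fun c hc => List.mem_append_right _ hc)

/-! ### Closing a context by constants -/

theorem NoMem.ren {M : Tm S} (h : NoMem M) (ξ : ℕ → ℕ) : NoMem (ren ξ M) := by
  induction M generalizing ξ with
  | var => trivial
  | sort => trivial
  | cst => trivial
  | app M N ihM ihN => exact ⟨ihM h.1 _, ihN h.2 _⟩
  | lam M N ihM ihN => exact ⟨ihM h.1 _, ihN h.2 _⟩
  | pi M N ihM ihN => exact ⟨ihM h.1 _, ihN h.2 _⟩
  | mem => exact h.elim

theorem noMem_sub_env {M : Tm S} (h : NoMem M) {σ : ℕ → Tm S} (hσ : ∀ i, NoMem (σ i)) :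
    NoMem (Tm.sub σ M) := by
  have hu : ∀ {σ : ℕ → Tm S}, (∀ i, NoMem (σ i)) → ∀ i, NoMem (ups σ i) := by
    intro σ h i
    cases i with
    | zero => trivial
    | succ i => exact (h i).ren _
  induction M generalizing σ with
  | var i => exact hσ i
  | sort => trivial
  | cst => trivial
  | app M N ihM ihN => exact ⟨ihM h.1 hσ, ihN h.2 hσ⟩
  | lam M N ihM ihN => exact ⟨ihM h.1 hσ, ihN h.2 (hu hσ)⟩
  | pi M N ihM ihN => exact ⟨ihM h.1 hσ, ihN h.2 (hu hσ)⟩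
  | mem => exact h.elim

theorem noMem_emb (M : OT S) : NoMem (emb M) := by
  induction M with
  | var => trivial
  | sort => trivial
  | app _ _ ih1 ih2 => exact ⟨ih1, ih2⟩
  | lam _ _ ih1 ih2 => exact ⟨ih1, ih2⟩
  | pi _ _ ih1 ih2 => exact ⟨ih1, ih2⟩

theorem Ok.closing {Q : Sys S} {Γ : List (Tm S)} (h : Ok Q Set.univ Γ) :
    ∃ σ, TSub Q Set.univ [] σ Γ ∧ ∀ i, NoMem (σ i) := by
  induction h with
  | nil => exact ⟨var, TSub.nil _ _, fun _ => trivial⟩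
  | @cons Γ A s _ hA ih =>
    obtain ⟨σ, a, b⟩ := ih
    refine ⟨scons (cst (var 0) (sub σ A)) σ, a.cons (.cst (Set.mem_univ _) (hA.sub a)), ?_⟩
    intro i
    cases i with
    | zero => trivial
    | succ i => exact b i

/-! ### Atoms for the inhabited sorts -/

/-- The sort has a closed inhabitant. -/
def Inh (Q : Sys S) (s : S) : Prop := ∃ A, Ty Q Set.univ [] A (sort s)

theorem Ty.inh {Q : Sys S} {Γ : List (Tm S)} {A : Tm S} {s : S}
    (h : Ty Q Set.univ Γ A (sort s)) (hΓ : Ok Q Set.univ Γ) : Inh Q s :=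
  let ⟨_, a, _⟩ := hΓ.closing; ⟨_, h.sub a⟩

/-- The system with the rules `R` and atoms in all the inhabited sorts. -/
def sysR (Q : Sys S) (R : Set (S × S × S)) : Sys S := ⟨Q.ax, fun a b c => (a, b, c) ∈ R, Inh Q⟩

/-- The rules of `Q` all of whose sorts are inhabited. -/
def goodRules (Q : Sys S) : Set (S × S × S) :=
  {r | Q.rule r.1 r.2.1 r.2.2 ∧ Inh Q r.1 ∧ Inh Q r.2.1 ∧ Inh Q r.2.2}

theorem Ty.monoR {Q : Sys S} {R R' : Set (S × S × S)} (hR : R ⊆ R') {C : Set (Tm S)}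
    {Γ : List (Tm S)} {M T : Tm S} (h : Ty (sysR Q R) C Γ M T) : Ty (sysR Q R') C Γ M T :=
  Ty.mono (P := sysR Q R) (P' := sysR Q R') (fun _ h => h) (fun _ _ h => h)
    (fun _ _ _ h => hR h) (fun _ h => h) h

theorem Ty.finite_rules {Q : Sys S} (hQ : ∀ s, ¬ Q.atom s) {Γ : List (Tm S)} {M T : Tm S}
    (h : Ty Q Set.univ Γ M T) (hΓ : Ok Q Set.univ Γ) :
    ∃ R : Set (S × S × S), R.Finite ∧ R ⊆ goodRules Q ∧ Ty (sysR Q R) Set.univ Γ M T := by
  induction h with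
  | ax h => exact ⟨∅, Set.finite_empty, Set.empty_subset _, .ax h⟩
  | var h => exact ⟨∅, Set.finite_empty, Set.empty_subset _, .var h⟩
  | cst hc _ ih =>
    obtain ⟨R, a, b, c⟩ := ih .nil
    exact ⟨R, a, b, .cst hc c⟩
  | atom _ h => exact absurd h (hQ _)
  | @pi Γ A B s1 s2 s3 h1 h2 r ih1 ih2 =>
    obtain ⟨R1, a1, b1, c1⟩ := ih1 hΓ
    obtain ⟨R2, a2, b2, c2⟩ := ih2 (.cons hΓ h1)
    refine ⟨insert (s1, s2, s3) (R1 ∪ R2), (a1.union a2).insert _, ?_,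
      .pi (c1.monoR fun x hx => .inr (.inl hx)) (c2.monoR fun x hx => .inr (.inr hx))
        (Set.mem_insert _ _)⟩
    exact Set.insert_subset ⟨r, h1.inh hΓ, h2.inh (.cons hΓ h1), (Ty.pi h1 h2 r).inh hΓ⟩
      (Set.union_subset b1 b2)
  | @lam Γ A B M s1 s2 s3 h1 h2 r _ ih1 ih2 ih3 =>
    obtain ⟨R1, a1, b1, c1⟩ := ih1 hΓ
    obtain ⟨R2, a2, b2, c2⟩ := ih2 (.cons hΓ h1)
    obtain ⟨R3, a3, b3, c3⟩ := ih3 (.cons hΓ h1)
    refine ⟨insert (s1, s2, s3) (R1 ∪ (R2 ∪ R3)), (a1.union (a2.union a3)).insert _, ?_,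
      .lam (c1.monoR fun x hx => .inr (.inl hx)) (c2.monoR fun x hx => .inr (.inr (.inl hx)))
        (Set.mem_insert _ _) (c3.monoR fun x hx => .inr (.inr (.inr hx)))⟩
    exact Set.insert_subset ⟨r, h1.inh hΓ, h2.inh (.cons hΓ h1), (Ty.pi h1 h2 r).inh hΓ⟩
      (Set.union_subset b1 (Set.union_subset b2 b3))
  | app _ _ ih1 ih2 =>
    obtain ⟨R1, a1, b1, c1⟩ := ih1 hΓ
    obtain ⟨R2, a2, b2, c2⟩ := ih2 hΓ
    exact ⟨R1 ∪ R2, a1.union a2, Set.union_subset b1 b2,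
      .app (c1.monoR Set.subset_union_left) (c2.monoR Set.subset_union_right)⟩
  | mem _ _ ih1 ih2 =>
    obtain ⟨R1, a1, b1, c1⟩ := ih1 hΓ
    obtain ⟨R2, a2, b2, c2⟩ := ih2 hΓ
    exact ⟨R1 ∪ R2, a1.union a2, Set.union_subset b1 b2,
      .mem (c1.monoR Set.subset_union_left) (c2.monoR Set.subset_union_right)⟩
  | conv _ _ c ih1 ih2 =>
    obtain ⟨R1, a1, b1, c1⟩ := ih1 hΓ
    obtain ⟨R2, a2, b2, c2⟩ := ih2 hΓ
    exact ⟨R1 ∪ R2, a1.union a2, Set.union_subset b1 b2,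
      .conv (c1.monoR Set.subset_union_left) (c2.monoR Set.subset_union_right) c⟩

theorem Inh.normal {Q : Sys S} (hW : AllWN Q) {s : S} (h : Inh Q s) :
    ∃ A, Ty Q Set.univ [] A (sort s) ∧ Normal A ∧ ∀ B M, A ≠ Tm.lam B M := by
  obtain ⟨A, hA⟩ := h
  obtain ⟨A', a, b⟩ := hW _ _ _ .nil hA
  have hA' := hA.red .nil a
  refine ⟨A', hA', b, ?_⟩
  rintro B M rfl
  obtain ⟨_, _, _, _, -, -, -, -, c⟩ := hA'.gen_lam
  exact Conv.not_sort_pi c

theorem allWN_sysR {Q : Sys S} (hW : AllWN Q) {R : Set (S × S × S)} (hR : R ⊆ goodRules Q) :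
    AllWN (sysR Q R) := by
  classical
  have hex : ∃ f : Tm S → Option (Tm S),
      (∀ c N, f c = some N → (Normal N ∧ ∀ B M, N ≠ Tm.lam B M) ∧
        ∃ n s, c = cst n (sort s) ∧ Ty Q Set.univ [] N (sort s)) ∧
      ∀ n s, Inh Q s → f (cst n (sort s)) ≠ none := by
    have hc : ∀ c : Tm S, ∃ o : Option (Tm S),
        (∀ N, o = some N → (Normal N ∧ ∀ B M, N ≠ Tm.lam B M) ∧
          ∃ n s, c = cst n (sort s) ∧ Ty Q Set.univ [] N (sort s)) ∧
        ∀ n s, c = cst n (sort s) → Inh Q s → o ≠ none := by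
      intro c
      by_cases h : ∃ n s, c = cst n (sort s) ∧ Inh Q s
      · obtain ⟨n, s, rfl, hs⟩ := h
        obtain ⟨A, a, b, d⟩ := hs.normal hW
        refine ⟨some A, ?_, fun _ _ _ _ => by simp⟩
        rintro N hN
        cases hN
        exact ⟨⟨b, d⟩, n, s, rfl, a⟩
      · exact ⟨none, fun _ hN => (by cases hN), fun n s e hs => absurd ⟨n, s, e, hs⟩ h⟩
    choose f h1 h2 using hc
    exact ⟨f, fun c N => h1 c N, fun n s => h2 _ n s rfl⟩
  obtain ⟨f, hf1, hf2⟩ := hex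
  have key : ∀ {Γ : List (Tm S)} {M T : Tm S}, Ty (sysR Q R) Set.univ Γ M T →
      Ty Q Set.univ (csubCtx f Γ) (csub f Γ.length M) (csub f Γ.length T) := by
    intro Γ M T h
    have := Ty.csub (P := sysR Q R) (P' := Q) (C := Set.univ) (C' := Set.univ) (f := f) (Δ := [])
      (fun _ _ h => h) (fun _ _ _ h => (hR h).1) ?_ ?_ h
    · rwa [List.append_nil] at this
    · intro n A N _ hN _
      obtain ⟨-, n', s, e, a⟩ := hf1 _ _ hN
      cases e
      exact a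
    · rintro n A _ hN (⟨s, -, a⟩ | ⟨s, rfl, a⟩)
      · exact .cst (Set.mem_univ _) a
      · exact absurd hN (hf2 n s a)
  have keyOk : ∀ {Γ : List (Tm S)}, Ok (sysR Q R) Set.univ Γ → Ok Q Set.univ (csubCtx f Γ) := by
    intro Γ h
    induction h with
    | nil => exact .nil
    | cons _ hA ih => exact .cons ih (key hA)
  intro Γ M T hΓ hM
  exact WN.of_csub (fun c N hN => (hf1 c N hN).1) (hW _ _ _ (keyOk hΓ) (key hM))

/-! ### The transfer -/

theorem transfer (P : Crest.LogicCS.PTS.Spec S)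
    (h : ∀ Γ M, Crest.LogicCS.PTS.Legal P Γ M → Crest.LogicCS.PTS.WN M)
    (Γ : List (Crest.LogicCS.PTS.Term S)) (M T : Crest.LogicCS.PTS.Term S)
    (hM : Crest.LogicCS.PTS.Typed P Γ M T) :
    ∃ P0 : Sys S, FinRules P0 ∧ Atoms P0 ∧ AllWN P0 ∧ ∃ m A : Tm S, Ty P0 Set.univ [] m A ∧
      NoMem m ∧ ((¬ ∃ f : ℕ → Tm S, f 0 = m ∧ ∀ n, Step (f n) (f (n + 1))) →
        Crest.LogicCS.PTS.SN M) := by
  have hQ : ∀ s, ¬ (sysF P).atom s := fun _ h => h
  have hW : AllWN (sysF P) := allWN_of_empty hQ fun _ _ _ hΓ hM => wn_of_empty h hΓ hM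
  obtain ⟨hΓ, hT⟩ := ty_emb hM
  obtain ⟨σ, hσ, hn⟩ := (hΓ.monoC (Set.empty_subset Set.univ)).closing
  obtain ⟨R, hR, hg, hm⟩ := ((hT.monoC (Set.empty_subset Set.univ)).sub hσ).finite_rules hQ .nil
  refine ⟨sysR (sysF P) R, hR, ?_, allWN_sysR hW hg, _, _, hm, noMem_sub_env (noMem_emb M) hn, ?_⟩
  · rintro s ⟨a, b, c, r, rfl | rfl | rfl⟩
    · exact (hg r).2.1
    · exact (hg r).2.2.1
    · exact (hg r).2.2.2
  · rintro hsn ⟨f, h0, hf⟩
    exact hsn ⟨fun n => sub σ (emb (f n)), by simp only [h0], fun n => (step_emb (hf n)).sub σ⟩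

/-- A legal term is a sort or the subject of a typing. -/
theorem legal_cases {P : Crest.LogicCS.PTS.Spec S} {Γ : List (Crest.LogicCS.PTS.Term S)}
    {M : Crest.LogicCS.PTS.Term S} (h : Crest.LogicCS.PTS.Legal P Γ M) :
    (∃ s, M = .sort s) ∨ ∃ T, Crest.LogicCS.PTS.Typed P Γ M T := by
  obtain ⟨N, h | h⟩ := h
  · exact .inr ⟨N, h⟩
  · obtain ⟨s0⟩ := typed_nonempty h
    obtain ⟨hΓ, hT⟩ := ty_emb h
    rcases hT.type_ok hΓ with ⟨s, e⟩ | ⟨s, hs⟩
    · exact .inl ⟨s, emb_inj e⟩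
    · have := hs.er s0 (hΓ.er s0)
      have e : (Γ.map emb).map (er s0) = Γ := by
        rw [List.map_map]
        exact List.map_id'' (fun x => er_emb s0 x) Γ
      rw [e, er_emb] at this
      exact .inr ⟨_, this⟩

end Crest.Agent.R298
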