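import Crest.Agent.R298.Adequacy
import Crest.Agent.R298.K12
import Crest.Agent.R298.K3
import Crest.Agent.R298.Paradox
import Crest.Agent.R298.Transfer

/-! Composition of the parts. -/

set_option autoImplicit false

namespace Crest.Agent.R298

open Tm

universe u
variable {S : Type u} {P : Sys S}

theorem stage (hF : FinRules P) (hA : Atoms P) (hW : AllWN P) (R : Rank (DE P)) (K : ℕ)
    {m T : Tm S} (h : Ty P Set.univ [] m T) (hn : NK P R.rk (K + 1) [] m) : WK P R.rk K m := by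
  have hle : ∀ s1 s2 s3, P.rule s1 s2 s3 → R.rk s1 ≤ R.rk s3 ∧ R.rk s2 ≤ R.rk s3 :=
    fun _ _ _ h => R.rule_le h
  by_cases h12 : Col P R.rk K ∨ NoTriple P R.rk K
  · obtain ⟨I⟩ := interp_k12 hW hle h12
    exact adequacy hW hle I h hn
  · by_cases h3 : Pattern P R.rk K
    · exact (paradox hA hW R (fun h => h12 (.inl h)) (fun h => h12 (.inr h)) h3).elim
    · obtain ⟨I⟩ := interp_k3 hF hW hle h3
      exact adequacy hW hle I h hn

theorem stages (hF : FinRules P) (hA : Atoms P) (hW : AllWN P) (R : Rank (DE P)) (K : ℕ)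
    {m T : Tm S} (h : Ty P Set.univ [] m T) (hn : NK P R.rk K [] m) :
    ∃ m', MRed m m' ∧ MNormal m' := by
  induction K generalizing m with
  | zero => exact ⟨m, .refl, hn.mnormal⟩
  | succ K ih =>
    obtain ⟨m1, a, b⟩ := stage hF hA hW R K h hn
    obtain ⟨m2, c, d⟩ := ih (h.mred .nil a) b
    exact ⟨m2, a.trans c, d⟩

theorem closed_sn (hF : FinRules P) (hA : Atoms P) (hW : AllWN P) {m T : Tm S}
    (h : Ty P Set.univ [] m T) (hm : NoMem m) :
    ¬ ∃ f : ℕ → Tm S, f 0 = m ∧ ∀ n, Step (f n) (f (n + 1)) := by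
  obtain ⟨R⟩ := exists_rank (DE P) hF.de_finite
  obtain ⟨m', a, b⟩ := stages hF hA hW R R.bound h (NK.of_noMem R.lt_bound h hm)
  exact sn_of_mnormal hm a b

theorem bgk (P : Crest.LogicCS.PTS.Spec S)
    (h : ∀ Γ M, Crest.LogicCS.PTS.Legal P Γ M → Crest.LogicCS.PTS.WN M)
    (Γ : List (Crest.LogicCS.PTS.Term S)) (M : Crest.LogicCS.PTS.Term S)
    (hM : Crest.LogicCS.PTS.Legal P Γ M) : Crest.LogicCS.PTS.SN M := by
  rcases legal_cases hM with ⟨s, rfl⟩ | ⟨T, hT⟩
  · rintro ⟨f, h0, hf⟩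
    have := hf 0
    rw [h0] at this
    cases this
  · obtain ⟨P0, hF, hA, hW, m, A, hm, hn, hsn⟩ := transfer P h Γ M T hT
    exact hsn (closed_sn hF hA hW hm hn)

end Crest.Agent.R298
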