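import Crest.Agent.R298.Defs

/-! The non-erasing reduction: subject reduction, confluence, and weak normalisation implies
strong normalisation of plain reduction. -/

set_option autoImplicit false

namespace Crest.Agent.R298

open Tm

universe u
variable {S : Type u} {P : Sys S} {C : Set (Tm S)}

theorem Conv.mem {M M' N N' : Tm S} (h : Conv M M') (h' : Conv N N') :
    Conv (Tm.mem M N) (Tm.mem M' N') :=
  let ⟨_, a, b⟩ := h; let ⟨_, c, d⟩ := h'; ⟨_, Red.mem a c, Red.mem b d⟩

theorem MStep.conv {M N : Tm S} (h : MStep M N) : Conv M N := by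
  induction h with
  | beta A M N =>
    exact ⟨inst N M, (Step.beta A M N).red, .head (Step.eps _ _) (Step.eps _ _).red⟩
  | perm M Q N => exact ⟨app M N, (Step.appL N (Step.eps M Q)).red, (Step.eps _ _).red⟩
  | appL N _ ih => exact Conv.app ih .rfl
  | appR M _ ih => exact Conv.app .rfl ih
  | lamL M _ ih => exact Conv.lam ih .rfl
  | lamR A _ ih => exact Conv.lam .rfl ih
  | piL M _ ih => exact Conv.pi ih .rfl
  | piR A _ ih => exact Conv.pi .rfl ih
  | memL Q _ ih => exact Conv.mem ih .rfl
  | memR M _ ih => exact Conv.mem .rfl ih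

theorem MRed.conv {M N : Tm S} (h : MRed M N) : Conv M N := by
  induction h with
  | refl => exact .rfl
  | tail _ hs ih => exact ih.trans hs.conv

theorem Ty.mstep {Γ : List (Tm S)} {M T M' : Tm S} (h : Ty P C Γ M T) (hΓ : Ok P C Γ)
    (hs : MStep M M') : Ty P C Γ M' T := by
  induction h generalizing M' with
  | ax => cases hs
  | var => cases hs
  | cst => cases hs
  | atom => cases hs
  | pi h1 h2 r ih1 ih2 =>
    cases hs with
    | piL _ hs => exact .pi (ih1 hΓ hs) (h2.ctx_conv h1 hs.conv.symm) r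
    | piR _ hs => exact .pi h1 (ih2 (.cons hΓ h1) hs) r
  | lam h1 h2 r h3 ih1 _ ih3 =>
    cases hs with
    | lamL _ hs =>
      exact .conv (.lam (ih1 hΓ hs) (h2.ctx_conv h1 hs.conv.symm) r
        (h3.ctx_conv h1 hs.conv.symm)) (.pi h1 h2 r) (Conv.pi hs.conv.symm .rfl)
    | lamR _ hs => exact .lam h1 h2 r (ih3 (.cons hΓ h1) hs)
  | app h1 h2 ih1 ih2 =>
    obtain ⟨s1, s2, s3, r, hA, hB⟩ := h1.pi_type_ok hΓ
    cases hs with
    | beta A0 M0 =>
      obtain ⟨B0, t1, t2, t3, r', a, b, d, f⟩ := h1.gen_lam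
      obtain ⟨c1, c2⟩ := f.pi_inj
      exact .mem (.mem (.conv (d.inst (.conv h2 a c1)) (hB.inst h2) (Conv.inst .rfl c2.symm)) h2) a
    | perm M0 Q0 =>
      obtain ⟨a, B', b⟩ := h1.gen_mem
      exact .mem (.app a h2) b
    | appL _ hs => exact .app (ih1 hΓ hs) h2
    | appR _ hs =>
      exact .conv (.app h1 (ih2 hΓ hs)) (hB.inst h2) (Conv.inst hs.conv.symm .rfl)
  | mem h1 h2 ih1 ih2 =>
    cases hs with
    | memL _ hs => exact .mem (ih1 hΓ hs) h2
    | memR _ hs => exact .mem h1 (ih2 hΓ hs)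
  | conv _ h2 c ih1 _ => exact .conv (ih1 hΓ hs) h2 c

theorem Ty.mred {Γ : List (Tm S)} {M T M' : Tm S} (h : Ty P C Γ M T) (hΓ : Ok P C Γ)
    (hs : MRed M M') : Ty P C Γ M' T := by
  induction hs with
  | refl => exact h
  | tail _ hs ih => exact ih.mstep hΓ hs

/-! ### Confluence of the non-erasing reduction -/

/-- Parallel non-erasing reduction. -/
inductive MPar : Tm S → Tm S → Prop
  | var (i : ℕ) : MPar (var i) (var i)
  | sort (s : S) : MPar (sort s) (sort s)
  | cst (n A : Tm S) : MPar (cst n A) (cst n A)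
  | app {M M' N N' : Tm S} : MPar M M' → MPar N N' → MPar (app M N) (app M' N')
  | lam {M M' N N' : Tm S} : MPar M M' → MPar N N' → MPar (lam M N) (lam M' N')
  | pi {M M' N N' : Tm S} : MPar M M' → MPar N N' → MPar (pi M N) (pi M' N')
  | mem {M M' N N' : Tm S} : MPar M M' → MPar N N' → MPar (mem M N) (mem M' N')
  | beta {A A' M M' N N' : Tm S} : MPar A A' → MPar M M' → MPar N N' →
      MPar (app (lam A M) N) (mem (mem (inst N' M') N') A')
  | perm {M M' Q Q' N N' : Tm S} : MPar M M' → MPar Q Q' → MPar N N' →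
      MPar (app (mem M Q) N) (mem (app M' N') Q')

theorem MPar.refl (M : Tm S) : MPar M M := by
  induction M with
  | var i => exact .var i
  | sort s => exact .sort s
  | cst n A => exact .cst n A
  | app _ _ h1 h2 => exact .app h1 h2
  | lam _ _ h1 h2 => exact .lam h1 h2
  | pi _ _ h1 h2 => exact .pi h1 h2
  | mem _ _ h1 h2 => exact .mem h1 h2

theorem MStep.mpar {M N : Tm S} (h : MStep M N) : MPar M N := by
  induction h with
  | beta A M N => exact .beta (.refl A) (.refl M) (.refl N)
  | perm M Q N => exact .perm (.refl M) (.refl Q) (.refl N)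
  | appL N _ ih => exact .app ih (.refl _)
  | appR M _ ih => exact .app (.refl _) ih
  | lamL M _ ih => exact .lam ih (.refl _)
  | lamR A _ ih => exact .lam (.refl _) ih
  | piL M _ ih => exact .pi ih (.refl _)
  | piR A _ ih => exact .pi (.refl _) ih
  | memL Q _ ih => exact .mem ih (.refl _)
  | memR M _ ih => exact .mem (.refl _) ih

theorem MPar.mred {M N : Tm S} (h : MPar M N) : MRed M N := by
  induction h with
  | var => exact .refl
  | sort => exact .refl
  | cst => exact .refl
  | app _ _ h1 h2 => exact MRed.app h1 h2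
  | lam _ _ h1 h2 => exact MRed.lam h1 h2
  | pi _ _ h1 h2 => exact MRed.pi h1 h2
  | mem _ _ h1 h2 => exact MRed.mem h1 h2
  | beta _ _ _ h1 h2 h3 => exact (MRed.app (MRed.lam h1 h2) h3).tail (MStep.beta _ _ _)
  | perm _ _ _ h1 h2 h3 => exact (MRed.app (MRed.mem h1 h2) h3).tail (MStep.perm _ _ _)

theorem MPar.ren {M N : Tm S} (h : MPar M N) (ξ : ℕ → ℕ) : MPar (ren ξ M) (ren ξ N) := by
  induction h generalizing ξ with
  | var => exact .var _
  | sort => exact .sort _
  | cst => exact .cst _ _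
  | app _ _ h1 h2 => exact .app (h1 _) (h2 _)
  | lam _ _ h1 h2 => exact .lam (h1 _) (h2 _)
  | pi _ _ h1 h2 => exact .pi (h1 _) (h2 _)
  | mem _ _ h1 h2 => exact .mem (h1 _) (h2 _)
  | beta _ _ _ h1 h2 h3 =>
    rw [ren_mem, ren_mem, ren_inst]; exact .beta (h1 _) (h2 _) (h3 _)
  | perm _ _ _ h1 h2 h3 => exact .perm (h1 _) (h2 _) (h3 _)

theorem MPar.sub {M N : Tm S} (h : MPar M N) {σ τ : ℕ → Tm S} (e : ∀ i, MPar (σ i) (τ i)) :
    MPar (sub σ M) (sub τ N) := by
  have hu : ∀ {σ τ : ℕ → Tm S}, (∀ i, MPar (σ i) (τ i)) → ∀ i, MPar (ups σ i) (ups τ i) := by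
    intro σ τ h i
    cases i with
    | zero => exact .var 0
    | succ i => exact (h i).ren _
  induction h generalizing σ τ with
  | var i => exact e i
  | sort => exact .sort _
  | cst => exact .cst _ _
  | app _ _ h1 h2 => exact .app (h1 e) (h2 e)
  | lam _ _ h1 h2 => exact .lam (h1 e) (h2 (hu e))
  | pi _ _ h1 h2 => exact .pi (h1 e) (h2 (hu e))
  | mem _ _ h1 h2 => exact .mem (h1 e) (h2 e)
  | beta _ _ _ h1 h2 h3 =>
    rw [sub_mem, sub_mem, sub_inst']; exact .beta (h1 e) (h2 (hu e)) (h3 e)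
  | perm _ _ _ h1 h2 h3 => exact .perm (h1 e) (h2 e) (h3 e)

theorem MPar.inst {M M' N N' : Tm S} (h : MPar M M') (h' : MPar N N') :
    MPar (inst N M) (inst N' M') :=
  h.sub (by intro i; cases i with
    | zero => exact h'
    | succ i => exact .var i)

/-- Complete development for the non-erasing reduction. -/
def mdev : Tm S → Tm S
  | var i => var i
  | sort s => sort s
  | cst n A => cst n A
  | app (lam A M) N => mem (mem (inst (mdev N) (mdev M)) (mdev N)) (mdev A)
  | app (mem M Q) N => mem (app (mdev M) (mdev N)) (mdev Q)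
  | app M N => app (mdev M) (mdev N)
  | lam A M => lam (mdev A) (mdev M)
  | pi A M => pi (mdev A) (mdev M)
  | mem M Q => mem (mdev M) (mdev Q)

theorem MPar.triangle {M N : Tm S} (h : MPar M N) : MPar N (mdev M) := by
  induction h with
  | var => exact .var _
  | sort => exact .sort _
  | cst => exact .cst _ _
  | @app M M' N N' hM _ h1 h2 =>
    cases hM with
    | lam hA hB =>
      simp only [mdev] at h1 ⊢
      cases h1 with
      | lam h0 h1' => exact .beta h0 h1' h2
    | mem hA hB =>
      simp only [mdev] at h1 ⊢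
      cases h1 with
      | mem h0 h1' => exact .perm h0 h1' h2
    | var => exact .app h1 h2
    | sort => exact .app h1 h2
    | cst => exact .app h1 h2
    | app => exact .app h1 h2
    | pi => exact .app h1 h2
    | beta => exact .app h1 h2
    | perm => exact .app h1 h2
  | lam _ _ h1 h2 => exact .lam h1 h2
  | pi _ _ h1 h2 => exact .pi h1 h2
  | mem _ _ h1 h2 => exact .mem h1 h2
  | beta _ _ _ h1 h2 h3 => exact .mem (.mem (h2.inst h3) h3) h1
  | perm _ _ _ h1 h2 h3 => exact .mem (.app h1 h3) h2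

theorem MRed.strip {M N L : Tm S} (h : MPar M N) (h' : MRed M L) :
    ∃ K, MRed N K ∧ MPar L K := by
  induction h' with
  | refl => exact ⟨N, .refl, h⟩
  | tail _ hs ih =>
    obtain ⟨K, h1, h2⟩ := ih
    exact ⟨_, h1.trans h2.triangle.mred, hs.mpar.triangle⟩

theorem MRed.confluent {M N L : Tm S} (h : MRed M N) (h' : MRed M L) :
    ∃ K, MRed N K ∧ MRed L K := by
  induction h with
  | refl => exact ⟨L, h', .refl⟩
  | tail _ hs ih =>
    obtain ⟨K, h1, h2⟩ := ih
    obtain ⟨K', h3, h4⟩ := MRed.strip hs.mpar h1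
    exact ⟨K', h3, h2.trans h4.mred⟩

theorem MNormal.mred_eq {M N : Tm S} (hn : MNormal M) (h : MRed M N) : N = M := by
  induction h with
  | refl => rfl
  | tail _ hs ih => subst ih; exact absurd hs (hn _)

/-! ### Counting and erasing memory formers -/

/-- Number of memory formers outside constants. -/
def mcnt : Tm S → ℕ
  | var _ => 0
  | sort _ => 0
  | cst _ _ => 0
  | app M N => mcnt M + mcnt N
  | lam M N => mcnt M + mcnt N
  | pi M N => mcnt M + mcnt N
  | mem M N => mcnt M + mcnt N + 1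

theorem mcnt_le_sub (σ : ℕ → Tm S) (M : Tm S) : mcnt M ≤ mcnt (sub σ M) := by
  induction M generalizing σ with
  | var i => exact Nat.zero_le _
  | sort => exact le_rfl
  | cst => exact le_rfl
  | app M N h1 h2 => exact Nat.add_le_add (h1 _) (h2 _)
  | lam M N h1 h2 => exact Nat.add_le_add (h1 _) (h2 _)
  | pi M N h1 h2 => exact Nat.add_le_add (h1 _) (h2 _)
  | mem M N h1 h2 => exact Nat.add_le_add_right (Nat.add_le_add (h1 _) (h2 _)) 1

theorem mcnt_beta (A M N : Tm S) :
    mcnt (app (lam A M) N) < mcnt (mem (mem (inst N M) N) A) := by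
  have := mcnt_le_sub (scons N var) M
  simp only [mcnt, inst]
  omega

theorem MStep.mcnt_le {M N : Tm S} (h : MStep M N) : mcnt M ≤ mcnt N := by
  induction h with
  | beta A M N => exact (mcnt_beta A M N).le
  | _ => simp only [mcnt]; omega

theorem MRed.mcnt_le {M N : Tm S} (h : MRed M N) : mcnt M ≤ mcnt N := by
  induction h with
  | refl => exact le_rfl
  | tail _ hs ih => exact ih.trans hs.mcnt_le

/-- Erase all memory formers outside constants. -/
def merase : Tm S → Tm S
  | var i => var i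
  | sort s => sort s
  | cst n A => cst n A
  | app M N => app (merase M) (merase N)
  | lam M N => lam (merase M) (merase N)
  | pi M N => pi (merase M) (merase N)
  | mem M _ => merase M

theorem merase_ren (ξ : ℕ → ℕ) (M : Tm S) : merase (ren ξ M) = ren ξ (merase M) := by
  induction M generalizing ξ <;> simp_all [merase]

theorem merase_sub (σ : ℕ → Tm S) (M : Tm S) :
    merase (sub σ M) = sub (fun i => merase (σ i)) (merase M) := by
  have h : ∀ σ : ℕ → Tm S, (fun i => merase (ups σ i)) = ups (fun i => merase (σ i)) := by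
    intro σ; funext i; cases i with
    | zero => rfl
    | succ n => exact merase_ren _ _
  induction M generalizing σ <;> simp_all [merase]

theorem merase_inst (N M : Tm S) : merase (inst N M) = inst (merase N) (merase M) := by
  unfold inst; rw [merase_sub]; congr 1; funext i; cases i <;> rfl

theorem NoMem.merase_eq {M : Tm S} (h : NoMem M) : merase M = M := by
  induction M <;> simp_all [merase, NoMem]

theorem lift_beta {F A B : Tm S} (h : merase F = lam A B) (N : Tm S) :
    ∃ Y, MRed (app F N) Y ∧ merase Y = inst (merase N) B ∧ mcnt (app F N) < mcnt Y := by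
  induction F with
  | var => cases h
  | sort => cases h
  | cst => cases h
  | app => cases h
  | pi => cases h
  | lam A0 B0 _ _ =>
    simp only [merase, lam.injEq] at h
    refine ⟨_, .single (MStep.beta A0 B0 N), ?_, mcnt_beta _ _ _⟩
    simp only [merase, merase_inst, h.2]
  | mem M Q ih _ =>
    obtain ⟨Y, a, b, c⟩ := ih h
    refine ⟨mem Y Q, .head (MStep.perm M Q N) (MRed.mem a .refl), b, ?_⟩
    simp only [mcnt] at c ⊢
    omega

theorem lift_step {Y X : Tm S} (h : Step (merase Y) X) :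
    ∃ Y', MRed Y Y' ∧ merase Y' = X ∧ mcnt Y < mcnt Y' := by
  induction Y generalizing X with
  | var => cases h
  | sort => cases h
  | cst => cases h
  | app F N ihF ihN =>
    simp only [merase] at h
    generalize e : merase F = F' at h
    cases h with
    | beta A B => exact lift_beta e N
    | appL _ hs =>
      subst e
      obtain ⟨Y, a, rfl, c⟩ := ihF hs
      exact ⟨app Y N, MRed.app a .refl, rfl, by simp only [mcnt]; omega⟩
    | appR _ hs =>
      subst e
      obtain ⟨Y, a, rfl, c⟩ := ihN hs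
      exact ⟨app F Y, MRed.app .refl a, rfl, by simp only [mcnt]; omega⟩
  | lam F N ihF ihN =>
    simp only [merase] at h
    cases h with
    | lamL _ hs =>
      obtain ⟨Y, a, rfl, c⟩ := ihF hs
      exact ⟨lam Y N, MRed.lam a .refl, rfl, by simp only [mcnt]; omega⟩
    | lamR _ hs =>
      obtain ⟨Y, a, rfl, c⟩ := ihN hs
      exact ⟨lam F Y, MRed.lam .refl a, rfl, by simp only [mcnt]; omega⟩
  | pi F N ihF ihN =>
    simp only [merase] at h
    cases h with
    | piL _ hs =>
      obtain ⟨Y, a, rfl, c⟩ := ihF hs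
      exact ⟨pi Y N, MRed.pi a .refl, rfl, by simp only [mcnt]; omega⟩
    | piR _ hs =>
      obtain ⟨Y, a, rfl, c⟩ := ihN hs
      exact ⟨pi F Y, MRed.pi .refl a, rfl, by simp only [mcnt]; omega⟩
  | mem M Q ih _ =>
    obtain ⟨Y, a, b, c⟩ := ih h
    exact ⟨mem Y Q, MRed.mem a .refl, b, by simp only [mcnt]; omega⟩

/-- A memory-free term with a normal form for the non-erasing reduction has no infinite
reduction sequence. -/
theorem sn_of_mnormal {M M' : Tm S} (hM : NoMem M) (h : MRed M M') (hn : MNormal M') :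
    ¬ ∃ f : ℕ → Tm S, f 0 = M ∧ ∀ n, Step (f n) (f (n + 1)) := by
  rintro ⟨f, h0, hf⟩
  have key : ∀ n, ∃ Y, MRed M Y ∧ merase Y = f n ∧ n ≤ mcnt Y := by
    intro n
    induction n with
    | zero => exact ⟨M, .refl, hM.merase_eq.trans h0.symm, Nat.zero_le _⟩
    | succ n ih =>
      obtain ⟨Y, a, b, c⟩ := ih
      obtain ⟨Y', a', b', c'⟩ := lift_step (Y := Y) (X := f (n + 1)) (b ▸ hf n)
      exact ⟨Y', a.trans a', b', by omega⟩
  obtain ⟨Y, a, -, c⟩ := key (mcnt M' + 1)
  obtain ⟨K, k1, k2⟩ := a.confluent h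
  rw [hn.mred_eq k2] at k1
  have := k1.mcnt_le
  omega

theorem NK.mnormal {rk : S → ℕ} {Γ : List (Tm S)} {M : Tm S} (h : NK P rk 0 Γ M) :
    MNormal M := by
  induction h with
  | var => intro _ hs; cases hs
  | sort => intro _ hs; cases hs
  | cst => intro _ hs; cases hs
  | app _ _ h1 h2 ih1 ih2 =>
    intro _ hs
    cases hs with
    | beta A M =>
      obtain ⟨_, -, _, -, hlt⟩ := h2 A M rfl
      exact Nat.not_lt_zero _ hlt
    | perm M Q => exact h1 M Q rfl
    | appL _ hs => exact ih1 _ hs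
    | appR _ hs => exact ih2 _ hs
  | lam _ _ ih1 ih2 =>
    intro _ hs
    cases hs with
    | lamL _ hs => exact ih1 _ hs
    | lamR _ hs => exact ih2 _ hs
  | pi _ _ ih1 ih2 =>
    intro _ hs
    cases hs with
    | piL _ hs => exact ih1 _ hs
    | piR _ hs => exact ih2 _ hs
  | mem _ _ ih1 ih2 =>
    intro _ hs
    cases hs with
    | memL _ hs => exact ih1 _ hs
    | memR _ hs => exact ih2 _ hs

theorem NK.of_noMem {rk : S → ℕ} {K : ℕ} (hK : ∀ s, rk s < K) {Γ : List (Tm S)} {M T : Tm S}
    (h : Ty P Set.univ Γ M T) (hM : NoMem M) : NK P rk K Γ M := by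
  induction h with
  | ax => exact .sort _ _
  | var => exact .var _ _
  | cst => exact .cst _ _ _
  | atom => exact .cst _ _ _
  | pi _ _ _ ih1 ih2 => exact .pi (ih1 hM.1) (ih2 hM.2)
  | lam _ _ _ _ ih1 _ ih3 => exact .lam (ih1 hM.1) (ih3 hM.2)
  | app h1 _ ih1 ih2 =>
    refine .app (ih1 hM.1) (ih2 hM.2) ?_ ?_
    · rintro M Q rfl
      exact hM.1
    · rintro A M rfl
      obtain ⟨B, s1, s2, s3, r, a, b, d, -⟩ := h1.gen_lam
      exact ⟨_, .lam a b r d, s3, (Ty.pi a b r).prof, hK s3⟩
  | mem => exact hM.elim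
  | conv _ _ _ ih1 _ => exact ih1 hM

/-- Stage-normal forms are stable under changes of context along which variables keep their
types. -/
theorem NK.ctx {rk : S → ℕ} {K : ℕ} {Γ Δ : List (Tm S)} {M : Tm S} (h : NK P rk K Γ M)
    (e : TSub P Set.univ Δ Tm.var Γ) : NK P rk K Δ M := by
  have hu : ∀ {Γ Δ : List (Tm S)} (A : Tm S), TSub P Set.univ Δ Tm.var Γ →
      TSub P Set.univ (A :: Δ) Tm.var (A :: Γ) := by
    intro Γ Δ A e
    have := e.up A
    rwa [sub_id, ups_var] at this
  induction h generalizing Δ with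
  | var => exact .var _ _
  | sort => exact .sort _ _
  | cst => exact .cst _ _ _
  | app _ _ h1 h2 ih1 ih2 =>
    refine .app (ih1 e) (ih2 e) h1 fun A M hF => ?_
    obtain ⟨T, a, s, b, c⟩ := h2 A M hF
    have a' := a.sub e
    have b' := b.sub e
    rw [sub_id] at b'
    rw [sub_id, sub_id] at a'
    exact ⟨T, a', s, b', c⟩
  | lam _ _ ih1 ih2 => exact .lam (ih1 e) (ih2 (hu _ e))
  | pi _ _ ih1 ih2 => exact .pi (ih1 e) (ih2 (hu _ e))
  | mem _ _ ih1 ih2 => exact .mem (ih1 e) (ih2 e)

end Crest.Agent.R298
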