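import Crest.Agent.R298.Csub
import Crest.Agent.R298.Graph

/-! Definitions for the paradox: special constants, Henkin sets, the internal logic, and
direct walks. -/

set_option autoImplicit false

namespace Crest.Agent.R298

open Tm

universe u
variable {S : Type u}

/-- Hypothesis constant of a given type. -/
def hypC (A : Tm S) : Tm S := cst (var 0) A
/-- Empty atom. -/
def botT (s : S) : Tm S := hypC (sort s)
/-- Inhabited atom. -/
def topT (s : S) : Tm S := cst (var 1) (sort s)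
/-- The inhabitant of `topT s`. -/
def eT (s : S) : Tm S := hypC (topT s)
/-- Witness constant. -/
def witC (B χ : Tm S) : Tm S := cst (pi B χ) B

/-- Types `⊤ → … → ⊤ → ⊥`. -/
inductive IsW : Tm S → Prop
  | bot (t : S) : IsW (botT t)
  | pi (s : S) {W : Tm S} : IsW W → IsW (pi (topT s) W)

/-- A maximal consistent set of constants with witnesses. -/
structure Henkin (P : Sys S) (b0 : S) : Type u where
  A : Set (Tm S)
  bot_mem : ∀ s, P.atom s → botT s ∈ A
  top_mem : ∀ s, P.atom s → topT s ∈ A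
  e_mem : ∀ s, P.atom s → eT s ∈ A
  g_mem : ∀ W t s, IsW W → Ty P A [] (pi W (botT t)) (sort s) → hypC (pi W (botT t)) ∈ A
  cons : ¬ ∃ m, Ty P A [] m (botT b0)
  dec : ∀ φ s, Ty P A [] φ (sort s) → (∃ m, Ty P A [] m φ) ∨ ∃ m, Ty P A [φ] m (botT b0)
  wit : ∀ B χ s s', Ty P A [] B (sort s) → Ty P A [B] χ (sort s') →
    (∃ n m, Ty P A [] n B ∧ Ty P A [] m (inst n χ)) ∨ ∃ m, Ty P A [χ, B] m (botT b0)

/-- Truth: closed inhabitation over a set of constants. -/
def Tr (P : Sys S) (A : Set (Tm S)) (φ : Tm S) : Prop := ∃ m, Ty P A [] m φ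

theorem Tr.conv {P : Sys S} {A : Set (Tm S)} {φ ψ : Tm S} {s : S} (h : Tr P A φ) (c : Conv φ ψ)
    (hψ : Ty P A [] ψ (sort s)) : Tr P A ψ :=
  let ⟨m, hm⟩ := h; ⟨m, .conv hm hψ c⟩

theorem tr_congr {P : Sys S} {A : Set (Tm S)} {φ ψ : Tm S} {s s' : S} (c : Conv φ ψ)
    (hφ : Ty P A [] φ (sort s)) (hψ : Ty P A [] ψ (sort s')) : Tr P A φ ↔ Tr P A ψ :=
  ⟨fun h => h.conv c hψ, fun h => h.conv c.symm hφ⟩

/-- A classical logic whose propositions are the types of sort `o`; connectives are open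
terms. -/
structure Logic (P : Sys S) (rk : S → ℕ) (K : ℕ) : Type u where
  A : Set (Tm S)
  o : S
  top_ty : ∀ s, InR P s → Ty P A [] (topT s) (sort s)
  e_ty : ∀ s, InR P s → Ty P A [] (eT s) (topT s)
  fls : Tm S
  fls_ty : Ty P A [] fls (sort o)
  fls_law : ¬ Tr P A fls
  imp : Tm S
  imp_ty : Ty P A [sort o, sort o] imp (sort o)
  imp_law : ∀ φ ψ, Ty P A [] φ (sort o) → Ty P A [] ψ (sort o) →
    (Tr P A (sub (scons ψ (scons φ var)) imp) ↔ (Tr P A φ → Tr P A ψ))
  all : ∀ q, QS P rk K q → ∃ f E k2 k3, P.rule q k2 k3 ∧ Ty P A [sort o] f (sort k2) ∧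
    Ty P A [sort k3] E (sort o) ∧ ∀ B φ, Ty P A [] B (sort q) → Ty P A [B] φ (sort o) →
      (Tr P A (inst (pi B (inst φ f)) E) ↔ ∀ n, Ty P A [] n B → Tr P A (inst n φ))
  into : ∀ k, rk k = K → ∃ f, Ty P A [sort o] f (sort k) ∧
    ∀ φ, Ty P A [] φ (sort o) → (Tr P A (inst φ f) ↔ Tr P A φ)
  outof : ∀ k, rk k = K → ∃ g, Ty P A [sort k] g (sort o) ∧
    ∀ X, Ty P A [] X (sort k) → (Tr P A (inst X g) ↔ Tr P A X)

/-! ### Direct walks -/

/-- A codomain step (with an inhabited closed domain) or a domain step (with a closed codomain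
into which propositions embed). -/
inductive Stp (S : Type u) : Type u
  | c (T e : Tm S) : Stp S
  | d (Z up dn : Tm S) : Stp S

def wrap : List (Stp S) → Tm S → Tm S
  | [], X => X
  | .c T _ :: l, X => pi T (lift (wrap l X))
  | .d Z _ _ :: l, X => pi (wrap l X) Z

def oddW : List (Stp S) → Bool
  | [] => false
  | .c _ _ :: l => oddW l
  | .d _ _ _ :: l => !oddW l

/-- From a point `z : X` and a predicate `Φ` on `X` (one more variable): an element of
`wrap l X` and a predicate on `wrap l X`. -/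
def MU : List (Stp S) → Tm S → Tm S → Tm S → Tm S × Tm S
  | [], _, z, Φ => (z, Φ)
  | .c T e :: l, X, z, Φ =>
    (lam T (lift (MU l X z Φ).1),
      sub (scons (app (var 0) e) (fun i => var (i + 1))) (MU l X z Φ).2)
  | .d _ up dn :: l, X, z, Φ =>
    (lam (wrap l X) (inst (MU l X z Φ).2 up), inst (app (var 0) (lift (MU l X z Φ).1)) dn)

variable {P : Sys S} {rk : S → ℕ} {K : ℕ}

/-- `Z : s` is a closed kind into which propositions embed. -/
structure PwOK (L : Logic P rk K) (Z up dn : Tm S) (s : S) : Prop where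
  ty : Ty P L.A [] Z (sort s)
  up_ty : Ty P L.A [sort L.o] up Z
  dn_ty : Ty P L.A [Z] dn (sort L.o)
  law : ∀ φ, Ty P L.A [] φ (sort L.o) → (Tr P L.A (inst (inst φ up) dn) ↔ Tr P L.A φ)

/-- Valid walks from an outer sort to an inner sort. -/
inductive DW (L : Logic P rk K) : List (Stp S) → S → S → Prop
  | nil {s : S} : DW L [] s s
  | c {s1 s2 s3 t : S} {T e : Tm S} {l : List (Stp S)} : P.rule s1 s2 s3 →
      Ty P L.A [] T (sort s1) → Ty P L.A [] e T → DW L l s2 t → DW L (.c T e :: l) s3 t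
  | d {s1 s2 s3 t : S} {Z up dn : Tm S} {l : List (Stp S)} : P.rule s1 s2 s3 →
      PwOK L Z up dn s2 → DW L l s1 t → DW L (.d Z up dn :: l) s3 t

/-- The data extracted from an impredicative pattern. -/
structure Shape (L : Logic P rk K) : Type u where
  u : S
  x1 : S
  x3 : S
  a : ℕ → S
  Ax : Tm S
  upX : Tm S
  dnX : Tm S
  Ax_ty : Ty P L.A [] Ax (sort x1)
  up_ty : Ty P L.A [sort u] upX Ax
  dn_ty : Ty P L.A [Ax] dnX (sort u)
  dn_up : ∀ Z, Conv (inst (inst Z upX) dnX) Z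
  rule : P.rule x1 (a 6) x3
  ω : ℕ → List (Stp S)
  ω_dw : ∀ n < 6, DW L (ω n) (a (n + 1)) (a n)
  ω_odd : ∀ n < 6, oddW (ω n) = true
  ρ : List (Stp S)
  ρ_dw : DW L ρ (a 0) u
  α : List (Stp S)
  α_dw : DW L α u x3
  even : oddW (ρ ++ α) = false
  γ : ∀ n < 5, ∃ q l, QS P rk K q ∧ DW L l q (a (n + 1)) ∧ oddW l = false
  γV : ∃ q l, QS P rk K q ∧ DW L l q x3 ∧ oddW l = false

end Crest.Agent.R298
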