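import Crest.Agent.R298.Syntax

/-! An abstract many-sorted logic with comprehension principles which is inconsistent
(a Hurkens-style paradox). -/

set_option autoImplicit false

namespace Crest.Agent.R298

open Tm (scons)

universe u

/-- Sorts of variables: the levels `W, PW, PPW, PPPW, PPPPW` (`lv 0` to `lv 4`), the type `v` of
generic properties of structures, and a copy `w0` of `lv 0` for sets of elements of `v`. -/
inductive Tag : Type
  | lv : ℕ → Tag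
  | v : Tag
  | w0 : Tag
  deriving DecidableEq

/-- Formulas with de Bruijn variables. -/
inductive Fm : Type
  | fls : Fm
  | imp : Fm → Fm → Fm
  | all : Tag → Fm → Fm
  | mem : ℕ → ℕ → ℕ → Fm
  | mv : ℕ → ℕ → Fm
  | sat : ℕ → ℕ → Fm

/-- In lax mode `w0` is identified with `lv 0`. -/
def Tag.nt (strict : Bool) : Tag → Tag
  | .w0 => if strict then .w0 else .lv 0
  | t => t

def Tag.ok : Tag → Bool
  | .lv n => decide (n ≤ 4)
  | _ => true

/-- The variable `i` has sort `t`. -/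
def hasTag (strict : Bool) (Γ : List Tag) (i : ℕ) (t : Tag) : Bool :=
  decide ((Γ[i]?).map (Tag.nt strict) = some (t.nt strict))

/-- Well-sorted formulas. -/
def Fm.wt (strict : Bool) : List Tag → Fm → Bool
  | _, .fls => true
  | Γ, .imp φ ψ => φ.wt strict Γ && ψ.wt strict Γ
  | Γ, .all t φ => t.ok && φ.wt strict (t :: Γ)
  | Γ, .mem n i j => decide (n < 4) && hasTag strict Γ i (.lv n) && hasTag strict Γ j (.lv (n + 1))
  | Γ, .mv i j => hasTag strict Γ i .v && hasTag strict Γ j (.lv 4)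
  | Γ, .sat i j => hasTag strict Γ i .v && hasTag strict Γ j .w0

/-- Domains and atomic relations. -/
structure HData (U : Type u) : Type u where
  G : Tag → U → Prop
  m : ℕ → U → U → Prop
  mv : U → U → Prop
  sat : U → U → Prop

variable {U : Type u}

def HData.mean (H : HData U) : Fm → (ℕ → U) → Prop
  | .fls, _ => False
  | .imp φ ψ, ρ => H.mean φ ρ → H.mean ψ ρ
  | .all t φ, ρ => ∀ x, H.G t x → H.mean φ (scons x ρ)
  | .mem n i j, ρ => H.m n (ρ i) (ρ j)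
  | .mv i j, ρ => H.mv (ρ i) (ρ j)
  | .sat i j, ρ => H.sat (ρ i) (ρ j)

def HData.Env (H : HData U) (Γ : List Tag) (ρ : ℕ → U) : Prop :=
  ∀ i t, Γ[i]? = some t → H.G t (ρ i)

/-- The comprehension principles. -/
structure HData.Comp (H : HData U) : Prop where
  g_w0 : ∀ x, H.G .w0 x ↔ H.G (.lv 0) x
  comp : ∀ (n : ℕ) (Γ : List Tag) (φ : Fm) (ρ : ℕ → U), n < 4 → (∀ t ∈ Γ, t.ok = true) →
    φ.wt false (.lv n :: Γ) = true → H.Env Γ ρ →
    ∃ c, H.G (.lv (n + 1)) c ∧ ∀ y, H.G (.lv n) y → (H.m n y c ↔ H.mean φ (scons y ρ))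
  compV : ∀ (Γ : List Tag) (φ : Fm) (ρ : ℕ → U), (∀ t ∈ Γ, t = .v ∨ t = .w0) →
    φ.wt true (.lv 4 :: Γ) = true → H.Env Γ ρ →
    ∃ c, H.G .v c ∧ ∀ s, H.G (.lv 4) s → (H.mv c s ↔ H.mean φ (scons s ρ))
  compJ : ∀ (Γ : List Tag) (φ : Fm) (ρ : ℕ → U), (∀ t ∈ Γ, t.ok = true) →
    φ.wt false (.v :: Γ) = true → H.Env Γ ρ →
    ∃ c, H.G (.lv 0) c ∧ ∀ x, H.G .v x → (H.sat x c ↔ H.mean φ (scons x ρ))

namespace PxHOLAux

variable (H : HData U)

/-- Definable predicates on environments. -/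
def Df (s : Bool) (Γ : List Tag) (p : (ℕ → U) → Prop) : Prop :=
  ∃ φ : Fm, φ.wt s Γ = true ∧ ∀ ρ, H.mean φ ρ ↔ p ρ

def HT (s : Bool) (Γ : List Tag) (i : ℕ) (t : Tag) : Prop := hasTag s Γ i t = true

theorem HT.zero {s : Bool} {Γ : List Tag} {t : Tag} : HT s (t :: Γ) 0 t := by
  simp [HT, hasTag]

theorem HT.succ {s : Bool} {Γ : List Tag} {i : ℕ} {t t' : Tag} (h : HT s Γ i t) :
    HT s (t' :: Γ) (i + 1) t := by
  simpa [HT, hasTag] using h

theorem HT.lax {Γ : List Tag} {i : ℕ} (h : HT false Γ i (.lv 0)) : HT false Γ i .w0 := h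

variable {H} {s : Bool} {Γ : List Tag}

theorem Df.congr {p q : (ℕ → U) → Prop} (h : Df H s Γ p) (e : ∀ ρ, p ρ ↔ q ρ) : Df H s Γ q :=
  let ⟨φ, a, b⟩ := h; ⟨φ, a, fun ρ => (b ρ).trans (e ρ)⟩

theorem Df.fls : Df H s Γ fun _ => False := ⟨.fls, rfl, fun _ => Iff.rfl⟩

theorem Df.imp {p q : (ℕ → U) → Prop} (h : Df H s Γ p) (h' : Df H s Γ q) :
    Df H s Γ fun ρ => p ρ → q ρ :=
  let ⟨φ, a, b⟩ := h; let ⟨ψ, c, d⟩ := h'
  ⟨.imp φ ψ, by simp [Fm.wt, a, c], fun ρ => imp_congr (b ρ) (d ρ)⟩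

theorem Df.not {p : (ℕ → U) → Prop} (h : Df H s Γ p) : Df H s Γ fun ρ => ¬ p ρ := h.imp .fls

theorem Df.or {p q : (ℕ → U) → Prop} (h : Df H s Γ p) (h' : Df H s Γ q) :
    Df H s Γ fun ρ => p ρ ∨ q ρ := (h.not.imp h').congr fun _ => by tauto

theorem Df.and {p q : (ℕ → U) → Prop} (h : Df H s Γ p) (h' : Df H s Γ q) :
    Df H s Γ fun ρ => p ρ ∧ q ρ := (h.imp h'.not).not.congr fun _ => by tauto

theorem Df.iff {p q : (ℕ → U) → Prop} (h : Df H s Γ p) (h' : Df H s Γ q) :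
    Df H s Γ fun ρ => p ρ ↔ q ρ := ((h.imp h').and (h'.imp h)).congr fun _ => by tauto

theorem Df.all {t : Tag} {q : U → (ℕ → U) → Prop} (ht : t.ok = true)
    (h : Df H s (t :: Γ) fun ρ => q (ρ 0) fun i => ρ (i + 1)) :
    Df H s Γ fun ρ => ∀ x, H.G t x → q x ρ :=
  let ⟨φ, a, b⟩ := h
  ⟨.all t φ, by simp [Fm.wt, a, ht], fun ρ =>
    forall_congr' fun x => forall_congr' fun _ => b (scons x ρ)⟩

theorem Df.ex {t : Tag} {q : U → (ℕ → U) → Prop} (ht : t.ok = true)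
    (h : Df H s (t :: Γ) fun ρ => q (ρ 0) fun i => ρ (i + 1)) :
    Df H s Γ fun ρ => ∃ x, H.G t x ∧ q x ρ :=
  (Df.all (q := fun x ρ => ¬ q x ρ) ht h.not).not.congr fun _ => by simp

theorem Df.mem {n i j : ℕ} (hn : n < 4) (hi : HT s Γ i (.lv n)) (hj : HT s Γ j (.lv (n + 1))) :
    Df H s Γ fun ρ => H.m n (ρ i) (ρ j) :=
  ⟨.mem n i j, by simp only [Fm.wt, Bool.and_eq_true, decide_eq_true_eq]; exact ⟨⟨hn, hi⟩, hj⟩,
    fun _ => Iff.rfl⟩

theorem Df.mv {i j : ℕ} (hi : HT s Γ i .v) (hj : HT s Γ j (.lv 4)) :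
    Df H s Γ fun ρ => H.mv (ρ i) (ρ j) :=
  ⟨.mv i j, by simp only [Fm.wt, Bool.and_eq_true]; exact ⟨hi, hj⟩, fun _ => Iff.rfl⟩

theorem Df.sat {i j : ℕ} (hi : HT s Γ i .v) (hj : HT s Γ j .w0) :
    Df H s Γ fun ρ => H.sat (ρ i) (ρ j) :=
  ⟨.sat i j, by simp only [Fm.wt, Bool.and_eq_true]; exact ⟨hi, hj⟩, fun _ => Iff.rfl⟩

/-- Discharge sort conditions. -/
macro "px_ht" : tactic =>
  `(tactic| first
    | (repeat (first | assumption | exact HT.zero | apply HT.succ)); done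
    | (apply HT.lax; repeat (first | assumption | exact HT.zero | apply HT.succ)); done)

/-- Extensible: atoms. -/
syntax "px_atom" : tactic
macro_rules | `(tactic| px_atom) => `(tactic| exact Df.mem (by decide) (by px_ht) (by px_ht))
macro_rules | `(tactic| px_atom) => `(tactic| exact Df.mv (by px_ht) (by px_ht))
macro_rules | `(tactic| px_atom) => `(tactic| exact Df.sat (by px_ht) (by px_ht))

/-- Definability by structural decomposition. -/
macro "px_df" : tactic =>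
  `(tactic| repeat' (first
    | (with_reducible px_atom)
    | (with_reducible refine Df.all rfl ?_); beta_reduce
    | (with_reducible refine Df.ex rfl ?_); beta_reduce
    | with_reducible refine Df.iff ?_ ?_
    | with_reducible refine Df.and ?_ ?_
    | with_reducible refine Df.or ?_ ?_
    | with_reducible refine Df.not ?_
    | with_reducible refine Df.imp ?_ ?_))

variable (H)

def eqW (a b : U) : Prop := ∀ r, H.G (.lv 1) r → H.m 0 a r → H.m 0 b r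
def ext1 (p q : U) : Prop := ∀ z, H.G (.lv 0) z → (H.m 0 z p ↔ H.m 0 z q)
def Pair (F r q : U) : Prop := ∀ G, H.G (.lv 2) G →
  (H.m 2 G F ↔ (H.m 1 r G ∧ ∀ p, H.G (.lv 1) p → H.m 1 p G → ext1 H p r ∨ ext1 H p q))
def Un (F q : U) : Prop := ∀ G, H.G (.lv 2) G → (H.m 2 G F ↔ ¬ H.m 1 q G)
def decT (s r x : U) : Prop := ∃ F, H.G (.lv 3) F ∧ H.m 3 F s ∧
  ∃ q, H.G (.lv 1) q ∧ Pair H F r q ∧ H.m 0 x q
def decP (s x : U) : Prop := ∃ F, H.G (.lv 3) F ∧ H.m 3 F s ∧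
  ∃ q, H.G (.lv 1) q ∧ Un H F q ∧ H.m 0 x q
def Same (s' s z : U) : Prop :=
  (∀ r, H.G (.lv 1) r → ∀ x, H.G (.lv 0) x → (decT H s' r x ↔ decT H s r x)) ∧
    ∀ a, H.G (.lv 0) a → (decP H s' a ↔ eqW H z a)
def val (v s z : U) : Prop := ∃ s', H.G (.lv 4) s' ∧ Same H s' s z ∧ H.mv v s'
def psi (w s : U) : Prop := ∃ x, H.G (.lv 0) x ∧ decP H s x ∧ ∃ v, H.G .v v ∧ H.sat v w ∧
  ∃ r, H.G (.lv 1) r ∧ decT H s r x ∧ ∀ z, H.G (.lv 0) z → (H.m 0 z r ↔ val H v s z)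
def IsPsi (v w : U) : Prop := ∀ s, H.G (.lv 4) s → (H.mv v s ↔ psi H w s)
def T0 (r x : U) : Prop :=
  ∀ v, H.G .v v → (H.sat v x ↔ ∃ z, H.G (.lv 0) z ∧ H.m 0 z r ∧ IsPsi H v z)
def IsS (s y : U) : Prop :=
  (∀ r, H.G (.lv 1) r → ∀ x, H.G (.lv 0) x → (decT H s r x ↔ T0 H r x)) ∧
    ∀ a, H.G (.lv 0) a → (decP H s a ↔ eqW H y a)
def val0 (v z : U) : Prop := ∃ s, H.G (.lv 4) s ∧ IsS H s z ∧ H.mv v s
def lt (x w : U) : Prop := ∃ v, H.G .v v ∧ H.sat v w ∧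
  ∃ r, H.G (.lv 1) r ∧ T0 H r x ∧ ∀ z, H.G (.lv 0) z → (H.m 0 z r ↔ val0 H v z)
def D (z a : U) : Prop :=
  ∃ r, H.G (.lv 1) r ∧ T0 H r z ∧ ∀ y, H.G (.lv 0) y → (H.m 0 y r ↔ lt H y a)
def Ind (p : U) : Prop :=
  ∀ a, H.G (.lv 0) a → (∀ b, H.G (.lv 0) b → lt H b a → H.m 0 b p) → H.m 0 a p
def wf (x : U) : Prop := ∀ p, H.G (.lv 1) p → Ind H p → H.m 0 x p

variable {H} {i j k : ℕ}

theorem df_eqW (hi : HT s Γ i (.lv 0)) (hj : HT s Γ j (.lv 0)) :
    Df H s Γ fun ρ => eqW H (ρ i) (ρ j) := by unfold eqW; px_df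
macro_rules | `(tactic| px_atom) => `(tactic| exact df_eqW (by px_ht) (by px_ht))

theorem df_ext1 (hi : HT s Γ i (.lv 1)) (hj : HT s Γ j (.lv 1)) :
    Df H s Γ fun ρ => ext1 H (ρ i) (ρ j) := by unfold ext1; px_df
macro_rules | `(tactic| px_atom) => `(tactic| exact df_ext1 (by px_ht) (by px_ht))

theorem df_Pair (hi : HT s Γ i (.lv 3)) (hj : HT s Γ j (.lv 1)) (hk : HT s Γ k (.lv 1)) :
    Df H s Γ fun ρ => Pair H (ρ i) (ρ j) (ρ k) := by unfold Pair; px_df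
macro_rules | `(tactic| px_atom) => `(tactic| exact df_Pair (by px_ht) (by px_ht) (by px_ht))

theorem df_Un (hi : HT s Γ i (.lv 3)) (hj : HT s Γ j (.lv 1)) :
    Df H s Γ fun ρ => Un H (ρ i) (ρ j) := by unfold Un; px_df
macro_rules | `(tactic| px_atom) => `(tactic| exact df_Un (by px_ht) (by px_ht))

theorem df_decT (hi : HT s Γ i (.lv 4)) (hj : HT s Γ j (.lv 1)) (hk : HT s Γ k (.lv 0)) :
    Df H s Γ fun ρ => decT H (ρ i) (ρ j) (ρ k) := by unfold decT; px_df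
macro_rules | `(tactic| px_atom) => `(tactic| exact df_decT (by px_ht) (by px_ht) (by px_ht))

theorem df_decP (hi : HT s Γ i (.lv 4)) (hj : HT s Γ j (.lv 0)) :
    Df H s Γ fun ρ => decP H (ρ i) (ρ j) := by unfold decP; px_df
macro_rules | `(tactic| px_atom) => `(tactic| exact df_decP (by px_ht) (by px_ht))

theorem df_Same (hi : HT s Γ i (.lv 4)) (hj : HT s Γ j (.lv 4)) (hk : HT s Γ k (.lv 0)) :
    Df H s Γ fun ρ => Same H (ρ i) (ρ j) (ρ k) := by unfold Same; px_df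
macro_rules | `(tactic| px_atom) => `(tactic| exact df_Same (by px_ht) (by px_ht) (by px_ht))

theorem df_val (hi : HT s Γ i .v) (hj : HT s Γ j (.lv 4)) (hk : HT s Γ k (.lv 0)) :
    Df H s Γ fun ρ => val H (ρ i) (ρ j) (ρ k) := by unfold val; px_df
macro_rules | `(tactic| px_atom) => `(tactic| exact df_val (by px_ht) (by px_ht) (by px_ht))

theorem df_psi (hi : HT s Γ i .w0) (hj : HT s Γ j (.lv 4)) :
    Df H s Γ fun ρ => psi H (ρ i) (ρ j) := by unfold psi; px_df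
macro_rules | `(tactic| px_atom) => `(tactic| exact df_psi (by px_ht) (by px_ht))

theorem df_IsPsi (hi : HT false Γ i .v) (hj : HT false Γ j (.lv 0)) :
    Df H false Γ fun ρ => IsPsi H (ρ i) (ρ j) := by unfold IsPsi; px_df
macro_rules | `(tactic| px_atom) => `(tactic| exact df_IsPsi (by px_ht) (by px_ht))

theorem df_T0 (hi : HT false Γ i (.lv 1)) (hj : HT false Γ j (.lv 0)) :
    Df H false Γ fun ρ => T0 H (ρ i) (ρ j) := by unfold T0; px_df
macro_rules | `(tactic| px_atom) => `(tactic| exact df_T0 (by px_ht) (by px_ht))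

theorem df_IsS (hi : HT false Γ i (.lv 4)) (hj : HT false Γ j (.lv 0)) :
    Df H false Γ fun ρ => IsS H (ρ i) (ρ j) := by unfold IsS; px_df
macro_rules | `(tactic| px_atom) => `(tactic| exact df_IsS (by px_ht) (by px_ht))

theorem df_val0 (hi : HT false Γ i .v) (hj : HT false Γ j (.lv 0)) :
    Df H false Γ fun ρ => val0 H (ρ i) (ρ j) := by unfold val0; px_df
macro_rules | `(tactic| px_atom) => `(tactic| exact df_val0 (by px_ht) (by px_ht))

theorem df_lt (hi : HT false Γ i (.lv 0)) (hj : HT false Γ j (.lv 0)) :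
    Df H false Γ fun ρ => lt H (ρ i) (ρ j) := by unfold lt; px_df
macro_rules | `(tactic| px_atom) => `(tactic| exact df_lt (by px_ht) (by px_ht))

theorem df_D (hi : HT false Γ i (.lv 0)) (hj : HT false Γ j (.lv 0)) :
    Df H false Γ fun ρ => D H (ρ i) (ρ j) := by unfold D; px_df
macro_rules | `(tactic| px_atom) => `(tactic| exact df_D (by px_ht) (by px_ht))

theorem df_wf (hi : HT false Γ i (.lv 0)) : Df H false Γ fun ρ => wf H (ρ i) := by
  unfold wf Ind; px_df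
macro_rules | `(tactic| px_atom) => `(tactic| exact df_wf (by px_ht))

theorem env2 {t1 t2 : Tag} {a b : U} (ha : H.G t1 a) (hb : H.G t2 b) :
    H.Env [t1, t2] (scons a fun _ => b) := by
  intro i t h
  match i, h with
  | 0, h => cases h; exact ha
  | 1, h => cases h; exact hb

theorem comp2 (h : H.Comp) {n : ℕ} (hn : n < 4) {t1 t2 : Tag} (h1 : t1.ok = true)
    (h2 : t2.ok = true) {a b : U} (ha : H.G t1 a) (hb : H.G t2 b) (p : U → U → U → Prop)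
    (hp : Df H false [.lv n, t1, t2] fun ρ => p (ρ 0) (ρ (0 + 1)) (ρ (0 + 1 + 1))) :
    ∃ c, H.G (.lv (n + 1)) c ∧ ∀ y, H.G (.lv n) y → (H.m n y c ↔ p y a b) := by
  obtain ⟨φ, e1, e2⟩ := hp
  obtain ⟨c, c1, c2⟩ := h.comp n [t1, t2] φ _ hn (by simp [h1, h2]) e1 (env2 ha hb)
  exact ⟨c, c1, fun y hy => (c2 y hy).trans (e2 _)⟩

theorem exPsi (h : H.Comp) {w : U} (hw : H.G (.lv 0) w) : ∃ v, H.G .v v ∧ IsPsi H v w := by
  obtain ⟨φ, e1, e2⟩ : Df H true [.lv 4, .w0, .w0] fun ρ => psi H (ρ (0 + 1)) (ρ 0) := by px_df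
  obtain ⟨c, c1, c2⟩ := h.compV [.w0, .w0] φ _ (by simp) e1
    (env2 ((h.g_w0 w).2 hw) ((h.g_w0 w).2 hw))
  exact ⟨c, c1, fun y hy => (c2 y hy).trans (e2 _)⟩

theorem exT (h : H.Comp) {r : U} (hr : H.G (.lv 1) r) : ∃ x, H.G (.lv 0) x ∧ T0 H r x := by
  obtain ⟨φ, e1, e2⟩ : Df H false [.v, .lv 1, .lv 1] fun ρ =>
    ∃ z, H.G (.lv 0) z ∧ H.m 0 z (ρ (0 + 1)) ∧ IsPsi H (ρ 0) z := by px_df
  obtain ⟨c, c1, c2⟩ := h.compJ [.lv 1, .lv 1] φ _ (by simp [Tag.ok]) e1 (env2 hr hr)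
  exact ⟨c, c1, fun y hy => (c2 y hy).trans (e2 _)⟩

theorem ext1.refl (p : U) : ext1 H p p := fun _ _ => Iff.rfl
theorem ext1.symm {p q : U} (e : ext1 H p q) : ext1 H q p := fun z hz => (e z hz).symm
theorem ext1.trans {p q r : U} (e : ext1 H p q) (e' : ext1 H q r) : ext1 H p r :=
  fun z hz => (e z hz).trans (e' z hz)

theorem Pair.half (h : H.Comp) {F r q r' q' : U} (hr : H.G (.lv 1) r) (hq : H.G (.lv 1) q)
    (hr' : H.G (.lv 1) r') (a : Pair H F r q) (b : Pair H F r' q') :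
    ext1 H r' r ∧ (ext1 H q r' ∨ ext1 H q q') := by
  obtain ⟨G1, g1, e1⟩ := comp2 h (n := 1) (by decide) rfl rfl hr hq (fun p r _ => ext1 H p r)
    (by px_df)
  obtain ⟨G2, g2, e2⟩ := comp2 h (n := 1) (by decide) rfl rfl hr hq
    (fun p r q => ext1 H p r ∨ ext1 H p q) (by px_df)
  have m1 := (b G1 g1).1 ((a G1 g1).2 ⟨(e1 r hr).2 (.refl r), fun p hp m => .inl ((e1 p hp).1 m)⟩)
  have m2 := (b G2 g2).1 ((a G2 g2).2 ⟨(e2 r hr).2 (.inl (.refl r)), fun p hp m => (e2 p hp).1 m⟩)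
  exact ⟨(e1 r' hr').1 m1.1, m2.2 q hq ((e2 q hq).2 (.inr (.refl q)))⟩

theorem Pair.inj (h : H.Comp) {F r q r' q' : U} (hr : H.G (.lv 1) r) (hq : H.G (.lv 1) q)
    (hr' : H.G (.lv 1) r') (hq' : H.G (.lv 1) q') (a : Pair H F r q) (b : Pair H F r' q') :
    ext1 H r' r ∧ ext1 H q q' := by
  obtain ⟨e1, e2⟩ := Pair.half h hr hq hr' a b
  obtain ⟨e3, e4⟩ := Pair.half h hr' hq' hr b a
  refine ⟨e1, ?_⟩
  rcases e2 with e2 | e2
  · rcases e4 with e4 | e4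
    · exact e2.trans (e1.trans e4.symm)
    · exact e4.symm
  · exact e2

theorem Un.inj (h : H.Comp) {F q q' : U} (hq : H.G (.lv 1) q) (hq' : H.G (.lv 1) q')
    (a : Un H F q) (b : Un H F q') : ext1 H q' q := by
  obtain ⟨G1, g1, e1⟩ := comp2 h (n := 1) (by decide) rfl rfl hq hq (fun p r _ => ¬ ext1 H p r)
    (by px_df)
  by_contra hc
  exact (b G1 g1).1 ((a G1 g1).2 fun m => (e1 q hq).1 m (.refl q)) ((e1 q' hq').2 hc)

theorem Pair.not_un (h : H.Comp) {F r q q' : U} (hr : H.G (.lv 1) r) (hq' : H.G (.lv 1) q')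
    (a : Pair H F r q) (b : Un H F q') : False := by
  obtain ⟨G1, g1, e1⟩ := comp2 h (n := 1) (by decide) rfl rfl hr hr (fun _ _ _ => False) Df.fls
  exact (e1 r hr).1 ((a G1 g1).1 ((b G1 g1).2 fun m => (e1 q' hq').1 m)).1

theorem T0.ext {r r' x : U} (a : T0 H r' x) (e : ext1 H r' r) : T0 H r x := fun v hv =>
  (a v hv).trans (exists_congr fun z => and_congr_right fun hz => and_congr_left' (e z hz))

theorem exS (h : H.Comp) {y : U} (hy : H.G (.lv 0) y) : ∃ s, H.G (.lv 4) s ∧ IsS H s y := by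
  obtain ⟨s, hs, e⟩ := comp2 h (n := 3) (by decide) rfl rfl hy hy (fun F y _ =>
    (∃ r, H.G (.lv 1) r ∧ ∃ q, H.G (.lv 1) q ∧ Pair H F r q ∧
      ∀ x, H.G (.lv 0) x → H.m 0 x q → T0 H r x) ∨
    ∃ q, H.G (.lv 1) q ∧ Un H F q ∧ ∀ x, H.G (.lv 0) x → H.m 0 x q → eqW H y x) (by px_df)
  refine ⟨s, hs, fun r hr x hx => ⟨?_, fun t => ?_⟩, fun x hx => ⟨?_, fun t => ?_⟩⟩
  · rintro ⟨F, hF, m, q, hq, a, mx⟩
    rcases (e F hF).1 m with ⟨r', hr', q', hq', b, c⟩ | ⟨q', hq', b, -⟩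
    · obtain ⟨e1, e2⟩ := Pair.inj h hr hq hr' hq' a b
      exact (c x hx ((e2 x hx).1 mx)).ext e1
    · exact (Pair.not_un h hr hq' a b).elim
  · obtain ⟨q, hq, e1⟩ := comp2 h (n := 0) (by decide) rfl rfl hr hr (fun x r _ => T0 H r x)
      (by px_df)
    obtain ⟨F, hF, e2⟩ := comp2 h (n := 2) (by decide) rfl rfl hr hq (fun G r q =>
      H.m 1 r G ∧ ∀ p, H.G (.lv 1) p → H.m 1 p G → ext1 H p r ∨ ext1 H p q) (by px_df)
    exact ⟨F, hF, (e F hF).2 (.inl ⟨r, hr, q, hq, e2, fun z hz m => (e1 z hz).1 m⟩), q, hq, e2,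
      (e1 x hx).2 t⟩
  · rintro ⟨F, hF, m, q, hq, a, mx⟩
    rcases (e F hF).1 m with ⟨r', hr', q', -, b, -⟩ | ⟨q', hq', b, c⟩
    · exact (Pair.not_un h hr' hq b a).elim
    · exact c x hx ((Un.inj h hq hq' a b x hx).2 mx)
  · obtain ⟨q, hq, e1⟩ := comp2 h (n := 0) (by decide) rfl rfl hy hy (fun x y _ => eqW H y x)
      (by px_df)
    obtain ⟨F, hF, e2⟩ := comp2 h (n := 2) (by decide) rfl rfl hq hq (fun G q _ => ¬ H.m 1 q G)
      (by px_df)
    exact ⟨F, hF, (e F hF).2 (.inr ⟨q, hq, e2, fun z hz m => (e1 z hz).1 m⟩), q, hq, e2,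
      (e1 x hx).2 t⟩

theorem IsS.val {s x : U} (a : IsS H s x) (v z : U) : val H v s z ↔ val0 H v z :=
  exists_congr fun _ => and_congr_right' (and_congr_left' (and_congr_left'
    (forall_congr' fun r => forall_congr' fun hr => forall_congr' fun y => forall_congr' fun hy =>
      by rw [a.1 r hr y hy])))

theorem IsS.psi (h : H.Comp) {s x w : U} (hx : H.G (.lv 0) x) (hw : H.G (.lv 0) w)
    (a : IsS H s x) : psi H w s ↔ lt H x w := by
  constructor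
  · rintro ⟨y, hy, d, v, hv, sv, r, hr, t, e⟩
    have l : lt H y w :=
      ⟨v, hv, sv, r, hr, (a.1 r hr y hy).1 t, fun z hz => (e z hz).trans (a.val v z)⟩
    obtain ⟨q, hq, e1⟩ := comp2 h (n := 0) (by decide) rfl rfl hw hw (fun x w _ => ¬ lt H x w)
      (by px_df)
    by_contra hc
    exact (e1 y hy).1 ((a.2 y hy).1 d q hq ((e1 x hx).2 hc)) l
  · rintro ⟨v, hv, sv, r, hr, t, e⟩
    exact ⟨x, hx, (a.2 x hx).2 fun _ _ m => m, v, hv, sv, r, hr, (a.1 r hr x hx).2 t,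
      fun z hz => (e z hz).trans (a.val v z).symm⟩

theorem IsPsi.val0 (h : H.Comp) {v x w : U} (hx : H.G (.lv 0) x) (hw : H.G (.lv 0) w)
    (a : IsPsi H v w) : val0 H v x ↔ lt H x w := by
  constructor
  · rintro ⟨s, hs, b, m⟩
    exact (b.psi h hx hw).1 ((a s hs).1 m)
  · intro l
    obtain ⟨s, hs, b⟩ := exS h hx
    exact ⟨s, hs, b, (a s hs).2 ((b.psi h hx hw).2 l)⟩

theorem T0.char (h : H.Comp) {r x : U} (t : T0 H r x) (z : U) :
    lt H z x ↔ ∃ a, H.G (.lv 0) a ∧ H.m 0 a r ∧ D H z a := by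
  constructor
  · rintro ⟨v, hv, sv, r', hr', t', e⟩
    obtain ⟨a, ha, m, p⟩ := (t v hv).1 sv
    exact ⟨a, ha, m, r', hr', t', fun y hy => (e y hy).trans (p.val0 h hy ha)⟩
  · rintro ⟨a, ha, m, r', hr', t', e⟩
    obtain ⟨v, hv, p⟩ := exPsi h ha
    exact ⟨v, hv, (t v hv).2 ⟨a, ha, m, p⟩, r', hr', t',
      fun y hy => (e y hy).trans (p.val0 h hy ha).symm⟩

theorem exD (h : H.Comp) {a : U} (ha : H.G (.lv 0) a) : ∃ z, H.G (.lv 0) z ∧ D H z a := by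
  obtain ⟨r, hr, e⟩ := comp2 h (n := 0) (by decide) rfl rfl ha ha (fun y a _ => lt H y a)
    (by px_df)
  obtain ⟨z, hz, t⟩ := exT h hr
  exact ⟨z, hz, r, hr, t, e⟩

theorem D.char (h : H.Comp) {z w : U} (d : D H z w) (z' : U) :
    lt H z' z ↔ ∃ y, H.G (.lv 0) y ∧ lt H y w ∧ D H z' y := by
  obtain ⟨r, -, t, e⟩ := d
  exact (t.char h z').trans
    (exists_congr fun y => and_congr_right fun hy => and_congr_left' (e y hy))

theorem wf.D (h : H.Comp) {x z : U} (hx : H.G (.lv 0) x) (hz : H.G (.lv 0) z) (w : wf H x)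
    (d : D H z x) : wf H z := by
  intro p hp ip
  obtain ⟨p', hp', e⟩ := comp2 h (n := 0) (by decide) rfl rfl hp hp
    (fun x p _ => ∀ z, H.G (.lv 0) z → PxHOLAux.D H z x → H.m 0 z p) (by px_df)
  refine (e x hx).1 (w p' hp' fun a ha ih => (e a ha).2 fun z hz d => ip z hz fun b hb l => ?_)
    z hz d
  obtain ⟨y, hy, l', d'⟩ := (d.char h b).1 l
  exact (e y hy).1 (ih y hy l') b hb d'

theorem false_of [Nonempty U] (h : H.Comp) : False := by
  obtain ⟨φ, e1, e2⟩ : Df H false [.lv 0] fun ρ => wf H (ρ 0) := by px_df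
  obtain ⟨r, hr, e3⟩ := h.comp 0 [] φ (fun _ => Classical.arbitrary U) (by decide) (by simp) e1
    (fun i t h => by simp at h)
  have e : ∀ y, H.G (.lv 0) y → (H.m 0 y r ↔ wf H y) := fun y hy => (e3 y hy).trans (e2 _)
  obtain ⟨o, ho, t⟩ := exT h hr
  have wo : wf H o := fun p hp ip => ip o ho fun z hz l => by
    obtain ⟨x, hx, m, d⟩ := (t.char h z).1 l
    exact ((e x hx).1 m).D h hx hz d p hp ip
  obtain ⟨q, hq, eq⟩ := comp2 h (n := 0) (by decide) rfl rfl hr hr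
    (fun y _ _ => ¬ ∃ z, H.G (.lv 0) z ∧ D H z y ∧ lt H z y) (by px_df)
  obtain ⟨z, hz, d⟩ := exD h ho
  refine (eq o ho).1 (wo q hq fun a ha ih => (eq a ha).2 ?_)
    ⟨z, hz, d, (t.char h z).2 ⟨o, ho, (e o ho).2 wo, d⟩⟩
  rintro ⟨z, hz, d, l⟩
  obtain ⟨z', hz', d'⟩ := exD h hz
  exact (eq z hz).1 (ih z hz l) ⟨z', hz', d', (d.char h z').2 ⟨z, hz, l, d'⟩⟩

end PxHOLAux

/-- The comprehension principles are contradictory. -/
theorem HData.Comp.false [Nonempty U] {H : HData U} (h : H.Comp) : False :=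
  PxHOLAux.false_of h

end Crest.Agent.R298
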