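import Crest.Agent.R298.Csub
import Crest.Agent.R298.Mem

/-! Strengthening for constants (using weak normalisation) and abstraction of a fresh constant
in stage-normalising terms. -/

set_option autoImplicit false

namespace Crest.Agent.R298

open Tm

universe u
variable {S : Type u} {P : Sys S}

/-- A normal type over `C` has over `C` every sort it has over arbitrary constants. -/
theorem Ty.sort_strengthen {C : Set (Tm S)} {Γ : List (Tm S)} {A : Tm S} {s s' : S}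
    (hΓ : Ok P C Γ) (hn : Normal A) (h : Ty P C Γ A (sort s'))
    (h' : Ty P Set.univ Γ A (sort s)) : Ty P C Γ A (sort s) := by
  induction A generalizing Γ s s' with
  | pi A B ihA ihB =>
    obtain ⟨s1', s2', -, a', b'⟩ := h.gen_pi_sort
    obtain ⟨s1, s2, r, a, b⟩ := h'.gen_pi_sort
    obtain ⟨n1, n2⟩ := Normal.pi_iff.1 hn
    exact .pi (ihA hΓ n1 a' a) (ihB (.cons hΓ a') n2 b' b) r
  | sort t =>
    obtain ⟨t', a, b⟩ := h'.gen_sort
    cases b.sort_inj
    exact .ax a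
  | _ =>
    rcases h.normal_type_cases hn with h1 | ⟨t, e⟩ | ⟨A, B, e⟩
    · cases (h1.type_unique (CtxConv.refl Γ) h h').sort_inj
      exact h
    · cases e
    · cases e

theorem Ty.type_strengthen {C : Set (Tm S)} {Γ : List (Tm S)} {M X : Tm S} {s : S}
    (hΓ : Ok P C Γ) (hn : Normal X) (h : Ty P C Γ M X)
    (h' : Ty P Set.univ Γ X (sort s)) : Ty P C Γ X (sort s) := by
  rcases h.type_ok hΓ with ⟨t, rfl⟩ | ⟨t, ht⟩
  · obtain ⟨t', a, b⟩ := h'.gen_sort
    cases b.sort_inj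
    exact .ax a
  · exact Ty.sort_strengthen hΓ hn ht h'

theorem Ty.to_nf {C : Set (Tm S)} {Γ : List (Tm S)} {M X T : Tm S} (hΓ : Ok P C Γ)
    (h : Ty P C Γ M X) (c : Conv T X) (w : WN T) : Ty P C Γ M (nf T) :=
  h.red_type hΓ ((c.symm.trans (conv_nf T)).red_normal w.nf_normal)

/-- Constants which do not occur in the subject or in the context are not needed. -/
theorem Ty.strengthen (hW : AllWN P) {C : Set (Tm S)} {Γ : List (Tm S)} {M T : Tm S}
    (hΓ : Ok P C Γ) (h : Ty P Set.univ Γ M T) (hM : ∀ c, Occ c M → c ∈ C) :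
    Ty P C Γ M (nf T) := by
  induction M generalizing Γ T with
  | var i =>
    obtain ⟨A, a, b⟩ := h.gen_var
    exact Ty.to_nf hΓ (.var a) b (hW.type (hΓ.monoC (Set.subset_univ _)) h)
  | sort s =>
    obtain ⟨t, a, b⟩ := h.gen_sort
    exact Ty.to_nf hΓ (.ax a) b (hW.type (hΓ.monoC (Set.subset_univ _)) h)
  | cst n A _ ihA =>
    have w := hW.type (hΓ.monoC (Set.subset_univ _)) h
    obtain ⟨-, b, ⟨s, hs⟩ | ⟨s, rfl, hs⟩⟩ := h.gen_cst
    · have h1 := ihA .nil hs (fun c hc => hM c (Or.inr hc))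
      rw [nf_sort] at h1
      exact Ty.to_nf hΓ (.cst (hM _ (Or.inl rfl)) h1) b w
    · exact Ty.to_nf hΓ (.atom (hM _ (Or.inl rfl)) hs) b w
  | app F N ihF ihN =>
    have hu := hΓ.monoC (Set.subset_univ _)
    obtain ⟨A, B, a, b, c⟩ := h.gen_app
    have h1 := ihF hΓ a (fun c hc => hM c (Or.inl hc))
    rw [(hW.type hu a).nf_pi] at h1
    have h2 := ihN hΓ b (fun c hc => hM c (Or.inr hc))
    exact Ty.to_nf hΓ (.app h1 h2) (c.trans (Conv.inst .rfl (conv_nf B))) (hW.type hu h)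
  | lam A M ihA ihM =>
    have hu := hΓ.monoC (Set.subset_univ _)
    obtain ⟨B, s1, s2, s3, r, a, b, d, c⟩ := h.gen_lam
    have h1 := ihA hΓ a (fun c hc => hM c (Or.inl hc))
    rw [nf_sort] at h1
    have h2 := ihM (.cons hΓ h1) d (fun c hc => hM c (Or.inr hc))
    have wB : WN B := hW _ _ _ (.cons hu a) b
    have h3 := Ty.type_strengthen (.cons hΓ h1) wB.nf_normal h2 (b.red (.cons hu a) wB.red_nf)
    exact Ty.to_nf hΓ (.lam h1 h3 r h2) (c.trans (Conv.pi .rfl (conv_nf B))) (hW.type hu h)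
  | pi A B ihA ihB =>
    have hu := hΓ.monoC (Set.subset_univ _)
    obtain ⟨s1, s2, s3, r, a, b, c⟩ := h.gen_pi
    have h1 := ihA hΓ a (fun c hc => hM c (Or.inl hc))
    rw [nf_sort] at h1
    have h2 := ihB (.cons hΓ h1) b (fun c hc => hM c (Or.inr hc))
    rw [nf_sort] at h2
    exact Ty.to_nf hΓ (.pi h1 h2 r) c (hW.type hu h)
  | mem M Q ihM ihQ =>
    obtain ⟨a, B, b⟩ := h.gen_mem
    exact .mem (ihM hΓ a (fun c hc => hM c (Or.inl hc))) (ihQ hΓ b (fun c hc => hM c (Or.inr hc)))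

/-- A constant occurring in a typed term is typed in the empty context. -/
theorem Ty.occ_typed {C : Set (Tm S)} {Γ : List (Tm S)} {X T d : Tm S} (h : Ty P C Γ X T)
    (ho : Occ d X) : ∃ T', Ty P C [] d T' := by
  induction h with
  | ax => exact ho.elim
  | var => exact ho.elim
  | cst h h' ih =>
    rcases ho with rfl | ho
    · exact ⟨_, .cst h h'⟩
    · exact ih ho
  | atom h h' =>
    rcases ho with rfl | ho
    · exact ⟨_, .atom h h'⟩
    · exact ho.elim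
  | pi _ _ _ ih1 ih2 => exact Or.elim ho ih1 ih2
  | lam _ _ _ _ ih1 _ ih3 => exact Or.elim ho ih1 ih3
  | app _ _ ih1 ih2 => exact Or.elim ho ih1 ih2
  | mem _ _ ih1 ih2 => exact Or.elim ho ih1 ih2
  | conv _ _ _ ih1 _ => exact ih1 ho

/-- Typed constants in which `c` does not occur. -/
def freeOf (P : Sys S) (c : Tm S) : Set (Tm S) :=
  {d | ¬ Occ c d ∧ ∃ T, Ty P Set.univ [] d T}

theorem wfC_freeOf (hW : AllWN P) (c : Tm S) : WfC P (freeOf P c) := by
  rintro n A ⟨h1, T, h2⟩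
  obtain ⟨-, -, ⟨s, hs⟩ | h⟩ := h2.gen_cst
  · refine .inl ⟨s, ?_⟩
    have := Ty.strengthen hW (C := freeOf P c) .nil hs
      (fun d hd => ⟨fun h => h1 (Or.inr (h.trans hd)), hs.occ_typed hd⟩)
    rwa [nf_sort] at this
  · exact .inr h

theorem absC_cst_cases (c n A : Tm S) (k : ℕ) :
    (∃ i, absC c k (Tm.cst n A) = Tm.var i) ∨ ∃ A', absC c k (Tm.cst n A) = Tm.cst n A' := by
  by_cases h : Tm.cst n A = c
  · exact .inl ⟨0 + k, by simp [absC, Tm.csub, absMap, h]⟩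
  · exact .inr ⟨Tm.csub (absMap c) 0 A, by simp [absC, Tm.csub, absMap, h]⟩

theorem absC_eq_mem {c F M Q : Tm S} {k : ℕ} (h : absC c k F = Tm.mem M Q) :
    ∃ M' Q', F = Tm.mem M' Q' := by
  cases F with
  | mem M' Q' => exact ⟨_, _, rfl⟩
  | cst n A => rcases absC_cst_cases c n A k with ⟨_, e⟩ | ⟨_, e⟩ <;> rw [e] at h <;> cases h
  | _ => cases h

theorem absC_eq_lam {c F M Q : Tm S} {k : ℕ} (h : absC c k F = Tm.lam M Q) :
    ∃ M' Q', F = Tm.lam M' Q' := by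
  cases F with
  | lam M' Q' => exact ⟨_, _, rfl⟩
  | cst n A => rcases absC_cst_cases c n A k with ⟨_, e⟩ | ⟨_, e⟩ <;> rw [e] at h <;> cases h
  | _ => cases h

theorem NK.absC (hW : AllWN P) {rk : S → ℕ} {K : ℕ} {C : Set (Tm S)} (hC : WfC P C)
    {n A : Tm S} (hc : Tm.cst n A ∉ C) {Δ : List (Tm S)} {X : Tm S} (h : NK P rk K Δ X)
    (hΔ : Ok P (insert (Tm.cst n A) C) Δ) (hX : ∃ T, Ty P Set.univ Δ X T)
    (ho : ∀ d, Occ d X → d ∈ insert (Tm.cst n A) C) :
    NK P rk K (csubCtx (absMap (Tm.cst n A)) Δ ++ [A]) (Tm.absC (Tm.cst n A) Δ.length X) := by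
  induction h with
  | var Γ i => exact .var _ _
  | sort Γ s => exact .sort _ _
  | cst Γ n' A' =>
    rcases absC_cst_cases (Tm.cst n A) n' A' Γ.length with ⟨_, e⟩ | ⟨_, e⟩ <;> rw [e]
    · exact .var _ _
    · exact .cst _ _ _
  | @app Γ F N _ _ h3 h4 ih1 ih2 =>
    obtain ⟨T, hT⟩ := hX
    obtain ⟨A1, B1, a, b, -⟩ := hT.gen_app
    have oF : ∀ d, Occ d F → d ∈ insert (Tm.cst n A) C := fun d hd => ho d (Or.inl hd)
    refine .app (ih1 hΔ ⟨_, a⟩ oF) (ih2 hΔ ⟨_, b⟩ (fun d hd => ho d (Or.inr hd))) ?_ ?_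
    · intro M Q e
      obtain ⟨M', Q', e'⟩ := absC_eq_mem e
      exact h3 _ _ e'
    · intro M Q e
      obtain ⟨M', Q', e'⟩ := absC_eq_lam e
      obtain ⟨T', hT', s, hs, hr⟩ := h4 _ _ e'
      have hu := hΔ.monoC (Set.subset_univ _)
      have w := hW.type hu hT'
      have h1 := Ty.strengthen hW hΔ hT' oF
      have h2 := Ty.type_strengthen hΔ w.nf_normal h1
        ((hs.conv (conv_nf T')).normal hu w.nf_normal)
      exact ⟨_, (Ty.absC hC hc h1).monoC (Set.subset_univ _), s,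
        Ty.prof ((Ty.absC hC hc h2).monoC (Set.subset_univ _)), hr⟩
  | @lam Γ A1 M _ _ ih1 ih2 =>
    obtain ⟨T, hT⟩ := hX
    obtain ⟨B, s1, s2, s3, r, a, b, d, c⟩ := hT.gen_lam
    have oA : ∀ d, Occ d A1 → d ∈ insert (Tm.cst n A) C := fun d hd => ho d (Or.inl hd)
    have h1 := Ty.strengthen hW hΔ a oA
    rw [nf_sort] at h1
    exact .lam (ih1 hΔ ⟨_, a⟩ oA) (ih2 (.cons hΔ h1) ⟨_, d⟩ (fun d hd => ho d (Or.inr hd)))
  | @pi Γ A1 M _ _ ih1 ih2 =>
    obtain ⟨T, hT⟩ := hX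
    obtain ⟨s1, s2, s3, r, a, b, c⟩ := hT.gen_pi
    have oA : ∀ d, Occ d A1 → d ∈ insert (Tm.cst n A) C := fun d hd => ho d (Or.inl hd)
    have h1 := Ty.strengthen hW hΔ a oA
    rw [nf_sort] at h1
    exact .pi (ih1 hΔ ⟨_, a⟩ oA) (ih2 (.cons hΔ h1) ⟨_, b⟩ (fun d hd => ho d (Or.inr hd)))
  | @mem Γ M Q _ _ ih1 ih2 =>
    obtain ⟨T, hT⟩ := hX
    obtain ⟨a, B, b⟩ := hT.gen_mem
    exact .mem (ih1 hΔ ⟨_, a⟩ (fun d hd => ho d (Or.inl hd)))
      (ih2 hΔ ⟨_, b⟩ (fun d hd => ho d (Or.inr hd)))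

/-- Binders over a body whose instance at a fresh constant is stage-normalising. -/
theorem WK.binder (hW : AllWN P) {rk : S → ℕ} {K : ℕ} {n A M B : Tm S} {s : S}
    (hA : Ty P Set.univ [] A (sort s)) (hM : Ty P Set.univ [A] M B)
    (hc : ¬ Occ (Tm.cst n A) M) (wA : WK P rk K A) (wM : WK P rk K (inst (Tm.cst n A) M)) :
    WK P rk K (Tm.lam A M) ∧ WK P rk K (Tm.pi A M) := by
  obtain ⟨A', rA, nA⟩ := wA
  obtain ⟨M', rM, nM⟩ := wM
  have hcT : Ty P Set.univ [] (Tm.cst n A) A := .cst trivial hA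
  have hM' : Ty P Set.univ [] M' (inst (Tm.cst n A) B) := (hM.inst hcT).mred .nil rM
  have r1 : MRed M (absC (Tm.cst n A) 0 M') := by
    have := rM.csub (absMap (Tm.cst n A)) 0
    have e := absC_inst hc hM.bnd
    unfold absC at e ⊢
    rwa [e] at this
  have hn : Tm.cst n A ∉ freeOf P (Tm.cst n A) := fun h => h.1 (Or.inl rfl)
  have ho : ∀ d, Occ d M' → d ∈ insert (Tm.cst n A) (freeOf P (Tm.cst n A)) := by
    intro d hd
    rcases (hd.of_mred rM).of_sub with h | ⟨i, h⟩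
    · exact .inr ⟨fun h' => hc (h'.trans h), hM.occ_typed h⟩
    · cases i with
      | zero =>
        rcases h with h | h
        · exact .inl h
        · exact .inr ⟨fun h' => not_occ_annot n A (h'.trans h), hA.occ_typed h⟩
      | succ i => exact h.elim
  have k1 : NK P rk K [A] (absC (Tm.cst n A) 0 M') :=
    NK.absC hW (wfC_freeOf hW _) hn nM .nil ⟨_, hM'⟩ ho
  have k2 : NK P rk K [A'] (absC (Tm.cst n A) 0 M') := by
    refine k1.ctx ?_
    intro i X hX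
    rw [sub_id]
    cases hX with
    | zero => exact .conv (.var (.zero _ _)) (hA.weak _) rA.conv.symm.lift
    | succ _ hX => exact absurd hX Lk.not_nil
  exact ⟨⟨_, MRed.lam rA r1, .lam nA k2⟩, ⟨_, MRed.pi rA r1, .pi nA k2⟩⟩

end Crest.Agent.R298
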