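import Crest.Agent.R298.PxDefs
import Crest.Agent.R298.Strengthen

/-! Existence of a Henkin set of constants. -/

set_option autoImplicit false

namespace Crest.Agent.R298

open Tm

universe u
variable {S : Type u} {P : Sys S}

/-! ### The types `⊤ → … → ⊤ → ⊥` -/

theorem IsW.normal {W : Tm S} (h : IsW W) : Normal W := by
  induction h with
  | bot t => exact normal_cst _ _
  | pi s _ ih => exact Normal.pi_iff.2 ⟨normal_cst _ _, ih⟩

theorem IsW.ne_top {s : S} : ¬ IsW (topT s) := by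
  intro h
  generalize e : topT s = W at h
  cases h with
  | bot t => simp [topT, botT, hypC] at e
  | pi s _ => simp [topT] at e

theorem IsW.ne_sort {s : S} : ¬ IsW (sort s) := by
  intro h
  generalize e : Tm.sort s = W at h
  cases h with
  | bot t => simp [botT, hypC] at e
  | pi s _ => simp at e

theorem IsW.pi_inv {A B : Tm S} (h : IsW (Tm.pi A B)) : (∃ s, A = topT s) ∧ IsW B := by
  generalize e : Tm.pi A B = W at h
  cases h with
  | bot t => simp [botT, hypC] at e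
  | pi s h => cases e; exact ⟨⟨s, rfl⟩, h⟩

theorem IsW.occ {W c : Tm S} (h : IsW W) (ho : Occ c W) : ∃ s, c = botT s ∨ c = topT s := by
  induction h with
  | bot t =>
    rcases ho with ho | ho
    · exact ⟨t, .inl ho⟩
    · exact ho.elim
  | pi s _ ih =>
    rcases ho with (ho | ho) | ho
    · exact ⟨s, .inr ho⟩
    · exact ho.elim
    · exact ih ho

theorem IsW.not_conv_sort {W : Tm S} (h : IsW W) {s : S} : ¬ Conv (sort s) W := fun c =>
  IsW.ne_sort (c.eq_of_normal (normal_sort s) h.normal ▸ h)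

theorem IsW.not_conv_top {W : Tm S} (h : IsW W) {s : S} : ¬ Conv (topT s) W := fun c =>
  IsW.ne_top (c.eq_of_normal (normal_cst _ _) h.normal ▸ h)

theorem IsW.conv_pi {W A B : Tm S} (h : IsW W) (c : Conv (Tm.pi A B) W) :
    ∃ s W', IsW W' ∧ Conv A (topT s) ∧ Conv B W' := by
  cases h with
  | bot t => exact absurd c.symm (Neutral.cst _ _).not_conv_pi
  | pi s h => exact ⟨s, _, h, c.pi_inj.1, c.pi_inj.2⟩

/-! ### The base set -/

/-- Sorts which admit constants. -/
def TA (P : Sys S) (s : S) : Prop := P.atom s ∨ ∃ t, P.ax s t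

/-- The base set of constants. -/
def baseC (P : Sys S) : Set (Tm S) :=
  {c | (∃ s, TA P s ∧ (c = botT s ∨ c = topT s ∨ c = eT s)) ∨
    ∃ W t s, IsW W ∧ Ty P Set.univ [] (pi W (botT t)) (sort s) ∧ c = hypC (pi W (botT t))}

theorem TA.ty {C : Set (Tm S)} {n : Tm S} {s : S} (h : TA P s) (hc : cst n (sort s) ∈ C) :
    Ty P C [] (cst n (sort s)) (sort s) := by
  rcases h with h | ⟨t, h⟩
  · exact .atom hc h
  · exact .cst hc (.ax h)

theorem TA.of_ty {C : Set (Tm S)} {n T : Tm S} {s : S} (h : Ty P C [] (cst n (sort s)) T) :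
    TA P s := by
  obtain ⟨-, -, ⟨t, ht⟩ | ⟨t, e, ht⟩⟩ := h.gen_cst
  · obtain ⟨t', a, -⟩ := ht.gen_sort
    exact .inr ⟨t', a⟩
  · cases e
    exact .inl ht

theorem wfC_baseC (hW : AllWN P) : WfC P (baseC P) := by
  have hs : ∀ s, TA P s → (∃ t, Ty P (baseC P) [] (sort s) (sort t)) ∨
      ∃ t, sort s = sort t ∧ P.atom t := by
    rintro s (h | ⟨t, h⟩)
    · exact .inr ⟨s, rfl, h⟩
    · exact .inl ⟨t, .ax h⟩
  rintro n A (⟨s, h, e | e | e⟩ | ⟨W, t, s, hw, h, e⟩)
  · cases e; exact hs s h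
  · cases e; exact hs s h
  · cases e
    exact .inl ⟨s, h.ty (.inl ⟨s, h, .inr (.inl rfl)⟩)⟩
  · cases e
    refine .inl ⟨s, ?_⟩
    have := Ty.strengthen hW (C := baseC P) .nil h (fun c hc => by
      obtain ⟨T, hT⟩ := h.occ_typed hc
      have h1 : ∃ s, c = botT s ∨ c = topT s := by
        rcases hc with hc | hc
        · exact hw.occ hc
        · exact (IsW.bot t).occ hc
      obtain ⟨s', rfl | rfl⟩ := h1
      · exact .inl ⟨s', TA.of_ty hT, .inl rfl⟩
      · exact .inl ⟨s', TA.of_ty hT, .inr (.inl rfl)⟩)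
    rwa [nf_sort] at this

theorem lk_top {Γ : List (Tm S)} (hΓ : ∀ X ∈ Γ, ∃ s, X = topT s) {i : ℕ} {A : Tm S}
    (h : Lk Γ i A) : ∃ s, A = topT s := by
  induction h with
  | zero A Γ =>
    obtain ⟨s, rfl⟩ := hΓ A (List.mem_cons_self ..)
    exact ⟨s, rfl⟩
  | succ B _ ih =>
    obtain ⟨s, rfl⟩ := ih (fun X hX => hΓ X (List.mem_cons_of_mem _ hX))
    exact ⟨s, rfl⟩

/-- Annotations of the constants of the base set. -/
theorem baseC_annot {n A : Tm S} (h : cst n A ∈ baseC P) :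
    (∃ s, A = sort s) ∨ (∃ s, A = topT s) ∨ ∃ W t, IsW W ∧ A = pi W (botT t) := by
  rcases h with ⟨s, -, e | e | e⟩ | ⟨W, t, s, hw, -, e⟩
  · cases e; exact .inl ⟨s, rfl⟩
  · cases e; exact .inl ⟨s, rfl⟩
  · cases e; exact .inr (.inl ⟨s, rfl⟩)
  · cases e; exact .inr (.inr ⟨W, t, hw, rfl⟩)

/-- Normal terms over the base set in contexts of inhabited atoms. -/
theorem baseC_normal {m : Tm S} (hn : Normal m) {Γ : List (Tm S)}
    (hΓ : ∀ X ∈ Γ, ∃ s, X = topT s) {T : Tm S} (h : Ty P (baseC P) Γ m T) :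
    (∀ F N, m ≠ app F N) ∧ ∀ W, IsW W → ¬ Conv T W := by
  induction m generalizing Γ T with
  | var i =>
    refine ⟨fun _ _ e => (by cases e), fun W hw c => ?_⟩
    obtain ⟨A, a, b⟩ := h.gen_var
    obtain ⟨s, rfl⟩ := lk_top hΓ a
    exact hw.not_conv_top (b.symm.trans c)
  | sort s =>
    refine ⟨fun _ _ e => (by cases e), fun W hw c => ?_⟩
    obtain ⟨t, -, b⟩ := h.gen_sort
    exact hw.not_conv_sort (b.symm.trans c)
  | cst n A =>
    refine ⟨fun _ _ e => (by cases e), fun W hw c => ?_⟩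
    obtain ⟨a, b, -⟩ := h.gen_cst
    rcases baseC_annot a with ⟨s, rfl⟩ | ⟨s, rfl⟩ | ⟨W', t, hw', rfl⟩
    · exact hw.not_conv_sort (b.symm.trans c)
    · exact hw.not_conv_top (b.symm.trans c)
    · obtain ⟨s, -, -, d, -⟩ := hw.conv_pi (b.symm.trans c)
      exact hw'.not_conv_top d.symm
  | app F N ihF ihN =>
    exfalso
    obtain ⟨A, B, a, b, -⟩ := h.gen_app
    obtain ⟨n1, n2, n3⟩ := Normal.app_iff.1 hn
    rcases a.normal_cases n1 with hF | ⟨s, rfl⟩ | ⟨A', B', rfl⟩ | ⟨A', B', rfl⟩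
    · cases hF with
      | var i =>
        obtain ⟨X, a', b'⟩ := a.gen_var
        obtain ⟨s, rfl⟩ := lk_top hΓ a'
        exact (Neutral.cst _ _).not_conv_pi b'.symm
      | cst n X =>
        obtain ⟨a', b', -⟩ := a.gen_cst
        rcases baseC_annot a' with ⟨s, rfl⟩ | ⟨s, rfl⟩ | ⟨W', t, hw', rfl⟩
        · exact Conv.not_sort_pi b'.symm
        · exact (Neutral.cst _ _).not_conv_pi b'.symm
        · exact (ihN n2 hΓ b).2 W' hw' b'.pi_inj.1
      | app N' _ => exact (ihF n1 hΓ a).1 _ _ rfl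
    · obtain ⟨t, -, c⟩ := a.gen_sort
      exact Conv.not_sort_pi c.symm
    · obtain ⟨_, _, _, -, -, -, c⟩ := a.gen_pi
      exact Conv.not_sort_pi c.symm
    · exact n3 _ _ rfl
  | lam A M _ ihM =>
    refine ⟨fun _ _ e => (by cases e), fun W hw c => ?_⟩
    obtain ⟨B, s1, s2, s3, -, -, -, d, f⟩ := h.gen_lam
    obtain ⟨n1, n2⟩ := Normal.lam_iff.1 hn
    obtain ⟨s, W', hw', c1, c2⟩ := hw.conv_pi (f.symm.trans c)
    have e : A = topT s := c1.eq_of_normal n1 (normal_cst _ _)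
    refine (ihM n2 (Γ := A :: Γ) ?_ d).2 W' hw' c2
    intro X hX
    rcases List.mem_cons.1 hX with rfl | hX
    · exact ⟨s, e⟩
    · exact hΓ X hX
  | pi A B =>
    refine ⟨fun _ _ e => (by cases e), fun W hw c => ?_⟩
    obtain ⟨_, _, _, -, -, -, b⟩ := h.gen_pi
    exact hw.not_conv_sort (b.symm.trans c)
  | mem M Q => exact absurd hn Normal.not_mem

theorem baseC_cons (hW : AllWN P) (b0 : S) : ¬ ∃ m, Ty P (baseC P) [] m (botT b0) := by
  rintro ⟨m, h⟩
  have w : WN m := hW _ _ _ .nil (h.monoC (Set.subset_univ _))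
  exact (baseC_normal w.nf_normal (Γ := []) (fun _ hX => by cases hX)
    (h.red .nil w.red_nf)).2 _ (.bot b0) .rfl

/-! ### Zorn's lemma -/

/-- Consistent, well-formed extensions of the base set with witnesses. -/
def Good (P : Sys S) (b0 : S) (A : Set (Tm S)) : Prop :=
  baseC P ⊆ A ∧ WfC P A ∧ (¬ ∃ m, Ty P A [] m (botT b0)) ∧
    ∀ B χ, witC B χ ∈ A → hypC (inst (witC B χ) χ) ∈ A

theorem good_baseC (hW : AllWN P) (b0 : S) : Good P b0 (baseC P) := by
  refine ⟨subset_rfl, wfC_baseC hW, baseC_cons hW b0, ?_⟩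
  rintro B χ (⟨s, -, e | e | e⟩ | ⟨W, t, s, -, -, e⟩) <;> cases e

theorem WfC.insert {C : Set (Tm S)} (hC : WfC P C) {n A : Tm S} {s : S}
    (h : Ty P C [] A (sort s)) : WfC P (insert (cst n A) C) := by
  rintro n' A' (e | hm)
  · cases e
    exact .inl ⟨s, h.monoC (Set.subset_insert _ _)⟩
  · rcases hC n' A' hm with ⟨t, ht⟩ | ht
    · exact .inl ⟨t, ht.monoC (Set.subset_insert _ _)⟩
    · exact .inr ht

theorem finite_subset_chain {α : Type*} {c : Set (Set α)} (hc : IsChain (· ⊆ ·) c)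
    (hne : c.Nonempty) {D : Set α} (hD : D.Finite) (h : D ⊆ ⋃₀ c) : ∃ A ∈ c, D ⊆ A := by
  induction D, hD using Set.Finite.induction_on with
  | empty => obtain ⟨A, hA⟩ := hne; exact ⟨A, hA, Set.empty_subset _⟩
  | @insert a D _ _ ih =>
    obtain ⟨A, hA, h1⟩ := ih ((Set.subset_insert _ _).trans h)
    obtain ⟨B, hB, h2⟩ := h (Set.mem_insert a D)
    rcases hc.total hA hB with h3 | h3
    · exact ⟨B, hB, Set.insert_subset h2 (h1.trans h3)⟩
    · exact ⟨A, hA, Set.insert_subset (h3 h2) h1⟩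

theorem exists_maximal_good (hW : AllWN P) (b0 : S) : ∃ A, Maximal (Good P b0) A := by
  obtain ⟨A, -, hA⟩ := zorn_subset_nonempty {A | Good P b0 A} (by
    intro c hc hch hne
    refine ⟨⋃₀ c, ⟨?_, ?_, ?_, ?_⟩, fun s hs => Set.subset_sUnion_of_mem hs⟩
    · obtain ⟨A, hA⟩ := hne
      exact (hc hA).1.trans (Set.subset_sUnion_of_mem hA)
    · rintro n X ⟨A, hA, hm⟩
      rcases (hc hA).2.1 n X hm with ⟨t, ht⟩ | ht
      · exact .inl ⟨t, ht.monoC (Set.subset_sUnion_of_mem hA)⟩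
      · exact .inr ht
    · rintro ⟨m, hm⟩
      obtain ⟨D, d1, d2, d3⟩ := hm.finite_support
      obtain ⟨A, hA, h⟩ := finite_subset_chain hch hne d1 d2
      exact (hc hA).2.2.1 ⟨m, d3.monoC h⟩
    · rintro B χ ⟨A, hA, hm⟩
      exact ⟨A, hA, (hc hA).2.2.2 B χ hm⟩) (baseC P) (good_baseC hW b0)
  exact ⟨A, hA⟩

theorem not_occ_botT {c : Tm S} {s : S} {C : Set (Tm S)} (hc : c ∉ C) (hb : botT s ∈ C) :
    ¬ Occ c (botT s) := by
  rintro (e | e)
  · exact hc (e ▸ hb)
  · exact e.elim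

theorem exists_henkin (hW : AllWN P) {b0 : S} (hb : P.atom b0) : Nonempty (Henkin P b0) := by
  obtain ⟨A, hA⟩ := exists_maximal_good hW b0
  obtain ⟨h0, hwf, hcons, hwit⟩ := hA.prop
  have hb0 : botT b0 ∈ A := h0 (.inl ⟨b0, .inl hb, .inl rfl⟩)
  refine ⟨{ A := A
            bot_mem := fun s hs => h0 (.inl ⟨s, .inl hs, .inl rfl⟩)
            top_mem := fun s hs => h0 (.inl ⟨s, .inl hs, .inr (.inl rfl)⟩)
            e_mem := fun s hs => h0 (.inl ⟨s, .inl hs, .inr (.inr rfl)⟩)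
            g_mem := fun W t s hw h => h0 (.inr ⟨W, t, s, hw, h.monoC (Set.subset_univ _), rfl⟩)
            cons := hcons
            dec := ?_
            wit := ?_ }⟩
  · intro φ s hφ
    by_cases hc : hypC φ ∈ A
    · exact .inl ⟨_, .cst hc hφ⟩
    right
    by_cases hi : ∃ m, Ty P (insert (hypC φ) A) [] m (botT b0)
    · obtain ⟨m, hm⟩ := hi
      exact Ty.absC_nil hwf hc hm (not_occ_botT hc hb0)
    · have hg : Good P b0 (insert (hypC φ) A) := by
        refine ⟨h0.trans (Set.subset_insert _ _), hwf.insert hφ, hi, ?_⟩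
        rintro B χ (e | hm)
        · cases e
        · exact .inr (hwit B χ hm)
      exact absurd (hA.le_of_ge hg (Set.subset_insert _ _) (Set.mem_insert _ _)) hc
  · intro B χ s s' hB hχ
    by_cases hc : witC B χ ∈ A
    · have h1 : Ty P A [] (witC B χ) B := .cst hc hB
      exact .inl ⟨_, _, h1, .cst (hwit B χ hc) (hχ.inst h1)⟩
    right
    have hwf1 : WfC P (insert (witC B χ) A) := hwf.insert hB
    have h1 : Ty P (insert (witC B χ) A) [] (witC B χ) B :=
      .cst (Set.mem_insert _ _) (hB.monoC (Set.subset_insert _ _))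
    have h2 : Ty P (insert (witC B χ) A) [] (inst (witC B χ) χ) (sort s') :=
      (hχ.monoC (Set.subset_insert _ _)).inst h1
    by_cases hi : ∃ m, Ty P (insert (hypC (inst (witC B χ) χ)) (insert (witC B χ) A)) [] m (botT b0)
    · obtain ⟨m, hm⟩ := hi
      have h3 : ∃ m', Ty P (insert (witC B χ) A) [inst (witC B χ) χ] m' (botT b0) := by
        by_cases hh : hypC (inst (witC B χ) χ) ∈ insert (witC B χ) A
        · rw [Set.insert_eq_of_mem hh] at hm
          exact ⟨m, hm.of_nil _⟩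
        · exact Ty.absC_nil hwf1 hh hm (not_occ_botT hh (.inr hb0))
      obtain ⟨m', hm'⟩ := h3
      have h4 := Ty.absC hwf hc hm'
      have e1 : absC (witC B χ) 0 (inst (witC B χ) χ) = χ :=
        absC_inst (fun ho => hc (hχ.occ ho)) hχ.bnd
      have e2 : csubCtx (absMap (witC B χ)) [inst (witC B χ) χ] = [χ] := congrArg (· :: []) e1
      have e3 : absC (witC B χ) 1 (botT b0) = botT b0 := absC_of_not_occ (not_occ_botT hc hb0) 1
      refine ⟨absC (witC B χ) 1 m', ?_⟩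
      have h5 : Ty P A (csubCtx (absMap (witC B χ)) [inst (witC B χ) χ] ++ [B])
          (absC (witC B χ) 1 m') (absC (witC B χ) 1 (botT b0)) := h4
      rw [e2, e3] at h5
      exact h5
    · have hsub : A ⊆ insert (hypC (inst (witC B χ) χ)) (insert (witC B χ) A) :=
        (Set.subset_insert _ _).trans (Set.subset_insert _ _)
      have hg : Good P b0 (insert (hypC (inst (witC B χ) χ)) (insert (witC B χ) A)) := by
        refine ⟨h0.trans hsub, hwf1.insert h2, hi, ?_⟩
        rintro B' χ' (e | e | hm)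
        · cases e
        · cases e
          exact .inl rfl
        · exact hsub (hwit B' χ' hm)
      exact absurd (hA.le_of_ge hg hsub (.inr (.inl rfl))) hc

end Crest.Agent.R298
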