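import Crest.Agent.R298.PxDefs

/-! Laws of direct walks. -/

set_option autoImplicit false

namespace Crest.Agent.R298

open Tm

universe u
variable {S : Type u} {P : Sys S} {rk : S → ℕ} {K : ℕ} {L : Logic P rk K}

/-- Instantiation of a term typed in a one-entry context, inside any context. -/
theorem Ty.inst1 {C : Set (Tm S)} {Γ : List (Tm S)} {A f T N : Tm S} (h : Ty P C [A] f T)
    (hN : Ty P C Γ N A) : Ty P C Γ (Tm.inst N f) (Tm.inst N T) :=
  h.sub ((TSub.nil Γ Tm.var).cons (by rw [sub_id]; exact hN))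

theorem Tm.Bnd.sub_inst1 {f : Tm S} (h : Bnd 1 f) (σ : ℕ → Tm S) (a : Tm S) :
    sub σ (inst a f) = inst (sub σ a) f := by
  rw [sub_inst]
  refine h.sub_congr ?_
  intro i hi
  obtain rfl : i = 0 := by omega
  rfl

theorem Tm.Bnd.inst_inst1 {f : Tm S} (h : Bnd 1 f) (b a : Tm S) :
    inst b (inst a f) = inst (inst b a) f := h.sub_inst1 _ a

theorem Tm.Bnd.lift_inst1 {f : Tm S} (h : Bnd 1 f) (a : Tm S) :
    lift (inst a f) = inst (lift a) f := by
  unfold lift
  rw [ren_eq_sub, ren_eq_sub]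
  exact h.sub_inst1 _ a

theorem Ty.bnd1 {C : Set (Tm S)} {A f T : Tm S} (h : Ty P C [A] f T) : Bnd 1 f := h.bnd

theorem sub_succ_eq_lift (M : Tm S) : sub (fun i => var (i + 1)) M = lift M := by
  unfold lift; rw [ren_eq_sub]

theorem TSub.shift {C : Set (Tm S)} (Γ : List (Tm S)) (B : Tm S) :
    TSub P C (B :: Γ) (fun i => var (i + 1)) Γ := by
  intro i A h
  rw [sub_succ_eq_lift]
  exact .var (.succ _ h)

theorem wrap_append (l l' : List (Stp S)) (X : Tm S) : wrap (l ++ l') X = wrap l (wrap l' X) := by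
  induction l with
  | nil => rfl
  | cons a l ih => cases a <;> simp [wrap, ih]

theorem oddW_append (l l' : List (Stp S)) : oddW (l ++ l') = xor (oddW l) (oddW l') := by
  induction l with
  | nil => simp [oddW]
  | cons a l ih => cases a <;> simp [oddW, ih]

theorem DW.append {l l' : List (Stp S)} {s t r : S} (h : DW L l s t) (h' : DW L l' t r) :
    DW L (l ++ l') s r := by
  induction h with
  | nil => exact h'
  | c hr hT he _ ih => exact .c hr hT he (ih h')
  | d hr hZ _ ih => exact .d hr hZ (ih h')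

theorem wrap_conv (l : List (Stp S)) {X X' : Tm S} (c : Conv X X') :
    Conv (wrap l X) (wrap l X') := by
  induction l with
  | nil => exact c
  | cons a l ih =>
    cases a with
    | c T e => exact Conv.pi .rfl ih.lift
    | d Z up dn => exact Conv.pi ih .rfl

theorem DW.wrap_ty {l : List (Stp S)} {s t : S} (h : DW L l s t) {Γ : List (Tm S)} {X : Tm S}
    (hX : Ty P L.A Γ X (sort t)) : Ty P L.A Γ (wrap l X) (sort s) := by
  induction h with
  | nil => exact hX
  | c hr hT _ _ ih => exact .pi (hT.of_nil Γ) ((ih hX).weak _) hr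
  | d hr hZ _ ih => exact .pi (ih hX) (hZ.ty.of_nil _) hr

theorem DW.sub_wrap {l : List (Stp S)} {s t : S} (h : DW L l s t) (σ : ℕ → Tm S) (X : Tm S) :
    sub σ (wrap l X) = wrap l (sub σ X) := by
  induction h with
  | nil => rfl
  | c _ hT _ _ ih => simp only [wrap, sub_pi, sub_ups_lift, ih, hT.closed.sub_closed]
  | d _ hZ _ ih => simp only [wrap, sub_pi, ih, hZ.ty.closed.sub_closed]

theorem DW.sub_mk_use {l : List (Stp S)} {s t : S} (h : DW L l s t) (σ : ℕ → Tm S)
    (X z Φ : Tm S) :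
    sub σ (MU l X z Φ).1 = (MU l (sub σ X) (sub σ z) (sub (ups σ) Φ)).1 ∧
      sub (ups σ) (MU l X z Φ).2 = (MU l (sub σ X) (sub σ z) (sub (ups σ) Φ)).2 := by
  induction h with
  | nil => exact ⟨rfl, rfl⟩
  | c _ hT he _ ih =>
    refine ⟨?_, ?_⟩
    · simp only [MU, sub_lam, sub_ups_lift, ih.1, hT.closed.sub_closed]
    · simp only [MU]
      rw [← ih.2, sub_sub, sub_sub]
      congr 1
      funext i
      cases i with
      | zero => simp [he.closed.sub_closed]
      | succ i => simp [sub_succ_eq_lift]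
  | d _ hZ hd ih =>
    refine ⟨?_, ?_⟩
    · simp only [MU, sub_lam, hd.sub_wrap, hZ.up_ty.bnd1.sub_inst1, ih.2]
    · simp only [MU, hZ.dn_ty.bnd1.sub_inst1, sub_app, sub_var, ups_zero, sub_ups_lift, ih.1]

theorem DW.sub_mk {l : List (Stp S)} {s t : S} (h : DW L l s t) (σ : ℕ → Tm S) (X z Φ : Tm S) :
    sub σ (MU l X z Φ).1 = (MU l (sub σ X) (sub σ z) (sub (ups σ) Φ)).1 :=
  (h.sub_mk_use σ X z Φ).1

theorem DW.sub_use {l : List (Stp S)} {s t : S} (h : DW L l s t) (σ : ℕ → Tm S) (X z Φ : Tm S) :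
    sub (ups σ) (MU l X z Φ).2 = (MU l (sub σ X) (sub σ z) (sub (ups σ) Φ)).2 :=
  (h.sub_mk_use σ X z Φ).2

theorem DW.mk_use_ty {l : List (Stp S)} {s t : S} (h : DW L l s t) {Γ : List (Tm S)}
    {X z Φ : Tm S} (hX : Ty P L.A Γ X (sort t)) :
    ((oddW l = false → Ty P L.A Γ z X) → (oddW l = true → Ty P L.A (X :: Γ) Φ (sort L.o)) →
      Ty P L.A Γ (MU l X z Φ).1 (wrap l X)) ∧
    ((oddW l = true → Ty P L.A Γ z X) → (oddW l = false → Ty P L.A (X :: Γ) Φ (sort L.o)) →
      Ty P L.A (wrap l X :: Γ) (MU l X z Φ).2 (sort L.o)) := by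
  induction h with
  | nil => exact ⟨fun hz _ => hz rfl, fun _ hΦ => hΦ rfl⟩
  | @c s1 s2 s3 t T e l hr hT he hd ih =>
    refine ⟨fun hz hΦ => ?_, fun hz hΦ => ?_⟩
    · exact .lam (hT.of_nil Γ) ((hd.wrap_ty hX).weak _) hr (((ih hX).1 hz hΦ).weak _)
    · have h1 := (ih hX).2 hz hΦ
      have h2 : Ty P L.A (wrap (.c T e :: l) X :: Γ) (app (var 0) e) (lift (wrap l X)) := by
        have h3 : Ty P L.A (wrap (.c T e :: l) X :: Γ) (var 0) (pi T (lift (lift (wrap l X)))) := by
          have := Ty.var (P := P) (C := L.A) (Lk.zero (wrap (.c T e :: l) X) Γ)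
          rwa [show wrap (.c T e :: l) X = pi T (lift (wrap l X)) from rfl, lift_pi,
            hT.closed.lift_closed, ren_lift] at this
        have := Ty.app h3 (he.of_nil _)
        rwa [inst_lift] at this
      exact h1.sub ((TSub.shift Γ _).cons (by rw [sub_succ_eq_lift]; exact h2))
  | @d s1 s2 s3 t Z up dn l hr hZ hd ih =>
    refine ⟨fun hz hΦ => ?_, fun hz hΦ => ?_⟩
    · have h1 := (ih hX).2 (fun e => hz (by simp [oddW, e])) (fun e => hΦ (by simp [oddW, e]))
      have h2 := hZ.up_ty.inst1 h1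
      rw [hZ.ty.closed.inst_closed] at h2
      exact .lam (hd.wrap_ty hX) (hZ.ty.of_nil _) hr h2
    · have h1 := (ih hX).1 (fun e => hz (by simp [oddW, e])) (fun e => hΦ (by simp [oddW, e]))
      have h3 : Ty P L.A (wrap (.d Z up dn :: l) X :: Γ) (var 0) (pi (lift (wrap l X)) Z) := by
        have := Ty.var (P := P) (C := L.A) (Lk.zero (wrap (.d Z up dn :: l) X) Γ)
        rwa [show wrap (.d Z up dn :: l) X = pi (wrap l X) Z from rfl, lift_pi,
          hZ.ty.closed.ren_closed] at this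
      have h4 := Ty.app h3 (h1.weak _)
      rw [hZ.ty.closed.inst_closed] at h4
      exact hZ.dn_ty.inst1 h4

theorem DW.mk_ty {l : List (Stp S)} {s t : S} (h : DW L l s t) {Γ : List (Tm S)} {X z Φ : Tm S}
    (hX : Ty P L.A Γ X (sort t)) (hz : oddW l = false → Ty P L.A Γ z X)
    (hΦ : oddW l = true → Ty P L.A (X :: Γ) Φ (sort L.o)) :
    Ty P L.A Γ (MU l X z Φ).1 (wrap l X) :=
  (h.mk_use_ty hX).1 hz hΦ

theorem DW.use_ty {l : List (Stp S)} {s t : S} (h : DW L l s t) {Γ : List (Tm S)} {X z Φ : Tm S}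
    (hX : Ty P L.A Γ X (sort t)) (hz : oddW l = true → Ty P L.A Γ z X)
    (hΦ : oddW l = false → Ty P L.A (X :: Γ) Φ (sort L.o)) :
    Ty P L.A (wrap l X :: Γ) (MU l X z Φ).2 (sort L.o) :=
  (h.mk_use_ty hX).2 hz hΦ

/-- Typing of the evaluation of a predicate at a point, both produced by a walk. -/
theorem DW.eval_ty {l : List (Stp S)} {s t : S} (h : DW L l s t) {X z Φ z' Φ' : Tm S}
    (hX : Ty P L.A [] X (sort t))
    (he : oddW l = false → Ty P L.A [] z X ∧ Ty P L.A [X] Φ' (sort L.o))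
    (ho : oddW l = true → Ty P L.A [] z' X ∧ Ty P L.A [X] Φ (sort L.o)) :
    Ty P L.A [] (inst (MU l X z Φ).1 (MU l X z' Φ').2) (sort L.o) :=
  (h.use_ty hX (fun e => (ho e).1) (fun e => (he e).2)).inst
    (h.mk_ty hX (fun e => (he e).1) (fun e => (ho e).2))

theorem DW.law {l : List (Stp S)} {s t : S} (h : DW L l s t) {X : Tm S}
    (hX : Ty P L.A [] X (sort t)) (z Φ z' Φ' : Tm S)
    (he : oddW l = false → Ty P L.A [] z X ∧ Ty P L.A [X] Φ' (sort L.o))
    (ho : oddW l = true → Ty P L.A [] z' X ∧ Ty P L.A [X] Φ (sort L.o)) :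
    Tr P L.A (inst (MU l X z Φ).1 (MU l X z' Φ').2) ↔
      Tr P L.A (if oddW l then inst z' Φ else inst z Φ') := by
  induction h generalizing z Φ z' Φ' with
  | nil => exact Iff.rfl
  | @c s1 s2 s3 t T e l hr hT hE hd ih =>
    have h0 := (DW.c hr hT hE hd).eval_ty hX he ho
    have h1 := hd.eval_ty hX he ho
    refine Iff.trans (tr_congr ?_ h0 h1) (ih hX z Φ z' Φ' he ho)
    have e1 : inst (MU (.c T e :: l) X z Φ).1 (MU (.c T e :: l) X z' Φ').2 =
        inst (app (lam T (lift (MU l X z Φ).1)) e) (MU l X z' Φ').2 := by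
      simp only [MU]
      unfold inst
      rw [sub_sub]
      congr 1
      funext i
      cases i with
      | zero => simp [hE.closed.sub_closed]
      | succ i => simp
    rw [e1]
    refine Conv.inst ?_ .rfl
    have := Conv.beta T (lift (MU l X z Φ).1) e
    rwa [inst_lift] at this
  | @d s1 s2 s3 t Z up dn l hr hZ hd ih =>
    have he' : oddW l = false → Ty P L.A [] z' X ∧ Ty P L.A [X] Φ (sort L.o) :=
      fun e => ho (by simp [oddW, e])
    have ho' : oddW l = true → Ty P L.A [] z X ∧ Ty P L.A [X] Φ' (sort L.o) :=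
      fun e => he (by simp [oddW, e])
    have h0 := (DW.d hr hZ hd).eval_ty hX he ho
    have h1 := hd.eval_ty hX he' ho'
    have h2 := hZ.up_ty.inst h1
    rw [hZ.ty.closed.inst_closed] at h2
    have h3 := hZ.dn_ty.inst h2
    have h4 := ih hX z' Φ' z Φ he' ho'
    have h5 : (if oddW (.d Z up dn :: l) then inst z' Φ else inst z Φ') =
        if oddW l then inst z Φ' else inst z' Φ := by
      cases hl : oddW l <;> simp [oddW, hl]
    rw [h5, ← h4, ← hZ.law _ h1]
    refine tr_congr ?_ h0 h3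
    have e1 : inst (MU (.d Z up dn :: l) X z Φ).1 (MU (.d Z up dn :: l) X z' Φ').2 =
        inst (app (lam (wrap l X) (inst (MU l X z Φ).2 up)) (MU l X z' Φ').1) dn := by
      simp only [MU]
      rw [hZ.dn_ty.bnd1.inst_inst1, inst_app, inst_var_zero, inst_lift]
    rw [e1]
    refine Conv.inst ?_ .rfl
    have := Conv.beta (wrap l X) (inst (MU l X z Φ).2 up) (MU l X z' Φ').1
    rwa [hZ.up_ty.bnd1.inst_inst1] at this

/-- Even walks: evaluating a predicate at an embedded point. -/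
theorem DW.law_even {l : List (Stp S)} {s t : S} (h : DW L l s t) (he : oddW l = false)
    {X z Φ z' Φ' : Tm S} (hX : Ty P L.A [] X (sort t)) (hz : Ty P L.A [] z X)
    (hΦ : Ty P L.A [X] Φ' (sort L.o)) :
    Tr P L.A (inst (MU l X z Φ).1 (MU l X z' Φ').2) ↔ Tr P L.A (inst z Φ') := by
  have := h.law hX z Φ z' Φ' (fun _ => ⟨hz, hΦ⟩) (fun e => by simp [he] at e)
  simpa [he] using this

/-- Odd walks: membership in a comprehension. -/
theorem DW.law_odd {l : List (Stp S)} {s t : S} (h : DW L l s t) (he : oddW l = true)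
    {X z Φ z' Φ' : Tm S} (hX : Ty P L.A [] X (sort t)) (hz : Ty P L.A [] z' X)
    (hΦ : Ty P L.A [X] Φ (sort L.o)) :
    Tr P L.A (inst (MU l X z Φ).1 (MU l X z' Φ').2) ↔ Tr P L.A (inst z' Φ) := by
  have := h.law hX z Φ z' Φ' (fun e => by simp [he] at e) (fun _ => ⟨hz, hΦ⟩)
  simpa [he] using this

end Crest.Agent.R298
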