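import Crest.Agent.R298.PxHenkin
import Crest.Agent.R298.PxWalk

/-! The internal classical logic of a component with an odd cycle and an inner rule. -/

set_option autoImplicit false

namespace Crest.Agent.R298

open Tm

universe u
variable {S : Type u} {P : Sys S}

/-- Inhabitation in a context. -/
def InhC (P : Sys S) (A : Set (Tm S)) (Γ : List (Tm S)) (X : Tm S) : Prop := ∃ m, Ty P A Γ m X

/-- The sort is the codomain of a rule whose other two sorts have rank `K`. -/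
def DCod (P : Sys S) (rk : S → ℕ) (K : ℕ) (t : S) : Prop :=
  ∃ s1 s3, P.rule s1 t s3 ∧ rk s1 = K ∧ rk s3 = K

theorem inR1 {s1 s2 s3 : S} (h : P.rule s1 s2 s3) : InR P s1 := ⟨_, _, _, h, .inl rfl⟩
theorem inR2 {s1 s2 s3 : S} (h : P.rule s1 s2 s3) : InR P s2 := ⟨_, _, _, h, .inr (.inl rfl)⟩

theorem InhC.const {A : Set (Tm S)} {Γ : List (Tm S)} {T Y : Tm S} {s1 s2 s3 : S}
    (hr : P.rule s1 s2 s3) (hT : Ty P A Γ T (sort s1)) (hY : Ty P A Γ Y (sort s2))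
    (h : InhC P A Γ Y) : InhC P A Γ (pi T (lift Y)) :=
  let ⟨m, hm⟩ := h; ⟨lam T (lift m), .lam hT (hY.weak T) hr (hm.weak T)⟩

theorem InhC.apply {A : Set (Tm S)} {Γ : List (Tm S)} {T Y : Tm S}
    (h : InhC P A Γ (pi T (lift Y))) (hT : InhC P A Γ T) : InhC P A Γ Y := by
  obtain ⟨m, hm⟩ := h
  obtain ⟨e, he⟩ := hT
  have := Ty.app hm he
  rw [inst_lift] at this
  exact ⟨_, this⟩

namespace Henkin

variable {b0 : S} (H : Henkin P b0) (hA : Atoms P)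
include hA

theorem bot_ty {s : S} (h : InR P s) (Γ : List (Tm S)) : Ty P H.A Γ (botT s) (sort s) :=
  .atom (H.bot_mem s (hA s h)) (hA s h)

theorem top_ty {s : S} (h : InR P s) (Γ : List (Tm S)) : Ty P H.A Γ (topT s) (sort s) :=
  .atom (H.top_mem s (hA s h)) (hA s h)

theorem e_ty {s : S} (h : InR P s) (Γ : List (Tm S)) : Ty P H.A Γ (eT s) (topT s) :=
  .cst (H.e_mem s (hA s h)) (H.top_ty hA h [])

theorem g_use {W : Tm S} {s1 s2 s3 : S} (hr : P.rule s1 s2 s3) (hW : IsW W)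
    (hT : Ty P H.A [] W (sort s1)) {Γ : List (Tm S)} (h : InhC P H.A Γ W) :
    InhC P H.A Γ (botT s2) := by
  have h1 : Ty P H.A [] (pi W (botT s2)) (sort s3) := .pi hT (H.bot_ty hA (inR2 hr) _) hr
  have h2 : Ty P H.A Γ (hypC (pi W (botT s2))) (pi W (botT s2)) :=
    .cst (H.g_mem W s2 s3 hW h1) h1
  obtain ⟨m, hm⟩ := h
  exact ⟨_, Ty.app h2 hm⟩

theorem coe_aux {rk : S → ℕ} {K : ℕ} {r1 t' r3 : S} (hr : P.rule r1 t' r3) {b : Bool} {s : S}
    (h : KW P rk K b s r3) : ∃ W, IsW W ∧ Ty P H.A [] W (sort s) ∧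
      ∀ Γ, InhC P H.A Γ (botT t') → InhC P H.A Γ W := by
  induction h with
  | nil =>
    exact ⟨pi (topT r1) (botT t'), .pi _ (.bot _),
      .pi (H.top_ty hA (inR1 hr) _) (H.bot_ty hA (inR2 hr) _) hr,
      fun Γ h => InhC.const hr (H.top_ty hA (inR1 hr) _) (H.bot_ty hA (inR2 hr) _) h⟩
  | @cod b s1 s2 s3 t hs _ _ _ ih =>
    obtain ⟨W, hW, hT, hI⟩ := ih hr
    refine ⟨pi (topT s1) W, .pi _ hW, .pi (H.top_ty hA (inR1 hs) _) (hT.of_nil _) hs,
      fun Γ h => ?_⟩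
    have := InhC.const hs (H.top_ty hA (inR1 hs) Γ) (hT.of_nil Γ) (hI Γ h)
    rwa [hT.closed.lift_closed] at this
  | @dom b s1 s2 s3 t hs _ _ _ ih =>
    obtain ⟨W, hW, hT, hI⟩ := ih hr
    exact ⟨pi (topT s1) (botT s2), .pi _ (.bot _),
      .pi (H.top_ty hA (inR1 hs) _) (H.bot_ty hA (inR2 hs) _) hs,
      fun Γ h => InhC.const hs (H.top_ty hA (inR1 hs) _) (H.bot_ty hA (inR2 hs) _)
        (H.g_use hA hs hW hT (hI Γ h))⟩

variable (R : Rank (DE P)) {K : ℕ} (h1 : ¬ Col P R.rk K)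
include h1

/-- All empty atoms of codomain sorts are equivalent. -/
theorem coerce {t t' : S} (ht : DCod P R.rk K t) (ht' : DCod P R.rk K t') {Γ : List (Tm S)}
    (h : InhC P H.A Γ (botT t')) : InhC P H.A Γ (botT t) := by
  obtain ⟨s1, s3, hs, k1, -⟩ := ht
  obtain ⟨r1, r3, hr, -, k3⟩ := ht'
  obtain ⟨W, hW, hT, hI⟩ := H.coe_aux hA hr (kw_of_not_col R h1 false k1 k3)
  exact H.g_use hA hs hW hT (hI Γ h)

variable (hb : DCod P R.rk K b0)
include hb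

theorem neg_law {s1 s2 s3 : S} (hs : P.rule s1 s2 s3) (k1 : R.rk s1 = K) (k3 : R.rk s3 = K)
    {Y : Tm S} (hY : Ty P H.A [] Y (sort s1)) :
    Tr P H.A (pi Y (botT s2)) ↔ ¬ Tr P H.A Y := by
  have hd : DCod P R.rk K s2 := ⟨s1, s3, hs, k1, k3⟩
  constructor
  · rintro ⟨m, hm⟩ ⟨n, hn⟩
    exact H.cons (H.coerce hA R h1 hb hd ⟨_, Ty.app hm hn⟩)
  · intro hn
    obtain ⟨m, hm⟩ := H.coerce hA R h1 hd hb ((H.dec Y s1 hY).resolve_left hn)
    exact ⟨lam Y m, .lam hY (H.bot_ty hA (inR2 hs) _) hs hm⟩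

/-- Walks give operators preserving or negating truth. -/
theorem oper {b : Bool} {s t : S} (h : KW P R.rk K b s t) :
    ∃ f, Ty P H.A [sort t] f (sort s) ∧ ∀ X, Ty P H.A [] X (sort t) →
      (Tr P H.A (inst X f) ↔ if b then ¬ Tr P H.A X else Tr P H.A X) := by
  induction h with
  | nil => exact ⟨var 0, .var (.zero _ _), fun X _ => Iff.rfl⟩
  | @cod b s1 s2 s3 t hs _ _ _ ih =>
    obtain ⟨f, hf, law⟩ := ih
    refine ⟨pi (topT s1) (lift f), .pi (H.top_ty hA (inR1 hs) _) (hf.weak _) hs,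
      fun X hX => ?_⟩
    rw [← law X hX, inst_pi, sub_ups_lift]
    exact ⟨fun h => InhC.apply h ⟨_, H.e_ty hA (inR1 hs) _⟩,
      fun h => InhC.const hs (H.top_ty hA (inR1 hs) _) (hf.inst hX) h⟩
  | @dom b s1 s2 s3 t hs k3 k1 _ ih =>
    obtain ⟨f, hf, law⟩ := ih
    refine ⟨pi f (botT s2), .pi hf (H.bot_ty hA (inR2 hs) _) hs, fun X hX => ?_⟩
    refine (H.neg_law hA R h1 hb hs k1 k3 (hf.inst hX)).trans ?_
    rw [law X hX]
    cases b <;> simp

theorem oper_even {s t : S} (hs : R.rk s = K) (ht : R.rk t = K) :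
    ∃ f, Ty P H.A [sort t] f (sort s) ∧ ∀ X, Ty P H.A [] X (sort t) →
      (Tr P H.A (inst X f) ↔ Tr P H.A X) :=
  H.oper hA R h1 hb (kw_of_not_col R h1 false hs ht)

theorem oper_odd {s t : S} (hs : R.rk s = K) (ht : R.rk t = K) :
    ∃ f, Ty P H.A [sort t] f (sort s) ∧ ∀ X, Ty P H.A [] X (sort t) →
      (Tr P H.A (inst X f) ↔ ¬ Tr P H.A X) :=
  H.oper hA R h1 hb (kw_of_not_col R h1 true hs ht)

/-- Double negation operators which admit proofs by contradiction in every context. -/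
theorem stable {o s : S} (ho : R.rk o = K) (hs : R.rk s = K) :
    ∃ f g s', Ty P H.A [sort o] f (sort s) ∧ Ty P H.A [sort o] g (sort s') ∧
      (∀ φ, Ty P H.A [] φ (sort o) → (Tr P H.A (inst φ g) ↔ ¬ Tr P H.A φ)) ∧
      (∀ φ, Ty P H.A [] φ (sort o) → (Tr P H.A (inst φ f) ↔ Tr P H.A φ)) ∧
      ∀ Γ φ, Ty P H.A Γ φ (sort o) → InhC P H.A (inst φ g :: Γ) (botT b0) →
        InhC P H.A Γ (inst φ f) := by
  obtain ⟨s1, s2, s3, hc, hr, k3, k1⟩ := (kw_of_not_col R h1 true hs hs).first_dom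
  obtain ⟨g, hg, lg⟩ := H.oper_odd hA R h1 hb k1 ho
  suffices ∃ f, Ty P H.A [sort o] f (sort s) ∧
      (∀ φ, Ty P H.A [] φ (sort o) → (Tr P H.A (inst φ f) ↔ Tr P H.A φ)) ∧
      ∀ Γ φ, Ty P H.A Γ φ (sort o) → InhC P H.A (inst φ g :: Γ) (botT b0) →
        InhC P H.A Γ (inst φ f) from
    let ⟨f, a, b, c⟩ := this; ⟨f, g, s1, a, hg, lg, b, c⟩
  clear hs
  induction hc with
  | @nil s3 =>
    refine ⟨pi g (botT s2), .pi hg (H.bot_ty hA (inR2 hr) _) hr, fun φ hφ => ?_,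
      fun Γ φ hφ h => ?_⟩
    · refine (H.neg_law hA R h1 hb hr k1 k3 (hg.inst hφ)).trans ?_
      rw [lg φ hφ, not_not]
    · obtain ⟨m, hm⟩ := H.coerce hA R h1 ⟨s1, s3, hr, k1, k3⟩ hb h
      exact ⟨lam (inst φ g) m, .lam (hg.inst1 hφ) (H.bot_ty hA (inR2 hr) _) hr hm⟩
  | @cod r1 r2 r3 t hs _ _ _ ih =>
    obtain ⟨f, hf, law, st⟩ := ih hr k3
    refine ⟨pi (topT r1) (lift f), .pi (H.top_ty hA (inR1 hs) _) (hf.weak _) hs,
      fun φ hφ => ?_, fun Γ φ hφ h => ?_⟩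
    · rw [← law φ hφ, inst_pi, sub_ups_lift]
      exact ⟨fun h => InhC.apply h ⟨_, H.e_ty hA (inR1 hs) _⟩,
        fun h => InhC.const hs (H.top_ty hA (inR1 hs) _) (hf.inst hφ) h⟩
    · rw [inst_pi, sub_ups_lift]
      exact InhC.const hs (H.top_ty hA (inR1 hs) _) (hf.inst1 hφ) (st Γ φ hφ h)

end Henkin

theorem exists_logic (hA : Atoms P) (hW : AllWN P) (R : Rank (DE P)) {K : ℕ}
    (h1 : ¬ Col P R.rk K) (h2 : ¬ NoTriple P R.rk K) : Nonempty (Logic P R.rk K) := by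
  obtain ⟨t1, t2, t3, hr, k3, k1, k2⟩ : ∃ t1 t2 t3, P.rule t1 t2 t3 ∧ R.rk t3 = K ∧
      R.rk t1 = K ∧ R.rk t2 = K := by
    by_contra hc
    exact h2 fun s1 s2 s3 hr a b c => hc ⟨s1, s2, s3, hr, a, b, c⟩
  obtain ⟨H⟩ := exists_henkin hW (hA t2 (inR2 hr))
  have hb : DCod P R.rk K t2 := ⟨t1, t3, hr, k1, k3⟩
  obtain ⟨E0, hE0, l0⟩ := H.oper_even hA R h1 hb k3 k2
  obtain ⟨E1, hE1, l1⟩ := H.oper_even hA R h1 hb k1 k3
  obtain ⟨f, g, s', hf, hg, lg, lf, st⟩ := H.stable hA R h1 hb k3 k2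
  have hbot := H.bot_ty hA (inR2 hr) []
  refine ⟨{ A := H.A, o := t3
            top_ty := fun s h => H.top_ty hA h []
            e_ty := fun s h => H.e_ty hA h []
            fls := inst (botT t2) E0
            fls_ty := hE0.inst hbot
            fls_law := fun h => H.cons ((l0 _ hbot).1 h)
            imp := pi (inst (var 1) E1) (lift (inst (var 0) f))
            imp_ty := ?_, imp_law := ?_, all := ?_
            into := fun k hk => H.oper_even hA R h1 hb hk k3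
            outof := fun k hk => H.oper_even hA R h1 hb k3 hk }⟩
  · exact .pi (hE1.inst1 (.var (.succ _ (.zero _ _))))
      ((hf.inst1 (.var (.zero _ _))).weak _) hr
  · intro φ ψ hφ hψ
    rw [sub_pi, sub_ups_lift, hE1.bnd1.sub_inst1, hf.bnd1.sub_inst1]
    simp only [sub_var, scons_succ, scons_zero]
    have a1 : Ty P H.A [] (inst φ E1) (sort t1) := hE1.inst hφ
    have a2 : Ty P H.A [] (inst ψ f) (sort t2) := hf.inst hψ
    constructor
    · intro h hp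
      exact (lf ψ hψ).1 (InhC.apply h ((l1 φ hφ).2 hp))
    · intro h
      by_cases hp : Tr P H.A φ
      · exact InhC.const hr a1 a2 ((lf ψ hψ).2 (h hp))
      · obtain ⟨m, hm⟩ := (H.dec _ _ a1).resolve_left fun h => hp ((l1 φ hφ).1 h)
        obtain ⟨n, hn⟩ := st [inst φ E1] ψ (hψ.of_nil _) ⟨_, hm.weak _⟩
        rw [a2.closed.lift_closed]
        exact ⟨lam (inst φ E1) n, .lam a1 (a2.of_nil _) hr hn⟩
  · rintro q ⟨q2, q3, hq, j2, j3⟩
    obtain ⟨f', g', s'', hf', hg', lg', lf', st'⟩ := H.stable hA R h1 hb k3 j2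
    obtain ⟨E, hE, lE⟩ := H.oper_even hA R h1 hb k3 j3
    refine ⟨f', E, q2, q3, hq, hf', hE, fun B φ hB hφ => ?_⟩
    have a1 : Ty P H.A [B] (inst φ f') (sort q2) := hf'.inst1 hφ
    rw [lE _ (.pi hB a1 hq)]
    constructor
    · rintro ⟨m, hm⟩ n hn
      have := Ty.app hm hn
      rw [hf'.bnd1.inst_inst1] at this
      exact (lf' _ (hφ.inst hn)).1 ⟨_, this⟩
    · intro h
      rcases H.wit B (inst φ g') q s'' hB (hg'.inst1 hφ) with ⟨n, m, hn, hm⟩ | hm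
      · rw [hg'.bnd1.inst_inst1] at hm
        exact absurd (h n hn) ((lg' _ (hφ.inst hn)).1 ⟨_, hm⟩)
      · obtain ⟨n, hn⟩ := st' [B] φ hφ hm
        exact ⟨lam B n, .lam hB a1 hq hn⟩

end Crest.Agent.R298
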