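import Crest.Agent.R298.PxWalk
import Crest.Agent.R298.PxHOL

/-! The term model of the abstract logic: kinds, membership, comprehension, retractions. -/

set_option autoImplicit false

namespace Crest.Agent.R298

open Tm

universe u
variable {S : Type u} {P : Sys S} {rk : S → ℕ} {K : ℕ} {L : Logic P rk K}

theorem sub_inst_one {f : Tm S} (h : Bnd 1 f) (σ : ℕ → Tm S) (a : Tm S) :
    sub σ (inst a f) = inst (sub σ a) f := by
  rw [sub_inst]; unfold inst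
  refine h.sub_congr fun i hi => ?_
  cases i with
  | zero => rfl
  | succ i => omega

theorem sub_two {f : Tm S} (h : Bnd 2 f) (σ : ℕ → Tm S) (a b : Tm S) :
    sub σ (sub (scons a (scons b var)) f) = sub (scons (sub σ a) (scons (sub σ b) var)) f := by
  rw [sub_sub]
  refine h.sub_congr fun i hi => ?_
  rcases i with _ | _ | i
  · rfl
  · rfl
  · omega

theorem Ty.inst_one {C : Set (Tm S)} {Γ : List (Tm S)} {B f T a : Tm S} (h : Ty P C [B] f T)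
    (ha : Ty P C Γ a B) : Ty P C Γ (Tm.inst a f) (Tm.inst a T) := by
  refine h.sub (σ := scons a Tm.var) ?_
  intro i A hl
  cases hl with
  | zero => simpa using ha
  | succ _ hl => cases hl

theorem Ty.sub_two {C : Set (Tm S)} {Γ : List (Tm S)} {s t : S} {f a b : Tm S}
    (h : Ty P C [sort s, sort s] f (sort t)) (ha : Ty P C Γ a (sort s))
    (hb : Ty P C Γ b (sort s)) : Ty P C Γ (Tm.sub (scons a (scons b Tm.var)) f) (sort t) := by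
  refine h.sub (σ := scons a (scons b Tm.var)) ?_
  intro i A hl
  cases hl with
  | zero => simpa using ha
  | succ _ hl =>
    cases hl with
    | zero => simpa using hb
    | succ _ hl => cases hl

/-- Data of a quantifier over a kind. -/
structure QData (S : Type u) : Type u where
  q : S
  k2 : S
  k3 : S
  l : List (Stp S)
  f : Tm S
  E : Tm S

structure QOK (L : Logic P rk K) (s : S) (D : QData S) : Prop where
  dw : DW L D.l D.q s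
  even : oddW D.l = false
  rule : P.rule D.q D.k2 D.k3
  f_ty : Ty P L.A [sort L.o] D.f (sort D.k2)
  E_ty : Ty P L.A [sort D.k3] D.E (sort L.o)
  law : ∀ B φ, Ty P L.A [] B (sort D.q) → Ty P L.A [B] φ (sort L.o) →
    (Tr P L.A (inst (pi B (inst φ D.f)) D.E) ↔ ∀ n, Ty P L.A [] n B → Tr P L.A (inst n φ))

theorem exists_qok {s : S} (h : ∃ q l, QS P rk K q ∧ DW L l q s ∧ oddW l = false) :
    ∃ D, QOK L s D := by
  obtain ⟨q, l, hq, hl, he⟩ := h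
  obtain ⟨f, E, k2, k3, r, hf, hE, law⟩ := L.all q hq
  exact ⟨⟨q, k2, k3, l, f, E⟩, hl, he, r, hf, hE, law⟩

/-- Embedding of a point along an even walk. -/
def eta (L : Logic P rk K) (l : List (Stp S)) (T z : Tm S) : Tm S := (MU l T z (sort L.o)).1
/-- Evaluation of a predicate along an even walk. -/
def ev (L : Logic P rk K) (l : List (Stp S)) (T Φ : Tm S) : Tm S := (MU l T (sort L.o) Φ).2

theorem DW.sub_eta {l : List (Stp S)} {s t : S} (h : DW L l s t) (σ : ℕ → Tm S) (T z : Tm S) :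
    sub σ (eta L l T z) = eta L l (sub σ T) (sub σ z) := h.sub_mk σ _ _ _

theorem DW.sub_ev {l : List (Stp S)} {s t : S} (h : DW L l s t) (σ : ℕ → Tm S) (T Φ : Tm S) :
    sub (ups σ) (ev L l T Φ) = ev L l (sub σ T) (sub (ups σ) Φ) := h.sub_use σ _ _ _

theorem DW.eta_ty {l : List (Stp S)} {s t : S} (h : DW L l s t) (he : oddW l = false)
    {Γ : List (Tm S)} {T z : Tm S} (hT : Ty P L.A Γ T (sort t)) (hz : Ty P L.A Γ z T) :
    Ty P L.A Γ (eta L l T z) (wrap l T) :=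
  h.mk_ty hT (fun _ => hz) (fun h' => by simp [he] at h')

theorem DW.ev_ty {l : List (Stp S)} {s t : S} (h : DW L l s t) (he : oddW l = false)
    {Γ : List (Tm S)} {T Φ : Tm S} (hT : Ty P L.A Γ T (sort t))
    (hΦ : Ty P L.A (T :: Γ) Φ (sort L.o)) : Ty P L.A (wrap l T :: Γ) (ev L l T Φ) (sort L.o) :=
  h.use_ty hT (fun h' => by simp [he] at h') (fun _ => hΦ)

theorem DW.ev_eta {l : List (Stp S)} {s t : S} (h : DW L l s t) (he : oddW l = false)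
    {T z Φ : Tm S} (hT : Ty P L.A [] T (sort t)) (hz : Ty P L.A [] z T)
    (hΦ : Ty P L.A [T] Φ (sort L.o)) :
    Tr P L.A (inst (eta L l T z) (ev L l T Φ)) ↔ Tr P L.A (inst z Φ) :=
  h.law_even he hT hz hΦ

namespace Shape

variable (Z : Shape L)

/-- The tower of power kinds over the kind named by `X`. -/
def Lv (X : Tm S) : ℕ → Tm S
  | 0 => wrap Z.ρ (inst X Z.dnX)
  | n + 1 => wrap (Z.ω n) (Lv X n)

theorem sub_Lv (σ : ℕ → Tm S) (X : Tm S) {n : ℕ} (hn : n ≤ 6) :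
    sub σ (Z.Lv X n) = Z.Lv (sub σ X) n := by
  induction n with
  | zero => simp only [Lv]; rw [Z.ρ_dw.sub_wrap, sub_inst_one Z.dn_ty.bnd]
  | succ n ih => simp only [Lv]; rw [(Z.ω_dw n (by omega)).sub_wrap, ih (by omega)]

theorem lift_eq_sub (M : Tm S) : lift M = sub (fun i => var (i + 1)) M := ren_eq_sub _ _

theorem lift_Lv (X : Tm S) {n : ℕ} (hn : n ≤ 6) : lift (Z.Lv X n) = Z.Lv (lift X) n := by
  rw [lift_eq_sub, Z.sub_Lv _ _ hn, ← lift_eq_sub]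

theorem Lv_ty {Γ : List (Tm S)} {X : Tm S} (hX : Ty P L.A Γ X Z.Ax) {n : ℕ} (hn : n ≤ 6) :
    Ty P L.A Γ (Z.Lv X n) (sort (Z.a n)) := by
  induction n with
  | zero => exact Z.ρ_dw.wrap_ty (Z.dn_ty.inst_one hX)
  | succ n ih => exact (Z.ω_dw n (by omega)).wrap_ty (ih (by omega))

theorem lift_Ax : lift Z.Ax = Z.Ax := Z.Ax_ty.closed.lift_closed

theorem weak_X {Γ : List (Tm S)} {X : Tm S} (hX : Ty P L.A Γ X Z.Ax) (B : Tm S) :
    Ty P L.A (B :: Γ) (lift X) Z.Ax := by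
  have := hX.weak B
  rwa [Z.lift_Ax] at this

theorem var_X (Γ : List (Tm S)) : Ty P L.A (Z.Ax :: Γ) (var 0) Z.Ax := by
  have : Ty P L.A (Z.Ax :: Γ) (var 0) (lift Z.Ax) := .var (.zero _ _)
  rwa [Z.lift_Ax] at this

/-- The impredicative type of generic properties. -/
def VV : Tm S := pi Z.Ax (Z.Lv (var 0) 6)

theorem VV_ty : Ty P L.A [] Z.VV (sort Z.x3) :=
  .pi Z.Ax_ty (Z.Lv_ty (Z.var_X []) le_rfl) Z.rule

theorem sub_VV (σ : ℕ → Tm S) : sub σ Z.VV = Z.VV := Z.VV_ty.closed.sub_closed σ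

theorem lift_VV : lift Z.VV = Z.VV := Z.VV_ty.closed.lift_closed

/-- The name of the kind built from `VV`. -/
def X0 : Tm S := inst (wrap Z.α Z.VV) Z.upX

theorem X0_ty : Ty P L.A [] Z.X0 Z.Ax := by
  have := Z.up_ty.inst_one (Z.α_dw.wrap_ty Z.VV_ty)
  rwa [Z.Ax_ty.closed.inst_closed] at this

theorem X0_ty' (Γ : List (Tm S)) : Ty P L.A Γ Z.X0 Z.Ax := Z.X0_ty.of_nil Γ

theorem sub_X0 (σ : ℕ → Tm S) : sub σ Z.X0 = Z.X0 := Z.X0_ty.closed.sub_closed σ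

theorem lift_X0 : lift Z.X0 = Z.X0 := Z.X0_ty.closed.lift_closed

theorem lift_Lv0 {n : ℕ} (hn : n ≤ 6) : lift (Z.Lv Z.X0 n) = Z.Lv Z.X0 n := by
  rw [Z.lift_Lv _ hn, Z.lift_X0]

theorem conv_Lv0 : Conv (wrap (Z.ρ ++ Z.α) Z.VV) (Z.Lv Z.X0 0) := by
  rw [wrap_append]
  exact wrap_conv _ (Z.dn_up _).symm

theorem ζ_dw : DW L (Z.ρ ++ Z.α) (Z.a 0) Z.x3 := Z.ρ_dw.append Z.α_dw

/-- Membership as a predicate of the set. -/
def atU (X : Tm S) (n : ℕ) (y : Tm S) : Tm S := (MU (Z.ω n) (Z.Lv X n) y (sort L.o)).2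
/-- Membership. -/
def mem (X : Tm S) (n : ℕ) (y c : Tm S) : Tm S := inst c (Z.atU X n y)
/-- Comprehension. -/
def cmp (X : Tm S) (n : ℕ) (Θ : Tm S) : Tm S := (MU (Z.ω n) (Z.Lv X n) (sort L.o) Θ).1

theorem sub_atU (σ : ℕ → Tm S) (X : Tm S) {n : ℕ} (hn : n < 6) (y : Tm S) :
    sub (ups σ) (Z.atU X n y) = Z.atU (sub σ X) n (sub σ y) := by
  unfold atU
  rw [(Z.ω_dw n hn).sub_use, Z.sub_Lv _ _ hn.le]; rfl

theorem sub_mem (σ : ℕ → Tm S) (X : Tm S) {n : ℕ} (hn : n < 6) (y c : Tm S) :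
    sub σ (Z.mem X n y c) = Z.mem (sub σ X) n (sub σ y) (sub σ c) := by
  unfold mem
  rw [sub_inst', Z.sub_atU _ _ hn]

theorem sub_cmp (σ : ℕ → Tm S) (X : Tm S) {n : ℕ} (hn : n < 6) (Θ : Tm S) :
    sub σ (Z.cmp X n Θ) = Z.cmp (sub σ X) n (sub (ups σ) Θ) := by
  unfold cmp
  rw [(Z.ω_dw n hn).sub_mk, Z.sub_Lv _ _ hn.le]; rfl

theorem atU_ty {Γ : List (Tm S)} {X y : Tm S} (hX : Ty P L.A Γ X Z.Ax) {n : ℕ} (hn : n < 6)
    (hy : Ty P L.A Γ y (Z.Lv X n)) :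
    Ty P L.A (Z.Lv X (n + 1) :: Γ) (Z.atU X n y) (sort L.o) :=
  (Z.ω_dw n hn).use_ty (Z.Lv_ty hX hn.le) (fun _ => hy)
    (fun h => by simp [Z.ω_odd n hn] at h)

theorem mem_ty {Γ : List (Tm S)} {X y c : Tm S} (hX : Ty P L.A Γ X Z.Ax) {n : ℕ} (hn : n < 6)
    (hy : Ty P L.A Γ y (Z.Lv X n)) (hc : Ty P L.A Γ c (Z.Lv X (n + 1))) :
    Ty P L.A Γ (Z.mem X n y c) (sort L.o) :=
  (Z.atU_ty hX hn hy).inst hc

theorem cmp_ty {Γ : List (Tm S)} {X Θ : Tm S} (hX : Ty P L.A Γ X Z.Ax) {n : ℕ} (hn : n < 6)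
    (hΘ : Ty P L.A (Z.Lv X n :: Γ) Θ (sort L.o)) :
    Ty P L.A Γ (Z.cmp X n Θ) (Z.Lv X (n + 1)) :=
  (Z.ω_dw n hn).mk_ty (Z.Lv_ty hX hn.le) (fun h => by simp [Z.ω_odd n hn] at h) (fun _ => hΘ)

theorem mem_cmp {X y Θ : Tm S} (hX : Ty P L.A [] X Z.Ax) {n : ℕ} (hn : n < 6)
    (hy : Ty P L.A [] y (Z.Lv X n)) (hΘ : Ty P L.A [Z.Lv X n] Θ (sort L.o)) :
    Tr P L.A (Z.mem X n y (Z.cmp X n Θ)) ↔ Tr P L.A (inst y Θ) :=
  (Z.ω_dw n hn).law_odd (Z.ω_odd n hn) (Z.Lv_ty hX hn.le) hy hΘ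

theorem mem_congr {X y c c' : Tm S} (hX : Ty P L.A [] X Z.Ax) {n : ℕ} (hn : n < 6)
    (hy : Ty P L.A [] y (Z.Lv X n)) (hc : Ty P L.A [] c (Z.Lv X (n + 1)))
    (hc' : Ty P L.A [] c' (Z.Lv X (n + 1))) (e : Conv c c') :
    Tr P L.A (Z.mem X n y c) ↔ Tr P L.A (Z.mem X n y c') :=
  tr_congr (Conv.inst e .rfl) (Z.mem_ty hX hn hy hc) (Z.mem_ty hX hn hy hc')

theorem app_V_ty {Γ : List (Tm S)} {X v : Tm S} (hX : Ty P L.A Γ X Z.Ax)
    (hv : Ty P L.A Γ v Z.VV) : Ty P L.A Γ (app v X) (Z.Lv X 6) := by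
  have := Ty.app hv hX
  unfold inst at this
  rwa [Z.sub_Lv _ _ le_rfl] at this

/-! ### Sorts, kinds and quantifiers of tags -/

def st : Tag → S
  | .lv n => Z.a (n + 1)
  | .v => Z.x3
  | .w0 => Z.a 1

def Kd (X : Tm S) : Tag → Tm S
  | .lv n => Z.Lv X (n + 1)
  | .v => Z.VV
  | .w0 => Z.Lv Z.X0 1

noncomputable def Q (t : Tag) : QData S :=
  @Classical.epsilon _ ⟨⟨Z.u, Z.u, Z.u, [], var 0, var 0⟩⟩ fun D => QOK L (Z.st t) D

theorem Q_ok {t : Tag} (ht : t.ok = true) : QOK L (Z.st t) (Z.Q t) := by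
  refine Classical.epsilon_spec (p := fun D => QOK L (Z.st t) D) (exists_qok ?_)
  cases t with
  | lv n => exact Z.γ n (by simp [Tag.ok] at ht; omega)
  | v => exact Z.γV
  | w0 => exact Z.γ 0 (by omega)

theorem sub_Kd (σ : ℕ → Tm S) (X : Tm S) {t : Tag} (ht : t.ok = true) :
    sub σ (Z.Kd X t) = Z.Kd (sub σ X) t := by
  cases t with
  | lv n => exact Z.sub_Lv _ _ (by simp [Tag.ok] at ht; omega)
  | v => exact Z.sub_VV σ
  | w0 => simp only [Kd]; rw [Z.sub_Lv _ _ (by omega), Z.sub_X0]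

theorem lift_Kd (X : Tm S) {t : Tag} (ht : t.ok = true) :
    lift (Z.Kd X t) = Z.Kd (lift X) t := by
  rw [lift_eq_sub, Z.sub_Kd _ _ ht, ← lift_eq_sub]

theorem Kd_ty {Γ : List (Tm S)} {X : Tm S} (hX : Ty P L.A Γ X Z.Ax) {t : Tag}
    (ht : t.ok = true) : Ty P L.A Γ (Z.Kd X t) (sort (Z.st t)) := by
  cases t with
  | lv n => exact Z.Lv_ty hX (by simp [Tag.ok] at ht; omega)
  | v => exact Z.VV_ty.of_nil Γ
  | w0 => exact Z.Lv_ty (Z.X0_ty' Γ) (by omega)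

/-- The actual domain of quantification. -/
noncomputable def Qd (X : Tm S) (t : Tag) : Tm S := wrap (Z.Q t).l (Z.Kd X t)

theorem sub_Qd (σ : ℕ → Tm S) (X : Tm S) {t : Tag} (ht : t.ok = true) :
    sub σ (Z.Qd X t) = Z.Qd (sub σ X) t := by
  unfold Qd
  rw [(Z.Q_ok ht).dw.sub_wrap, Z.sub_Kd _ _ ht]

theorem lift_Qd (X : Tm S) {t : Tag} (ht : t.ok = true) :
    lift (Z.Qd X t) = Z.Qd (lift X) t := by
  rw [lift_eq_sub, Z.sub_Qd _ _ ht, ← lift_eq_sub]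

theorem Qd_ty {Γ : List (Tm S)} {X : Tm S} (hX : Ty P L.A Γ X Z.Ax) {t : Tag}
    (ht : t.ok = true) : Ty P L.A Γ (Z.Qd X t) (sort (Z.Q t).q) :=
  (Z.Q_ok ht).dw.wrap_ty (Z.Kd_ty hX ht)

/-! ### Retractions -/

noncomputable def retL (X : Tm S) (n : ℕ) (F : Tm S) : Tm S :=
  Z.cmp X n (inst (lift F)
    (ev L (Z.Q (.lv n)).l (Z.Lv (lift X) (n + 1)) (Z.atU (lift X) n (var 0))))

noncomputable def retV (F : Tm S) : Tm S :=
  lam Z.Ax (Z.cmp (var 0) 5 (inst (lift (lift F))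
    (ev L (Z.Q .v).l Z.VV (Z.mem (var 2) 5 (var 1) (app (var 0) (var 2))))))

noncomputable def ret (X : Tm S) : Tag → Tm S → Tm S
  | .lv n, F => Z.retL X n F
  | .v, F => Z.retV F
  | .w0, F => Z.retL Z.X0 0 F

theorem ok_lv {n : ℕ} (hn : n < 5) : (Tag.lv n).ok = true := by simp [Tag.ok]; omega

theorem sub_retL (σ : ℕ → Tm S) (X : Tm S) {n : ℕ} (hn : n < 5) (F : Tm S) :
    sub σ (Z.retL X n F) = Z.retL (sub σ X) n (sub σ F) := by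
  unfold retL
  rw [Z.sub_cmp _ _ (by omega), sub_inst', (Z.Q_ok (ok_lv hn)).dw.sub_ev,
    Z.sub_Lv _ _ (by omega), Z.sub_atU _ _ (by omega)]
  simp

theorem sub_retV (σ : ℕ → Tm S) (F : Tm S) : sub σ (Z.retV F) = Z.retV (sub σ F) := by
  unfold retV
  rw [sub_lam, Z.Ax_ty.closed.sub_closed, Z.sub_cmp _ _ (by omega), sub_inst',
    (Z.Q_ok (t := .v) rfl).dw.sub_ev, Z.sub_VV, Z.sub_mem _ _ (by omega)]
  simp

theorem sub_ret (σ : ℕ → Tm S) (X : Tm S) {t : Tag} (ht : t.ok = true) (F : Tm S) :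
    sub σ (Z.ret X t F) = Z.ret (sub σ X) t (sub σ F) := by
  cases t with
  | lv n => exact Z.sub_retL _ _ (by simp [Tag.ok] at ht; omega) _
  | v => exact Z.sub_retV _ _
  | w0 => simp only [ret]; rw [Z.sub_retL _ _ (by omega), Z.sub_X0]

theorem retL_body_ty {Γ : List (Tm S)} {X F : Tm S} (hX : Ty P L.A Γ X Z.Ax) {n : ℕ}
    (hn : n < 5) (hF : Ty P L.A Γ F (Z.Qd X (.lv n))) :
    Ty P L.A (Z.Lv X n :: Γ) (inst (lift F)
      (ev L (Z.Q (.lv n)).l (Z.Lv (lift X) (n + 1)) (Z.atU (lift X) n (var 0)))) (sort L.o) := by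
  have hq := Z.Q_ok (ok_lv hn)
  have hX' := Z.weak_X hX (Z.Lv X n)
  have h0 : Ty P L.A (Z.Lv X n :: Γ) (var 0) (Z.Lv (lift X) n) := by
    rw [← Z.lift_Lv _ (by omega)]; exact .var (.zero _ _)
  have h1 := hq.dw.ev_ty hq.even (Z.Lv_ty hX' (n := n + 1) (by omega))
    (Z.atU_ty hX' (by omega) h0)
  have h2 := hF.weak (Z.Lv X n)
  rw [Z.lift_Qd _ (ok_lv hn)] at h2
  exact h1.inst h2

theorem retL_ty {Γ : List (Tm S)} {X F : Tm S} (hX : Ty P L.A Γ X Z.Ax) {n : ℕ} (hn : n < 5)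
    (hF : Ty P L.A Γ F (Z.Qd X (.lv n))) : Ty P L.A Γ (Z.retL X n F) (Z.Lv X (n + 1)) :=
  Z.cmp_ty hX (by omega) (Z.retL_body_ty hX hn hF)

theorem lam_V_ty {Γ : List (Tm S)} {M : Tm S}
    (h : Ty P L.A (Z.Ax :: Γ) M (Z.Lv (var 0) 6)) : Ty P L.A Γ (lam Z.Ax M) Z.VV :=
  .lam (Z.Ax_ty.of_nil Γ) (Z.Lv_ty (Z.var_X Γ) le_rfl) Z.rule h

theorem retV_body_ty {Γ : List (Tm S)} {F : Tm S} (hF : Ty P L.A Γ F (wrap (Z.Q .v).l Z.VV)) :
    Ty P L.A (Z.Lv (var 0) 5 :: Z.Ax :: Γ) (inst (lift (lift F))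
      (ev L (Z.Q .v).l Z.VV (Z.mem (var 2) 5 (var 1) (app (var 0) (var 2))))) (sort L.o) := by
  have hq := Z.Q_ok (t := .v) rfl
  have hX : Ty P L.A (Z.VV :: Z.Lv (var 0) 5 :: Z.Ax :: Γ) (var 2) Z.Ax :=
    Z.weak_X (Z.weak_X (Z.var_X Γ) _) _
  have hs : Ty P L.A (Z.VV :: Z.Lv (var 0) 5 :: Z.Ax :: Γ) (var 1) (Z.Lv (var 2) 5) := by
    have : Ty P L.A (Z.VV :: Z.Lv (var 0) 5 :: Z.Ax :: Γ) (var 1)
        (lift (lift (Z.Lv (var 0) 5))) := .var (.succ _ (.zero _ _))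
    rwa [Z.lift_Lv _ (by omega), Z.lift_Lv _ (by omega)] at this
  have hv : Ty P L.A (Z.VV :: Z.Lv (var 0) 5 :: Z.Ax :: Γ) (var 0) Z.VV := by
    have : Ty P L.A (Z.VV :: Z.Lv (var 0) 5 :: Z.Ax :: Γ) (var 0) (lift Z.VV) :=
      .var (.zero _ _)
    rwa [Z.lift_VV] at this
  have h1 := hq.dw.ev_ty hq.even (Z.VV_ty.of_nil _)
    (Z.mem_ty hX (by omega) hs (Z.app_V_ty hX hv))
  have hc : lift (wrap (Z.Q .v).l Z.VV) = wrap (Z.Q .v).l Z.VV :=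
    (hq.dw.wrap_ty Z.VV_ty).closed.lift_closed
  have h2 := (hF.weak Z.Ax).weak (Z.Lv (var 0) 5)
  rw [hc, hc] at h2
  exact h1.inst h2

theorem retV_ty {Γ : List (Tm S)} {F : Tm S} (hF : Ty P L.A Γ F (wrap (Z.Q .v).l Z.VV)) :
    Ty P L.A Γ (Z.retV F) Z.VV :=
  Z.lam_V_ty (Z.cmp_ty (Z.var_X Γ) (by omega) (Z.retV_body_ty hF))

theorem ret_ty {Γ : List (Tm S)} {X F : Tm S} (hX : Ty P L.A Γ X Z.Ax) {t : Tag}
    (ht : t.ok = true) (hF : Ty P L.A Γ F (Z.Qd X t)) : Ty P L.A Γ (Z.ret X t F) (Z.Kd X t) := by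
  cases t with
  | lv n => exact Z.retL_ty hX (by simp [Tag.ok] at ht; omega) hF
  | v => exact Z.retV_ty hF
  | w0 => exact Z.retL_ty (Z.X0_ty' Γ) (by omega) hF

/-- Comprehension inside the range of the retraction. -/
theorem good_cmp {n : ℕ} (hn : n < 5) {Θ : Tm S}
    (hΘ : Ty P L.A [Z.Lv Z.X0 n] Θ (sort L.o)) :
    ∃ F, Ty P L.A [] F (Z.Qd Z.X0 (.lv n)) ∧ ∀ y, Ty P L.A [] y (Z.Lv Z.X0 n) →
      (Tr P L.A (Z.mem Z.X0 n y (Z.retL Z.X0 n F)) ↔ Tr P L.A (inst y Θ)) := by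
  have hq := Z.Q_ok (ok_lv hn)
  have hc := Z.cmp_ty Z.X0_ty (by omega) hΘ
  have hT := Z.Lv_ty Z.X0_ty (n := n + 1) (by omega)
  have hF := hq.dw.eta_ty hq.even hT hc
  refine ⟨_, hF, fun y hy => ?_⟩
  unfold retL
  rw [Z.mem_cmp Z.X0_ty (by omega) hy (Z.retL_body_ty Z.X0_ty hn hF),
    ← Z.mem_cmp Z.X0_ty (by omega) hy hΘ]
  have e : inst y (inst (lift (eta L (Z.Q (.lv n)).l (Z.Lv Z.X0 (n + 1)) (Z.cmp Z.X0 n Θ)))
      (ev L (Z.Q (.lv n)).l (Z.Lv (lift Z.X0) (n + 1)) (Z.atU (lift Z.X0) n (var 0)))) =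
      inst (eta L (Z.Q (.lv n)).l (Z.Lv Z.X0 (n + 1)) (Z.cmp Z.X0 n Θ))
        (ev L (Z.Q (.lv n)).l (Z.Lv Z.X0 (n + 1)) (Z.atU Z.X0 n y)) := by
    change sub (scons y var) _ = _
    rw [sub_inst', hq.dw.sub_ev, Z.sub_Lv _ _ (by omega), Z.sub_atU _ _ (by omega)]
    simp
  rw [e]
  exact hq.dw.ev_eta hq.even hT hc (Z.atU_ty Z.X0_ty (by omega) hy)

/-- Application of an abstraction over kinds of a comprehension. -/
theorem mem_app_lam {s Θ : Tm S} (hs : Ty P L.A [] s (Z.Lv Z.X0 5))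
    (hΘ : Ty P L.A [Z.Lv (var 0) 5, Z.Ax] Θ (sort L.o)) :
    Tr P L.A (Z.mem Z.X0 5 s (app (lam Z.Ax (Z.cmp (var 0) 5 Θ)) Z.X0)) ↔
      Tr P L.A (sub (scons s (scons Z.X0 var)) Θ) := by
  have h1 := Z.cmp_ty (Z.var_X []) (by omega) hΘ
  have hΘ' : Ty P L.A [Z.Lv Z.X0 5] (sub (ups (scons Z.X0 var)) Θ) (sort L.o) := by
    have := hΘ.sub (((TSub.id []).cons (σ := var) (by simpa using Z.X0_ty)).up _)
    rwa [Z.sub_Lv _ _ (by omega)] at this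
  have e : Conv (app (lam Z.Ax (Z.cmp (var 0) 5 Θ)) Z.X0)
      (Z.cmp Z.X0 5 (sub (ups (scons Z.X0 var)) Θ)) := by
    refine (Conv.beta _ _ _).trans (Conv.of_eq ?_)
    unfold inst
    rw [Z.sub_cmp _ _ (by omega)]; rfl
  rw [Z.mem_congr Z.X0_ty (by omega) hs (Z.app_V_ty Z.X0_ty (Z.lam_V_ty h1))
    (Z.cmp_ty Z.X0_ty (by omega) hΘ') e, Z.mem_cmp Z.X0_ty (by omega) hs hΘ', inst_sub_ups]

/-- Generic comprehension inside the range of the retraction. -/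
theorem good_cmpV {Θ : Tm S} (hΘ : Ty P L.A [Z.Lv (var 0) 5, Z.Ax] Θ (sort L.o)) :
    ∃ F, Ty P L.A [] F (Z.Qd Z.X0 .v) ∧ ∀ s, Ty P L.A [] s (Z.Lv Z.X0 5) →
      (Tr P L.A (Z.mem Z.X0 5 s (app (Z.retV F) Z.X0)) ↔
        Tr P L.A (sub (scons s (scons Z.X0 var)) Θ)) := by
  have hq := Z.Q_ok (t := .v) rfl
  have hv := Z.lam_V_ty (Z.cmp_ty (Z.var_X []) (by omega) hΘ)
  have hF := hq.dw.eta_ty hq.even Z.VV_ty hv
  refine ⟨_, hF, fun s hs => ?_⟩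
  unfold retV
  rw [Z.mem_app_lam hs (Z.retV_body_ty hF), ← Z.mem_app_lam hs hΘ]
  have e : sub (scons s (scons Z.X0 var)) (inst (lift (lift
      (eta L (Z.Q .v).l Z.VV (lam Z.Ax (Z.cmp (var 0) 5 Θ)))))
      (ev L (Z.Q .v).l Z.VV (Z.mem (var 2) 5 (var 1) (app (var 0) (var 2))))) =
      inst (eta L (Z.Q .v).l Z.VV (lam Z.Ax (Z.cmp (var 0) 5 Θ)))
        (ev L (Z.Q .v).l Z.VV (Z.mem Z.X0 5 (lift s) (app (var 0) Z.X0))) := by
    rw [sub_inst', hq.dw.sub_ev, Z.sub_VV, Z.sub_mem _ _ (by omega)]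
    simp [Z.lift_X0]
  rw [e]
  have hv0 : Ty P L.A [Z.VV] (var 0) Z.VV := by
    have : Ty P L.A [Z.VV] (var 0) (lift Z.VV) := .var (.zero _ _)
    rwa [Z.lift_VV] at this
  have hs' := hs.weak Z.VV
  rw [Z.lift_Lv0 (by omega)] at hs'
  rw [hq.dw.ev_eta hq.even Z.VV_ty hv
    (Z.mem_ty (Z.X0_ty' _) (by omega) hs' (Z.app_V_ty (Z.X0_ty' _) hv0))]
  unfold inst
  rw [Z.sub_mem _ _ (by omega)]
  simp [Z.sub_X0]

end Shape

end Crest.Agent.R298
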