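import Crest.Agent.R298.Syntax

/-! Beta reduction with erasure of memory, confluence, normal forms. -/

set_option autoImplicit false

namespace Crest.Agent.R298

open Tm

universe u
variable {S : Type u}

/-- One step: beta, erasure of a stored term, or a step in a subterm (never inside a constant). -/
inductive Step : Tm S → Tm S → Prop
  | beta (A M N : Tm S) : Step (app (lam A M) N) (inst N M)
  | eps (M Q : Tm S) : Step (mem M Q) M
  | appL {M M' : Tm S} (N : Tm S) : Step M M' → Step (app M N) (app M' N)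
  | appR (M : Tm S) {N N' : Tm S} : Step N N' → Step (app M N) (app M N')
  | lamL {A A' : Tm S} (M : Tm S) : Step A A' → Step (lam A M) (lam A' M)
  | lamR (A : Tm S) {M M' : Tm S} : Step M M' → Step (lam A M) (lam A M')
  | piL {A A' : Tm S} (M : Tm S) : Step A A' → Step (pi A M) (pi A' M)
  | piR (A : Tm S) {M M' : Tm S} : Step M M' → Step (pi A M) (pi A M')
  | memL {M M' : Tm S} (Q : Tm S) : Step M M' → Step (mem M Q) (mem M' Q)
  | memR (M : Tm S) {Q Q' : Tm S} : Step Q Q' → Step (mem M Q) (mem M Q')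

abbrev Red (M N : Tm S) : Prop := Relation.ReflTransGen Step M N

/-- Convertibility: having a common reduct (an equivalence relation by confluence). -/
def Conv (M N : Tm S) : Prop := ∃ L, Red M L ∧ Red N L

def Normal (M : Tm S) : Prop := ∀ N, ¬ Step M N

def WN (M : Tm S) : Prop := ∃ N, Red M N ∧ Normal N

theorem Step.sub {M N : Tm S} (h : Step M N) (σ : ℕ → Tm S) : Step (sub σ M) (sub σ N) := by
  induction h generalizing σ with
  | beta A M N => rw [sub_inst']; exact Step.beta _ _ _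
  | eps M Q => exact Step.eps _ _
  | appL N _ ih => exact Step.appL _ (ih σ)
  | appR M _ ih => exact Step.appR _ (ih σ)
  | lamL M _ ih => exact Step.lamL _ (ih σ)
  | lamR A _ ih => exact Step.lamR _ (ih _)
  | piL M _ ih => exact Step.piL _ (ih σ)
  | piR A _ ih => exact Step.piR _ (ih _)
  | memL Q _ ih => exact Step.memL _ (ih σ)
  | memR M _ ih => exact Step.memR _ (ih σ)

theorem Step.ren {M N : Tm S} (h : Step M N) (ξ : ℕ → ℕ) : Step (ren ξ M) (ren ξ N) := by
  rw [ren_eq_sub, ren_eq_sub]; exact h.sub _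

theorem Red.map {f : Tm S → Tm S} (hf : ∀ {M N}, Step M N → Step (f M) (f N)) {M N : Tm S}
    (h : Red M N) : Red (f M) (f N) := by
  induction h with
  | refl => exact .refl
  | tail _ hs ih => exact ih.tail (hf hs)

theorem Red.sub {M N : Tm S} (h : Red M N) (σ : ℕ → Tm S) : Red (sub σ M) (sub σ N) :=
  Red.map (f := Tm.sub σ) (fun h => h.sub σ) h

theorem Red.ren {M N : Tm S} (h : Red M N) (ξ : ℕ → ℕ) : Red (ren ξ M) (ren ξ N) :=
  Red.map (f := Tm.ren ξ) (fun h => h.ren ξ) h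

theorem Red.app {M M' N N' : Tm S} (h : Red M M') (h' : Red N N') :
    Red (app M N) (app M' N') :=
  (Red.map (f := fun X => Tm.app X N) (Step.appL N) h).trans
    (Red.map (f := fun X => Tm.app M' X) (Step.appR M') h')

theorem Red.lam {M M' N N' : Tm S} (h : Red M M') (h' : Red N N') :
    Red (lam M N) (lam M' N') :=
  (Red.map (f := fun X => Tm.lam X N) (Step.lamL N) h).trans
    (Red.map (f := fun X => Tm.lam M' X) (Step.lamR M') h')

theorem Red.pi {M M' N N' : Tm S} (h : Red M M') (h' : Red N N') :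
    Red (pi M N) (pi M' N') :=
  (Red.map (f := fun X => Tm.pi X N) (Step.piL N) h).trans
    (Red.map (f := fun X => Tm.pi M' X) (Step.piR M') h')

theorem Red.mem {M M' N N' : Tm S} (h : Red M M') (h' : Red N N') :
    Red (mem M N) (mem M' N') :=
  (Red.map (f := fun X => Tm.mem X N) (Step.memL N) h).trans
    (Red.map (f := fun X => Tm.mem M' X) (Step.memR M') h')

theorem Red.sub_env {σ τ : ℕ → Tm S} (h : ∀ i, Red (σ i) (τ i)) (M : Tm S) :
    Red (Tm.sub σ M) (Tm.sub τ M) := by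
  have hu : ∀ {σ τ : ℕ → Tm S}, (∀ i, Red (σ i) (τ i)) → ∀ i, Red (ups σ i) (ups τ i) := by
    intro σ τ h i
    cases i with
    | zero => exact .refl
    | succ i => exact (h i).ren _
  induction M generalizing σ τ with
  | var i => exact h i
  | sort => exact .refl
  | cst => exact .refl
  | app M N ihM ihN => exact Red.app (ihM h) (ihN h)
  | lam A M ihA ihM => exact Red.lam (ihA h) (ihM (hu h))
  | pi A M ihA ihM => exact Red.pi (ihA h) (ihM (hu h))
  | mem M N ihM ihN => exact Red.mem (ihM h) (ihN h)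

theorem Red.inst {N N' M M' : Tm S} (h : Red N N') (h' : Red M M') :
    Red (inst N M) (inst N' M') :=
  (h'.sub _).trans (Red.sub_env (by intro i; cases i with
    | zero => exact h
    | succ i => exact .refl) M')

/-- Parallel reduction. -/
inductive PStep : Tm S → Tm S → Prop
  | var (i : ℕ) : PStep (var i) (var i)
  | sort (s : S) : PStep (sort s) (sort s)
  | cst (n A : Tm S) : PStep (cst n A) (cst n A)
  | app {M M' N N' : Tm S} : PStep M M' → PStep N N' → PStep (app M N) (app M' N')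
  | lam {M M' N N' : Tm S} : PStep M M' → PStep N N' → PStep (lam M N) (lam M' N')
  | pi {M M' N N' : Tm S} : PStep M M' → PStep N N' → PStep (pi M N) (pi M' N')
  | mem {M M' N N' : Tm S} : PStep M M' → PStep N N' → PStep (mem M N) (mem M' N')
  | beta (A : Tm S) {M M' N N' : Tm S} : PStep M M' → PStep N N' →
      PStep (app (lam A M) N) (inst N' M')
  | eps {M M' : Tm S} (Q : Tm S) : PStep M M' → PStep (mem M Q) M'

theorem PStep.refl (M : Tm S) : PStep M M := by
  induction M with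
  | var i => exact .var i
  | sort s => exact .sort s
  | cst n A => exact .cst n A
  | app _ _ h1 h2 => exact .app h1 h2
  | lam _ _ h1 h2 => exact .lam h1 h2
  | pi _ _ h1 h2 => exact .pi h1 h2
  | mem _ _ h1 h2 => exact .mem h1 h2

theorem Step.pstep {M N : Tm S} (h : Step M N) : PStep M N := by
  induction h with
  | beta A M N => exact .beta A (.refl M) (.refl N)
  | eps M Q => exact .eps Q (.refl M)
  | appL N _ ih => exact .app ih (.refl _)
  | appR M _ ih => exact .app (.refl _) ih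
  | lamL M _ ih => exact .lam ih (.refl _)
  | lamR A _ ih => exact .lam (.refl _) ih
  | piL M _ ih => exact .pi ih (.refl _)
  | piR A _ ih => exact .pi (.refl _) ih
  | memL Q _ ih => exact .mem ih (.refl _)
  | memR M _ ih => exact .mem (.refl _) ih

theorem PStep.red {M N : Tm S} (h : PStep M N) : Red M N := by
  induction h with
  | var => exact .refl
  | sort => exact .refl
  | cst => exact .refl
  | app _ _ h1 h2 => exact Red.app h1 h2
  | lam _ _ h1 h2 => exact Red.lam h1 h2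
  | pi _ _ h1 h2 => exact Red.pi h1 h2
  | mem _ _ h1 h2 => exact Red.mem h1 h2
  | beta A _ _ h1 h2 => exact .head (Step.beta _ _ _) (Red.inst h2 h1)
  | eps Q _ h => exact .head (Step.eps _ _) h

theorem PStep.ren {M N : Tm S} (h : PStep M N) (ξ : ℕ → ℕ) : PStep (ren ξ M) (ren ξ N) := by
  induction h generalizing ξ with
  | var => exact .var _
  | sort => exact .sort _
  | cst => exact .cst _ _
  | app _ _ h1 h2 => exact .app (h1 _) (h2 _)
  | lam _ _ h1 h2 => exact .lam (h1 _) (h2 _)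
  | pi _ _ h1 h2 => exact .pi (h1 _) (h2 _)
  | mem _ _ h1 h2 => exact .mem (h1 _) (h2 _)
  | beta A _ _ h1 h2 => rw [ren_inst]; exact .beta _ (h1 _) (h2 _)
  | eps Q _ h => exact .eps _ (h _)

theorem PStep.sub {M N : Tm S} (h : PStep M N) {σ τ : ℕ → Tm S} (e : ∀ i, PStep (σ i) (τ i)) :
    PStep (sub σ M) (sub τ N) := by
  have hu : ∀ {σ τ : ℕ → Tm S}, (∀ i, PStep (σ i) (τ i)) → ∀ i, PStep (ups σ i) (ups τ i) := by
    intro σ τ h i
    cases i with
    | zero => exact .var 0
    | succ i => exact (h i).ren _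
  induction h generalizing σ τ with
  | var i => exact e i
  | sort => exact .sort _
  | cst => exact .cst _ _
  | app _ _ h1 h2 => exact .app (h1 e) (h2 e)
  | lam _ _ h1 h2 => exact .lam (h1 e) (h2 (hu e))
  | pi _ _ h1 h2 => exact .pi (h1 e) (h2 (hu e))
  | mem _ _ h1 h2 => exact .mem (h1 e) (h2 e)
  | beta A _ _ h1 h2 => rw [sub_inst']; exact .beta _ (h1 (hu e)) (h2 e)
  | eps Q _ h => exact .eps _ (h e)

theorem PStep.inst {M M' N N' : Tm S} (h : PStep M M') (h' : PStep N N') :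
    PStep (inst N M) (inst N' M') :=
  h.sub (by intro i; cases i with
    | zero => exact h'
    | succ i => exact .var i)

/-- Complete development. -/
def dev : Tm S → Tm S
  | var i => var i
  | sort s => sort s
  | cst n A => cst n A
  | app (lam _ M) N => inst (dev N) (dev M)
  | app M N => app (dev M) (dev N)
  | lam A M => lam (dev A) (dev M)
  | pi A M => pi (dev A) (dev M)
  | mem M _ => dev M

theorem PStep.triangle {M N : Tm S} (h : PStep M N) : PStep N (dev M) := by
  induction h with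
  | var => exact .var _
  | sort => exact .sort _
  | cst => exact .cst _ _
  | @app M M' N N' hM _ h1 h2 =>
    cases hM with
    | lam hA hB =>
      simp only [dev] at h1 ⊢
      cases h1 with
      | lam _ h1' => exact .beta _ h1' h2
    | var => exact .app h1 h2
    | sort => exact .app h1 h2
    | cst => exact .app h1 h2
    | app => exact .app h1 h2
    | pi => exact .app h1 h2
    | mem => exact .app h1 h2
    | beta => exact .app h1 h2
    | eps => exact .app h1 h2
  | lam _ _ h1 h2 => exact .lam h1 h2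
  | pi _ _ h1 h2 => exact .pi h1 h2
  | mem _ _ h1 _ => exact .eps _ h1
  | beta A _ _ h1 h2 => exact h1.inst h2
  | eps Q _ h => exact h

theorem Red.strip {M N L : Tm S} (h : PStep M N) (h' : Red M L) :
    ∃ K, Red N K ∧ PStep L K := by
  induction h' with
  | refl => exact ⟨N, .refl, h⟩
  | tail _ hs ih =>
    obtain ⟨K, h1, h2⟩ := ih
    exact ⟨_, h1.trans h2.triangle.red, hs.pstep.triangle⟩

theorem Red.confluent {M N L : Tm S} (h : Red M N) (h' : Red M L) : Conv N L := by
  induction h with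
  | refl => exact ⟨L, h', .refl⟩
  | tail _ hs ih =>
    obtain ⟨K, h1, h2⟩ := ih
    obtain ⟨K', h3, h4⟩ := Red.strip hs.pstep h1
    exact ⟨K', h3, h2.trans h4.red⟩

theorem Conv.refl (M : Tm S) : Conv M M := ⟨M, .refl, .refl⟩
theorem Conv.rfl {M : Tm S} : Conv M M := Conv.refl M
theorem Conv.symm {M N : Tm S} (h : Conv M N) : Conv N M := let ⟨L, a, b⟩ := h; ⟨L, b, a⟩
theorem Conv.trans {M N L : Tm S} (h : Conv M N) (h' : Conv N L) : Conv M L := by
  obtain ⟨X, a, b⟩ := h
  obtain ⟨Y, c, d⟩ := h'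
  obtain ⟨Z, e, f⟩ := Red.confluent b c
  exact ⟨Z, a.trans e, d.trans f⟩
theorem Red.conv {M N : Tm S} (h : Red M N) : Conv M N := ⟨N, h, .refl⟩
theorem Step.red {M N : Tm S} (h : Step M N) : Red M N := .single h
theorem Step.conv {M N : Tm S} (h : Step M N) : Conv M N := h.red.conv
theorem Conv.of_eq {M N : Tm S} (h : M = N) : Conv M N := h ▸ Conv.rfl

theorem Conv.sub {M N : Tm S} (h : Conv M N) (σ : ℕ → Tm S) : Conv (sub σ M) (sub σ N) :=
  let ⟨_, a, b⟩ := h; ⟨_, a.sub σ, b.sub σ⟩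
theorem Conv.ren {M N : Tm S} (h : Conv M N) (ξ : ℕ → ℕ) : Conv (ren ξ M) (ren ξ N) :=
  let ⟨_, a, b⟩ := h; ⟨_, a.ren ξ, b.ren ξ⟩
theorem Conv.lift {M N : Tm S} (h : Conv M N) : Conv (lift M) (lift N) := h.ren _
theorem Conv.app {M M' N N' : Tm S} (h : Conv M M') (h' : Conv N N') :
    Conv (app M N) (app M' N') :=
  let ⟨_, a, b⟩ := h; let ⟨_, c, d⟩ := h'; ⟨_, Red.app a c, Red.app b d⟩
theorem Conv.lam {M M' N N' : Tm S} (h : Conv M M') (h' : Conv N N') :
    Conv (lam M N) (lam M' N') :=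
  let ⟨_, a, b⟩ := h; let ⟨_, c, d⟩ := h'; ⟨_, Red.lam a c, Red.lam b d⟩
theorem Conv.pi {M M' N N' : Tm S} (h : Conv M M') (h' : Conv N N') :
    Conv (pi M N) (pi M' N') :=
  let ⟨_, a, b⟩ := h; let ⟨_, c, d⟩ := h'; ⟨_, Red.pi a c, Red.pi b d⟩
theorem Conv.inst {M M' N N' : Tm S} (h : Conv N N') (h' : Conv M M') :
    Conv (inst N M) (inst N' M') :=
  let ⟨_, a, b⟩ := h; let ⟨_, c, d⟩ := h'; ⟨_, Red.inst a c, Red.inst b d⟩
theorem Conv.sub_env {σ τ : ℕ → Tm S} (h : ∀ i, Conv (σ i) (τ i)) (M : Tm S) :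
    Conv (Tm.sub σ M) (Tm.sub τ M) := by
  choose ρ h1 h2 using h
  exact ⟨_, Red.sub_env h1 M, Red.sub_env h2 M⟩
theorem Conv.beta (A M N : Tm S) : Conv (Tm.app (Tm.lam A M) N) (Tm.inst N M) :=
  (Step.beta A M N).conv

theorem Normal.red_eq {M N : Tm S} (hn : Normal M) (h : Red M N) : N = M := by
  induction h with
  | refl => rfl
  | tail _ hs ih => subst ih; exact absurd hs (hn _)

theorem Conv.red_normal {M N : Tm S} (h : Conv M N) (hn : Normal N) : Red M N := by
  obtain ⟨L, a, b⟩ := h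
  rwa [hn.red_eq b] at a

theorem Conv.eq_of_normal {M N : Tm S} (h : Conv M N) (hm : Normal M) (hn : Normal N) : M = N :=
  (hm.red_eq (h.red_normal hn)).symm

theorem normal_sort (s : S) : Normal (sort s) := fun _ h => by cases h
theorem normal_var (i : ℕ) : Normal (var i : Tm S) := fun _ h => by cases h
theorem normal_cst (n A : Tm S) : Normal (cst n A) := fun _ h => by cases h

theorem Normal.pi_iff {A B : Tm S} : Normal (pi A B) ↔ Normal A ∧ Normal B :=
  ⟨fun h => ⟨fun _ hs => h _ (.piL _ hs), fun _ hs => h _ (.piR _ hs)⟩,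
   fun h _ hs => by cases hs with
    | piL _ hs => exact h.1 _ hs
    | piR _ hs => exact h.2 _ hs⟩

theorem Normal.lam_iff {A B : Tm S} : Normal (lam A B) ↔ Normal A ∧ Normal B :=
  ⟨fun h => ⟨fun _ hs => h _ (.lamL _ hs), fun _ hs => h _ (.lamR _ hs)⟩,
   fun h _ hs => by cases hs with
    | lamL _ hs => exact h.1 _ hs
    | lamR _ hs => exact h.2 _ hs⟩

theorem Normal.app_iff {F N : Tm S} :
    Normal (app F N) ↔ Normal F ∧ Normal N ∧ ∀ A M, F ≠ lam A M :=
  ⟨fun h => ⟨fun _ hs => h _ (.appL _ hs), fun _ hs => h _ (.appR _ hs),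
      fun A M e => h _ (e ▸ Step.beta A M N)⟩,
   fun h _ hs => by cases hs with
    | beta A M => exact h.2.2 A M rfl
    | appL _ hs => exact h.1 _ hs
    | appR _ hs => exact h.2.1 _ hs⟩

theorem Normal.not_mem {M Q : Tm S} : ¬ Normal (mem M Q) := fun h => h _ (.eps M Q)

theorem Red.sort_inv {s : S} {M : Tm S} (h : Red (sort s) M) : M = sort s :=
  (normal_sort s).red_eq h

theorem Red.pi_inv {A B M : Tm S} (h : Red (Tm.pi A B) M) :
    ∃ A' B', M = Tm.pi A' B' ∧ Red A A' ∧ Red B B' := by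
  induction h with
  | refl => exact ⟨A, B, rfl, .refl, .refl⟩
  | tail _ hs ih =>
    obtain ⟨A', B', rfl, a, b⟩ := ih
    cases hs with
    | piL _ hs => exact ⟨_, _, rfl, a.tail hs, b⟩
    | piR _ hs => exact ⟨_, _, rfl, a, b.tail hs⟩

theorem Red.lam_inv {A B M : Tm S} (h : Red (Tm.lam A B) M) :
    ∃ A' B', M = Tm.lam A' B' ∧ Red A A' ∧ Red B B' := by
  induction h with
  | refl => exact ⟨A, B, rfl, .refl, .refl⟩
  | tail _ hs ih =>
    obtain ⟨A', B', rfl, a, b⟩ := ih
    cases hs with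
    | lamL _ hs => exact ⟨_, _, rfl, a.tail hs, b⟩
    | lamR _ hs => exact ⟨_, _, rfl, a, b.tail hs⟩

theorem Conv.pi_inj {A B A' B' : Tm S} (h : Conv (Tm.pi A B) (Tm.pi A' B')) :
    Conv A A' ∧ Conv B B' := by
  obtain ⟨L, a, b⟩ := h
  obtain ⟨A1, B1, rfl, a1, b1⟩ := a.pi_inv
  obtain ⟨A2, B2, e, a2, b2⟩ := b.pi_inv
  cases e
  exact ⟨⟨_, a1, a2⟩, ⟨_, b1, b2⟩⟩

theorem Conv.sort_inj {s t : S} (h : Conv (sort s) (sort t)) : s = t := by
  have := h.eq_of_normal (normal_sort s) (normal_sort t)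
  cases this; rfl

theorem Conv.not_sort_pi {s : S} {A B : Tm S} : ¬ Conv (sort s) (Tm.pi A B) := by
  rintro ⟨L, a, b⟩
  obtain ⟨A1, B1, rfl, -, -⟩ := b.pi_inv
  cases a.sort_inv

theorem Neutral.step {M N : Tm S} (h : Neutral M) (hs : Step M N) :
    Neutral N ∧ head N = head M := by
  induction h generalizing N with
  | var => cases hs
  | cst => cases hs
  | app N' hF ih =>
    cases hs with
    | beta => cases hF
    | appL _ hs => exact ⟨.app _ (ih hs).1, (ih hs).2⟩
    | appR _ hs => exact ⟨.app _ hF, rfl⟩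

theorem Neutral.red {M N : Tm S} (h : Neutral M) (hs : Red M N) :
    Neutral N ∧ head N = head M := by
  induction hs with
  | refl => exact ⟨h, rfl⟩
  | tail _ hs ih => exact ⟨(ih.1.step hs).1, (ih.1.step hs).2.trans ih.2⟩

theorem Neutral.not_conv_pi {M A B : Tm S} (h : Neutral M) : ¬ Conv M (Tm.pi A B) := by
  rintro ⟨L, a, b⟩
  obtain ⟨A1, B1, rfl, -, -⟩ := b.pi_inv
  cases (h.red a).1

theorem Neutral.not_conv_sort {M : Tm S} {s : S} (h : Neutral M) : ¬ Conv M (sort s) := by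
  rintro ⟨L, a, b⟩
  cases b.sort_inv
  cases (h.red a).1

theorem Neutral.ren {M : Tm S} (h : Neutral M) (ξ : ℕ → ℕ) : Neutral (ren ξ M) := by
  induction h with
  | var => exact .var _
  | cst => exact .cst _ _
  | app _ _ ih => exact .app _ ih

theorem Step.ren_inv {ξ : ℕ → ℕ} {M N : Tm S} (h : Step (Tm.ren ξ M) N) :
    ∃ M', Step M M' ∧ N = Tm.ren ξ M' := by
  induction M generalizing ξ N with
  | var => cases h
  | sort => cases h
  | cst => cases h
  | app F M ihF ihM =>
    rw [ren_app] at h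
    generalize e : Tm.ren ξ F = F' at h
    cases h with
    | beta A B =>
      cases F <;> simp at e
      obtain ⟨rfl, rfl⟩ := e
      exact ⟨_, .beta _ _ _, (ren_inst _ _ _).symm⟩
    | appL _ hs =>
      subst e
      obtain ⟨F', a, rfl⟩ := ihF hs
      exact ⟨_, .appL _ a, rfl⟩
    | appR _ hs =>
      subst e
      obtain ⟨F', a, rfl⟩ := ihM hs
      exact ⟨_, .appR _ a, rfl⟩
  | lam A M ihA ihM =>
    cases h with
    | lamL _ hs => obtain ⟨F', a, rfl⟩ := ihA hs; exact ⟨_, .lamL _ a, rfl⟩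
    | lamR _ hs => obtain ⟨F', a, rfl⟩ := ihM hs; exact ⟨_, .lamR _ a, rfl⟩
  | pi A M ihA ihM =>
    cases h with
    | piL _ hs => obtain ⟨F', a, rfl⟩ := ihA hs; exact ⟨_, .piL _ a, rfl⟩
    | piR _ hs => obtain ⟨F', a, rfl⟩ := ihM hs; exact ⟨_, .piR _ a, rfl⟩
  | mem A M ihA ihM =>
    cases h with
    | eps => exact ⟨_, .eps _ _, rfl⟩
    | memL _ hs => obtain ⟨F', a, rfl⟩ := ihA hs; exact ⟨_, .memL _ a, rfl⟩
    | memR _ hs => obtain ⟨F', a, rfl⟩ := ihM hs; exact ⟨_, .memR _ a, rfl⟩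

theorem Normal.ren {M : Tm S} (h : Normal M) (ξ : ℕ → ℕ) : Normal (ren ξ M) := by
  intro N hs
  obtain ⟨M', a, -⟩ := hs.ren_inv
  exact h _ a

theorem Normal.of_sub {M : Tm S} {σ : ℕ → Tm S} (h : Normal (sub σ M)) : Normal M :=
  fun _ hs => h _ (hs.sub σ)

theorem WN.of_red {M N : Tm S} (h : Red M N) (hn : WN N) : WN M :=
  let ⟨L, a, b⟩ := hn; ⟨L, h.trans a, b⟩

theorem WN.conv {M N : Tm S} (hm : WN M) (h : Conv M N) : WN N :=
  let ⟨L, a, b⟩ := hm; ⟨L, (h.symm.trans a.conv).red_normal b, b⟩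

theorem Normal.wn {M : Tm S} (h : Normal M) : WN M := ⟨M, .refl, h⟩

theorem WN.pi_inv {A B : Tm S} (h : WN (Tm.pi A B)) : WN A ∧ WN B := by
  obtain ⟨L, a, b⟩ := h
  obtain ⟨A', B', rfl, c, d⟩ := a.pi_inv
  exact ⟨⟨_, c, (Normal.pi_iff.1 b).1⟩, ⟨_, d, (Normal.pi_iff.1 b).2⟩⟩

open Classical in
/-- A canonical representative of the conversion class: the normal form when there is one. -/
noncomputable def nf (M : Tm S) : Tm S :=
  @Classical.epsilon _ ⟨M⟩ (fun N => Conv M N ∧ (WN M → Normal N))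

theorem nf_spec (M : Tm S) : Conv M (nf M) ∧ (WN M → Normal (nf M)) := by
  refine @Classical.epsilon_spec _ (fun N => Conv M N ∧ (WN M → Normal N)) ?_
  by_cases h : WN M
  · obtain ⟨N, a, b⟩ := h
    exact ⟨N, a.conv, fun _ => b⟩
  · exact ⟨M, Conv.rfl, fun h' => absurd h' h⟩

theorem conv_nf (M : Tm S) : Conv M (nf M) := (nf_spec M).1

theorem WN.nf_normal {M : Tm S} (h : WN M) : Normal (nf M) := (nf_spec M).2 h

theorem WN.red_nf {M : Tm S} (h : WN M) : Red M (nf M) := (conv_nf M).red_normal h.nf_normal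

theorem Conv.nf_eq {M N : Tm S} (h : Conv M N) : nf M = nf N := by
  unfold nf
  congr 1
  funext L
  apply propext
  constructor
  · rintro ⟨a, b⟩; exact ⟨h.symm.trans a, fun w => b (w.conv h.symm)⟩
  · rintro ⟨a, b⟩; exact ⟨h.trans a, fun w => b (w.conv h)⟩

theorem conv_of_nf_eq {M N : Tm S} (h : nf M = nf N) : Conv M N :=
  (conv_nf M).trans (h ▸ (conv_nf N).symm)

theorem conv_of_nf_eq' {M N : Tm S} (h : nf M = N) : Conv M N := h ▸ conv_nf M

theorem Normal.nf_eq {M : Tm S} (h : Normal M) : nf M = M :=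
  ((conv_nf M).eq_of_normal h h.wn.nf_normal).symm

theorem Conv.nf_eq_of_normal {M N : Tm S} (h : Conv M N) (hn : Normal N) : nf M = N :=
  h.nf_eq.trans hn.nf_eq

@[simp] theorem nf_nf (M : Tm S) : nf (nf M) = nf M := (conv_nf M).symm.nf_eq

@[simp] theorem nf_sort (s : S) : nf (sort s) = sort s := (normal_sort s).nf_eq

theorem WN.nf_pi {A B : Tm S} (h : WN (Tm.pi A B)) : nf (Tm.pi A B) = Tm.pi (nf A) (nf B) :=
  (Conv.pi (conv_nf A) (conv_nf B)).nf_eq_of_normal
    (Normal.pi_iff.2 ⟨h.pi_inv.1.nf_normal, h.pi_inv.2.nf_normal⟩)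

theorem WN.nf_ren {M : Tm S} (h : WN M) (ξ : ℕ → ℕ) : nf (ren ξ M) = ren ξ (nf M) :=
  ((conv_nf M).ren ξ).nf_eq_of_normal (h.nf_normal.ren ξ)

theorem nf_sub_nf (σ : ℕ → Tm S) (M : Tm S) : nf (sub σ (nf M)) = nf (sub σ M) :=
  ((conv_nf M).symm.sub σ).nf_eq

end Crest.Agent.R298
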