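import Mathlib

/-! Extended raw terms (constants and a memory former), renaming and substitution. -/

set_option autoImplicit false

namespace Crest.Agent.R298

universe u

/-- Extended terms: de Bruijn variables, sorts, opaque typed constants `cst name type`,
application, abstraction, product and the memory former `mem main stored`. -/
inductive Tm (S : Type u) : Type u
  | var : ℕ → Tm S
  | sort : S → Tm S
  | cst : Tm S → Tm S → Tm S
  | app : Tm S → Tm S → Tm S
  | lam : Tm S → Tm S → Tm S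
  | pi : Tm S → Tm S → Tm S
  | mem : Tm S → Tm S → Tm S

variable {S : Type u}

namespace Tm

/-- `scons a f` is the function `0 ↦ a`, `n+1 ↦ f n`. -/
def scons {α : Sort*} (a : α) (f : ℕ → α) : ℕ → α
  | 0 => a
  | n + 1 => f n

@[simp] theorem scons_zero {α : Sort*} (a : α) (f : ℕ → α) : scons a f 0 = a := rfl
@[simp] theorem scons_succ {α : Sort*} (a : α) (f : ℕ → α) (n : ℕ) : scons a f (n + 1) = f n := rfl

def upr (ξ : ℕ → ℕ) : ℕ → ℕ := scons 0 (fun n => ξ n + 1)

@[simp] theorem upr_zero (ξ : ℕ → ℕ) : upr ξ 0 = 0 := rfl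
@[simp] theorem upr_succ (ξ : ℕ → ℕ) (n : ℕ) : upr ξ (n + 1) = ξ n + 1 := rfl

def ren (ξ : ℕ → ℕ) : Tm S → Tm S
  | var i => var (ξ i)
  | sort s => sort s
  | cst n A => cst n A
  | app M N => app (ren ξ M) (ren ξ N)
  | lam A M => lam (ren ξ A) (ren (upr ξ) M)
  | pi A B => pi (ren ξ A) (ren (upr ξ) B)
  | mem M Q => mem (ren ξ M) (ren ξ Q)

/-- Shift all free indices by one. -/
def lift (M : Tm S) : Tm S := ren Nat.succ M

def ups (σ : ℕ → Tm S) : ℕ → Tm S := scons (var 0) (fun n => lift (σ n))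

@[simp] theorem ups_zero (σ : ℕ → Tm S) : ups σ 0 = var 0 := rfl
@[simp] theorem ups_succ (σ : ℕ → Tm S) (n : ℕ) : ups σ (n + 1) = lift (σ n) := rfl

def sub (σ : ℕ → Tm S) : Tm S → Tm S
  | var i => σ i
  | sort s => sort s
  | cst n A => cst n A
  | app M N => app (sub σ M) (sub σ N)
  | lam A M => lam (sub σ A) (sub (ups σ) M)
  | pi A B => pi (sub σ A) (sub (ups σ) B)
  | mem M Q => mem (sub σ M) (sub σ Q)

/-- `inst N M`: substitute `N` for index `0` in `M`. -/
def inst (N M : Tm S) : Tm S := sub (scons N var) M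

@[simp] theorem ren_var (ξ : ℕ → ℕ) (i : ℕ) : ren ξ (var i : Tm S) = var (ξ i) := rfl
@[simp] theorem ren_sort (ξ : ℕ → ℕ) (s : S) : ren ξ (sort s) = sort s := rfl
@[simp] theorem ren_cst (ξ : ℕ → ℕ) (n A : Tm S) : ren ξ (cst n A) = cst n A := rfl
@[simp] theorem ren_app (ξ : ℕ → ℕ) (M N : Tm S) :
    ren ξ (app M N) = app (ren ξ M) (ren ξ N) := rfl
@[simp] theorem ren_lam (ξ : ℕ → ℕ) (A M : Tm S) :
    ren ξ (lam A M) = lam (ren ξ A) (ren (upr ξ) M) := rfl
@[simp] theorem ren_pi (ξ : ℕ → ℕ) (A M : Tm S) :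
    ren ξ (pi A M) = pi (ren ξ A) (ren (upr ξ) M) := rfl
@[simp] theorem ren_mem (ξ : ℕ → ℕ) (M Q : Tm S) :
    ren ξ (mem M Q) = mem (ren ξ M) (ren ξ Q) := rfl

@[simp] theorem sub_var (σ : ℕ → Tm S) (i : ℕ) : sub σ (var i) = σ i := rfl
@[simp] theorem sub_sort (σ : ℕ → Tm S) (s : S) : sub σ (sort s) = sort s := rfl
@[simp] theorem sub_cst (σ : ℕ → Tm S) (n A : Tm S) : sub σ (cst n A) = cst n A := rfl
@[simp] theorem sub_app (σ : ℕ → Tm S) (M N : Tm S) :
    sub σ (app M N) = app (sub σ M) (sub σ N) := rfl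
@[simp] theorem sub_lam (σ : ℕ → Tm S) (A M : Tm S) :
    sub σ (lam A M) = lam (sub σ A) (sub (ups σ) M) := rfl
@[simp] theorem sub_pi (σ : ℕ → Tm S) (A M : Tm S) :
    sub σ (pi A M) = pi (sub σ A) (sub (ups σ) M) := rfl
@[simp] theorem sub_mem (σ : ℕ → Tm S) (M Q : Tm S) :
    sub σ (mem M Q) = mem (sub σ M) (sub σ Q) := rfl

@[simp] theorem lift_var (i : ℕ) : lift (var i : Tm S) = var (i + 1) := rfl
@[simp] theorem lift_sort (s : S) : lift (sort s) = sort s := rfl
@[simp] theorem lift_cst (n A : Tm S) : lift (cst n A) = cst n A := rfl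
@[simp] theorem lift_app (M N : Tm S) : lift (app M N) = app (lift M) (lift N) := rfl
@[simp] theorem lift_mem (M N : Tm S) : lift (mem M N) = mem (lift M) (lift N) := rfl
theorem lift_lam (A M : Tm S) : lift (lam A M) = lam (lift A) (ren (upr Nat.succ) M) := rfl
theorem lift_pi (A M : Tm S) : lift (pi A M) = pi (lift A) (ren (upr Nat.succ) M) := rfl

@[simp] theorem inst_sort (N : Tm S) (s : S) : inst N (sort s) = sort s := rfl
@[simp] theorem inst_cst (N n A : Tm S) : inst N (cst n A) = cst n A := rfl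
@[simp] theorem inst_var_zero (N : Tm S) : inst N (var 0) = N := rfl
@[simp] theorem inst_var_succ (N : Tm S) (i : ℕ) : inst N (var (i + 1)) = var i := rfl
@[simp] theorem inst_app (N F M : Tm S) : inst N (app F M) = app (inst N F) (inst N M) := rfl
@[simp] theorem inst_mem (N F M : Tm S) : inst N (mem F M) = mem (inst N F) (inst N M) := rfl

theorem upr_comp (ξ ζ : ℕ → ℕ) : (fun i => upr ξ (upr ζ i)) = upr (fun i => ξ (ζ i)) := by
  funext i; cases i <;> rfl

theorem ren_ren (ξ ζ : ℕ → ℕ) (M : Tm S) : ren ξ (ren ζ M) = ren (fun i => ξ (ζ i)) M := by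
  induction M generalizing ξ ζ <;> simp_all [upr_comp]

theorem sub_ren (σ : ℕ → Tm S) (ξ : ℕ → ℕ) (M : Tm S) :
    sub σ (ren ξ M) = sub (fun i => σ (ξ i)) M := by
  have h : ∀ (σ : ℕ → Tm S) (ξ : ℕ → ℕ),
      (fun i => ups σ (upr ξ i)) = ups (fun i => σ (ξ i)) := by
    intro σ ξ; funext i; cases i <;> rfl
  induction M generalizing σ ξ <;> simp_all

theorem ren_lift (ξ : ℕ → ℕ) (M : Tm S) : ren (upr ξ) (lift M) = lift (ren ξ M) := by
  simp [lift, ren_ren]

theorem ren_sub (ξ : ℕ → ℕ) (σ : ℕ → Tm S) (M : Tm S) :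
    ren ξ (sub σ M) = sub (fun i => ren ξ (σ i)) M := by
  have h : ∀ (σ : ℕ → Tm S) (ξ : ℕ → ℕ),
      (fun i => ren (upr ξ) (ups σ i)) = ups (fun i => ren ξ (σ i)) := by
    intro σ ξ; funext i; cases i with
    | zero => rfl
    | succ n => simp [ren_lift]
  induction M generalizing σ ξ <;> simp_all

@[simp] theorem sub_ups_lift (σ : ℕ → Tm S) (M : Tm S) :
    sub (ups σ) (lift M) = lift (sub σ M) := by
  simp [lift, sub_ren, ren_sub]

theorem ups_comp (τ σ : ℕ → Tm S) :
    (fun i => sub (ups τ) (ups σ i)) = ups (fun i => sub τ (σ i)) := by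
  funext i; cases i with
  | zero => rfl
  | succ n => simp

theorem sub_sub (τ σ : ℕ → Tm S) (M : Tm S) :
    sub τ (sub σ M) = sub (fun i => sub τ (σ i)) M := by
  induction M generalizing σ τ <;> simp_all [ups_comp]

@[simp] theorem ups_var : ups (var : ℕ → Tm S) = var := by
  funext i; cases i <;> rfl

@[simp] theorem sub_id (M : Tm S) : sub var M = M := by
  induction M <;> simp_all

theorem ren_eq_sub (ξ : ℕ → ℕ) (M : Tm S) : ren ξ M = sub (fun i => var (ξ i)) M := by
  have := sub_ren (var : ℕ → Tm S) ξ M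
  rwa [sub_id] at this

@[simp] theorem ren_id (M : Tm S) : ren (fun i => i) M = M := by
  rw [ren_eq_sub]; exact sub_id M

@[simp] theorem sub_scons_lift (N : Tm S) (σ : ℕ → Tm S) (M : Tm S) :
    sub (scons N σ) (lift M) = sub σ M := by
  simp [lift, sub_ren]

@[simp] theorem inst_lift (N M : Tm S) : inst N (lift M) = M := by
  simp [inst]

/-- `inst N (M[⇑σ]) = M[N·σ]`. -/
@[simp] theorem inst_sub_ups (N : Tm S) (σ : ℕ → Tm S) (M : Tm S) :
    inst N (sub (ups σ) M) = sub (scons N σ) M := by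
  unfold inst; rw [sub_sub]; congr 1; funext i; cases i with
  | zero => rfl
  | succ n => simp

/-- `(inst N M)[σ] = M[N[σ]·σ]`. -/
theorem sub_inst (σ : ℕ → Tm S) (N M : Tm S) :
    sub σ (inst N M) = sub (scons (sub σ N) σ) M := by
  unfold inst; rw [sub_sub]; congr 1; funext i; cases i <;> rfl

theorem sub_inst' (σ : ℕ → Tm S) (N M : Tm S) :
    sub σ (inst N M) = inst (sub σ N) (sub (ups σ) M) := by
  rw [sub_inst, inst_sub_ups]

theorem ren_inst (ξ : ℕ → ℕ) (N M : Tm S) :
    ren ξ (inst N M) = inst (ren ξ N) (ren (upr ξ) M) := by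
  unfold inst; rw [ren_sub, sub_ren]; congr 1; funext i; cases i <;> rfl

theorem lift_inst (N M : Tm S) : lift (inst N M) = inst (lift N) (ren (upr Nat.succ) M) :=
  ren_inst _ _ _

theorem lift_sub (σ : ℕ → Tm S) (M : Tm S) : lift (sub σ M) = sub (fun i => lift (σ i)) M :=
  ren_sub _ _ _

theorem inst_lam (N A M : Tm S) :
    inst N (lam A M) = lam (inst N A) (sub (ups (scons N var)) M) := rfl
theorem inst_pi (N A M : Tm S) :
    inst N (pi A M) = pi (inst N A) (sub (ups (scons N var)) M) := rfl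

/-- All free indices of the term are below `n`. -/
def Bnd : ℕ → Tm S → Prop
  | n, var i => i < n
  | _, sort _ => True
  | _, cst _ _ => True
  | n, app M N => Bnd n M ∧ Bnd n N
  | n, lam A M => Bnd n A ∧ Bnd (n + 1) M
  | n, pi A M => Bnd n A ∧ Bnd (n + 1) M
  | n, mem M N => Bnd n M ∧ Bnd n N

theorem Bnd.sub_congr {n : ℕ} {M : Tm S} (h : Bnd n M) {σ τ : ℕ → Tm S}
    (e : ∀ i < n, σ i = τ i) : sub σ M = sub τ M := by
  have hu : ∀ {n : ℕ} {σ τ : ℕ → Tm S}, (∀ i < n, σ i = τ i) →
      ∀ i < n + 1, ups σ i = ups τ i := by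
    intro n σ τ e i hi
    cases i with
    | zero => rfl
    | succ i => simp [e i (by omega)]
  induction M generalizing n σ τ with
  | var i => exact e i h
  | sort => rfl
  | cst => rfl
  | app M N ihM ihN => simp [ihM h.1 e, ihN h.2 e]
  | lam A M ihA ihM => simp [ihA h.1 e, ihM h.2 (hu e)]
  | pi A M ihA ihM => simp [ihA h.1 e, ihM h.2 (hu e)]
  | mem M N ihM ihN => simp [ihM h.1 e, ihN h.2 e]

theorem Bnd.sub_closed {M : Tm S} (h : Bnd 0 M) (σ : ℕ → Tm S) : sub σ M = M := by
  rw [h.sub_congr (τ := var) (by intro i hi; omega), sub_id]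

theorem Bnd.ren_closed {M : Tm S} (h : Bnd 0 M) (ξ : ℕ → ℕ) : ren ξ M = M := by
  rw [ren_eq_sub, h.sub_closed]

theorem Bnd.lift_closed {M : Tm S} (h : Bnd 0 M) : lift M = M := h.ren_closed _

theorem Bnd.inst_closed {M : Tm S} (h : Bnd 0 M) (N : Tm S) : inst N M = M := h.sub_closed _

theorem Bnd.mono {n m : ℕ} {M : Tm S} (h : Bnd n M) (hle : n ≤ m) : Bnd m M := by
  induction M generalizing n m with
  | var i => exact lt_of_lt_of_le h hle
  | sort => trivial
  | cst => trivial
  | app M N ihM ihN => exact ⟨ihM h.1 hle, ihN h.2 hle⟩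
  | lam A M ihA ihM => exact ⟨ihA h.1 hle, ihM h.2 (by omega)⟩
  | pi A M ihA ihM => exact ⟨ihA h.1 hle, ihM h.2 (by omega)⟩
  | mem M N ihM ihN => exact ⟨ihM h.1 hle, ihN h.2 hle⟩

/-- Size of a term (constants count their name and annotation). -/
def size : Tm S → ℕ
  | var _ => 1
  | sort _ => 1
  | cst n A => size n + size A + 1
  | app M N => size M + size N + 1
  | lam A M => size A + size M + 1
  | pi A M => size A + size M + 1
  | mem M N => size M + size N + 1

theorem size_pos (M : Tm S) : 0 < size M := by cases M <;> simp [size]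

/-- Apply a term to a list of arguments. -/
def spine (M : Tm S) : List (Tm S) → Tm S
  | [] => M
  | N :: E => spine (app M N) E

@[simp] theorem spine_nil (M : Tm S) : spine M [] = M := rfl
@[simp] theorem spine_cons (M N : Tm S) (E : List (Tm S)) :
    spine M (N :: E) = spine (app M N) E := rfl

theorem spine_append (M : Tm S) (E E' : List (Tm S)) :
    spine M (E ++ E') = spine (spine M E) E' := by
  induction E generalizing M with
  | nil => rfl
  | cons N E ih => simp [ih]

theorem spine_snoc (M N : Tm S) (E : List (Tm S)) :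
    spine M (E ++ [N]) = app (spine M E) N := by
  simp [spine_append]

/-- The head of an application spine. -/
def head : Tm S → Tm S
  | app M _ => head M
  | M => M

end Tm

/-- Neutral terms: a variable or a constant applied to arguments. -/
inductive Neutral : Tm S → Prop
  | var (i : ℕ) : Neutral (.var i)
  | cst (n A : Tm S) : Neutral (.cst n A)
  | app {F : Tm S} (N : Tm S) : Neutral F → Neutral (.app F N)

end Crest.Agent.R298
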