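import Crest.Agent.R298.Red

/-! Typing of extended terms relative to a set of allowed constants; basic metatheory. -/

set_option autoImplicit false

namespace Crest.Agent.R298

open Tm

universe u
variable {S : Type u}

/-- A specification; `atom s` allows opaque constants of type `sort s`. -/
structure Sys (S : Type u) : Type u where
  ax : S → S → Prop
  rule : S → S → S → Prop
  atom : S → Prop

/-- Context lookup. -/
inductive Lk : List (Tm S) → ℕ → Tm S → Prop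
  | zero (A : Tm S) (Γ : List (Tm S)) : Lk (A :: Γ) 0 (lift A)
  | succ {Γ : List (Tm S)} {i : ℕ} {A : Tm S} (B : Tm S) : Lk Γ i A → Lk (B :: Γ) (i + 1) (lift A)

/-- Typing with constants taken from the set `C`. -/
inductive Ty (P : Sys S) (C : Set (Tm S)) : List (Tm S) → Tm S → Tm S → Prop
  | ax {Γ : List (Tm S)} {s t : S} : P.ax s t → Ty P C Γ (sort s) (sort t)
  | var {Γ : List (Tm S)} {i : ℕ} {A : Tm S} : Lk Γ i A → Ty P C Γ (var i) A
  | cst {Γ : List (Tm S)} {n A : Tm S} {s : S} : cst n A ∈ C → Ty P C [] A (sort s) →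
      Ty P C Γ (cst n A) A
  | atom {Γ : List (Tm S)} {n : Tm S} {s : S} : cst n (sort s) ∈ C → P.atom s →
      Ty P C Γ (cst n (sort s)) (sort s)
  | pi {Γ : List (Tm S)} {A B : Tm S} {s1 s2 s3 : S} : Ty P C Γ A (sort s1) →
      Ty P C (A :: Γ) B (sort s2) → P.rule s1 s2 s3 → Ty P C Γ (pi A B) (sort s3)
  | lam {Γ : List (Tm S)} {A B M : Tm S} {s1 s2 s3 : S} : Ty P C Γ A (sort s1) →
      Ty P C (A :: Γ) B (sort s2) → P.rule s1 s2 s3 → Ty P C (A :: Γ) M B →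
      Ty P C Γ (lam A M) (pi A B)
  | app {Γ : List (Tm S)} {F N A B : Tm S} : Ty P C Γ F (pi A B) → Ty P C Γ N A →
      Ty P C Γ (app F N) (inst N B)
  | mem {Γ : List (Tm S)} {M Q A B : Tm S} : Ty P C Γ M A → Ty P C Γ Q B →
      Ty P C Γ (mem M Q) A
  | conv {Γ : List (Tm S)} {M A B : Tm S} {s : S} : Ty P C Γ M A → Ty P C Γ B (sort s) →
      Conv A B → Ty P C Γ M B

/-- Valid contexts. -/
inductive Ok (P : Sys S) (C : Set (Tm S)) : List (Tm S) → Prop
  | nil : Ok P C []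
  | cons {Γ : List (Tm S)} {A : Tm S} {s : S} : Ok P C Γ → Ty P C Γ A (sort s) → Ok P C (A :: Γ)

/-- `σ` is a well-typed substitution from `Γ` into `Δ`. -/
def TSub (P : Sys S) (C : Set (Tm S)) (Δ : List (Tm S)) (σ : ℕ → Tm S) (Γ : List (Tm S)) : Prop :=
  ∀ i A, Lk Γ i A → Ty P C Δ (σ i) (sub σ A)

/-- The sort `s` belongs to the profile of the conversion class of `T`. -/
def Prof (P : Sys S) (C : Set (Tm S)) (Γ : List (Tm S)) (T : Tm S) (s : S) : Prop :=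
  ∃ T', Conv T T' ∧ Ty P C Γ T' (sort s)

/-- Every term typable (with arbitrary constants) in a valid context is weakly normalising. -/
def AllWN (P : Sys S) : Prop :=
  ∀ Γ M T, Ok P Set.univ Γ → Ty P Set.univ Γ M T → WN M

variable {P : Sys S} {C : Set (Tm S)}

theorem Lk.lt {Γ : List (Tm S)} {i : ℕ} {A : Tm S} (h : Lk Γ i A) : i < Γ.length := by
  induction h <;> simp_all

theorem Lk.unique {Γ : List (Tm S)} {i : ℕ} {A B : Tm S} (h : Lk Γ i A) (h' : Lk Γ i B) :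
    A = B := by
  induction h generalizing B with
  | zero => cases h'; rfl
  | succ _ _ ih => cases h' with
    | succ _ h' => rw [ih h']

theorem Lk.not_nil {i : ℕ} {A : Tm S} : ¬ Lk [] i A := fun h => by cases h

theorem Lk.exists {Γ : List (Tm S)} {i : ℕ} (h : i < Γ.length) : ∃ A, Lk Γ i A := by
  induction Γ generalizing i with
  | nil => simp at h
  | cons B Γ ih =>
    cases i with
    | zero => exact ⟨_, .zero _ _⟩
    | succ i => obtain ⟨A, hA⟩ := ih (i := i) (by simpa using h); exact ⟨_, .succ _ hA⟩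

theorem Ty.mono {P' : Sys S} {C' : Set (Tm S)} (hC : C ⊆ C') (hax : ∀ s t, P.ax s t → P'.ax s t)
    (hr : ∀ a b c, P.rule a b c → P'.rule a b c) (hat : ∀ s, P.atom s → P'.atom s)
    {Γ : List (Tm S)} {M T : Tm S} (h : Ty P C Γ M T) : Ty P' C' Γ M T := by
  induction h with
  | ax h => exact .ax (hax _ _ h)
  | var h => exact .var h
  | cst h _ ih => exact .cst (hC h) ih
  | atom h h' => exact .atom (hC h) (hat _ h')
  | pi _ _ r ih1 ih2 => exact .pi ih1 ih2 (hr _ _ _ r)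
  | lam _ _ r _ ih1 ih2 ih3 => exact .lam ih1 ih2 (hr _ _ _ r) ih3
  | app _ _ ih1 ih2 => exact .app ih1 ih2
  | mem _ _ ih1 ih2 => exact .mem ih1 ih2
  | conv _ _ c ih1 ih2 => exact .conv ih1 ih2 c

theorem Ty.monoC {C' : Set (Tm S)} (hC : C ⊆ C') {Γ : List (Tm S)} {M T : Tm S}
    (h : Ty P C Γ M T) : Ty P C' Γ M T :=
  h.mono hC (fun _ _ h => h) (fun _ _ _ h => h) (fun _ h => h)

theorem Ok.monoC {C' : Set (Tm S)} (hC : C ⊆ C') {Γ : List (Tm S)} (h : Ok P C Γ) :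
    Ok P C' Γ := by
  induction h with
  | nil => exact .nil
  | cons _ h ih => exact .cons ih (h.monoC hC)

theorem Ty.bnd {Γ : List (Tm S)} {M T : Tm S} (h : Ty P C Γ M T) : Bnd Γ.length M := by
  induction h with
  | ax => trivial
  | var h => exact h.lt
  | cst => trivial
  | atom => trivial
  | pi _ _ _ ih1 ih2 => exact ⟨ih1, ih2⟩
  | lam _ _ _ _ ih1 _ ih3 => exact ⟨ih1, ih3⟩
  | app _ _ ih1 ih2 => exact ⟨ih1, ih2⟩
  | mem _ _ ih1 ih2 => exact ⟨ih1, ih2⟩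
  | conv _ _ _ ih1 _ => exact ih1

theorem Ty.closed {M T : Tm S} (h : Ty P C [] M T) : Bnd 0 M := h.bnd

theorem Ty.ren {Γ Δ : List (Tm S)} {M T : Tm S} (h : Ty P C Γ M T) {ξ : ℕ → ℕ}
    (e : ∀ i A, Lk Γ i A → Lk Δ (ξ i) (ren ξ A)) : Ty P C Δ (ren ξ M) (ren ξ T) := by
  have hu : ∀ {Γ Δ : List (Tm S)} {ξ : ℕ → ℕ} (B : Tm S),
      (∀ i A, Lk Γ i A → Lk Δ (ξ i) (Tm.ren ξ A)) →
      ∀ i A, Lk (B :: Γ) i A → Lk (Tm.ren ξ B :: Δ) (upr ξ i) (Tm.ren (upr ξ) A) := by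
    intro Γ Δ ξ B e i A h
    cases h with
    | zero => rw [ren_lift]; exact .zero _ _
    | succ _ h => rw [ren_lift]; exact .succ _ (e _ _ h)
  induction h generalizing Δ ξ with
  | ax h => exact .ax h
  | var h => exact .var (e _ _ h)
  | cst h h' _ => rw [h'.closed.ren_closed]; exact .cst h h'
  | atom h h' => exact .atom h h'
  | pi _ _ r ih1 ih2 => exact .pi (ih1 e) (ih2 (hu _ e)) r
  | lam _ _ r _ ih1 ih2 ih3 => exact .lam (ih1 e) (ih2 (hu _ e)) r (ih3 (hu _ e))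
  | app _ _ ih1 ih2 => rw [ren_inst]; exact .app (ih1 e) (ih2 e)
  | mem _ _ ih1 ih2 => exact .mem (ih1 e) (ih2 e)
  | conv _ _ c ih1 ih2 => exact .conv (ih1 e) (ih2 e) (c.ren _)

theorem Ty.weak {Γ : List (Tm S)} {M T : Tm S} (h : Ty P C Γ M T) (B : Tm S) :
    Ty P C (B :: Γ) (lift M) (lift T) :=
  h.ren (fun _ _ h => .succ _ h)

theorem TSub.up {Γ Δ : List (Tm S)} {σ : ℕ → Tm S} (e : TSub P C Δ σ Γ) (B : Tm S) :
    TSub P C (sub σ B :: Δ) (ups σ) (B :: Γ) := by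
  intro i A h
  cases h with
  | zero => rw [sub_ups_lift]; exact .var (.zero _ _)
  | succ _ h => rw [sub_ups_lift]; exact (e _ _ h).weak _

theorem TSub.cons {Γ Δ : List (Tm S)} {σ : ℕ → Tm S} (e : TSub P C Δ σ Γ) {N A : Tm S}
    (h : Ty P C Δ N (sub σ A)) : TSub P C Δ (scons N σ) (A :: Γ) := by
  intro i B hB
  cases hB with
  | zero => simpa using h
  | succ _ hB => simpa using e _ _ hB

theorem TSub.id (Γ : List (Tm S)) : TSub P C Γ var Γ := by
  intro i A h; rw [sub_id]; exact .var h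

theorem TSub.nil (Δ : List (Tm S)) (σ : ℕ → Tm S) : TSub P C Δ σ [] :=
  fun _ _ h => absurd h Lk.not_nil

theorem Ty.sub {Γ Δ : List (Tm S)} {M T : Tm S} (h : Ty P C Γ M T) {σ : ℕ → Tm S}
    (e : TSub P C Δ σ Γ) : Ty P C Δ (sub σ M) (sub σ T) := by
  induction h generalizing Δ σ with
  | ax h => exact .ax h
  | var h => exact e _ _ h
  | cst h h' _ => rw [h'.closed.sub_closed]; exact .cst h h'
  | atom h h' => exact .atom h h'
  | pi _ _ r ih1 ih2 => exact .pi (ih1 e) (ih2 (e.up _)) r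
  | lam _ _ r _ ih1 ih2 ih3 => exact .lam (ih1 e) (ih2 (e.up _)) r (ih3 (e.up _))
  | app _ _ ih1 ih2 => rw [sub_inst']; exact .app (ih1 e) (ih2 e)
  | mem _ _ ih1 ih2 => exact .mem (ih1 e) (ih2 e)
  | conv _ _ c ih1 ih2 => exact .conv (ih1 e) (ih2 e) (c.sub _)

theorem Ty.inst {Γ : List (Tm S)} {A M T N : Tm S} (h : Ty P C (A :: Γ) M T)
    (hN : Ty P C Γ N A) : Ty P C Γ (inst N M) (inst N T) :=
  h.sub ((TSub.id Γ).cons (by simpa using hN))

/-- A closed typing holds in every context. -/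
theorem Ty.of_nil {M T : Tm S} (h : Ty P C [] M T) (Γ : List (Tm S)) : Ty P C Γ M T := by
  have := h.sub (TSub.nil Γ Tm.var)
  simpa using this

theorem Ok.lk {Γ : List (Tm S)} (h : Ok P C Γ) {i : ℕ} {A : Tm S} (hl : Lk Γ i A) :
    ∃ s, Ty P C Γ A (sort s) := by
  induction hl with
  | zero A Γ => cases h with
    | cons _ h => exact ⟨_, h.weak _⟩
  | succ B _ ih => cases h with
    | cons h _ => obtain ⟨s, hs⟩ := ih h; exact ⟨s, hs.weak _⟩

theorem Ok.tail {Γ : List (Tm S)} {A : Tm S} (h : Ok P C (A :: Γ)) : Ok P C Γ := by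
  cases h; assumption

theorem Ok.head {Γ : List (Tm S)} {A : Tm S} (h : Ok P C (A :: Γ)) :
    ∃ s, Ty P C Γ A (sort s) := by
  cases h with
  | cons _ h => exact ⟨_, h⟩

/-! ### Generation -/

theorem Ty.gen_sort {Γ : List (Tm S)} {s : S} {T : Tm S} (h : Ty P C Γ (sort s) T) :
    ∃ t, P.ax s t ∧ Conv T (sort t) := by
  generalize e : Tm.sort s = M at h
  induction h with
  | ax h => cases e; exact ⟨_, h, .rfl⟩
  | conv _ _ c ih _ => obtain ⟨t, a, b⟩ := ih e; exact ⟨t, a, c.symm.trans b⟩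
  | _ => cases e

theorem Ty.gen_var {Γ : List (Tm S)} {i : ℕ} {T : Tm S} (h : Ty P C Γ (Tm.var i) T) :
    ∃ A, Lk Γ i A ∧ Conv T A := by
  generalize e : Tm.var i = M at h
  induction h with
  | var h => cases e; exact ⟨_, h, .rfl⟩
  | conv _ _ c ih _ => obtain ⟨t, a, b⟩ := ih e; exact ⟨t, a, c.symm.trans b⟩
  | _ => cases e

theorem Ty.gen_cst {Γ : List (Tm S)} {n A T : Tm S} (h : Ty P C Γ (Tm.cst n A) T) :
    Tm.cst n A ∈ C ∧ Conv T A ∧
      ((∃ s, Ty P C [] A (sort s)) ∨ ∃ s, A = sort s ∧ P.atom s) := by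
  generalize e : Tm.cst n A = M at h
  induction h with
  | cst h h' _ => cases e; exact ⟨h, .rfl, .inl ⟨_, h'⟩⟩
  | atom h h' => cases e; exact ⟨h, .rfl, .inr ⟨_, rfl, h'⟩⟩
  | conv _ _ c ih _ => obtain ⟨a, b, d⟩ := ih e; exact ⟨a, c.symm.trans b, d⟩
  | _ => cases e

theorem Ty.gen_pi {Γ : List (Tm S)} {A B T : Tm S} (h : Ty P C Γ (Tm.pi A B) T) :
    ∃ s1 s2 s3, P.rule s1 s2 s3 ∧ Ty P C Γ A (sort s1) ∧ Ty P C (A :: Γ) B (sort s2) ∧
      Conv T (sort s3) := by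
  generalize e : Tm.pi A B = M at h
  induction h with
  | pi h1 h2 r _ _ => cases e; exact ⟨_, _, _, r, h1, h2, .rfl⟩
  | conv _ _ c ih _ =>
    obtain ⟨s1, s2, s3, r, a, b, d⟩ := ih e; exact ⟨s1, s2, s3, r, a, b, c.symm.trans d⟩
  | _ => cases e

theorem Ty.gen_pi_sort {Γ : List (Tm S)} {A B : Tm S} {s : S}
    (h : Ty P C Γ (Tm.pi A B) (sort s)) :
    ∃ s1 s2, P.rule s1 s2 s ∧ Ty P C Γ A (sort s1) ∧ Ty P C (A :: Γ) B (sort s2) := by
  obtain ⟨s1, s2, s3, r, a, b, d⟩ := h.gen_pi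
  cases d.sort_inj
  exact ⟨s1, s2, r, a, b⟩

theorem Ty.gen_lam {Γ : List (Tm S)} {A M T : Tm S} (h : Ty P C Γ (Tm.lam A M) T) :
    ∃ B s1 s2 s3, P.rule s1 s2 s3 ∧ Ty P C Γ A (sort s1) ∧ Ty P C (A :: Γ) B (sort s2) ∧
      Ty P C (A :: Γ) M B ∧ Conv T (Tm.pi A B) := by
  generalize e : Tm.lam A M = X at h
  induction h with
  | lam h1 h2 r h3 _ _ _ => cases e; exact ⟨_, _, _, _, r, h1, h2, h3, .rfl⟩
  | conv _ _ c ih _ =>
    obtain ⟨B, s1, s2, s3, r, a, b, d, f⟩ := ih e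
    exact ⟨B, s1, s2, s3, r, a, b, d, c.symm.trans f⟩
  | _ => cases e

theorem Ty.gen_app {Γ : List (Tm S)} {F N T : Tm S} (h : Ty P C Γ (Tm.app F N) T) :
    ∃ A B, Ty P C Γ F (Tm.pi A B) ∧ Ty P C Γ N A ∧ Conv T (Tm.inst N B) := by
  generalize e : Tm.app F N = X at h
  induction h with
  | app h1 h2 _ _ => cases e; exact ⟨_, _, h1, h2, .rfl⟩
  | conv _ _ c ih _ =>
    obtain ⟨A, B, a, b, f⟩ := ih e
    exact ⟨A, B, a, b, c.symm.trans f⟩
  | _ => cases e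

theorem Ty.gen_mem {Γ : List (Tm S)} {M Q T : Tm S} (h : Ty P C Γ (Tm.mem M Q) T) :
    Ty P C Γ M T ∧ ∃ B, Ty P C Γ Q B := by
  generalize e : Tm.mem M Q = X at h
  induction h with
  | mem h1 h2 _ _ => cases e; exact ⟨h1, _, h2⟩
  | conv _ h2 c ih _ =>
    obtain ⟨a, b⟩ := ih e
    exact ⟨.conv a h2 c, b⟩
  | _ => cases e

/-- Correctness of types. -/
theorem Ty.type_ok {Γ : List (Tm S)} {M T : Tm S} (h : Ty P C Γ M T) (hΓ : Ok P C Γ) :
    (∃ s, T = sort s) ∨ ∃ s, Ty P C Γ T (sort s) := by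
  induction h with
  | ax => exact .inl ⟨_, rfl⟩
  | var h => exact .inr (hΓ.lk h)
  | cst _ h _ => exact .inr ⟨_, h.of_nil _⟩
  | atom => exact .inl ⟨_, rfl⟩
  | pi => exact .inl ⟨_, rfl⟩
  | lam h1 h2 r _ _ _ _ => exact .inr ⟨_, .pi h1 h2 r⟩
  | app _ h2 ih1 _ =>
    rcases ih1 hΓ with ⟨s, e⟩ | ⟨s, h⟩
    · cases e
    · obtain ⟨s1, s2, _, _, hB⟩ := h.gen_pi_sort
      exact .inr ⟨s2, hB.inst h2⟩
  | mem _ _ ih1 _ => exact ih1 hΓ
  | conv _ h _ _ _ => exact .inr ⟨_, h⟩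

theorem Ty.pi_type_ok {Γ : List (Tm S)} {F A B : Tm S} (h : Ty P C Γ F (Tm.pi A B))
    (hΓ : Ok P C Γ) : ∃ s1 s2 s3, P.rule s1 s2 s3 ∧ Ty P C Γ A (sort s1) ∧
      Ty P C (A :: Γ) B (sort s2) := by
  rcases h.type_ok hΓ with ⟨s, e⟩ | ⟨s, h⟩
  · cases e
  · obtain ⟨s1, s2, r, a, b⟩ := h.gen_pi_sort
    exact ⟨s1, s2, s, r, a, b⟩

/-- Conversion of the last declared type. -/
theorem Ty.ctx_conv {Γ : List (Tm S)} {A A' M T : Tm S} {s : S} (h : Ty P C (A :: Γ) M T)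
    (hA : Ty P C Γ A (sort s)) (c : Conv A' A) : Ty P C (A' :: Γ) M T := by
  have e : TSub P C (A' :: Γ) Tm.var (A :: Γ) := by
    intro i B hB
    rw [sub_id]
    cases hB with
    | zero => exact .conv (.var (.zero _ _)) (hA.weak _) c.lift
    | succ _ hB => exact .var (.succ _ hB)
  simpa using h.sub e

/-- Subject reduction. -/
theorem Ty.step {Γ : List (Tm S)} {M T M' : Tm S} (h : Ty P C Γ M T) (hΓ : Ok P C Γ)
    (hs : Step M M') : Ty P C Γ M' T := by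
  induction h generalizing M' with
  | ax => cases hs
  | var => cases hs
  | cst => cases hs
  | atom => cases hs
  | pi h1 h2 r ih1 ih2 =>
    cases hs with
    | piL _ hs => exact .pi (ih1 hΓ hs) (h2.ctx_conv h1 hs.conv.symm) r
    | piR _ hs => exact .pi h1 (ih2 (.cons hΓ h1) hs) r
  | lam h1 h2 r h3 ih1 _ ih3 =>
    cases hs with
    | lamL _ hs =>
      exact .conv (.lam (ih1 hΓ hs) (h2.ctx_conv h1 hs.conv.symm) r
        (h3.ctx_conv h1 hs.conv.symm)) (.pi h1 h2 r) (Conv.pi hs.conv.symm .rfl)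
    | lamR _ hs => exact .lam h1 h2 r (ih3 (.cons hΓ h1) hs)
  | app h1 h2 ih1 ih2 =>
    obtain ⟨s1, s2, s3, r, hA, hB⟩ := h1.pi_type_ok hΓ
    cases hs with
    | beta A0 M0 =>
      obtain ⟨B0, t1, t2, t3, r', a, b, d, f⟩ := h1.gen_lam
      obtain ⟨c1, c2⟩ := f.pi_inj
      exact .conv (d.inst (.conv h2 a c1)) (hB.inst h2) (Conv.inst .rfl c2.symm)
    | appL _ hs => exact .app (ih1 hΓ hs) h2
    | appR _ hs =>
      exact .conv (.app h1 (ih2 hΓ hs)) (hB.inst h2) (Conv.inst hs.conv.symm .rfl)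
  | mem h1 h2 ih1 ih2 =>
    cases hs with
    | eps => exact h1
    | memL _ hs => exact .mem (ih1 hΓ hs) h2
    | memR _ hs => exact .mem h1 (ih2 hΓ hs)
  | conv _ h2 c ih1 _ => exact .conv (ih1 hΓ hs) h2 c

theorem Ty.red {Γ : List (Tm S)} {M T M' : Tm S} (h : Ty P C Γ M T) (hΓ : Ok P C Γ)
    (hs : Red M M') : Ty P C Γ M' T := by
  induction hs with
  | refl => exact h
  | tail _ hs ih => exact ih.step hΓ hs

/-- Reduction of the type. -/
theorem Ty.red_type {Γ : List (Tm S)} {M T T' : Tm S} (h : Ty P C Γ M T) (hΓ : Ok P C Γ)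
    (hs : Red T T') : Ty P C Γ M T' := by
  rcases h.type_ok hΓ with ⟨s, rfl⟩ | ⟨s, hT⟩
  · rw [hs.sort_inv]; exact h
  · exact .conv h (hT.red hΓ hs) hs.conv

theorem Ty.conv_sort {Γ : List (Tm S)} {M T : Tm S} {s : S} (h : Ty P C Γ M T) (hΓ : Ok P C Γ)
    (c : Conv T (sort s)) : Ty P C Γ M (sort s) :=
  h.red_type hΓ (c.red_normal (normal_sort s))

/-- Change the type along a conversion to a type which is itself the type of some term. -/
theorem Ty.conv_of_ty {Γ : List (Tm S)} {M T N T' : Tm S} (h : Ty P C Γ M T) (hΓ : Ok P C Γ)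
    (h' : Ty P C Γ N T') (c : Conv T T') : Ty P C Γ M T' := by
  rcases h'.type_ok hΓ with ⟨s, rfl⟩ | ⟨s, hT⟩
  · exact h.conv_sort hΓ c
  · exact .conv h hT c

theorem AllWN.type (hW : AllWN P) {Γ : List (Tm S)} {M T : Tm S} (hΓ : Ok P Set.univ Γ)
    (h : Ty P Set.univ Γ M T) : WN T := by
  rcases h.type_ok hΓ with ⟨s, rfl⟩ | ⟨s, hT⟩
  · exact (normal_sort s).wn
  · exact hW _ _ _ hΓ hT

/-! ### Profiles -/

theorem Ty.prof {Γ : List (Tm S)} {T : Tm S} {s : S} (h : Ty P C Γ T (sort s)) : Prof P C Γ T s :=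
  ⟨T, .rfl, h⟩

theorem Prof.conv {Γ : List (Tm S)} {T T' : Tm S} {s : S} (h : Prof P C Γ T s) (c : Conv T T') :
    Prof P C Γ T' s :=
  let ⟨X, a, b⟩ := h; ⟨X, c.symm.trans a, b⟩

theorem Prof.sub {Γ Δ : List (Tm S)} {T : Tm S} {s : S} (h : Prof P C Γ T s) {σ : ℕ → Tm S}
    (e : TSub P C Δ σ Γ) : Prof P C Δ (sub σ T) s :=
  let ⟨_, a, b⟩ := h; ⟨_, a.sub σ, b.sub e⟩

theorem Prof.weak {Γ : List (Tm S)} {T : Tm S} {s : S} (h : Prof P C Γ T s) (B : Tm S) :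
    Prof P C (B :: Γ) (lift T) s :=
  let ⟨_, a, b⟩ := h; ⟨_, a.lift, b.weak B⟩

theorem Prof.normal {Γ : List (Tm S)} {T : Tm S} {s : S} (h : Prof P C Γ T s) (hΓ : Ok P C Γ)
    (hn : Normal T) : Ty P C Γ T (sort s) :=
  let ⟨_, a, b⟩ := h; b.red hΓ (a.symm.red_normal hn)

theorem Prof.sort_inv {Γ : List (Tm S)} {T : Tm S} {s k : S} (h : Prof P C Γ T s)
    (hΓ : Ok P C Γ) (c : Conv T (sort k)) : P.ax k s := by
  obtain ⟨t, a, b⟩ := ((h.conv c).normal hΓ (normal_sort k)).gen_sort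
  cases b.sort_inj
  exact a

theorem Prof.pi_inv {Γ : List (Tm S)} {T A B : Tm S} {s3 : S} (h : Prof P C Γ T s3)
    (hΓ : Ok P C Γ) (c : Conv T (Tm.pi A B)) :
    ∃ A' B' s1 s2, Red A A' ∧ Red B B' ∧ P.rule s1 s2 s3 ∧ Ty P C Γ A' (sort s1) ∧
      Ty P C (A' :: Γ) B' (sort s2) := by
  obtain ⟨X, a, b⟩ := h
  obtain ⟨L, d, e⟩ := a.symm.trans c
  obtain ⟨A', B', rfl, f, g⟩ := e.pi_inv
  obtain ⟨s1, s2, r, h1, h2⟩ := (b.red hΓ d).gen_pi_sort
  exact ⟨A', B', s1, s2, f, g, r, h1, h2⟩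

/-- Profile of a product, in the form used for instances of the codomain. -/
theorem Prof.pi_inst {Γ : List (Tm S)} {T A B : Tm S} {s3 : S} (h : Prof P C Γ T s3)
    (hΓ : Ok P C Γ) (c : Conv T (Tm.pi A B)) :
    ∃ s1 s2, P.rule s1 s2 s3 ∧ Prof P C Γ A s1 ∧
      ∀ N, Ty P C Γ N A → Prof P C Γ (Tm.inst N B) s2 := by
  obtain ⟨A', B', s1, s2, f, g, r, h1, h2⟩ := h.pi_inv hΓ c
  refine ⟨s1, s2, r, ⟨A', f.conv, h1⟩, fun N hN => ⟨Tm.inst N B', Conv.inst .rfl g.conv, ?_⟩⟩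
  exact h2.inst (hN.red_type hΓ f)

/-! ### Two types of the same term -/

/-- Two types that differ at most in their final sort. -/
inductive TRel : Tm S → Tm S → Prop
  | conv {A B : Tm S} : Conv A B → TRel A B
  | sorts {A B : Tm S} {s t : S} : Conv A (sort s) → Conv B (sort t) → TRel A B
  | pi {T T' A B B' : Tm S} : Conv T (Tm.pi A B) → Conv T' (Tm.pi A B') → TRel B B' → TRel T T'

theorem TRel.conv_left {A A' B : Tm S} (h : TRel A B) (c : Conv A' A) : TRel A' B := by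
  cases h with
  | conv d => exact .conv (c.trans d)
  | sorts d e => exact .sorts (c.trans d) e
  | pi d e r => exact .pi (c.trans d) e r

theorem TRel.conv_right {A B B' : Tm S} (h : TRel A B) (c : Conv B' B) : TRel A B' := by
  cases h with
  | conv d => exact .conv (d.trans c.symm)
  | sorts d e => exact .sorts d (c.trans e)
  | pi d e r => exact .pi d (c.trans e) r

theorem TRel.sub {A B : Tm S} (h : TRel A B) (σ : ℕ → Tm S) : TRel (sub σ A) (sub σ B) := by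
  induction h generalizing σ with
  | conv d => exact .conv (d.sub σ)
  | sorts d e => exact .sorts (d.sub σ) (e.sub σ)
  | pi d e _ ih => exact .pi (d.sub σ) (e.sub σ) (ih _)

theorem TRel.pi_inv {A B A' B' : Tm S} (h : TRel (Tm.pi A B) (Tm.pi A' B')) :
    Conv A A' ∧ TRel B B' := by
  cases h with
  | conv d => exact ⟨d.pi_inj.1, .conv d.pi_inj.2⟩
  | sorts d _ => exact absurd d.symm Conv.not_sort_pi
  | pi d e r =>
    exact ⟨d.pi_inj.1.trans e.pi_inj.1.symm, (r.conv_left d.pi_inj.2).conv_right e.pi_inj.2⟩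

theorem Ty.trel {Γ : List (Tm S)} {M T T' : Tm S} (h : Ty P C Γ M T) (h' : Ty P C Γ M T') :
    TRel T T' := by
  induction M generalizing Γ T T' with
  | var i =>
    obtain ⟨A, a, b⟩ := h.gen_var
    obtain ⟨A', a', b'⟩ := h'.gen_var
    cases a.unique a'
    exact .conv (b.trans b'.symm)
  | sort s =>
    obtain ⟨t, -, b⟩ := h.gen_sort
    obtain ⟨t', -, b'⟩ := h'.gen_sort
    exact .sorts b b'
  | cst n A _ _ => exact .conv (h.gen_cst.2.1.trans h'.gen_cst.2.1.symm)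
  | app F N ihF _ =>
    obtain ⟨A, B, a, -, c⟩ := h.gen_app
    obtain ⟨A', B', a', -, c'⟩ := h'.gen_app
    exact (((ihF a a').pi_inv.2.sub _).conv_left c).conv_right c'
  | lam A M _ ihM =>
    obtain ⟨B, s1, s2, s3, -, -, -, d, f⟩ := h.gen_lam
    obtain ⟨B', s1, s2, s3, -, -, -, d', f'⟩ := h'.gen_lam
    exact .pi f f' (ihM d d')
  | pi A B _ _ =>
    obtain ⟨_, _, _, -, -, -, b⟩ := h.gen_pi
    obtain ⟨_, _, _, -, -, -, b'⟩ := h'.gen_pi
    exact .sorts b b'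
  | mem M Q ihM _ => exact ihM h.gen_mem.1 h'.gen_mem.1

/-- Pointwise convertible contexts. -/
def CtxConv (Γ Δ : List (Tm S)) : Prop := List.Forall₂ Conv Γ Δ

theorem CtxConv.refl (Γ : List (Tm S)) : CtxConv Γ Γ := List.forall₂_same.2 fun _ _ => .rfl

theorem CtxConv.symm {Γ Δ : List (Tm S)} (h : CtxConv Γ Δ) : CtxConv Δ Γ := by
  induction h with
  | nil => exact .nil
  | cons a _ ih => exact .cons a.symm ih

theorem CtxConv.trans {Γ Δ Θ : List (Tm S)} (h : CtxConv Γ Δ) (h' : CtxConv Δ Θ) :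
    CtxConv Γ Θ := by
  induction h generalizing Θ with
  | nil => cases h'; exact .nil
  | cons a _ ih => cases h' with
    | cons b h' => exact .cons (a.trans b) (ih h')

theorem CtxConv.lk {Γ Δ : List (Tm S)} (h : CtxConv Γ Δ) {i : ℕ} {A B : Tm S} (a : Lk Γ i A)
    (b : Lk Δ i B) : Conv A B := by
  induction a generalizing Δ B with
  | zero => cases h with
    | cons c _ => cases b; exact c.lift
  | succ _ _ ih => cases h with
    | cons _ h => cases b with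
      | succ _ b => exact (ih h b).lift

/-- Neutral terms have a unique type up to conversion, even across convertible contexts and
different sets of constants. -/
theorem Neutral.type_unique {C' : Set (Tm S)} {Γ Δ : List (Tm S)} {M T T' : Tm S}
    (hn : Neutral M) (hc : CtxConv Γ Δ) (h : Ty P C Γ M T) (h' : Ty P C' Δ M T') :
    Conv T T' := by
  induction hn generalizing T T' with
  | var i =>
    obtain ⟨A, a, b⟩ := h.gen_var
    obtain ⟨A', a', b'⟩ := h'.gen_var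
    exact b.trans ((hc.lk a a').trans b'.symm)
  | cst n A => exact h.gen_cst.2.1.trans h'.gen_cst.2.1.symm
  | app N _ ih =>
    obtain ⟨A, B, a, -, c⟩ := h.gen_app
    obtain ⟨A', B', a', -, c'⟩ := h'.gen_app
    exact c.trans ((Conv.inst .rfl (ih a a').pi_inj.2).trans c'.symm)

/-- Shape of typable normal forms. -/
theorem Ty.normal_cases {Γ : List (Tm S)} {M T : Tm S} (h : Ty P C Γ M T) (hn : Normal M) :
    Neutral M ∨ (∃ s, M = sort s) ∨ (∃ A B, M = Tm.pi A B) ∨ ∃ A B, M = Tm.lam A B := by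
  induction M generalizing T with
  | var i => exact .inl (.var i)
  | sort s => exact .inr (.inl ⟨s, rfl⟩)
  | cst n A => exact .inl (.cst n A)
  | app F N ihF _ =>
    obtain ⟨A, B, a, -, -⟩ := h.gen_app
    obtain ⟨h1, -, h3⟩ := Normal.app_iff.1 hn
    rcases ihF a h1 with h | ⟨s, rfl⟩ | ⟨A', B', rfl⟩ | ⟨A', B', rfl⟩
    · exact .inl (.app _ h)
    · obtain ⟨t, -, c⟩ := a.gen_sort; exact absurd c.symm Conv.not_sort_pi
    · obtain ⟨_, _, _, -, -, -, c⟩ := a.gen_pi; exact absurd c.symm Conv.not_sort_pi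
    · exact absurd rfl (h3 _ _)
  | lam A M => exact .inr (.inr (.inr ⟨_, _, rfl⟩))
  | pi A B => exact .inr (.inr (.inl ⟨_, _, rfl⟩))
  | mem M Q => exact absurd hn Normal.not_mem

/-- Shape of normal types. -/
theorem Ty.normal_type_cases {Γ : List (Tm S)} {M : Tm S} {s : S} (h : Ty P C Γ M (sort s))
    (hn : Normal M) : Neutral M ∨ (∃ s, M = sort s) ∨ ∃ A B, M = Tm.pi A B := by
  rcases h.normal_cases hn with h1 | h1 | h1 | ⟨A, B, rfl⟩
  · exact .inl h1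
  · exact .inr (.inl h1)
  · exact .inr (.inr h1)
  · obtain ⟨_, _, _, _, -, -, -, -, c⟩ := h.gen_lam
    exact absurd c Conv.not_sort_pi

end Crest.Agent.R298
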